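/-
R290/GameBasic: elementary facts on the bijective pebble game.
Skeleton by helper86; keep the statements of the theorems unchanged (add any helper lemmas you like).
-/
import Crest.Agent.R290.Defs

set_option autoImplicit false

namespace Crest.Agent.R290

variable {V V' V'' : Type} {K K' : ℕ} {G : V → V → Prop} {H : V' → V' → Prop} {H' : V'' → V'' → Prop}

/-- Swap the pairs (`W' l := W (l.map Prod.swap)`; the new bijection is `π.symm`). -/
theorem Win.symm {W : List (V × V') → Prop} (h : Win K G H W) :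
    Win K H G (fun l => W (l.map Prod.swap)) := by
  refine ⟨by simpa using h.nil, ?_, ?_, ?_, ?_⟩
  · intro l l' hl hs
    exact h.sub hl (List.map_subset _ hs)
  · intro l p q hl hp hq
    exact (h.eq_iff hl (List.mem_map_of_mem (f := Prod.swap) hp)
      (List.mem_map_of_mem (f := Prod.swap) hq)).symm
  · intro l p q hl hp hq
    exact (h.adj hl (List.mem_map_of_mem (f := Prod.swap) hp)
      (List.mem_map_of_mem (f := Prod.swap) hq)).symm
  · intro l hl hlen
    obtain ⟨π, hπ⟩ := h.ext hl (by simpa using hlen)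
    refine ⟨π.symm, fun z => ?_⟩
    simpa using hπ (π.symm z)

theorem Game.symm (h : Game K G H) : Game K H G := by
  obtain ⟨W, hW⟩ := h
  exact ⟨_, hW.symm⟩

theorem exists_lift_sub {α β : Type} (f : α → β) (T : List α) :
    ∀ l' : List β, l' ⊆ T.map f → ∃ T' : List α, l' = T'.map f ∧ T' ⊆ T := by
  intro l'
  induction l' with
  | nil => exact fun _ => ⟨[], rfl, by simp⟩
  | cons b l' ih =>
    intro hs
    obtain ⟨T', rfl, hsub⟩ := ih (fun x hx => hs (List.mem_cons_of_mem _ hx))
    obtain ⟨a, ha, rfl⟩ := List.mem_map.1 (hs List.mem_cons_self)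
    exact ⟨a :: T', rfl, List.cons_subset.2 ⟨ha, hsub⟩⟩

/-- Composition through lists of triples: for `l' ⊆ l` pick for every element of `l'` a triple of `T`
(induction on `l'`), bijections compose. -/
theorem Win.trans {W : List (V × V') → Prop} {W' : List (V' × V'') → Prop} (h : Win K G H W)
    (h' : Win K H H' W') :
    Win K G H' (fun l => ∃ T : List (V × V' × V''), l = T.map (fun x => (x.1, x.2.2)) ∧
      W (T.map fun x => (x.1, x.2.1)) ∧ W' (T.map fun x => x.2)) := by
  refine ⟨⟨[], rfl, by simpa using h.nil, by simpa using h'.nil⟩, ?_, ?_, ?_, ?_⟩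
  · rintro l l' ⟨T, rfl, h1, h2⟩ hs
    obtain ⟨T', hT', hsub⟩ := exists_lift_sub (fun x : V × V' × V'' => (x.1, x.2.2)) T l' hs
    exact ⟨T', hT', h.sub h1 (List.map_subset _ hsub), h'.sub h2 (List.map_subset _ hsub)⟩
  · rintro l p q ⟨T, rfl, h1, h2⟩ hp hq
    obtain ⟨x, hx, rfl⟩ := List.mem_map.1 hp
    obtain ⟨y, hy, rfl⟩ := List.mem_map.1 hq
    exact (h.eq_iff h1 (List.mem_map_of_mem (f := fun x : V × V' × V'' => (x.1, x.2.1)) hx)
      (List.mem_map_of_mem (f := fun x : V × V' × V'' => (x.1, x.2.1)) hy)).trans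
      (h'.eq_iff h2 (List.mem_map_of_mem (f := fun x : V × V' × V'' => x.2) hx)
        (List.mem_map_of_mem (f := fun x : V × V' × V'' => x.2) hy))
  · rintro l p q ⟨T, rfl, h1, h2⟩ hp hq
    obtain ⟨x, hx, rfl⟩ := List.mem_map.1 hp
    obtain ⟨y, hy, rfl⟩ := List.mem_map.1 hq
    exact (h.adj h1 (List.mem_map_of_mem (f := fun x : V × V' × V'' => (x.1, x.2.1)) hx)
      (List.mem_map_of_mem (f := fun x : V × V' × V'' => (x.1, x.2.1)) hy)).trans
      (h'.adj h2 (List.mem_map_of_mem (f := fun x : V × V' × V'' => x.2) hx)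
        (List.mem_map_of_mem (f := fun x : V × V' × V'' => x.2) hy))
  · rintro l ⟨T, rfl, h1, h2⟩ hlen
    obtain ⟨π, hπ⟩ := h.ext h1 (by simpa using hlen)
    obtain ⟨π', hπ'⟩ := h'.ext h2 (by simpa using hlen)
    refine ⟨π.trans π', fun z => ⟨(z, π z, π' (π z)) :: T, by simp, ?_, ?_⟩⟩
    · simpa using hπ z
    · simpa using hπ' (π z)

theorem Game.trans (h : Game K G H) (h' : Game K H H') : Game K G H' := by
  obtain ⟨W, hW⟩ := h
  obtain ⟨W', hW'⟩ := h'
  exact ⟨_, hW.trans hW'⟩

theorem Win.mono {W : List (V × V') → Prop} (h : Win K G H W) (hK : K' ≤ K) : Win K' G H W := by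
  exact ⟨h.nil, h.sub, h.eq_iff, h.adj, fun hl hlen => h.ext hl (lt_of_lt_of_le hlen hK)⟩

theorem Game.mono (h : Game K G H) (hK : K' ≤ K) : Game K' G H := by
  obtain ⟨W, hW⟩ := h
  exact ⟨W, hW.mono hK⟩

/-- `W l := ∀ p ∈ l, p.2 = e p.1`. -/
theorem Game.of_iso (K : ℕ) (e : V ≃ V') (he : ∀ a b, H (e a) (e b) ↔ G a b) : Game K G H := by
  refine ⟨fun l => ∀ p ∈ l, p.2 = e p.1, by simp, ?_, ?_, ?_, ?_⟩
  · intro l l' hl hs p hp
    exact hl p (hs hp)
  · intro l p q hl hp hq
    rw [hl p hp, hl q hq]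
    exact e.injective.eq_iff.symm
  · intro l p q hl hp hq
    rw [hl p hp, hl q hq]
    exact (he _ _).symm
  · intro l hl _
    refine ⟨e, fun z p hp => ?_⟩
    rcases List.mem_cons.1 hp with rfl | hp
    · rfl
    · exact hl p hp

theorem Game.refl (K : ℕ) (G : V → V → Prop) : Game K G G :=
  Game.of_iso K (Equiv.refl V) fun _ _ => Iff.rfl

/-- Transport along isomorphisms on both sides. -/
theorem game_congr {U U' : Type} {G₁ : U → U → Prop} {H₁ : U' → U' → Prop} (e : U ≃ V) (e' : U' ≃ V')
    (he : ∀ a b, G (e a) (e b) ↔ G₁ a b) (he' : ∀ a b, H (e' a) (e' b) ↔ H₁ a b) :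
    Game K G₁ H₁ ↔ Game K G H := by
  have g1 : Game K G₁ G := Game.of_iso K e he
  have g2 : Game K H₁ H := Game.of_iso K e' he'
  exact ⟨fun h => (g1.symm.trans h).trans g2, fun h => (g1.trans h).trans g2.symm⟩

/-- With as many pebbles as vertices the game decides isomorphism: pebble the vertices of
`Finset.univ.toList` one after the other (induction: for every list `L` of length `≤ K` there is
`l` with `W l`, `l.map Prod.fst = L`); this gives an injective adjacency-preserving map, bijective since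
the empty position gives `V ≃ V'`. -/
theorem Game.iso_of_card [Fintype V] (h : Game K G H) (h1 : 1 ≤ K) (hK : Fintype.card V ≤ K) :
    ∃ e : V ≃ V', ∀ a b, H (e a) (e b) ↔ G a b := by
  classical
  obtain ⟨W, hW⟩ := h
  have key : ∀ L : List V, L.length ≤ K → ∃ l, W l ∧ l.map Prod.fst = L := by
    intro L
    induction L with
    | nil => exact fun _ => ⟨[], hW.nil, rfl⟩
    | cons a L ih =>
      intro hL
      have hL' : L.length < K := by simpa using hL
      obtain ⟨l, hl, rfl⟩ := ih hL'.le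
      obtain ⟨π, hπ⟩ := hW.ext hl (by simpa using hL')
      exact ⟨(a, π a) :: l, hπ a, rfl⟩
  obtain ⟨l, hl, hL⟩ := key (Finset.univ : Finset V).toList (by simpa using hK)
  have hex : ∀ v : V, ∃ v', (v, v') ∈ l := by
    intro v
    have : v ∈ l.map Prod.fst := by rw [hL]; simp
    obtain ⟨p, hp, rfl⟩ := List.mem_map.1 this
    exact ⟨p.2, hp⟩
  choose f hf using hex
  have hinj : Function.Injective f := fun a b hab => (hW.eq_iff hl (hf a) (hf b)).2 hab
  obtain ⟨π, -⟩ := hW.ext hW.nil (by simp only [List.length_nil]; omega)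
  have hbij : Function.Bijective f := ⟨hinj, (hinj.surjective_of_finite π)⟩
  exact ⟨Equiv.ofBijective f hbij, fun a b => (hW.adj hl (hf a) (hf b)).symm⟩

/-- A bijection on `k`-tuples along winning positions (induction on `k`, `Fin.consEquiv`-style:
`(z, u) ↦ (π_u z, Φ u)`, an `Equiv.prodShear` / `Equiv.sigmaCongrRight`). -/
theorem Win.exists_tuple_equiv {W : List (V × V') → Prop} (h : Win K G H W) {k : ℕ} (hk : k ≤ K) :
    ∃ Φ : (Fin k → V) ≃ (Fin k → V'), ∀ u, W (List.ofFn fun i => (u i, Φ u i)) := by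
  induction k with
  | zero => exact ⟨Equiv.ofUnique _ _, fun u => by simpa using h.nil⟩
  | succ k ih =>
    obtain ⟨Φ, hΦ⟩ := ih (Nat.le_of_succ_le hk)
    have hex : ∀ u : Fin k → V, ∃ π : V ≃ V', ∀ z,
        W ((z, π z) :: List.ofFn fun i => (u i, Φ u i)) :=
      fun u => h.ext (hΦ u) (by simpa using hk)
    choose π hπ using hex
    refine ⟨((Fin.consEquiv fun _ : Fin (k + 1) => V).symm.trans
      ((Equiv.prodComm _ _).trans ((Φ.prodShear π).trans (Equiv.prodComm _ _)))).trans
      (Fin.consEquiv fun _ : Fin (k + 1) => V'), fun u => ?_⟩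
    have := hπ (Fin.tail u) (u 0)
    rw [List.ofFn_succ]
    simpa [Fin.consEquiv, Fin.tail] using this

/-- One more pebble next to a pebbled pair: neighbours go to neighbours. -/
theorem Win.nbr {W : List (V × V') → Prop} (h : Win K G H W) (hK : 2 ≤ K) {u : V} {u' : V'}
    (hu : W [(u, u')]) : ∃ π : V ≃ V', π u = u' ∧ (∀ z, W [(z, π z), (u, u')]) ∧ (∀ z, W [(z, π z)]) ∧
      (∀ z, G u z ↔ H u' (π z)) ∧ ∀ z, G z u ↔ H (π z) u' := by
  obtain ⟨π, hπ⟩ := h.ext hu (by simp only [List.length_singleton]; omega)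
  refine ⟨π, ?_, hπ, fun z => h.sub (hπ z) (by simp), fun z => ?_, fun z => ?_⟩
  · exact (h.eq_iff (p := (u, π u)) (q := (u, u')) (hπ u) (by simp) (by simp)).1 rfl
  · exact h.adj (p := (u, u')) (q := (z, π z)) (hπ z) (by simp) (by simp)
  · exact h.adj (p := (z, π z)) (q := (u, u')) (hπ z) (by simp) (by simp)

/-- Restriction to induced subgraphs on sets respected by the winning family:
`W' l := W (l.map (Prod.map Subtype.val Subtype.val))`, bijections restrict by `Equiv.subtypeEquiv`. -/
theorem Win.restrict {W : List (V × V') → Prop} (h : Win K G H W) (p : V → Prop) (p' : V' → Prop)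
    (hp : ∀ u u', W [(u, u')] → (p u ↔ p' u')) :
    Game K (fun a b : {a // p a} => G a.1 b.1) (fun a b : {a // p' a} => H a.1 b.1) := by
  refine ⟨fun l => W (l.map (Prod.map Subtype.val Subtype.val)), by simpa using h.nil, ?_, ?_, ?_, ?_⟩
  · intro l l' hl hs
    exact h.sub hl (List.map_subset _ hs)
  · intro l a b hl ha hb
    have := h.eq_iff hl (List.mem_map_of_mem (f := Prod.map Subtype.val Subtype.val) ha)
      (List.mem_map_of_mem (f := Prod.map Subtype.val Subtype.val) hb)
    simpa [Subtype.ext_iff] using this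
  · intro l a b hl ha hb
    exact h.adj hl (List.mem_map_of_mem (f := Prod.map Subtype.val Subtype.val) ha)
      (List.mem_map_of_mem (f := Prod.map Subtype.val Subtype.val) hb)
  · intro l hl hlen
    obtain ⟨π, hπ⟩ := h.ext hl (by simpa using hlen)
    refine ⟨π.subtypeEquiv fun z => hp z (π z) (h.sub (hπ z) (by simp)), fun z => ?_⟩
    simpa using hπ z.1

end Crest.Agent.R290
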