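/-
R290/XorBasic: elementary facts on the XOR pebble game.
Skeleton by helper86; keep the statements of the theorems unchanged (add any helper lemmas you like).
-/
import Crest.Agent.R290.Defs

set_option autoImplicit false

namespace Crest.Agent.R290

variable {E E' Y Y' : Type} {K : ℕ} {var : E → Fin 3 → Y} {b : E → ZMod 2}

theorem Solvable.xdup (h : Solvable var b) (K : ℕ) : XDup K var b := by
  obtain ⟨g, hg⟩ := h
  exact ⟨fun _ g' => g' = g, ⟨g, rfl⟩, fun h _ => h, fun h _ => h ▸ hg _,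
    fun h _ _ => ⟨g, fun _ _ _ => by rw [h], rfl⟩⟩

/-- Pebble any list of at most `K` equations. -/
theorem XWin.exists_pos {W : List E → (Y → ZMod 2) → Prop} (h : XWin K var b W) (S : List E)
    (hS : S.length ≤ K) : ∃ g, W S g := by
  induction S with
  | nil => exact h.nil
  | cons z S ih =>
    obtain ⟨g, hg⟩ := ih (by simp at hS; omega)
    obtain ⟨g', -, hg'⟩ := h.ext hg (by simp at hS; omega) z
    exact ⟨g', hg'⟩

theorem XDup.solvable [Fintype E] (h : XDup K var b) (hK : Fintype.card E ≤ K) : Solvable var b := by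
  obtain ⟨W, h⟩ := h
  obtain ⟨g, hg⟩ := h.exists_pos (Finset.univ : Finset E).toList (by simpa using hK)
  exact ⟨g, fun e => h.sat hg (by simp)⟩

/-- The right-hand side shifted by an assignment. -/
def shiftB (var : E → Fin 3 → Y) (b : E → ZMod 2) (g₀ : Y → ZMod 2) : E → ZMod 2 :=
  fun e => b e + (g₀ (var e 0) + g₀ (var e 1) + g₀ (var e 2))

theorem XDup.shift (h : XDup K var b) (g₀ : Y → ZMod 2) : XDup K var (shiftB var b g₀) := by
  obtain ⟨W, h⟩ := h
  refine ⟨fun S g => W S (g - g₀), ?_, fun hw hs => h.sub hw hs, fun {S g e} hw he => ?_,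
    fun {S g} hw hS z => ?_⟩
  · obtain ⟨g, hg⟩ := h.nil
    exact ⟨g + g₀, by simpa using hg⟩
  · have := h.sat hw he
    simp only [Sat, Pi.sub_apply, shiftB] at this ⊢
    linear_combination this
  · obtain ⟨g', h1, h2⟩ := h.ext hw hS z
    refine ⟨g' + g₀, fun e he s => ?_, by simpa using h2⟩
    have := h1 e he s
    simp only [Pi.sub_apply, Pi.add_apply] at this ⊢
    linear_combination this

theorem Solvable.of_shift {g₀ : Y → ZMod 2} (h : Solvable var (shiftB var b g₀)) : Solvable var b := by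
  obtain ⟨g, hg⟩ := h
  refine ⟨g - g₀, fun e => ?_⟩
  have := hg e
  simp only [Sat, Pi.sub_apply, shiftB] at this ⊢
  linear_combination this

section transfer
variable {var' : E' → Fin 3 → Y'} (φ : E' → E) (code : Y → Y') (hcode : Function.Injective code)
  (hvar : ∀ e s, var' e s = code (var (φ e) s))
include hcode hvar

theorem XDup.pull (h : XDup K var b) : XDup K var' (b ∘ φ) := by
  obtain ⟨W, h⟩ := h
  have key : ∀ (g : Y → ZMod 2) e s, Function.extend code g 0 (var' e s) = g (var (φ e) s) :=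
    fun g e s => by rw [hvar, hcode.extend_apply]
  refine ⟨fun S g => ∃ g₀, W (S.map φ) g₀ ∧ g = Function.extend code g₀ 0, ?_, ?_, ?_, ?_⟩
  · obtain ⟨g, hg⟩ := h.nil
    exact ⟨_, g, hg, rfl⟩
  · rintro S S' g ⟨g₀, h1, rfl⟩ hs
    exact ⟨g₀, h.sub h1 (List.map_subset _ hs), rfl⟩
  · rintro S g e ⟨g₀, h1, rfl⟩ he
    have := h.sat h1 (List.mem_map_of_mem he)
    simpa only [Sat, key, Function.comp] using this
  · rintro S g ⟨g₀, h1, rfl⟩ hS z
    obtain ⟨g', h2, h3⟩ := h.ext h1 (by simpa using hS) (φ z)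
    refine ⟨_, fun e he s => ?_, g', h3, rfl⟩
    rw [key, key]
    exact h2 _ (List.mem_map_of_mem he) s

theorem Solvable.pull (h : Solvable var b) : Solvable var' (b ∘ φ) := by
  obtain ⟨g, hg⟩ := h
  refine ⟨Function.extend code g 0, fun e => ?_⟩
  have := hg (φ e)
  simpa only [Sat, hvar, hcode.extend_apply, Function.comp] using this

omit hcode in
theorem Solvable.push (hφ : Function.Surjective φ) (h : Solvable var' (b ∘ φ)) : Solvable var b := by
  obtain ⟨g, hg⟩ := h
  refine ⟨g ∘ code, fun e => ?_⟩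
  obtain ⟨e', rfl⟩ := hφ e
  have := hg e'
  simpa only [Sat, hvar, Function.comp] using this

omit hcode in
theorem XDup.push (hφ : Function.Surjective φ) (hK : 2 ≤ K) {b' : E' → ZMod 2} (h : XDup K var' b') :
    ∃ b : E → ZMod 2, b' = b ∘ φ ∧ XDup K var b := by
  obtain ⟨W, h⟩ := h
  obtain ⟨ψ, hψ⟩ := hφ.hasRightInverse
  have hv : ∀ e s, var' (ψ e) s = code (var e s) := fun e s => by rw [hvar, hψ]
  refine ⟨b' ∘ ψ, funext fun e => ?_, fun S g => ∃ g', W (S.map ψ) g' ∧ g = g' ∘ code, ?_, ?_, ?_, ?_⟩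
  · obtain ⟨g, hg⟩ := h.exists_pos [e, ψ (φ e)] (by simpa using hK)
    have h1 := h.sat hg (e := e) (by simp)
    have h2 := h.sat hg (e := ψ (φ e)) (by simp)
    simp only [Sat, hvar, hψ (φ e)] at h1 h2
    simp only [Function.comp]
    rw [← h1, ← h2]
  · obtain ⟨g, hg⟩ := h.nil
    exact ⟨_, g, hg, rfl⟩
  · rintro S S' g ⟨g₀, h1, rfl⟩ hs
    exact ⟨g₀, h.sub h1 (List.map_subset _ hs), rfl⟩
  · rintro S g e ⟨g₀, h1, rfl⟩ he
    have := h.sat h1 (List.mem_map_of_mem he)
    simpa only [Sat, hv, Function.comp] using this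
  · rintro S g ⟨g₀, h1, rfl⟩ hS z
    obtain ⟨g', h2, h3⟩ := h.ext h1 (by simpa using hS) (ψ z)
    refine ⟨_, fun e he s => ?_, g', h3, rfl⟩
    have := h2 _ (List.mem_map_of_mem he) s
    simpa only [hv, Function.comp] using this

end transfer

end Crest.Agent.R290
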