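/-
R290/CfiBasic: the subcubic CFI graph: simplicity, degrees, connectivity, Duplicator's strategy.
Skeleton by helper86; keep the statements of the theorems unchanged (add any helper lemmas you like).
-/
import Crest.Agent.R290.GameBasic
import Crest.Agent.R290.XorBasic

set_option autoImplicit false

namespace Crest.Agent.R290

open Crest.WLRefine

variable {Y : Type} {ne : ℕ} {var : ℕ → Y} {b : ℕ → ZMod 2}

theorem cfi_symm {u w : Fin ne × Kind} : CFI ne var b u w ↔ CFI ne var b w u := Or.comm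

/-- slot numbers determine the equation and the slot. -/
theorem slot_eq_iff {e e' : Fin ne} {s s' : Fin 3} :
    3 * e.val + s.val = 3 * e'.val + s'.val ↔ e = e' ∧ s = s' := by
  rw [Fin.ext_iff, Fin.ext_iff]; omega

theorem z2_ne_iff {a a' : ZMod 2} : a ≠ a' ↔ a' = a + 1 := by
  revert a a'; decide

theorem nbr_p {e : Fin ne} {s : Fin 3} {w : Fin ne × Kind} :
    CFI ne var b (e, .p s) w ↔ w = (e, .sp s) ∨ w = (e, .q s) ∨
      ∃ s', w.2 = .sp s' ∧ 3 * w.1.val + s'.val = 3 * e.val + s.val + 1 := by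
  obtain ⟨e', κ'⟩ := w
  cases κ' <;> simp [CFI, ArcN, ArcP, Kind.slot, slot_eq_iff, eq_comm]

theorem nbr_sp {e : Fin ne} {s : Fin 3} {w : Fin ne × Kind} :
    CFI ne var b (e, .sp s) w ↔ w = (e, .p s) ∨
      ∃ s', w.2 = .p s' ∧ 3 * e.val + s.val = 3 * w.1.val + s'.val + 1 := by
  obtain ⟨e', κ'⟩ := w
  cases κ' <;> simp [CFI, ArcN, ArcP, Kind.slot, slot_eq_iff, eq_comm]

theorem nbr_q {e : Fin ne} {s : Fin 3} {w : Fin ne × Kind} :
    CFI ne var b (e, .q s) w ↔ w = (e, .p s) ∨ ∃ a, w = (e, .M s a) := by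
  obtain ⟨e', κ'⟩ := w
  cases κ' <;> simp [CFI, ArcN, ArcP, Kind.slot, slot_eq_iff, eq_comm]

theorem nbr_M {e : Fin ne} {s : Fin 3} {a : ZMod 2} {w : Fin ne × Kind} :
    CFI ne var b (e, .M s a) w ↔ w = (e, .q s) ∨ w = (e, .N s a) ∨ w = (e, .T s a) := by
  obtain ⟨e', κ'⟩ := w
  cases κ' <;> simp [CFI, ArcN, ArcP, Kind.slot, slot_eq_iff, eq_comm, and_assoc]

theorem nbr_N {e : Fin ne} {s : Fin 3} {a : ZMod 2} {w : Fin ne × Kind} :
    CFI ne var b (e, .N s a) w ↔ w = (e, .M s a) ∨ w = (e, .B s a) := by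
  obtain ⟨e', κ'⟩ := w
  cases κ' <;> simp [CFI, ArcN, ArcP, Kind.slot, slot_eq_iff, eq_comm, and_assoc]

theorem nbr_T {e : Fin ne} {s : Fin 3} {a : ZMod 2} {w : Fin ne × Kind} :
    CFI ne var b (e, .T s a) w ↔ w = (e, .M s a) ∨
      ∃ a₀ a₁, w = (e, .Q a₀ a₁) ∧ a = qval s a₀ a₁ (b e) := by
  obtain ⟨e', κ'⟩ := w
  cases κ' <;> simp [CFI, ArcN, ArcP, Kind.slot, slot_eq_iff, eq_comm, and_assoc, Fin.val_inj]

theorem nbr_B {e : Fin ne} {s : Fin 3} {a : ZMod 2} {w : Fin ne × Kind} :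
    CFI ne var b (e, .B s a) w ↔ w = (e, .N s a) ∨
      (∃ s', w.2 = .B s' a ∧
        (Link (3 * ne) var (3 * e.val + s.val) (3 * w.1.val + s'.val) ∨
          Link (3 * ne) var (3 * w.1.val + s'.val) (3 * e.val + s.val))) ∨
      (First (3 * ne) var (3 * e.val + s.val) ∧ w = (e, .B s (a + 1))) := by
  obtain ⟨e', κ'⟩ := w
  cases κ' with
  | B s' a' =>
    simp only [CFI, ArcN, ArcP, Kind.slot, slot_eq_iff, Prod.mk.injEq, reduceCtorEq, and_false,
      false_or, Kind.B.injEq]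
    constructor
    · rintro ((⟨h, rfl⟩ | ⟨⟨rfl, rfl⟩, h, h'⟩) | (⟨h, rfl⟩ | ⟨⟨rfl, rfl⟩, h, h'⟩))
      · exact Or.inl ⟨s', ⟨rfl, rfl⟩, Or.inl h⟩
      · exact Or.inr ⟨h, rfl, rfl, z2_ne_iff.1 h'⟩
      · exact Or.inl ⟨s', ⟨rfl, rfl⟩, Or.inr h⟩
      · exact Or.inr ⟨h, rfl, rfl, z2_ne_iff.1 h'.symm⟩
    · rintro (⟨s'', ⟨rfl, rfl⟩, h | h⟩ | ⟨h, rfl, rfl, h'⟩)
      · exact Or.inl (Or.inl ⟨h, rfl⟩)
      · exact Or.inr (Or.inl ⟨h, rfl⟩)
      · exact Or.inl (Or.inr ⟨⟨rfl, rfl⟩, h, z2_ne_iff.2 h'⟩)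
  | _ => simp [CFI, ArcN, ArcP, Kind.slot, slot_eq_iff, eq_comm, and_assoc]

theorem nbr_Q {e : Fin ne} {a₀ a₁ : ZMod 2} {w : Fin ne × Kind} :
    CFI ne var b (e, .Q a₀ a₁) w ↔ ∃ s, w = (e, .T s (qval s a₀ a₁ (b e))) := by
  obtain ⟨e', κ'⟩ := w
  cases κ' with
  | T s a =>
    simp only [CFI, ArcN, ArcP, false_or, Prod.mk.injEq, Kind.T.injEq, Fin.val_inj]
    constructor
    · rintro ⟨rfl, h⟩; exact ⟨s, rfl, rfl, h⟩
    · rintro ⟨s', rfl, rfl, h⟩; exact ⟨rfl, h⟩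
  | _ => simp [CFI, ArcN, ArcP]

theorem Link.lt {ns σ σ' : ℕ} (h : Link ns var σ σ') : σ < σ' := h.1

theorem Link.var_eq {ns σ σ' : ℕ} (h : Link ns var σ σ') : var σ = var σ' := h.2.1

theorem Link.right_unique {ns σ σ₁ σ₂ : ℕ} (h₁ : Link ns var σ σ₁) (h₂ : Link ns var σ σ₂)
    (l₁ : σ₁ < ns) (l₂ : σ₂ < ns) : σ₁ = σ₂ := by
  rcases lt_trichotomy σ₁ σ₂ with h | h | h
  · exact absurd h₁.2.1.symm (h₂.2.2 σ₁ l₁ h₁.1 h)
  · exact h
  · exact absurd h₂.2.1.symm (h₁.2.2 σ₂ l₂ h₂.1 h)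

theorem Link.left_unique {ns σ σ₁ σ₂ : ℕ} (h₁ : Link ns var σ₁ σ) (h₂ : Link ns var σ₂ σ)
    (l₁ : σ₁ < ns) (l₂ : σ₂ < ns) : σ₁ = σ₂ := by
  rcases lt_trichotomy σ₁ σ₂ with h | h | h
  · exact absurd (h₂.2.1.trans h₁.2.1.symm) (h₁.2.2 σ₂ l₂ h h₂.1)
  · exact h
  · exact absurd (h₁.2.1.trans h₂.2.1.symm) (h₂.2.2 σ₁ l₁ h h₁.1)

theorem First.not_link {ns σ σ' : ℕ} (h : First ns var σ) (l : σ' < ns) : ¬ Link ns var σ' σ :=
  fun h' => h σ' l h'.1 h'.2.1

/-- a slot that is not `First` has an incoming `Link`. -/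
theorem exists_link_of_not_first {ns σ : ℕ} (h : ¬ First ns var σ) :
    ∃ τ < ns, Link ns var τ σ := by
  classical
  simp only [First, not_forall, not_not] at h
  obtain ⟨τ, h1, h2, h3⟩ := h
  have hP : (fun τ => τ < ns ∧ τ < σ ∧ var τ = var σ) τ := ⟨h1, h2, h3⟩
  have hs := Nat.findGreatest_spec (P := fun τ => τ < ns ∧ τ < σ ∧ var τ = var σ) h2.le hP
  refine ⟨_, hs.1, hs.2.1, hs.2.2, fun τ' l1 l2 l3 e => ?_⟩
  exact Nat.findGreatest_is_greatest l2 l3.le ⟨l1, l3, e.trans hs.2.2⟩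

theorem slot_lt (e : Fin ne) (s : Fin 3) : 3 * e.val + s.val < 3 * ne := by
  have := e.2; have := s.2; omega

/-- every slot number below `3 ne` is the slot number of an equation and a slot. -/
theorem exists_slot {σ : ℕ} (h : σ < 3 * ne) :
    ∃ (e : Fin ne) (s : Fin 3), 3 * e.val + s.val = σ :=
  ⟨⟨σ / 3, by omega⟩, ⟨σ % 3, by omega⟩, by simp only; omega⟩

theorem cfi_irrefl (u : Fin ne × Kind) : ¬ CFI ne var b u u := by
  obtain ⟨e, κ⟩ := u
  cases κ <;> simp [CFI, ArcN, ArcP, Link]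

theorem exists_bound_of_unique {α : Type} (u : α) (P : α → Prop)
    (h : ∀ w w', P w → P w' → w = w') : ∃ a, ∀ w, P w → w = a := by
  by_cases hP : ∃ a, P a
  · obtain ⟨a, ha⟩ := hP
    exact ⟨a, fun w hw => h w a hw ha⟩
  · exact ⟨u, fun w hw => absurd ⟨w, hw⟩ hP⟩

theorem qval_two (s : Fin 3) (a β : ZMod 2) : ∃ x y : ZMod 2 × ZMod 2,
    ∀ a₀ a₁, a = qval s a₀ a₁ β → (a₀, a₁) = x ∨ (a₀, a₁) = y := by
  revert s a β; decide

/-- At most three neighbours (case distinction on the kind; slot numbers `3 e + s` determine `(e, s)`;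
`Link` is functional in both directions and a `First` slot has no incoming `Link`). -/
theorem cfi_deg (u : Fin ne × Kind) : ∃ a c d, ∀ w, CFI ne var b u w → w = a ∨ w = c ∨ w = d := by
  obtain ⟨e, κ⟩ := u
  cases κ with
  | p s =>
    obtain ⟨d, hd⟩ := exists_bound_of_unique (e, Kind.p s)
      (fun w : Fin ne × Kind => ∃ s', w.2 = .sp s' ∧ 3 * w.1.val + s'.val = 3 * e.val + s.val + 1)
      (by
        rintro ⟨e₁, _⟩ ⟨e₂, _⟩ ⟨s₁, rfl, h₁⟩ ⟨s₂, rfl, h₂⟩
        obtain ⟨rfl, rfl⟩ := slot_eq_iff.1 (h₁.trans h₂.symm)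
        rfl)
    exact ⟨_, _, d, fun w hw => (nbr_p.1 hw).imp_right (Or.imp_right (hd w))⟩
  | sp s =>
    obtain ⟨d, hd⟩ := exists_bound_of_unique (e, Kind.p s)
      (fun w : Fin ne × Kind => ∃ s', w.2 = .p s' ∧ 3 * e.val + s.val = 3 * w.1.val + s'.val + 1)
      (by
        rintro ⟨e₁, _⟩ ⟨e₂, _⟩ ⟨s₁, rfl, h₁⟩ ⟨s₂, rfl, h₂⟩
        obtain ⟨rfl, rfl⟩ := slot_eq_iff.1 (Nat.succ_injective (h₁.symm.trans h₂))
        rfl)
    exact ⟨_, d, d, fun w hw => (nbr_sp.1 hw).imp_right fun h => Or.inl (hd w h)⟩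
  | q s =>
    refine ⟨(e, .p s), (e, .M s 0), (e, .M s 1), fun w hw => (nbr_q.1 hw).imp_right ?_⟩
    rintro ⟨a, rfl⟩
    have : a = 0 ∨ a = 1 := by clear hw; revert a; decide
    rcases this with rfl | rfl <;> simp
  | M s a => exact ⟨_, _, _, fun w hw => nbr_M.1 hw⟩
  | N s a => exact ⟨_, _, (e, .B s a), fun w hw => (nbr_N.1 hw).imp_right Or.inl⟩
  | T s a =>
    obtain ⟨x, y, h⟩ := qval_two s a (b e)
    refine ⟨_, (e, .Q x.1 x.2), (e, .Q y.1 y.2), fun w hw => (nbr_T.1 hw).imp_right ?_⟩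
    rintro ⟨a₀, a₁, rfl, h'⟩
    rcases h a₀ a₁ h' with rfl | rfl <;> simp
  | B s a =>
    obtain ⟨c, hc⟩ := exists_bound_of_unique (e, Kind.p s)
      (fun w : Fin ne × Kind => ∃ s', w.2 = .B s' a ∧
        Link (3 * ne) var (3 * e.val + s.val) (3 * w.1.val + s'.val))
      (by
        rintro ⟨e₁, _⟩ ⟨e₂, _⟩ ⟨s₁, rfl, h₁⟩ ⟨s₂, rfl, h₂⟩
        obtain ⟨rfl, rfl⟩ := slot_eq_iff.1 (h₁.right_unique h₂ (slot_lt _ _) (slot_lt _ _))
        rfl)
    obtain ⟨d, hd⟩ := exists_bound_of_unique (e, Kind.p s)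
      (fun w : Fin ne × Kind => (∃ s', w.2 = .B s' a ∧
        Link (3 * ne) var (3 * w.1.val + s'.val) (3 * e.val + s.val)) ∨
        (First (3 * ne) var (3 * e.val + s.val) ∧ w = (e, .B s (a + 1))))
      (by
        rintro ⟨e₁, _⟩ ⟨e₂, _⟩ (⟨s₁, rfl, h₁⟩ | ⟨h₁, h₁'⟩) (⟨s₂, rfl, h₂⟩ | ⟨h₂, h₂'⟩)
        · obtain ⟨rfl, rfl⟩ := slot_eq_iff.1 (h₁.left_unique h₂ (slot_lt _ _) (slot_lt _ _))
          rfl
        · exact absurd h₁ (h₂.not_link (slot_lt _ _))
        · exact absurd h₂ (h₁.not_link (slot_lt _ _))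
        · rw [h₁', h₂'])
    refine ⟨_, c, d, fun w hw => (nbr_B.1 hw).imp_right ?_⟩
    rintro (⟨s', h, h' | h'⟩ | h)
    · exact Or.inl (hc w ⟨s', h, h'⟩)
    · exact Or.inr (hd w (Or.inl ⟨s', h, h'⟩))
    · exact Or.inr (hd w (Or.inr h))
  | Q a₀ a₁ =>
    refine ⟨(e, .T 0 (qval 0 a₀ a₁ (b e))), (e, .T 1 (qval 1 a₀ a₁ (b e))),
      (e, .T 2 (qval 2 a₀ a₁ (b e))), fun w hw => ?_⟩
    obtain ⟨s, rfl⟩ := nbr_Q.1 hw
    fin_cases s <;> simp

theorem reach_symm {u w : Fin ne × Kind} (h : Relation.ReflTransGen (CFI ne var b) u w) :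
    Relation.ReflTransGen (CFI ne var b) w u := by
  induction h with
  | refl => exact .refl
  | tail _ h ih => exact .head (cfi_symm.1 h) ih

/-- every vertex reaches the spine vertex of its slot. -/
theorem reach_p (e : Fin ne) (κ : Kind) :
    Relation.ReflTransGen (CFI ne var b) (e, κ) (e, .p κ.slot) := by
  have hq : ∀ s, Relation.ReflTransGen (CFI ne var b) (e, .q s) (e, .p s) := fun s =>
    .single (nbr_q.2 (Or.inl rfl))
  have hM : ∀ s a, Relation.ReflTransGen (CFI ne var b) (e, .M s a) (e, .p s) := fun s a =>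
    .head (nbr_M.2 (Or.inl rfl)) (hq s)
  have hN : ∀ s a, Relation.ReflTransGen (CFI ne var b) (e, .N s a) (e, .p s) := fun s a =>
    .head (nbr_N.2 (Or.inl rfl)) (hM s a)
  have hT : ∀ s a, Relation.ReflTransGen (CFI ne var b) (e, .T s a) (e, .p s) := fun s a =>
    .head (nbr_T.2 (Or.inl rfl)) (hM s a)
  cases κ with
  | p s => exact .refl
  | sp s => exact .single (nbr_sp.2 (Or.inl rfl))
  | q s => exact hq s
  | M s a => exact hM s a
  | N s a => exact hN s a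
  | T s a => exact hT s a
  | B s a => exact .head (nbr_B.2 (Or.inl rfl)) (hN s a)
  | Q a₀ a₁ => exact .head (nbr_Q.2 ⟨0, rfl⟩) (hT 0 _)

/-- the spine is a path. -/
theorem reach_spine (n : ℕ) : ∀ (e e' : Fin ne) (s s' : Fin 3),
    3 * e.val + s.val = 3 * e'.val + s'.val + n →
    Relation.ReflTransGen (CFI ne var b) (e, .p s) (e', .p s') := by
  induction n with
  | zero =>
    intro e e' s s' h
    obtain ⟨rfl, rfl⟩ := slot_eq_iff.1 h
    exact .refl
  | succ n ih =>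
    intro e e' s s' h
    obtain ⟨e₁, s₁, h₁⟩ := exists_slot (ne := ne) (σ := 3 * e'.val + s'.val + n)
      (by have := slot_lt e s; omega)
    exact .head (b := (e, .sp s)) (nbr_p.2 (Or.inl rfl))
      (.head (b := (e₁, .p s₁)) (nbr_sp.2 (Or.inr ⟨s₁, rfl, by simp only; omega⟩))
        (ih e₁ e' s₁ s' h₁))

/-- Connected: every vertex reaches the spine vertex `p` of its slot, the spine is a path. -/
theorem cfi_conn (u w : Fin ne × Kind) : Relation.ReflTransGen (CFI ne var b) u w := by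
  obtain ⟨e, κ⟩ := u
  obtain ⟨e', κ'⟩ := w
  refine (reach_p e κ).trans (Relation.ReflTransGen.trans ?_ (reach_symm (reach_p e' κ')))
  rcases le_total (3 * e.val + κ.slot.val) (3 * e'.val + κ'.slot.val) with h | h
  · obtain ⟨n, hn⟩ := Nat.exists_eq_add_of_le h
    exact reach_symm (reach_spine n _ _ _ _ hn)
  · obtain ⟨n, hn⟩ := Nat.exists_eq_add_of_le h
    exact reach_spine n _ _ _ _ hn

/-- The vertex numbering as an equivalence. -/
noncomputable def cfiEquiv (ne : ℕ) : Fin (37 * ne) ≃ Fin ne × Kind where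
  toFun u := (⟨u.val / 37, by have := u.2; omega⟩, kindOf u.val)
  invFun p := ⟨37 * p.1.val + (kindEquiv.symm p.2).val, by
    have := p.1.2; have := (kindEquiv.symm p.2).2; omega⟩
  left_inv u := by
    ext
    simp only [kindOf, Equiv.symm_apply_apply]
    omega
  right_inv p := by
    have h := (kindEquiv.symm p.2).2
    ext
    · simp only; omega
    · simp only [kindOf]
      rw [← Equiv.eq_symm_apply]
      ext
      simp only
      omega

/-- The vertex numbering `u ↦ (u / 37, kindOf u)`. -/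
theorem exists_cfi_equiv (ne : ℕ) : ∃ e : Fin (37 * ne) ≃ Fin ne × Kind,
    ∀ (Y : Type) (var : ℕ → Y) (b : ℕ → ZMod 2) (u w : Fin (37 * ne)),
      CFI ne var b (e u) (e w) ↔ mat (matOf (37 * ne) (cfiN ne var b)) u w := by
  refine ⟨cfiEquiv ne, fun Y var b u w => ?_⟩
  simp only [mat, matOf, cfiN, decide_eq_true_eq]
  rfl

theorem cfiN_subcubic (hne : 0 < ne) : SimpleConnSubcubic (matOf (37 * ne) (cfiN ne var b)) := by
  obtain ⟨e, he⟩ := exists_cfi_equiv ne
  have he' : ∀ u w, matOf (37 * ne) (cfiN ne var b) u w = true ↔ CFI ne var b (e u) (e w) :=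
    fun u w => (he Y var b u w).symm
  refine ⟨⟨fun u w => ?_, fun u => ?_⟩, ?_, fun u => ?_⟩
  · rw [Bool.eq_iff_iff, he', he', cfi_symm]
  · rw [← Bool.not_eq_true, he']; exact cfi_irrefl _
  · have : Nonempty (Fin (37 * ne)) := ⟨⟨0, by omega⟩⟩
    refine SimpleGraph.Connected.mk fun u w => ?_
    have key : ∀ x y, Relation.ReflTransGen (CFI ne var b) x y →
        (adjGraph (matOf (37 * ne) (cfiN ne var b))).Reachable (e.symm x) (e.symm y) := by
      intro x y h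
      induction h with
      | refl => exact .refl _
      | @tail y z _ h ih =>
        refine ih.trans (SimpleGraph.Adj.reachable ?_)
        rw [adjGraph, SimpleGraph.fromRel_adj]
        refine ⟨fun h' => ?_, Or.inl ((he' _ _).2 (by simpa using h))⟩
        rw [e.symm.injective h'] at h
        exact cfi_irrefl _ h
    simpa using key (e u) (e w) (cfi_conn _ _)
  · obtain ⟨a, c, d, h⟩ := cfi_deg (var := var) (b := b) (e u)
    refine (Finset.card_le_card (t := {e.symm a, e.symm c, e.symm d}) fun w hw => ?_).trans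
      Finset.card_le_three
    have := h (e w) ((he' _ _).1 (Finset.mem_filter.1 hw).2)
    simpa only [Finset.mem_insert, Finset.mem_singleton, Equiv.eq_symm_apply] using this

/-- Shift the values of a gadget vertex. -/
def shK (x : Fin 3 → ZMod 2) : Kind → Kind
  | .M s a => .M s (a + x s) | .N s a => .N s (a + x s)
  | .T s a => .T s (a + x s) | .B s a => .B s (a + x s)
  | .Q a₀ a₁ => .Q (a₀ + x 0) (a₁ + x 1)
  | κ => κ

theorem z2_add_add_cancel (a x : ZMod 2) : a + x + x = a := by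
  revert a x; decide

theorem shK_shK (x : Fin 3 → ZMod 2) (κ : Kind) : shK x (shK x κ) = κ := by
  cases κ <;> simp [shK, z2_add_add_cancel]

theorem qval_shift (s : Fin 3) (a a₀ a₁ : ZMod 2) (x : Fin 3 → ZMod 2) :
    a + x s = qval s (a₀ + x 0) (a₁ + x 1) (x 0 + x 1 + x 2) ↔ a = qval s a₀ a₁ 0 := by
  revert s a a₀ a₁ x; decide

/-- Shift a vertex of the CFI graph by an assignment. -/
def shV (var : ℕ → Y) (g : Y → ZMod 2) (u : Fin ne × Kind) : Fin ne × Kind :=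
  (u.1, shK (fun s => g (var (3 * u.1.val + s.val))) u.2)

theorem arcN_shift (g : Y → ZMod 2) (e e' : Fin ne) (κ κ' : Kind)
    (h : Sat (varE ne var) (rhsE ne b) g e) :
    ArcN ne var b e (shK (fun s => g (var (3 * e.val + s.val))) κ)
      e' (shK (fun s => g (var (3 * e'.val + s.val))) κ') ↔
    ArcN ne var (fun _ => 0) e κ e' κ' := by
  cases κ <;> cases κ' <;> simp only [ArcN, ArcP, shK, Kind.slot]
  · exact and_congr_right fun h => by rw [h, add_left_inj]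
  · exact and_congr_right fun h => by rw [h, add_left_inj]
  · exact and_congr_right fun h => by rw [h, add_left_inj]
  · refine and_congr_right fun h' => ?_
    obtain rfl : e = e' := Fin.ext h'
    have hb : b e = g (var (3 * e.val + (0 : Fin 3).val)) + g (var (3 * e.val + (1 : Fin 3).val)) +
      g (var (3 * e.val + (2 : Fin 3).val)) := h.symm
    rw [hb]
    exact qval_shift _ _ _ _ fun s => g (var (3 * e.val + s.val))
  · refine or_congr (and_congr_right fun h => by rw [h.var_eq, add_left_inj])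
      (and_congr_right fun h => and_congr_right fun _ => by rw [h, Ne, Ne, add_left_inj])

theorem cfi_shift (g : Y → ZMod 2) (u w : Fin ne × Kind)
    (hu : Sat (varE ne var) (rhsE ne b) g u.1) (hw : Sat (varE ne var) (rhsE ne b) g w.1) :
    CFI ne var b (shV var g u) (shV var g w) ↔ CFI ne var (fun _ => 0) u w :=
  or_congr (arcN_shift g u.1 w.1 u.2 w.2 hu) (arcN_shift g w.1 u.1 w.2 u.2 hw)

theorem shV_involutive (G : Fin ne → Y → ZMod 2) :
    Function.Involutive fun u : Fin ne × Kind => shV var (G u.1) u := fun u => by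
  simp only [shV, shK_shK]

/-- For an assignment `g` let `sh g` add `g (var slot)` to the value of the pair vertices `M, N, T, B`,
add `g (var (3e))`, `g (var (3e+1))` to the two values of `Q`, and fix the others; it is an involution
preserving the equation number.  `W' l := ∃ g, W (l.map (·.1.1)) g ∧ ∀ p ∈ l, p.2 = sh g p.1`.  If `g`
satisfies the equations of `u` and `w` then `CFI b (sh g u) (sh g w) ↔ CFI 0 u w`.  For the extension take
for each equation `z` the assignment `g_z` given by `ext` and `π u := sh (g_{u.1}) u`. -/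
theorem cfi_game_of_xdup {K : ℕ} (h : XDup K (varE ne var) (rhsE ne b)) :
    Game K (CFI ne var fun _ => 0) (CFI ne var b) := by
  obtain ⟨W, h⟩ := h
  refine ⟨fun l => ∃ g, W (l.map fun p => p.1.1) g ∧ ∀ p ∈ l, p.2 = shV var g p.1,
    ?_, ?_, ?_, ?_, ?_⟩
  · obtain ⟨g, hg⟩ := h.nil
    exact ⟨g, hg, by simp⟩
  · rintro l l' ⟨g, h1, h2⟩ hs
    exact ⟨g, h.sub h1 (List.map_subset _ hs), fun p hp => h2 p (hs hp)⟩
  · rintro l p q ⟨g, -, h2⟩ hp hq
    rw [h2 p hp, h2 q hq]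
    exact (shV_involutive (var := var) fun _ => g).injective.eq_iff.symm
  · rintro l p q ⟨g, h1, h2⟩ hp hq
    rw [h2 p hp, h2 q hq]
    exact (cfi_shift g _ _ (h.sat h1 (List.mem_map_of_mem (f := fun p => p.1.1) hp))
      (h.sat h1 (List.mem_map_of_mem (f := fun p => p.1.1) hq))).symm
  · rintro l ⟨g, h1, h2⟩ hl
    choose G hG1 hG2 using h.ext h1 (by simpa using hl)
    refine ⟨(shV_involutive (var := var) G).toPerm _, fun z => ⟨G z.1, hG2 z.1, fun p hp => ?_⟩⟩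
    rcases List.mem_cons.1 hp with rfl | hp
    · rfl
    · rw [h2 p hp, shV, shV]
      congr 2
      funext s
      exact (hG1 z.1 p.1.1 (List.mem_map_of_mem (f := fun p => p.1.1) hp) s).symm

end Crest.Agent.R290
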