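/-
R290/CfiCls: classes of the CFI graph are respected by winning positions.
Skeleton by helper86; keep the statements of the theorems unchanged (add any helper lemmas you like).
-/
import Crest.Agent.R290.CfiBasic

set_option autoImplicit false

namespace Crest.Agent.R290

variable {Y : Type} {ne : ℕ} {var : ℕ → Y}

namespace Cls

/-- The number of a kind. -/
def kd : Kind → ℕ
  | .sp _ => 0 | .p _ => 1 | .q _ => 2 | .M _ _ => 3 | .N _ _ => 4 | .T _ _ => 5 | .B _ _ => 6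
  | .Q _ _ => 7

/-- The slot number of a vertex. -/
def sl (u : Fin ne × Kind) : ℕ := 3 * u.1.val + u.2.slot.val

/-- Numeric shadow of the arcs. -/
def arcT (k σ k' σ' : ℕ) : Prop :=
  (k = 0 ∧ k' = 1 ∧ (σ = σ' ∨ σ = σ' + 1)) ∨ (k = 1 ∧ k' = 2 ∧ σ = σ') ∨ (k = 2 ∧ k' = 3 ∧ σ = σ') ∨
    (k = 3 ∧ k' = 4 ∧ σ = σ') ∨ (k = 3 ∧ k' = 5 ∧ σ = σ') ∨ (k = 4 ∧ k' = 6 ∧ σ = σ') ∨
    (k = 6 ∧ k' = 6) ∨ (k = 5 ∧ k' = 7 ∧ σ / 3 * 3 = σ')

theorem arcT_of {b : ℕ → ZMod 2} {u z : Fin ne × Kind} (h : ArcN ne var b u.1 u.2 z.1 z.2) :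
    arcT (kd u.2) (sl u) (kd z.2) (sl z) := by
  obtain ⟨e, κ⟩ := u
  obtain ⟨e', κ'⟩ := z
  cases κ <;> cases κ' <;> simp only [ArcN, ArcP, Kind.slot] at h <;>
    simp [arcT, kd, sl, Kind.slot] <;> omega

theorem down {b : ℕ → ZMod 2} {u z : Fin ne × Kind} (h : CFI ne var b u z) :
    arcT (kd u.2) (sl u) (kd z.2) (sl z) ∨ arcT (kd z.2) (sl z) (kd u.2) (sl u) :=
  h.imp arcT_of arcT_of

theorem cls_of {u u' : Fin ne × Kind} (h1 : kd u.2 = kd u'.2) (h2 : sl u = sl u') :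
    u.1 = u'.1 ∧ u.2.cls = u'.2.cls := by
  obtain ⟨e, κ⟩ := u
  obtain ⟨e', κ'⟩ := u'
  cases κ <;> cases κ' <;> simp only [kd] at h1 <;> (try omega) <;>
    simp only [sl, Kind.slot] at h2 <;> simp [Kind.cls, Fin.ext_iff] <;> omega

theorem eq_of_p {u u' : Fin ne × Kind} (h0 : kd u.2 = 1) (h1 : kd u'.2 = 1) (h2 : sl u = sl u') :
    u = u' := by
  obtain ⟨e, κ⟩ := u
  obtain ⟨e', κ'⟩ := u'
  cases κ <;> cases κ' <;> simp only [kd] at h0 h1 <;> (try omega)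
  simp only [sl, Kind.slot] at h2
  simp [Fin.ext_iff]
  omega

variable (var) in
/-- two distinct neighbours -/
def D2 (b : ℕ → ZMod 2) (u : Fin ne × Kind) : Prop :=
  ∃ x y, x ≠ y ∧ CFI ne var b u x ∧ CFI ne var b u y

variable (var) in
/-- three distinct neighbours -/
def D3 (b : ℕ → ZMod 2) (u : Fin ne × Kind) : Prop :=
  ∃ x y z, x ≠ y ∧ x ≠ z ∧ y ≠ z ∧ CFI ne var b u x ∧ CFI ne var b u y ∧ CFI ne var b u z

variable {b : ℕ → ZMod 2}

theorem a_sp (e : Fin ne) (s : Fin 3) : CFI ne var b (e, .sp s) (e, .p s) :=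
  Or.inl (Or.inl rfl)

theorem a_p (e : Fin ne) (s : Fin 3) : CFI ne var b (e, .p s) (e, .q s) := Or.inl rfl

theorem a_q (e : Fin ne) (s : Fin 3) (a : ZMod 2) : CFI ne var b (e, .q s) (e, .M s a) := Or.inl rfl

theorem a_MN (e : Fin ne) (s : Fin 3) (a : ZMod 2) : CFI ne var b (e, .M s a) (e, .N s a) :=
  Or.inl ⟨rfl, rfl⟩

theorem a_MT (e : Fin ne) (s : Fin 3) (a : ZMod 2) : CFI ne var b (e, .M s a) (e, .T s a) :=
  Or.inl ⟨rfl, rfl⟩

theorem a_NB (e : Fin ne) (s : Fin 3) (a : ZMod 2) : CFI ne var b (e, .N s a) (e, .B s a) :=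
  Or.inl ⟨rfl, rfl⟩

theorem a_TQ (e : Fin ne) (s : Fin 3) (a₀ a₁ : ZMod 2) :
    CFI ne var b (e, .T s (qval s a₀ a₁ (b e))) (e, .Q a₀ a₁) :=
  Or.inl ⟨rfl, rfl⟩

theorem exists_slot {σ : ℕ} (h : σ < 3 * ne) : ∃ (e : Fin ne) (s : Fin 3), 3 * e.val + s.val = σ :=
  ⟨⟨σ / 3, by omega⟩, ⟨σ % 3, by omega⟩, by simp only; omega⟩

theorem a_sp' (e : Fin ne) (s : Fin 3) {σ : ℕ} (h : 3 * e.val + s.val = σ + 1) :
    ∃ z, CFI ne var b (e, .sp s) z ∧ kd z.2 = 1 ∧ sl z = σ := by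
  obtain ⟨e', s', h'⟩ := exists_slot (ne := ne) (σ := σ) (by omega)
  refine ⟨(e', .p s'), Or.inl (Or.inr ?_), rfl, h'⟩
  simp only [Kind.slot]
  omega

theorem a_B (e : Fin ne) (s : Fin 3) (a : ZMod 2) : ∃ z, CFI ne var b (e, .B s a) z ∧ kd z.2 = 6 := by
  classical
  by_cases hf : First (3 * ne) var (3 * e.val + s.val)
  · refine ⟨(e, .B s (a + 1)), Or.inl (Or.inr ⟨rfl, hf, ?_⟩), rfl⟩
    simp
  · have hex : ∃ τ, τ < 3 * e.val + s.val ∧ var τ = var (3 * e.val + s.val) := by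
      by_contra hn
      exact hf fun τ _ h1 h2 => hn ⟨τ, h1, h2⟩
    have hfin : {τ | τ < 3 * e.val + s.val ∧ var τ = var (3 * e.val + s.val)}.Finite :=
      (Set.finite_lt_nat (3 * e.val + s.val)).subset fun τ h => h.1
    obtain ⟨τ, ⟨h1, h2⟩, h3⟩ := hfin.exists_maximal hex
    obtain ⟨e', s', h'⟩ := exists_slot (ne := ne) (σ := τ) (by omega)
    refine ⟨(e', .B s' a), Or.inr (Or.inl ⟨?_, rfl⟩), rfl⟩
    simp only [Kind.slot, h']
    refine ⟨h1, h2, fun ρ _ h4 h5 h6 => ?_⟩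
    exact absurd (h3 ⟨h5, h6.trans h2⟩ h4.le) (not_le.2 h4)

theorem two_Q (s : Fin 3) (a β : ZMod 2) : ∃ a₀ a₁ c₀ c₁ : ZMod 2, (a₀ ≠ c₀ ∨ a₁ ≠ c₁) ∧
    a = qval s a₀ a₁ β ∧ a = qval s c₀ c₁ β := by
  revert s a β
  decide

theorem d3_q {u : Fin ne × Kind} (h : kd u.2 = 2) : D3 var b u := by
  obtain ⟨e, κ⟩ := u
  cases κ <;> simp only [kd] at h <;> (try omega)
  exact ⟨_, _, _, by simp, by simp, by simp, cfi_symm.1 (a_p _ _), a_q _ _ 0, a_q _ _ 1⟩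

theorem d3_T {u : Fin ne × Kind} (h : kd u.2 = 5) : D3 var b u := by
  obtain ⟨e, κ⟩ := u
  cases κ <;> simp only [kd] at h <;> (try omega)
  rename_i s a
  obtain ⟨a₀, a₁, c₀, c₁, h1, h2, h3⟩ := two_Q s a (b e)
  refine ⟨_, (e, .Q a₀ a₁), (e, .Q c₀ c₁), by simp, by simp, by simpa [imp_iff_not_or] using h1,
    cfi_symm.1 (a_MT _ _ _), ?_, ?_⟩
  · rw [h2]; exact a_TQ _ _ _ _
  · rw [h3]; exact a_TQ _ _ _ _

theorem not_d3_sp {u : Fin ne × Kind} (h : kd u.2 = 0) : ¬ D3 var b u := by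
  rintro ⟨x, y, z, h1, h2, h3, hx, hy, hz⟩
  have hx := down hx
  have hy := down hy
  have hz := down hz
  have e1 := mt (fun h : _ ∧ _ ∧ _ => eq_of_p h.1 h.2.1 h.2.2) h1
  have e2 := mt (fun h : _ ∧ _ ∧ _ => eq_of_p h.1 h.2.1 h.2.2) h2
  have e3 := mt (fun h : _ ∧ _ ∧ _ => eq_of_p h.1 h.2.1 h.2.2) h3
  simp only [arcT, h] at hx hy hz
  omega

theorem not_d2_sp {u : Fin ne × Kind} (h : kd u.2 = 0) (h0 : sl u = 0) : ¬ D2 var b u := by
  rintro ⟨x, y, h1, hx, hy⟩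
  have hx := down hx
  have hy := down hy
  have e1 := mt (fun h : _ ∧ _ ∧ _ => eq_of_p h.1 h.2.1 h.2.2) h1
  simp only [arcT, h] at hx hy
  omega

theorem nbr_N {e : Fin ne} {s : Fin 3} {a : ZMod 2} {z : Fin ne × Kind}
    (h : CFI ne var b (e, .N s a) z) : z = (e, .M s a) ∨ z = (e, .B s a) := by
  obtain ⟨e', κ⟩ := z
  cases κ <;> simp only [CFI, ArcN, ArcP, Kind.slot, or_false, false_or] at h
  · obtain ⟨h1, rfl⟩ := h
    left
    simp [Fin.ext_iff]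
    omega
  · obtain ⟨h1, rfl⟩ := h
    right
    simp [Fin.ext_iff]
    omega

theorem not_d3_N {u : Fin ne × Kind} (h : kd u.2 = 4) : ¬ D3 var b u := by
  obtain ⟨e, κ⟩ := u
  cases κ <;> simp only [kd] at h <;> (try omega)
  rintro ⟨x, y, z, h1, h2, h3, hx, hy, hz⟩
  rcases nbr_N hx with rfl | rfl <;> rcases nbr_N hy with rfl | rfl <;>
    rcases nbr_N hz with rfl | rfl <;> simp at h1 h2 h3

theorem d2_of {u : Fin ne × Kind} (h : ¬ (kd u.2 = 0 ∧ sl u = 0)) : D2 var b u := by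
  obtain ⟨e, κ⟩ := u
  cases κ with
  | p s => exact ⟨_, _, by simp, cfi_symm.1 (a_sp _ _), a_p _ _⟩
  | sp s =>
    obtain ⟨σ, hσ⟩ : ∃ σ, 3 * e.val + s.val = σ + 1 :=
      Nat.exists_eq_succ_of_ne_zero fun h0 => h ⟨rfl, h0⟩
    obtain ⟨z, h1, -, h3⟩ := a_sp' (var := var) (b := b) e s hσ
    refine ⟨z, _, ?_, h1, a_sp _ _⟩
    rintro rfl
    simp only [sl, Kind.slot] at h3
    omega
  | q s => exact ⟨_, _, by simp, cfi_symm.1 (a_p _ _), a_q _ _ 0⟩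
  | M s a => exact ⟨_, _, by simp, a_MN _ _ _, a_MT _ _ _⟩
  | N s a => exact ⟨_, _, by simp, cfi_symm.1 (a_MN _ _ _), a_NB _ _ _⟩
  | T s a =>
    obtain ⟨x, y, z, h1, -, -, hx, hy, -⟩ := d3_T (var := var) (b := b) (u := (e, .T s a)) rfl
    exact ⟨x, y, h1, hx, hy⟩
  | B s a =>
    obtain ⟨z, h1, h2⟩ := a_B (var := var) (b := b) e s a
    refine ⟨z, _, ?_, h1, cfi_symm.1 (a_NB _ _ _)⟩
    rintro rfl
    simp [kd] at h2
  | Q a₀ a₁ => exact ⟨_, _, by simp, cfi_symm.1 (a_TQ _ 0 _ _), cfi_symm.1 (a_TQ _ 1 _ _)⟩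

/-- The kind number of the parent of a vertex. -/
def par (k : ℕ) : ℕ := if k = 5 then 3 else if k = 6 then 4 else if k = 7 then 5 else k - 1

theorem up {u : Fin ne × Kind} (h : kd u.2 ≠ 0) :
    ∃ z, CFI ne var b u z ∧ kd z.2 = par (kd u.2) ∧ sl z = sl u := by
  obtain ⟨e, κ⟩ := u
  cases κ with
  | p s => exact ⟨_, cfi_symm.1 (a_sp _ _), rfl, rfl⟩
  | sp s => exact absurd rfl h
  | q s => exact ⟨_, cfi_symm.1 (a_p _ _), rfl, rfl⟩
  | M s a => exact ⟨_, cfi_symm.1 (a_q _ _ _), rfl, rfl⟩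
  | N s a => exact ⟨_, cfi_symm.1 (a_MN _ _ _), rfl, rfl⟩
  | T s a => exact ⟨_, cfi_symm.1 (a_MT _ _ _), rfl, rfl⟩
  | B s a => exact ⟨_, cfi_symm.1 (a_NB _ _ _), rfl, rfl⟩
  | Q a₀ a₁ => exact ⟨_, cfi_symm.1 (a_TQ _ 0 _ _), rfl, rfl⟩

theorem up_sp {u : Fin ne × Kind} (h : kd u.2 = 0) {σ : ℕ} (hσ : sl u = σ + 1) :
    ∃ z, CFI ne var b u z ∧ kd z.2 = 1 ∧ sl z = σ := by
  obtain ⟨e, κ⟩ := u
  cases κ <;> simp only [kd] at h <;> (try omega)
  exact a_sp' _ _ hσ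

theorem sl_Q {u : Fin ne × Kind} (h : kd u.2 = 7) : sl u % 3 = 0 := by
  obtain ⟨e, κ⟩ := u
  cases κ <;> simp only [kd] at h <;> (try omega)
  simp [sl, Kind.slot]

theorem kd_lt (κ : Kind) : kd κ < 8 := by cases κ <;> simp [kd]

variable (var) in
/-- Pairs in a winning position. -/
def R (b₁ b₂ : ℕ → ZMod 2) (u u' : Fin ne × Kind) : Prop :=
  ∃ W, Win 2 (CFI ne var b₁) (CFI ne var b₂) W ∧ W [(u, u')]

variable {b₁ b₂ : ℕ → ZMod 2} {u u' : Fin ne × Kind}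

theorem R.symm (h : R var b₁ b₂ u u') : R var b₂ b₁ u' u := by
  obtain ⟨W, hW, hu⟩ := h
  exact ⟨_, hW.symm, by simpa using hu⟩

theorem R.step (h : R var b₁ b₂ u u') {z : Fin ne × Kind} (hz : CFI ne var b₁ u z) :
    ∃ z', CFI ne var b₂ u' z' ∧ R var b₁ b₂ z z' := by
  obtain ⟨W, hW, hu⟩ := h
  obtain ⟨π, -, -, h1, h2, -⟩ := hW.nbr le_rfl hu
  exact ⟨π z, (h2 z).1 hz, W, hW, h1 z⟩

theorem R.d2 (h : R var b₁ b₂ u u') (hu : D2 var b₁ u) : D2 var b₂ u' := by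
  obtain ⟨W, hW, hu'⟩ := h
  obtain ⟨π, -, -, -, h2, -⟩ := hW.nbr le_rfl hu'
  obtain ⟨x, y, h1, hx, hy⟩ := hu
  exact ⟨π x, π y, π.injective.ne h1, (h2 x).1 hx, (h2 y).1 hy⟩

theorem R.d3 (h : R var b₁ b₂ u u') (hu : D3 var b₁ u) : D3 var b₂ u' := by
  obtain ⟨W, hW, hu'⟩ := h
  obtain ⟨π, -, -, -, h2, -⟩ := hW.nbr le_rfl hu'
  obtain ⟨x, y, z, h1, h3, h4, hx, hy, hz⟩ := hu
  exact ⟨π x, π y, π z, π.injective.ne h1, π.injective.ne h3, π.injective.ne h4, (h2 x).1 hx,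
    (h2 y).1 hy, (h2 z).1 hz⟩

variable (ne var) in
/-- The class `(k, σ)` is definable. -/
def Df (k σ : ℕ) : Prop :=
  ∀ (b₁ b₂ : ℕ → ZMod 2) (u u' : Fin ne × Kind), R var b₁ b₂ u u' → kd u.2 = k → sl u = σ →
    kd u'.2 = k ∧ sl u' = σ

theorem Df.back {k σ : ℕ} (h : Df ne var k σ) (hR : R var b₁ b₂ u u') :
    kd u'.2 = k ∧ sl u' = σ → kd u.2 = k ∧ sl u = σ :=
  fun h' => h _ _ _ _ hR.symm h'.1 h'.2

theorem Df.nb {k k' σ : ℕ} (h : Df ne var k' σ) (hR : R var b₁ b₂ u u') (h1 : kd u.2 = k)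
    (h2 : sl u = σ) (hk : k ≠ 0) (hk' : par k = k') :
    arcT (kd u'.2) (sl u') k' σ ∨ arcT k' σ (kd u'.2) (sl u') := by
  obtain ⟨z, hz, h3, h4⟩ := up (var := var) (b := b₁) (u := u) (by omega)
  obtain ⟨z', hz', hR'⟩ := hR.step hz
  obtain ⟨h5, h6⟩ := h _ _ _ _ hR' (by rw [h3, h1, hk']) (h4.trans h2)
  have := down hz'
  rwa [h5, h6] at this

theorem df_sp0 : Df ne var 0 0 := fun _ _ _ _ hR h1 h2 => by
  by_contra hn
  exact not_d2_sp h1 h2 (hR.symm.d2 (d2_of hn))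

theorem df_p {σ : ℕ} (h : Df ne var 0 σ) (h' : ∀ τ, σ = τ + 1 → Df ne var 1 τ) : Df ne var 1 σ :=
  fun _ _ u u' hR h1 h2 => by
    have h3 := h.nb hR h1 h2 (by omega) rfl
    by_cases h4 : σ = sl u' + 1
    · have := (h' _ h4).back hR
      simp only [arcT] at h3
      omega
    · simp only [arcT] at h3
      omega

theorem df_sp {σ : ℕ} (h : Df ne var 0 σ) (h' : Df ne var 1 σ) : Df ne var 0 (σ + 1) :=
  fun _ _ u u' hR h1 h2 => by
    obtain ⟨z, hz, h3, h4⟩ := up_sp (var := var) h1 h2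
    obtain ⟨z', hz', hR'⟩ := hR.step hz
    obtain ⟨h5, h6⟩ := h' _ _ _ _ hR' h3 h4
    have h7 := down hz'
    have h8 := h.back hR
    have h9 : kd u'.2 ≠ 2 := fun h9 => not_d3_sp h1 (hR.symm.d3 (d3_q h9))
    simp only [arcT] at h7
    omega

theorem df_01 (σ : ℕ) : Df ne var 0 σ ∧ Df ne var 1 σ := by
  induction σ with
  | zero => exact ⟨df_sp0, df_p df_sp0 fun τ h => by omega⟩
  | succ σ ih =>
    refine ⟨df_sp ih.1 ih.2, df_p (df_sp ih.1 ih.2) fun τ h => ?_⟩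
    obtain rfl : σ = τ := by omega
    exact ih.2

theorem df_2 (σ : ℕ) : Df ne var 2 σ := fun _ _ u u' hR h1 h2 => by
  have h3 := (df_01 σ).2.nb hR h1 h2 (by omega) rfl
  have h4 : kd u'.2 ≠ 0 := fun h4 => not_d3_sp h4 (hR.d3 (d3_q h1))
  simp only [arcT] at h3
  omega

theorem df_3 (σ : ℕ) : Df ne var 3 σ := fun _ _ u u' hR h1 h2 => by
  have h3 := (df_2 σ).nb hR h1 h2 (by omega) rfl
  have h4 := (df_01 σ).2.back hR
  simp only [arcT] at h3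
  omega

theorem df_4 (σ : ℕ) : Df ne var 4 σ := fun _ _ u u' hR h1 h2 => by
  have h3 := (df_3 σ).nb hR h1 h2 (by omega) rfl
  have h4 := (df_2 σ).back hR
  have h5 : kd u'.2 ≠ 5 := fun h5 => not_d3_N h1 (hR.symm.d3 (d3_T h5))
  simp only [arcT] at h3
  omega

theorem df_5 (σ : ℕ) : Df ne var 5 σ := fun _ _ u u' hR h1 h2 => by
  have h3 := (df_3 σ).nb hR h1 h2 (by omega) rfl
  have h4 := (df_2 σ).back hR
  have h5 := (df_4 σ).back hR
  simp only [arcT] at h3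
  omega

theorem df_6 (σ : ℕ) : Df ne var 6 σ := fun _ _ u u' hR h1 h2 => by
  have h3 := (df_4 σ).nb hR h1 h2 (by omega) rfl
  have h4 := (df_3 σ).back hR
  simp only [arcT] at h3
  omega

theorem df_7 (σ : ℕ) : Df ne var 7 σ := fun _ _ u u' hR h1 h2 => by
  have h3 := (df_5 σ).nb hR h1 h2 (by omega) rfl
  have h4 := (df_3 σ).back hR
  have h5 := sl_Q h1
  simp only [arcT] at h3
  omega

theorem df_all (k σ : ℕ) (hk : k < 8) : Df ne var k σ := by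
  interval_cases k
  exacts [(df_01 σ).1, (df_01 σ).2, df_2 σ, df_3 σ, df_4 σ, df_5 σ, df_6 σ, df_7 σ]

end Cls

/-- Recipe.  Say a class `c = (e, κ)` is *definable* if `W [(u, u')]` implies
`(u.1, u.2.cls) = c ↔ (u'.1, u'.2.cls) = c`.  By `Win.nbr` the predicates "has two distinct neighbours",
"has three distinct neighbours", "has a neighbour in the definable class `c`" are preserved.  With slot
numbers `σ = 3 e + s`: `sp 0` is the only vertex without two distinct neighbours (a `B` vertex has its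
`N`, and its twin if `First`, else an incoming `Link` from the greatest earlier slot with the same
variable); `p σ` = neighbour of `sp σ` not in class `p (σ-1)`; `q σ` = neighbour of `p σ` with three
neighbours; `sp (σ+1)` = neighbour of `p σ` without three neighbours, not `sp σ` (induction on `σ`);
`M σ` = neighbour of `q σ`, not `p σ`; `N σ` = neighbour of class `M σ` without three neighbours;
`T σ` = neighbour of class `M σ` with three neighbours, not `q σ`; `B σ` = neighbour of class `N σ` not in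
class `M σ`; `Q e` = neighbour of class `T (3e)` not in class `M (3e)`.  These descriptions hold for every
right-hand side.  (First prove, per kind, the exact list of neighbours.) -/
theorem cfi_cls {b₁ b₂ : ℕ → ZMod 2} {K : ℕ} (hK : 2 ≤ K)
    {W : List ((Fin ne × Kind) × (Fin ne × Kind)) → Prop}
    (h : Win K (CFI ne var b₁) (CFI ne var b₂) W) {u u' : Fin ne × Kind} (hu : W [(u, u')]) :
    u.1 = u'.1 ∧ u.2.cls = u'.2.cls := by
  obtain ⟨h1, h2⟩ := Cls.df_all (ne := ne) (var := var) _ _ (Cls.kd_lt u.2) b₁ b₂ u u'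
    ⟨W, h.mono hK, hu⟩ rfl rfl
  exact Cls.cls_of h1.symm h2.symm

end Crest.Agent.R290
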