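/-
R290/CfiStruct: every graph equivalent to a CFI graph is a twisted CFI graph.
Skeleton by helper86; keep the statements of the theorems unchanged (add any helper lemmas you like).
-/
import Crest.Agent.R290.CfiCls

set_option autoImplicit false

namespace Crest.Agent.R290

variable {Y : Type} {ne : ℕ} {var : ℕ → Y}

namespace CfiStruct

/-- A class-preserving map. -/
def ClsPres (π : Fin ne × Kind → Fin ne × Kind) : Prop :=
  ∀ z, (π z).1 = z.1 ∧ (π z).2.cls = z.2.cls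

/-- The consequences of a winning family with `W [(u, u)]` for all `u` that are used below. -/
structure Sim (var : ℕ → Y) (H : Fin ne × Kind → Fin ne × Kind → Prop) : Prop where
  two : ∀ u, ∃ π : Fin ne × Kind ≃ Fin ne × Kind, π u = u ∧ ClsPres π ∧
    ∀ z, (H u (π z) ↔ CFI ne var (fun _ => 0) u z) ∧ (H (π z) u ↔ CFI ne var (fun _ => 0) z u)
  three : ∀ u w', ∃ w : Fin ne × Kind, w.1 = w'.1 ∧ w.2.cls = w'.2.cls ∧ (u = w' ↔ u = w) ∧
    ∃ π : Fin ne × Kind ≃ Fin ne × Kind, ClsPres π ∧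
      ∀ z, (H u (π z) ↔ CFI ne var (fun _ => 0) u z) ∧ (H w' (π z) ↔ CFI ne var (fun _ => 0) w z)

theorem sim_of_win {H : Fin ne × Kind → Fin ne × Kind → Prop} {K : ℕ} (hK : 3 ≤ K)
    {W : List ((Fin ne × Kind) × (Fin ne × Kind)) → Prop}
    (h : Win K (CFI ne var fun _ => 0) H W) (hd : ∀ u, W [(u, u)]) : Sim var H := by
  have hcls : ∀ {l : List ((Fin ne × Kind) × (Fin ne × Kind))} {p}, W l → p ∈ l →
      p.2.1 = p.1.1 ∧ p.2.2.cls = p.1.2.cls := by
    intro l p hl hp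
    have h1 : W [(p.1, p.2)] := h.sub hl (by simpa using hp)
    have h2 := cfi_cls (by omega : 2 ≤ K) (h.trans h.symm) (u := p.1) (u' := p.2)
      ⟨[(p.1, p.2, p.2)], rfl, h1, hd p.2⟩
    exact ⟨h2.1.symm, h2.2.symm⟩
  refine ⟨fun u => ?_, fun u w' => ?_⟩
  · obtain ⟨π, hπ⟩ := h.ext (hd u) (by simp; omega)
    refine ⟨π, ?_, fun z => hcls (hπ z) (p := (z, π z)) (by simp), fun z => ⟨?_, ?_⟩⟩
    · exact ((h.eq_iff (hπ u) (p := (u, π u)) (q := (u, u)) (by simp) (by simp)).1 rfl)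
    · exact (h.adj (hπ z) (p := (u, u)) (q := (z, π z)) (by simp) (by simp)).symm
    · exact (h.adj (hπ z) (p := (z, π z)) (q := (u, u)) (by simp) (by simp)).symm
  · obtain ⟨π₁, hπ₁⟩ := h.ext (hd u) (by simp; omega)
    have h1 := hπ₁ (π₁.symm w')
    rw [Equiv.apply_symm_apply] at h1
    obtain ⟨π, hπ⟩ := h.ext h1 (by simp; omega)
    have hc := hcls h1 (p := (π₁.symm w', w')) (by simp)
    refine ⟨π₁.symm w', hc.1.symm, hc.2.symm, ?_, π, fun z => hcls (hπ z) (p := (z, π z)) (by simp),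
      fun z => ⟨?_, ?_⟩⟩
    · exact (h.eq_iff h1 (p := (u, u)) (q := (π₁.symm w', w')) (by simp) (by simp)).symm
    · exact (h.adj (hπ z) (p := (u, u)) (q := (z, π z)) (by simp) (by simp)).symm
    · exact (h.adj (hπ z) (p := (π₁.symm w', w')) (q := (z, π z)) (by simp) (by simp)).symm

/-- `c` enumerates a class of two vertices. -/
structure IsPair (c : ZMod 2 → Kind) : Prop where
  inj : Function.Injective c
  cls : ∀ κ a, κ.cls = (c a).cls → ∃ a', κ = c a'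

theorem isPair_M (s : Fin 3) : IsPair (Kind.M s) :=
  ⟨fun _ _ h => (Kind.M.inj h).2, fun κ a h => by cases κ <;> simp_all [Kind.cls]⟩

theorem isPair_N (s : Fin 3) : IsPair (Kind.N s) :=
  ⟨fun _ _ h => (Kind.N.inj h).2, fun κ a h => by cases κ <;> simp_all [Kind.cls]⟩

theorem isPair_T (s : Fin 3) : IsPair (Kind.T s) :=
  ⟨fun _ _ h => (Kind.T.inj h).2, fun κ a h => by cases κ <;> simp_all [Kind.cls]⟩

theorem isPair_B (s : Fin 3) : IsPair (Kind.B s) :=
  ⟨fun _ _ h => (Kind.B.inj h).2, fun κ a h => by cases κ <;> simp_all [Kind.cls]⟩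

theorem cls_Q {κ : Kind} {a₀ a₁ : ZMod 2} (h : κ.cls = (Kind.Q a₀ a₁).cls) :
    ∃ c₀ c₁, κ = Kind.Q c₀ c₁ := by
  cases κ <;> simp_all [Kind.cls]

theorem pair_shift {π : Fin ne × Kind ≃ Fin ne × Kind} (hπ : ClsPres π) {c : ZMod 2 → Kind}
    (hc : IsPair c) (E : Fin ne) : ∃ δ, ∀ a, π (E, c (a + δ)) = (E, c a) := by
  have h1 : ∀ a, ∃ a', π (E, c a) = (E, c a') := by
    intro a
    obtain ⟨a', ha'⟩ := hc.cls _ a (hπ (E, c a)).2
    exact ⟨a', Prod.ext (hπ (E, c a)).1 ha'⟩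
  choose g hg using h1
  have hinj : Function.Injective g := by
    intro a a' h
    have : π (E, c a) = π (E, c a') := by rw [hg, hg, h]
    exact hc.inj (Prod.ext_iff.1 (π.injective this)).2
  have key : ∀ g : ZMod 2 → ZMod 2, Function.Injective g → ∀ a, g (a + g 0) = a := by decide
  exact ⟨g 0, fun a => by rw [hg, key g hinj]⟩

variable {H : Fin ne × Kind → Fin ne × Kind → Prop}

theorem Sim.exists_partner (h : Sim var H) (u : Fin ne × Kind) (E : Fin ne) (κ : Kind) :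
    ∃ κ₀ : Kind, κ₀.cls = κ.cls ∧ (H u (E, κ) ↔ CFI ne var (fun _ => 0) u (E, κ₀)) ∧
      (H (E, κ) u ↔ CFI ne var (fun _ => 0) (E, κ₀) u) ∧ (u = (E, κ) ↔ u = (E, κ₀)) := by
  obtain ⟨π, h1, h2, h3⟩ := h.two u
  have h4 := h2 (π.symm (E, κ))
  have h5 := h3 (π.symm (E, κ))
  rw [Equiv.apply_symm_apply] at h4 h5
  have h6 : π.symm (E, κ) = (E, (π.symm (E, κ)).2) := Prod.ext h4.1.symm rfl
  refine ⟨(π.symm (E, κ)).2, h4.2.symm, ?_, ?_, ?_⟩
  · rw [← h6]; exact h5.1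
  · rw [← h6]; exact h5.2
  · rw [← h6, Equiv.eq_symm_apply, h1]

theorem Sim.symm (h : Sim var H) (u w : Fin ne × Kind) : H u w ↔ H w u := by
  obtain ⟨κ₀, -, h1, h2, -⟩ := h.exists_partner u w.1 w.2
  rw [h1, h2]
  exact cfi_symm

theorem Sim.one_nbr (h : Sim var H) (u : Fin ne × Kind) (E : Fin ne) {c : ZMod 2 → Kind}
    (hc : IsPair c) : ∃ δ, ∀ a, H u (E, c a) ↔ CFI ne var (fun _ => 0) u (E, c (a + δ)) := by
  obtain ⟨π, -, h2, h3⟩ := h.two u
  obtain ⟨δ, hδ⟩ := pair_shift h2 hc E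
  exact ⟨δ, fun a => by rw [← hδ a]; exact (h3 _).1⟩

theorem Sim.matching (h : Sim var H) {E E' : Fin ne} {c c' : ZMod 2 → Kind} (hc : IsPair c)
    (hc' : IsPair c') :
    ∃ τ, (∀ a a', CFI ne var (fun _ => 0) (E, c a) (E', c' a') ↔ a = a') →
      ∀ a a', H (E, c a) (E', c' a') ↔ a' = a + τ := by
  choose δ hδ using fun a => h.one_nbr (E, c a) E' hc'
  choose δ' hδ' using fun a => h.one_nbr (E', c' a) E hc
  refine ⟨δ 0, fun hG => ?_⟩
  have h1 : ∀ a a', H (E, c a) (E', c' a') ↔ a = a' + δ a := fun a a' => by rw [hδ, hG]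
  have h2 : ∀ a a', H (E, c a) (E', c' a') ↔ a + δ' a' = a' := fun a a' => by
    rw [h.symm, hδ', cfi_symm, hG]
  have key : ∀ δ δ' : ZMod 2 → ZMod 2, (∀ a a', a = a' + δ a ↔ a + δ' a' = a') →
      ∀ a a', (a = a' + δ a ↔ a' = a + δ 0) := by decide
  intro a a'
  rw [h1]
  exact key δ δ' (fun a a' => by rw [← h1, h2]) a a'

/-! ### Adjacency in the CFI graph between valued classes -/

section Adj
variable {b : ℕ → ZMod 2} {E E' : Fin ne} {s s' : Fin 3} {a a' : ZMod 2}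

theorem slot_eq_iff : 3 * E.val + s.val = 3 * E'.val + s'.val ↔ E = E' ∧ s = s' := by
  constructor
  · intro h
    have := s.isLt
    have := s'.isLt
    exact ⟨Fin.ext (by omega), Fin.ext (by omega)⟩
  · rintro ⟨rfl, rfl⟩
    rfl

theorem cfi_MN : CFI ne var b (E, .M s a) (E', .N s' a') ↔ (E = E' ∧ s = s') ∧ a = a' := by
  rw [← slot_eq_iff]
  simp [CFI, ArcN, ArcP, Kind.slot]

theorem cfi_MT : CFI ne var b (E, .M s a) (E', .T s' a') ↔ (E = E' ∧ s = s') ∧ a = a' := by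
  rw [← slot_eq_iff]
  simp [CFI, ArcN, ArcP, Kind.slot]

theorem cfi_NB : CFI ne var b (E, .N s a) (E', .B s' a') ↔ (E = E' ∧ s = s') ∧ a = a' := by
  rw [← slot_eq_iff]
  simp [CFI, ArcN, ArcP, Kind.slot]

theorem cfi_TQ {a₀ a₁ : ZMod 2} :
    CFI ne var b (E, .T s a) (E', .Q a₀ a₁) ↔ E = E' ∧ a = qval s a₀ a₁ (b E.val) := by
  simp [CFI, ArcN, ArcP, Fin.val_inj]

theorem cfi_BB : CFI ne var b (E, .B s a) (E', .B s' a') ↔
    ((Link (3 * ne) var (3 * E.val + s.val) (3 * E'.val + s'.val) ∨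
      Link (3 * ne) var (3 * E'.val + s'.val) (3 * E.val + s.val)) ∧ a = a') ∨
    ((E = E' ∧ s = s') ∧ First (3 * ne) var (3 * E.val + s.val) ∧ a ≠ a') := by
  rw [← slot_eq_iff]
  simp only [CFI, ArcN, ArcP, Kind.slot]
  constructor
  · rintro ((⟨h1, h2⟩ | ⟨h1, h2, h3⟩) | (⟨h1, h2⟩ | ⟨h1, h2, h3⟩))
    · exact Or.inl ⟨Or.inl h1, h2⟩
    · exact Or.inr ⟨h1, h2, h3⟩
    · exact Or.inl ⟨Or.inr h1, h2.symm⟩
    · exact Or.inr ⟨h1.symm, h1 ▸ h2, h3.symm⟩
  · rintro (⟨h1 | h1, h2⟩ | ⟨h1, h2, h3⟩)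
    · exact Or.inl (Or.inl ⟨h1, h2⟩)
    · exact Or.inr (Or.inl ⟨h1, h2.symm⟩)
    · exact Or.inl (Or.inr ⟨h1, h2, h3⟩)

end Adj

/-- The ordered pairs of kinds whose adjacency depends on values. -/
def special : Kind → Kind → Bool
  | .M _ _, .N _ _ => true
  | .M _ _, .T _ _ => true
  | .N _ _, .B _ _ => true
  | .B _ _, .B _ _ => true
  | .T _ _, .Q _ _ => true
  | _, _ => false

theorem slot_cls (κ : Kind) : κ.cls.slot = κ.slot := by cases κ <;> rfl

theorem special_cls (κ κ' : Kind) : special κ.cls κ'.cls = special κ κ' := by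
  cases κ <;> cases κ' <;> rfl

theorem arcP_cls {κ κ' : Kind} (h : special κ κ' = false) {p₁ p₂ p₃ p₄ p₅ : Prop} (β : ZMod 2) :
    ArcP κ κ' p₁ p₂ p₃ p₄ p₅ β ↔ ArcP κ.cls κ'.cls p₁ p₂ p₃ p₄ p₅ 0 := by
  cases κ <;> cases κ' <;> first | exact Iff.rfl | exact Bool.noConfusion h

theorem arcN_cls {κ κ' : Kind} (h : special κ κ' = false) (b : ℕ → ZMod 2) (E E' : ℕ) :
    ArcN ne var b E κ E' κ' ↔ ArcN ne var (fun _ => 0) E κ.cls E' κ'.cls := by
  unfold ArcN
  rw [arcP_cls h, slot_cls, slot_cls]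

theorem cfi_generic {κ κ' κ₁ κ₁' : Kind} (h : special κ κ' = false) (h' : special κ' κ = false)
    (h1 : κ₁.cls = κ.cls) (h2 : κ₁'.cls = κ'.cls) (b b₁ : ℕ → ZMod 2) (E E' : Fin ne) :
    CFI ne var b (E, κ) (E', κ') ↔ CFI ne var b₁ (E, κ₁) (E', κ₁') := by
  have g1 : special κ₁ κ₁' = false := by rw [← special_cls, h1, h2, special_cls, h]
  have g2 : special κ₁' κ₁ = false := by rw [← special_cls, h1, h2, special_cls, h']
  unfold CFI
  simp only
  rw [arcN_cls h, arcN_cls h', arcN_cls g1, arcN_cls g2, h1, h2]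

/-- Potentials along a relation that decreases a measure and is functional backwards. -/
theorem exists_potential {α : Type} (f : α → ℕ) (R : α → α → Prop) (hlt : ∀ x y, R x y → f x < f y)
    (huniq : ∀ x x' y, R x y → R x' y → x = x') (τ : α → α → ZMod 2) :
    ∃ s : α → ZMod 2, ∀ x y, R x y → s y = s x + τ x y := by
  classical
  let wf : WellFounded (InvImage (· < ·) f) := InvImage.wf f Nat.lt_wfRel.wf
  let F : ∀ y : α, (∀ x, InvImage (· < ·) f x y → ZMod 2) → ZMod 2 := fun y ih =>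
    if h : ∃ x, R x y then ih h.choose (hlt _ _ h.choose_spec) + τ h.choose y else 0
  refine ⟨wf.fix F, fun x y hxy => ?_⟩
  rw [wf.fix_eq F y]
  have h : ∃ x, R x y := ⟨x, hxy⟩
  have hx : h.choose = x := huniq _ _ _ h.choose_spec hxy
  have : F y (fun x _ => wf.fix F x) = wf.fix F h.choose + τ h.choose y := dif_pos h
  rw [this, hx]

theorem link_uniq {ns : ℕ} {σ σ₁ σ' : ℕ} (hσ' : σ' ≤ ns) (h : Link ns var σ σ')
    (h₁ : Link ns var σ₁ σ') : σ = σ₁ := by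
  obtain ⟨a1, a2, a3⟩ := h
  obtain ⟨b1, b2, b3⟩ := h₁
  rcases lt_trichotomy σ σ₁ with hlt | heq | hlt
  · exact absurd (b2.trans a2.symm) (a3 σ₁ (by omega) hlt b1)
  · exact heq
  · exact absurd (a2.trans b2.symm) (b3 σ (by omega) hlt a1)

/-- The map from the vertices of `H` to those of the twisted CFI graph. -/
def twist (sM sN sT sB : Fin 3 → ZMod 2) (val : Fin 3 → ZMod 2 → ZMod 2 → ZMod 2) : Kind → Kind
  | .M s a => .M s (a + sM s)
  | .N s a => .N s (a + sN s)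
  | .T s a => .T s (a + sT s)
  | .B s a => .B s (a + sB s)
  | .Q a₀ a₁ => .Q (val 0 a₀ a₁ + sT 0) (val 1 a₀ a₁ + sT 1)
  | κ => κ

theorem twist_cls (sM sN sT sB : Fin 3 → ZMod 2) (val : Fin 3 → ZMod 2 → ZMod 2 → ZMod 2) (κ : Kind) :
    (twist sM sN sT sB val κ).cls = κ.cls := by
  cases κ <;> rfl

theorem twist_inj (sM sN sT sB : Fin 3 → ZMod 2) {val : Fin 3 → ZMod 2 → ZMod 2 → ZMod 2}
    (hval : ∀ a₀ a₁ c₀ c₁, val 0 a₀ a₁ = val 0 c₀ c₁ → val 1 a₀ a₁ = val 1 c₀ c₁ → a₀ = c₀ ∧ a₁ = c₁) :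
    Function.Injective (twist sM sN sT sB val) := by
  intro κ κ' h
  cases κ <;> cases κ' <;> simp only [twist, reduceCtorEq, Kind.p.injEq, Kind.sp.injEq, Kind.q.injEq,
    Kind.M.injEq, Kind.N.injEq, Kind.T.injEq, Kind.B.injEq, Kind.Q.injEq, add_left_inj] at h ⊢
  all_goals first
    | exact h
    | exact hval _ _ _ _ h.1 h.2
    | (obtain ⟨rfl, h⟩ := h; exact ⟨rfl, add_right_cancel h⟩)

/-- The values of the `Q` vertices. -/
theorem Sim.exists_val (h : Sim var H) (E : Fin ne) :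
    ∃ (val : Fin 3 → ZMod 2 → ZMod 2 → ZMod 2) (β : ZMod 2),
      (∀ s a₀ a₁ a, H (E, .T s a) (E, .Q a₀ a₁) ↔ a = val s a₀ a₁) ∧
      (∀ a₀ a₁ c₀ c₁, val 0 a₀ a₁ = val 0 c₀ c₁ → val 1 a₀ a₁ = val 1 c₀ c₁ → a₀ = c₀ ∧ a₁ = c₁) ∧
      ∀ a₀ a₁, val 2 a₀ a₁ = val 0 a₀ a₁ + val 1 a₀ a₁ + β := by
  have h1 : ∀ (s : Fin 3) (a₀ a₁ : ZMod 2), ∃ v, ∀ a, H (E, .T s a) (E, .Q a₀ a₁) ↔ a = v := by
    intro s a₀ a₁
    obtain ⟨δ, hδ⟩ := h.one_nbr (E, .Q a₀ a₁) E (isPair_T s)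
    refine ⟨qval s a₀ a₁ 0 + δ, fun a => ?_⟩
    rw [h.symm, hδ, cfi_symm, cfi_TQ]
    have : ∀ x y z : ZMod 2, x + y = z ↔ x = z + y := by decide
    simp [this]
  choose val hval using h1
  have h2 : ∀ a₀ a₁ c₀ c₁ : ZMod 2, ∃ d₀ d₁ : ZMod 2, ((a₀ = c₀ ∧ a₁ = c₁) ↔ (a₀ = d₀ ∧ a₁ = d₁)) ∧
      ∀ s, val s a₀ a₁ + val s c₀ c₁ = qval s a₀ a₁ 0 + qval s d₀ d₁ 0 := by
    intro a₀ a₁ c₀ c₁
    obtain ⟨⟨E₁, κ⟩, rfl, hw2, hw3, π, hπ, hπ'⟩ := h.three (E, .Q a₀ a₁) (E, .Q c₀ c₁)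
    obtain ⟨d₀, d₁, rfl⟩ := cls_Q hw2
    refine ⟨d₀, d₁, by simpa using hw3, fun s => ?_⟩
    obtain ⟨δ, hδ⟩ := pair_shift hπ (isPair_T s) E₁
    have e1 := (hπ' (E₁, .T s (val s a₀ a₁ + δ))).1
    have e2 := (hπ' (E₁, .T s (val s c₀ c₁ + δ))).2
    rw [hδ, h.symm, hval, cfi_symm, cfi_TQ] at e1 e2
    have e1' := (e1.1 rfl).2
    have e2' := (e2.1 rfl).2
    rw [← e1', ← e2']
    have : ∀ x y z : ZMod 2, x + y = x + z + (y + z) := by decide
    exact this _ _ _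
  refine ⟨val, val 0 0 0 + val 1 0 0 + val 2 0 0, fun s a₀ a₁ a => hval s a₀ a₁ a,
    fun a₀ a₁ c₀ c₁ e0 e1 => ?_, fun a₀ a₁ => ?_⟩
  · obtain ⟨d₀, d₁, g1, g2⟩ := h2 a₀ a₁ c₀ c₁
    have g0 := g2 0
    have g1' := g2 1
    rw [e0] at g0
    rw [e1] at g1'
    simp only [qval] at g0 g1'
    have : ∀ x y z : ZMod 2, x + x = y + z → y = z := by decide
    exact g1.2 ⟨this _ _ _ (by simpa using g0), this _ _ _ (by simpa using g1')⟩
  · obtain ⟨d₀, d₁, -, g2⟩ := h2 a₀ a₁ 0 0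
    have g0 : val 0 a₀ a₁ + val 0 0 0 = a₀ + d₀ := g2 0
    have g1 : val 1 a₀ a₁ + val 1 0 0 = a₁ + d₁ := g2 1
    have g3 : val 2 a₀ a₁ + val 2 0 0 = a₀ + a₁ + 0 + (d₀ + d₁ + 0) := g2 2
    have : ∀ x₀ x₁ x₂ y₀ y₁ y₂ a₀ a₁ d₀ d₁ : ZMod 2, x₀ + y₀ = a₀ + d₀ → x₁ + y₁ = a₁ + d₁ →
        x₂ + y₂ = a₀ + a₁ + 0 + (d₀ + d₁ + 0) → x₂ = x₀ + x₁ + (y₀ + y₁ + y₂) := by decide
    exact this _ _ _ _ _ _ _ _ _ _ g0 g1 g3

theorem Sim.main (h : Sim var H) : ∃ (b : ℕ → ZMod 2) (f : Fin ne × Kind → Fin ne × Kind),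
    Function.Injective f ∧ ∀ u w, H u w ↔ CFI ne var b (f u) (f w) := by
  choose val β hval hinj hsum using h.exists_val
  choose τMN hMN using fun (E : Fin ne) (s : Fin 3) =>
    h.matching (E := E) (E' := E) (isPair_M s) (isPair_N s)
  choose τMT hMT using fun (E : Fin ne) (s : Fin 3) =>
    h.matching (E := E) (E' := E) (isPair_M s) (isPair_T s)
  choose τNB hNB using fun (E : Fin ne) (s : Fin 3) =>
    h.matching (E := E) (E' := E) (isPair_N s) (isPair_B s)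
  choose τBB hBB using fun (x y : Fin ne × Fin 3) =>
    h.matching (E := x.1) (E' := y.1) (isPair_B x.2) (isPair_B y.2)
  obtain ⟨sB, hsB⟩ := exists_potential (fun x : Fin ne × Fin 3 => 3 * x.1.val + x.2.val)
    (fun x y => Link (3 * ne) var (3 * x.1.val + x.2.val) (3 * y.1.val + y.2.val))
    (fun x y hxy => hxy.1)
    (fun x x' y h1 h2 => by
      have := link_uniq (by have := y.1.isLt; have := y.2.isLt; omega) h1 h2
      exact Prod.ext (slot_eq_iff.1 this).1 (slot_eq_iff.1 this).2) τBB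
  let sN : Fin ne → Fin 3 → ZMod 2 := fun E s => sB (E, s) + τNB E s
  let sM : Fin ne → Fin 3 → ZMod 2 := fun E s => sN E s + τMN E s
  let sT : Fin ne → Fin 3 → ZMod 2 := fun E s => sM E s + τMT E s
  let b : ℕ → ZMod 2 := fun n =>
    if hn : n < ne then β ⟨n, hn⟩ + sT ⟨n, hn⟩ 0 + sT ⟨n, hn⟩ 1 + sT ⟨n, hn⟩ 2 else 0
  have hb : ∀ E : Fin ne, b E.val = β E + sT E 0 + sT E 1 + sT E 2 := fun E => dif_pos E.isLt
  let f : Fin ne × Kind → Fin ne × Kind := fun u =>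
    (u.1, twist (sM u.1) (sN u.1) (sT u.1) (fun s => sB (u.1, s)) (val u.1) u.2)
  have z1 : ∀ x y t u : ZMod 2, y = x + t ↔ x + (u + t) = y + u := by decide
  have z2 : ∀ x y t u : ZMod 2, y = x + t ↔ x + u = y + (u + t) := by decide
  -- the link case
  have hlink : ∀ (E E' : Fin ne) (s s' : Fin 3) (a a' : ZMod 2),
      Link (3 * ne) var (3 * E.val + s.val) (3 * E'.val + s'.val) →
      (H (E, .B s a) (E', .B s' a') ↔ CFI ne var b (f (E, .B s a)) (f (E', .B s' a'))) := by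
    intro E E' s s' a a' hl
    have hne : ¬ (E = E' ∧ s = s') := fun he => absurd (slot_eq_iff.2 he) hl.1.ne
    rw [hBB (E, s) (E', s') (fun c c' => by simp [cfi_BB, hl, hne])]
    change _ ↔ CFI ne var b (E, .B s (a + sB (E, s))) (E', .B s' (a' + sB (E', s')))
    rw [cfi_BB, hsB (E, s) (E', s') hl, ← z2]
    simp [hl, hne]
  have hspecial : ∀ (E E' : Fin ne) (κ κ' : Kind), special κ κ' = true →
      (H (E, κ) (E', κ') ↔ CFI ne var b (f (E, κ)) (f (E', κ'))) := by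
    intro E E' κ κ' hs
    obtain ⟨κ₀, hκ₀, hH, -, heq⟩ := h.exists_partner (E, κ) E' κ'
    cases κ <;> cases κ' <;> try exact Bool.noConfusion hs
    · rename_i s a s' a'
      change _ ↔ CFI ne var b (E, .M s (a + sM E s)) (E', .N s' (a' + sN E' s'))
      rw [cfi_MN]
      by_cases he : E = E' ∧ s = s'
      · obtain ⟨rfl, rfl⟩ := he
        rw [hMN E s (fun c c' => by simp [cfi_MN]), z1 _ _ _ (sN E s)]
        simp [sM]
      · obtain ⟨c, rfl⟩ := (isPair_N s').cls _ _ hκ₀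
        rw [hH, cfi_MN]
        simp [he]
    · rename_i s a s' a'
      change _ ↔ CFI ne var b (E, .M s (a + sM E s)) (E', .T s' (a' + sT E' s'))
      rw [cfi_MT]
      by_cases he : E = E' ∧ s = s'
      · obtain ⟨rfl, rfl⟩ := he
        rw [hMT E s (fun c c' => by simp [cfi_MT]), z2 _ _ _ (sM E s)]
        simp [sT]
      · obtain ⟨c, rfl⟩ := (isPair_T s').cls _ _ hκ₀
        rw [hH, cfi_MT]
        simp [he]
    · rename_i s a s' a'
      change _ ↔ CFI ne var b (E, .N s (a + sN E s)) (E', .B s' (a' + sB (E', s')))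
      rw [cfi_NB]
      by_cases he : E = E' ∧ s = s'
      · obtain ⟨rfl, rfl⟩ := he
        rw [hNB E s (fun c c' => by simp [cfi_NB]), z1 _ _ _ (sB (E, s))]
        simp [sN]
      · obtain ⟨c, rfl⟩ := (isPair_B s').cls _ _ hκ₀
        rw [hH, cfi_NB]
        simp [he]
    · rename_i s a a₀ a₁
      change _ ↔ CFI ne var b (E, .T s (a + sT E s))
        (E', .Q (val E' 0 a₀ a₁ + sT E' 0) (val E' 1 a₀ a₁ + sT E' 1))
      rw [cfi_TQ]
      by_cases he : E = E'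
      · subst he
        rw [hval, hb]
        have z3 : ∀ x y u : ZMod 2, x = y ↔ x + u = y + u := by decide
        have z4 : ∀ x v₀ v₁ β t₀ t₁ t₂ : ZMod 2, x = v₀ + v₁ + β ↔
            x + t₂ = v₀ + t₀ + (v₁ + t₁) + (β + t₀ + t₁ + t₂) := by decide
        simp only [true_and]
        fin_cases s
        · exact z3 _ _ _
        · exact z3 _ _ _
        · exact (hsum E a₀ a₁ ▸ z4 a _ _ (β E) (sT E 0) (sT E 1) (sT E 2) :
            a = val E 2 a₀ a₁ ↔ _)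
      · obtain ⟨c₀, c₁, rfl⟩ := cls_Q hκ₀
        rw [hH, cfi_TQ]
        simp [he]
    · rename_i s a s' a'
      by_cases hl : Link (3 * ne) var (3 * E.val + s.val) (3 * E'.val + s'.val)
      · exact hlink _ _ _ _ _ _ hl
      by_cases hl' : Link (3 * ne) var (3 * E'.val + s'.val) (3 * E.val + s.val)
      · rw [h.symm, cfi_symm]
        exact hlink _ _ _ _ _ _ hl'
      change _ ↔ CFI ne var b (E, .B s (a + sB (E, s))) (E', .B s' (a' + sB (E', s')))
      obtain ⟨c, rfl⟩ := (isPair_B s').cls _ _ hκ₀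
      rw [hH, cfi_BB, cfi_BB]
      by_cases he : E = E' ∧ s = s'
      · obtain ⟨rfl, rfl⟩ := he
        have : a = a' ↔ a = c := by simpa using heq
        simp [hl, this]
      · simp [hl, hl', he]
  refine ⟨b, f, ?_, ?_⟩
  · rintro ⟨E, κ⟩ ⟨E', κ'⟩ he
    obtain ⟨rfl, he⟩ := Prod.ext_iff.1 he
    exact Prod.ext rfl (twist_inj _ _ _ _ (hinj _) he)
  · rintro ⟨E, κ⟩ ⟨E', κ'⟩
    cases hs : special κ κ' with
    | true => exact hspecial _ _ _ _ hs
    | false =>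
      cases hs' : special κ' κ with
      | true =>
        rw [h.symm, cfi_symm]
        exact hspecial _ _ _ _ hs'
      | false =>
        obtain ⟨κ₀, hκ₀, hH, -, -⟩ := h.exists_partner (E, κ) E' κ'
        rw [hH]
        exact (cfi_generic hs hs' rfl hκ₀ _ _ E E').symm.trans
          (cfi_generic hs hs' (twist_cls _ _ _ _ _ _) (twist_cls _ _ _ _ _ _) (fun _ => 0) b E E')

end CfiStruct

/-- Recipe.  Let `π₀` be the bijection at the empty position; pulling `H` back along it we may assume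
`V' = V`, `W [(u, u)]` for all `u`.  Composing `W` with its inverse (`Win.trans`, `Win.symm`, `cfi_cls`)
shows that `W [(u, u')]` forces equal classes.  For every `u'` the bijection `π` of `Win.nbr` at `(u', u')`
preserves classes and `H u' (π z) ↔ CFI 0 u' z`, `H (π z) u' ↔ CFI 0 z u'`.  So between two classes `H`
is empty / complete when `CFI 0` is; between matched pair classes `c, c'` (`M-N`, `M-T`, `N-B`, linked
`B-B`) it is a perfect matching, `H (c,a) (c',a') ↔ a' = a + τ c c'`; twins stay; every `Q` vertex `x` of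
`e` has exactly one `H`-neighbour `(T s (val s x))` for each `s`.  Two distinct `Q` vertices of `e` have
`val` vectors differing in exactly two places (a winning position on both and a third pebble: they have
a common neighbour in `T s` iff their partners do), so `x ↦ (val 0 x, val 1 x)` is a bijection and
`val 0 x + val 1 x + val 2 x = β e` is constant.  Define shifts by strong recursion on the slot number:
`sB σ = 0` if `First σ`, else `sB σ₀ + τ` for the `Link σ₀ σ`; then `sN, sM, sT` along the matchings.  The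
isomorphism sends `(c, a)` to `(c, a + s c)` and `Q a₀ a₁` to the `x` with `val 0 x = a₀ + sT (3e)`,
`val 1 x = a₁ + sT (3e+1)`; `b e := β e + sT (3e) + sT (3e+1) + sT (3e+2)`. -/
theorem cfi_struct {V' : Type} {H : V' → V' → Prop} {K : ℕ} (hK : 3 ≤ K)
    (h : Game K (CFI ne var fun _ => 0) H) :
    ∃ (b : ℕ → ZMod 2) (e : Fin ne × Kind ≃ V'), ∀ a c, H (e a) (e c) ↔ CFI ne var b a c := by
  obtain ⟨W, hW⟩ := h
  obtain ⟨π₀, hπ₀⟩ := hW.ext hW.nil (by simp; omega)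
  have hW₀ : Win K (CFI ne var fun _ => 0) (fun u w => H (π₀ u) (π₀ w))
      (fun l => W (l.map (Prod.map id π₀))) := by
    refine ⟨hW.nil, fun hl hs => hW.sub hl (List.map_subset _ hs), fun {l p q} hl hp hq => ?_,
      fun {l p q} hl hp hq => ?_, fun {l} hl hlen => ?_⟩
    · have := hW.eq_iff hl (List.mem_map_of_mem hp) (List.mem_map_of_mem hq)
      simpa using this
    · exact hW.adj hl (List.mem_map_of_mem hp) (List.mem_map_of_mem hq)
    · obtain ⟨π, hπ⟩ := hW.ext hl (by simpa using hlen)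
      exact ⟨π.trans π₀.symm, fun z => by simpa using hπ z⟩
  obtain ⟨b, f, hf, hH⟩ := (CfiStruct.sim_of_win hK hW₀ hπ₀).main
  let e := Equiv.ofBijective f (Finite.injective_iff_bijective.1 hf)
  refine ⟨b, e.symm.trans π₀, fun a c => ?_⟩
  rw [Equiv.trans_apply, Equiv.trans_apply, hH]
  change CFI ne var b (e (e.symm a)) (e (e.symm c)) ↔ _
  rw [Equiv.apply_symm_apply, Equiv.apply_symm_apply]

end Crest.Agent.R290
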