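/-
R290/CfiXor: a winning family on the CFI graphs gives one on the XOR system.
Skeleton by helper86; keep the statements of the theorems unchanged (add any helper lemmas you like).
-/
import Crest.Agent.R290.CfiCls

set_option autoImplicit false

namespace Crest.Agent.R290

variable {Y : Type} {ne : ℕ} {var : ℕ → Y} {b : ℕ → ZMod 2}

namespace CfiXor

/-- The value carried by a vertex, read at slot `s` for equation vertices. -/
def val (b : ℕ → ZMod 2) (u : Fin ne × Kind) (s : Fin 3) : ZMod 2 :=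
  match u.2 with
  | .M _ a | .N _ a | .T _ a | .B _ a => a
  | .Q a₀ a₁ => qval s a₀ a₁ (b u.1)
  | _ => 0

/-- Synchronised ports. -/
def Sync (b : ℕ → ZMod 2) (W : List ((Fin ne × Kind) × (Fin ne × Kind)) → Prop)
    (u : Fin ne × Kind) (s : Fin 3) (w : Fin ne × Kind) (t : Fin 3) : Prop :=
  ∀ u' w', W [(u, u'), (w, w')] → val b u' s = val b w' t

theorem cls_M {κ : Kind} {s : Fin 3} (h : Kind.M s 0 = κ.cls) : ∃ a, κ = .M s a := by
  cases κ <;> simp_all [Kind.cls]

theorem cls_N {κ : Kind} {s : Fin 3} (h : Kind.N s 0 = κ.cls) : ∃ a, κ = .N s a := by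
  cases κ <;> simp_all [Kind.cls]

theorem cls_T {κ : Kind} {s : Fin 3} (h : Kind.T s 0 = κ.cls) : ∃ a, κ = .T s a := by
  cases κ <;> simp_all [Kind.cls]

theorem cls_B {κ : Kind} {s : Fin 3} (h : Kind.B s 0 = κ.cls) : ∃ a, κ = .B s a := by
  cases κ <;> simp_all [Kind.cls]

theorem cls_Q {κ : Kind} (h : Kind.Q 0 0 = κ.cls) : ∃ a₀ a₁, κ = .Q a₀ a₁ := by
  cases κ <;> simp_all [Kind.cls]

variable {K : ℕ} {W : List ((Fin ne × Kind) × (Fin ne × Kind)) → Prop}

theorem Sync.refl (h : Win K (CFI ne var fun _ => 0) (CFI ne var b) W) (u : Fin ne × Kind)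
    (s : Fin 3) : Sync b W u s u s := by
  intro u' w' hW
  have := (h.eq_iff hW (p := (u, u')) (q := (u, w')) (by simp) (by simp)).1 rfl
  simp only at this
  rw [this]

theorem Sync.symm (h : Win K (CFI ne var fun _ => 0) (CFI ne var b) W) {u w : Fin ne × Kind}
    {s t : Fin 3} (h1 : Sync b W u s w t) : Sync b W w t u s := by
  intro w' u' hW
  exact (h1 u' w' (h.sub hW (by simp))).symm

theorem Sync.trans (hK : 3 ≤ K) (h : Win K (CFI ne var fun _ => 0) (CFI ne var b) W)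
    {u w x : Fin ne × Kind} {s t r : Fin 3} (h1 : Sync b W u s w t) (h2 : Sync b W w t x r) :
    Sync b W u s x r := by
  intro u' x' hW
  obtain ⟨π, hπ⟩ := h.ext hW (by simp; omega)
  exact (h1 u' (π w) (h.sub (hπ w) (by simp))).trans (h2 (π w) x' (h.sub (hπ w) (by simp)))

/-- the data of a winning two-pebble position on adjacent vertices. -/
theorem two_pos (hK : 3 ≤ K) (h : Win K (CFI ne var fun _ => 0) (CFI ne var b) W)
    {u w u' w' : Fin ne × Kind} (hW : W [(u, u'), (w, w')])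
    (hadj : CFI ne var (fun _ => 0) u w) :
    (u.1 = u'.1 ∧ u.2.cls = u'.2.cls) ∧ (w.1 = w'.1 ∧ w.2.cls = w'.2.cls) ∧
      CFI ne var b u' w' :=
  ⟨cfi_cls (by omega) h (h.sub hW (by simp)), cfi_cls (by omega) h (h.sub hW (by simp)),
    (h.adj hW (p := (u, u')) (q := (w, w')) (by simp) (by simp)).1 hadj⟩

theorem sync_QT (hK : 3 ≤ K) (h : Win K (CFI ne var fun _ => 0) (CFI ne var b) W) (e : Fin ne)
    (s : Fin 3) : Sync b W (e, .Q 0 0) s (e, .T s 0) 0 := by
  rintro ⟨e₁, κ₁⟩ ⟨e₂, κ₂⟩ hW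
  obtain ⟨⟨h1, h2⟩, ⟨h3, h4⟩, h5⟩ := two_pos hK h hW (by simp [CFI, ArcN, ArcP, qval])
  obtain ⟨a₀, a₁, rfl⟩ := cls_Q h2
  obtain ⟨a, rfl⟩ := cls_T h4
  simp only at h1 h3
  subst h1 h3
  simp only [CFI, ArcN, ArcP, false_or, true_and] at h5
  simp only [val, h5]

theorem sync_TM (hK : 3 ≤ K) (h : Win K (CFI ne var fun _ => 0) (CFI ne var b) W) (e : Fin ne)
    (s : Fin 3) : Sync b W (e, .T s 0) 0 (e, .M s 0) 0 := by
  rintro ⟨e₁, κ₁⟩ ⟨e₂, κ₂⟩ hW
  obtain ⟨⟨h1, h2⟩, ⟨h3, h4⟩, h5⟩ :=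
    two_pos hK h hW (by simp [CFI, ArcN, ArcP, Kind.slot])
  obtain ⟨a', rfl⟩ := cls_T h2
  obtain ⟨a, rfl⟩ := cls_M h4
  simp only [CFI, ArcN, ArcP, false_or] at h5
  simp only [val, h5.2]

theorem sync_MN (hK : 3 ≤ K) (h : Win K (CFI ne var fun _ => 0) (CFI ne var b) W) (e : Fin ne)
    (s : Fin 3) : Sync b W (e, .M s 0) 0 (e, .N s 0) 0 := by
  rintro ⟨e₁, κ₁⟩ ⟨e₂, κ₂⟩ hW
  obtain ⟨⟨h1, h2⟩, ⟨h3, h4⟩, h5⟩ :=
    two_pos hK h hW (by simp [CFI, ArcN, ArcP, Kind.slot])
  obtain ⟨a', rfl⟩ := cls_M h2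
  obtain ⟨a, rfl⟩ := cls_N h4
  simp only [CFI, ArcN, ArcP, or_false] at h5
  simp only [val, h5.2]

theorem sync_NB (hK : 3 ≤ K) (h : Win K (CFI ne var fun _ => 0) (CFI ne var b) W) (e : Fin ne)
    (s : Fin 3) : Sync b W (e, .N s 0) 0 (e, .B s 0) 0 := by
  rintro ⟨e₁, κ₁⟩ ⟨e₂, κ₂⟩ hW
  obtain ⟨⟨h1, h2⟩, ⟨h3, h4⟩, h5⟩ :=
    two_pos hK h hW (by simp [CFI, ArcN, ArcP, Kind.slot])
  obtain ⟨a', rfl⟩ := cls_N h2
  obtain ⟨a, rfl⟩ := cls_B h4
  simp only [CFI, ArcN, ArcP, or_false] at h5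
  simp only [val, h5.2]

theorem sync_link (hK : 3 ≤ K) (h : Win K (CFI ne var fun _ => 0) (CFI ne var b) W)
    {e e' : Fin ne} {s s' : Fin 3}
    (hl : Link (3 * ne) var (3 * e.val + s.val) (3 * e'.val + s'.val)) :
    Sync b W (e, .B s 0) 0 (e', .B s' 0) 0 := by
  rintro ⟨e₁, κ₁⟩ ⟨e₂, κ₂⟩ hW
  obtain ⟨⟨h1, h2⟩, ⟨h3, h4⟩, h5⟩ :=
    two_pos hK h hW (Or.inl (Or.inl ⟨hl, rfl⟩))
  obtain ⟨a', rfl⟩ := cls_B h2
  obtain ⟨a, rfl⟩ := cls_B h4
  simp only at h1 h3
  subst h1 h3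
  have hlt := hl.1
  simp only [CFI, ArcN, ArcP, Kind.slot] at h5
  simp only [val]
  rcases h5 with (h5 | h5) | (h5 | h5)
  · exact h5.2
  · omega
  · exact h5.2.symm
  · omega

theorem sync_lt (hK : 3 ≤ K) (h : Win K (CFI ne var fun _ => 0) (CFI ne var b) W) (n : ℕ) :
    ∀ {e e' : Fin ne} {s s' : Fin 3}, 3 * e.val + s.val < 3 * e'.val + s'.val →
      3 * e'.val + s'.val ≤ 3 * e.val + s.val + n →
      var (3 * e.val + s.val) = var (3 * e'.val + s'.val) →
      Sync b W (e, .B s 0) 0 (e', .B s' 0) 0 := by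
  induction n with
  | zero => intro e e' s s' h1 h2; omega
  | succ n ih =>
    intro e e' s s' h1 h2 h3
    by_cases hl : Link (3 * ne) var (3 * e.val + s.val) (3 * e'.val + s'.val)
    · exact sync_link hK h hl
    · have : ∃ τ < 3 * ne, 3 * e.val + s.val < τ ∧ τ < 3 * e'.val + s'.val ∧
          var τ = var (3 * e.val + s.val) := by
        by_contra hn
        exact hl ⟨h1, h3, fun τ hτ h4 h5 h6 => hn ⟨τ, hτ, h4, h5, h6⟩⟩
      obtain ⟨τ, hτ, h4, h5, h6⟩ := this
      have hτ' : τ = 3 * (⟨τ / 3, by omega⟩ : Fin ne).val + (⟨τ % 3, by omega⟩ : Fin 3).val := by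
        simp only; omega
      rw [hτ'] at h4 h5 h6
      exact Sync.trans hK h (ih h4 (by omega) h6.symm) (ih h5 (by omega) (h6.trans h3))

theorem sync_B (hK : 3 ≤ K) (h : Win K (CFI ne var fun _ => 0) (CFI ne var b) W)
    {e e' : Fin ne} {s s' : Fin 3} (hv : var (3 * e.val + s.val) = var (3 * e'.val + s'.val)) :
    Sync b W (e, .B s 0) 0 (e', .B s' 0) 0 := by
  rcases lt_trichotomy (3 * e.val + s.val) (3 * e'.val + s'.val) with h1 | h1 | h1
  · exact sync_lt hK h _ h1 (Nat.le_add_left _ _) hv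
  · have he : e = e' := Fin.ext (by omega)
    have hs : s = s' := Fin.ext (by omega)
    subst he hs
    exact Sync.refl h _ _
  · exact Sync.symm h (sync_lt hK h _ h1 (Nat.le_add_left _ _) hv.symm)

theorem sync_QB (hK : 3 ≤ K) (h : Win K (CFI ne var fun _ => 0) (CFI ne var b) W) (e : Fin ne)
    (s : Fin 3) : Sync b W (e, .Q 0 0) s (e, .B s 0) 0 :=
  Sync.trans hK h (Sync.trans hK h (Sync.trans hK h (sync_QT hK h e s) (sync_TM hK h e s))
    (sync_MN hK h e s)) (sync_NB hK h e s)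

/-- consistency of the values read off two pebbled equation vertices. -/
theorem key (hK : 3 ≤ K) (h : Win K (CFI ne var fun _ => 0) (CFI ne var b) W)
    {e e' : Fin ne} {s s' : Fin 3} {a₀ a₁ a₀' a₁' : ZMod 2}
    (hW : W [((e, .Q 0 0), (e, .Q a₀ a₁)), ((e', .Q 0 0), (e', .Q a₀' a₁'))])
    (hv : varE ne var e s = varE ne var e' s') :
    qval s a₀ a₁ (b e) = qval s' a₀' a₁' (b e') :=
  Sync.trans hK h (Sync.trans hK h (sync_QB hK h e s) (sync_B hK h hv))
    (Sync.symm h (sync_QB hK h e' s')) _ _ hW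

theorem qval_of_sat {g : Y → ZMod 2} {e : Fin ne} (hs : Sat (varE ne var) (rhsE ne b) g e)
    (s : Fin 3) :
    qval s (g (varE ne var e 0)) (g (varE ne var e 1)) (b e) = g (varE ne var e s) := by
  have h2 : ∀ x y z β : ZMod 2, x + y + z = β → x + y + β = z := by decide
  fin_cases s
  · simp [qval]
  · simp [qval]
  · simpa [qval, rhsE] using h2 _ _ _ _ hs

end CfiXor

/-- Recipe.  `W' S g := W (S.map fun e => ((e, Q 0 0), (e, Q (g (var (3e))) (g (var (3e+1)))))) ∧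
∀ e ∈ S, Sat g e`.  Key lemma (consistency): if `W [((e, Q 0 0), (e, Q a₀ a₁)), ((e', Q 0 0), (e', Q a₀' a₁'))]`
and `var (3e+s) = var (3e'+s')` then `qval s a₀ a₁ (b e) = qval s' a₀' a₁' (b e')`.  Proof: give every
vertex with value `0` of a pair class (and `Q 0 0` with a chosen slot) a "shift", read off its partner
(same class by `cfi_cls`); call two such vertices synchronised if their shifts agree in every winning
2-pebble position.  Adjacent ones (`Q-T`, `T-M`, `M-N`, `N-B`, `B-B` along a `Link`) are synchronised by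
`adj`; synchronisation is transitive (third pebble, `3 ≤ K`, then `sub`); slots with the same variable
are joined by a chain of `Link`s (induction on the difference).  For the extension by `z`: `π (z, Q 0 0)`
is some `(z, Q a₀ a₁)`; put `g' y := if ∃ s, var (3z+s) = y then qval s a₀ a₁ (b z) else g y`. -/
theorem xdup_of_cfi_game {K : ℕ} (hK : 3 ≤ K)
    (h : Game K (CFI ne var fun _ => 0) (CFI ne var b)) : XDup K (varE ne var) (rhsE ne b) := by
  classical
  obtain ⟨W, h⟩ := h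
  refine ⟨fun S g => W (S.map fun e =>
      ((e, Kind.Q 0 0), (e, Kind.Q (g (varE ne var e 0)) (g (varE ne var e 1))))) ∧
      ∀ e ∈ S, Sat (varE ne var) (rhsE ne b) g e, ⟨fun _ => 0, h.nil, by simp⟩, ?_, ?_, ?_⟩
  · rintro S S' g ⟨h1, h2⟩ hs
    exact ⟨h.sub h1 (List.map_subset _ hs), fun e he => h2 e (hs he)⟩
  · rintro S g e ⟨-, h2⟩ he
    exact h2 e he
  · rintro S g ⟨h1, h2⟩ hS z
    obtain ⟨π, hπ⟩ := h.ext h1 (by simpa using hS)
    have hz := hπ (z, Kind.Q 0 0)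
    obtain ⟨h3, h4⟩ := cfi_cls (by omega) h (u := (z, Kind.Q 0 0)) (u' := π (z, Kind.Q 0 0))
      (h.sub hz (by simp))
    obtain ⟨a₀, a₁, h5⟩ := CfiXor.cls_Q h4
    have h6 : π (z, Kind.Q 0 0) = (z, Kind.Q a₀ a₁) := Prod.ext h3.symm h5
    rw [h6] at hz
    let g' : Y → ZMod 2 := fun y =>
      if hy : ∃ s, varE ne var z s = y then qval hy.choose a₀ a₁ (b z) else g y
    have hg1 : ∀ s, g' (varE ne var z s) = qval s a₀ a₁ (b z) := by
      intro s
      have hy : ∃ s', varE ne var z s' = varE ne var z s := ⟨s, rfl⟩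
      simp only [g', dif_pos hy]
      exact CfiXor.key hK h (h.sub hz (by simp)) hy.choose_spec
    have hg2 : ∀ e ∈ S, Agree (varE ne var) g g' e := by
      intro e he s
      by_cases hy : ∃ s', varE ne var z s' = varE ne var e s
      · simp only [g', dif_pos hy]
        rw [← CfiXor.qval_of_sat (h2 e he) s]
        refine CfiXor.key hK h (h.sub hz ?_) hy.choose_spec
        refine List.cons_subset_cons _ ?_
        intro p hp
        rw [List.mem_singleton.1 hp]
        exact List.mem_map_of_mem (f := fun e : Fin ne =>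
          ((e, Kind.Q 0 0), (e, Kind.Q (g (varE ne var e 0)) (g (varE ne var e 1))))) he
      · simp only [g', dif_neg hy]
    refine ⟨g', hg2, ?_, ?_⟩
    · rw [List.map_cons, hg1 0, hg1 1,
        List.map_congr_left (g := fun e : Fin ne =>
          ((e, Kind.Q 0 0), (e, Kind.Q (g (varE ne var e 0)) (g (varE ne var e 1)))))
          (fun e he => by rw [hg2 e he 0, hg2 e he 1])]
      simpa [qval] using hz
    · intro e he
      rcases List.mem_cons.1 he with rfl | he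
      · have h7 : ∀ x y β : ZMod 2, x + y + (x + y + β) = β := by decide
        simp only [Sat, hg1]
        simpa [qval, rhsE] using h7 a₀ a₁ (b e)
      · have := h2 e he
        simp only [Sat] at this ⊢
        rw [hg2 e he 0, hg2 e he 1, hg2 e he 2]
        exact this

end Crest.Agent.R290
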