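/-
R290/GameWL: the pebble game characterises the Weisfeiler-Leman equivalences of `Def_WL`.
Skeleton by helper86; keep the statements of the theorems unchanged (add any helper lemmas you like).
-/
import Crest.Agent.R290.GameBasic

set_option autoImplicit false

namespace Crest.Agent.R290

open Crest.WLRefine

variable {n m K k : ℕ} {G : Fin n → Fin n → Bool} {H : Fin m → Fin m → Bool}

section Aux
open Finset

theorem wl_map_eq {α β γ : Type} [Fintype α] [Fintype β] {f : α → γ} {g : β → γ} (π : α ≃ β)
    (h : ∀ z, f z = g (π z)) : (univ : Finset α).val.map f = (univ : Finset β).val.map g := by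
  rw [← Multiset.map_univ_val_equiv π, Multiset.map_map]
  exact Multiset.map_congr rfl fun z _ => h z

theorem wl_exists_equiv {α β γ : Type} [Fintype α] [Fintype β] {f : α → γ} {g : β → γ}
    (h : (univ : Finset α).val.map f = (univ : Finset β).val.map g) :
    ∃ π : α ≃ β, ∀ z, f z = g (π z) := by
  classical
  have hc : ∀ c, Fintype.card {a // f a = c} = Fintype.card {b // g b = c} := by
    intro c
    have h1 := congrArg (Multiset.count c) h
    rw [Multiset.count_map, Multiset.count_map] at h1
    rw [Fintype.card_subtype, Fintype.card_subtype]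
    simp only [eq_comm (b := c)]
    exact h1
  exact ⟨Equiv.ofFiberEquiv fun c => Fintype.equivOfCardEq (hc c), fun z =>
    (Equiv.ofFiberEquiv_map (fun c => Fintype.equivOfCardEq (hc c)) z).symm⟩

theorem wl_exists_equiv_all {α β : Type} [Fintype α] [Fintype β] {C : ℕ → Type}
    {f : ∀ s, α → C s} {g : ∀ s, β → C s}
    (hmono : ∀ s a b, f (s + 1) a = g (s + 1) b → f s a = g s b)
    (h : ∀ s, (univ : Finset α).val.map (f s) = (univ : Finset β).val.map (g s)) :
    ∃ π : α ≃ β, ∀ s z, f s z = g s (π z) := by
  classical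
  have hle : ∀ s t a b, s ≤ t → f t a = g t b → f s a = g s b := by
    intro s t a b hst
    induction hst with
    | refl => exact id
    | step _ ih => exact fun h' => ih (hmono _ _ _ h')
  by_contra hcon
  push Not at hcon
  choose t z hz using hcon
  obtain ⟨π, hπ⟩ := wl_exists_equiv (h ((univ : Finset (α ≃ β)).sup t))
  exact hz π (hle _ _ _ _ (le_sup (f := t) (mem_univ π)) (hπ _))

theorem wl_miss {ι P : Type} [Fintype ι] (w : ι → P) (l : List P) (hl : ∀ p ∈ l, ∃ i, p = w i)
    (hlen : l.length < Fintype.card ι) : ∃ o, ∀ p ∈ l, ∃ i, i ≠ o ∧ p = w i := by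
  classical
  choose c hc using hl
  have h1 : (l.attach.map fun p => c p.1 p.2).toFinset.card < (univ : Finset ι).card := by
    refine lt_of_le_of_lt (List.toFinset_card_le _) ?_
    simpa using hlen
  obtain ⟨o, -, ho⟩ := exists_mem_notMem_of_card_lt_card h1
  refine ⟨o, fun p hp => ⟨c p hp, ?_, hc p hp⟩⟩
  rintro rfl
  exact ho (List.mem_toFinset.2 (List.mem_map.2 ⟨⟨p, hp⟩, List.mem_attach _ _, rfl⟩))

end Aux

theorem Win.atomic_eq {W : List (Fin n × Fin m) → Prop} (h : Win K (mat G) (mat H) W)
    (u : Fin k → Fin n) (v : Fin k → Fin m) (huv : W (List.ofFn fun i => (u i, v i))) :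
    atomicType G u = atomicType H v := by
  have hm : ∀ i, (u i, v i) ∈ List.ofFn fun i => (u i, v i) := fun i => List.mem_ofFn.2 ⟨i, rfl⟩
  refine Prod.ext ?_ ?_
  · funext i j
    exact decide_eq_decide.2 (h.eq_iff huv (hm i) (hm j))
  · funext i j
    exact Bool.eq_iff_iff.2 (h.adj huv (hm i) (hm j))

theorem wl_of_atomic {u : Fin k → Fin n} {v : Fin k → Fin m} (h : atomicType G u = atomicType H v)
    (i j : Fin k) : (u i = u j ↔ v i = v j) ∧ (mat G (u i) (u j) ↔ mat H (v i) (v j)) :=
  ⟨decide_eq_decide.1 (congrFun (congrFun (congrArg Prod.fst h) i) j),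
    Bool.eq_iff_iff.1 (congrFun (congrFun (congrArg Prod.snd h) i) j)⟩

theorem wl_empty (hk : 1 ≤ k) (Φ : (Fin k → Fin n) ≃ (Fin k → Fin m)) (hn : IsEmpty (Fin n)) :
    IsEmpty (Fin m) :=
  ⟨fun b => hn.false (Φ.symm (fun _ => b) ⟨0, hk⟩)⟩

/-- Induction on `s` (for all `u`, `v`): `List.ofFn (u, v)` has length `k < k + 1`; with the bijection
`π` of `ext`, each updated pair of tuples lies inside the extended position, and the multisets agree by
`Finset.univ.val.map` along `π` (`Multiset.map_univ_val_equiv` / `Finset.map_univ_equiv`). -/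
theorem Win.jcolor_eq {W : List (Fin n × Fin m) → Prop} (h : Win (k + 1) (mat G) (mat H) W) (s : ℕ)
    (u : Fin k → Fin n) (v : Fin k → Fin m) (huv : W (List.ofFn fun i => (u i, v i))) :
    jcolor G k s u = jcolor H k s v := by
  induction s generalizing u v with
  | zero => exact h.atomic_eq u v huv
  | succ s ih =>
    obtain ⟨π, hπ⟩ := h.ext huv (by simp)
    refine Prod.ext (ih u v huv) (wl_map_eq π fun z => funext fun i => ih _ _ (h.sub (hπ z) ?_))
    intro p hp
    obtain ⟨j, rfl⟩ := List.mem_ofFn.1 hp
    by_cases hj : j = i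
    · subst hj; simp
    · simp only [Function.update_of_ne hj]
      exact List.mem_cons_of_mem _ (List.mem_ofFn.2 ⟨j, rfl⟩)

/-- Same, but for coordinate `i` first drop the pair at `i` (a list of length `k - 1 < k`, e.g.
`((List.finRange k).filter (· ≠ i)).map ..` or `(List.ofFn ..).eraseIdx i`). -/
theorem Win.scolor_eq {W : List (Fin n × Fin m) → Prop} (h : Win k (mat G) (mat H) W) (s : ℕ)
    (u : Fin k → Fin n) (v : Fin k → Fin m) (huv : W (List.ofFn fun i => (u i, v i))) :
    scolor G k s u = scolor H k s v := by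
  induction s generalizing u v with
  | zero => exact h.atomic_eq u v huv
  | succ s ih =>
    refine Prod.ext (ih u v huv) (funext fun i => ?_)
    have h1 : W (((List.finRange k).erase i).map fun j => (u j, v j)) := by
      refine h.sub huv fun p hp => ?_
      obtain ⟨j, -, rfl⟩ := List.mem_map.1 hp
      exact List.mem_ofFn.2 ⟨j, rfl⟩
    obtain ⟨π, hπ⟩ := h.ext h1 (by
      rw [List.length_map, List.length_erase_of_mem (List.mem_finRange i), List.length_finRange]
      have := i.pos
      omega)
    refine wl_map_eq π fun z => ih _ _ (h.sub (hπ z) ?_)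
    intro p hp
    obtain ⟨j, rfl⟩ := List.mem_ofFn.1 hp
    by_cases hj : j = i
    · subst hj; simp
    · simp only [Function.update_of_ne hj]
      exact List.mem_cons_of_mem _
        (List.mem_map.2 ⟨j, (List.mem_erase_of_ne hj).2 (List.mem_finRange j), rfl⟩)

/-- `←`: `exists_tuple_equiv` and `jcolor_eq`.  `→`: call `(u, v)` stable if the colours agree at every
round.  Equal multisets `univ.val.map f = univ.val.map g` give a bijection `π` with `f z = g (π z)`
(`Multiset.map_eq_map`-type lemma / `Equiv.ofFiberEquiv`, `Fintype.card` of fibres); colour equality at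
round `s + 1` implies it at round `s`; there are finitely many bijections, so one works for all rounds.
`W l :=  l = [] ∨ ∃ u v z z', (u, v) stable ∧ (∀ i, (update u i z, update v i z') stable) ∧
l ⊆ (z, z') :: pairs (u, v)`.  Two elements of such a position lie in a common stable `k`-tuple since
`2 ≤ k`; a position of length `≤ k` lies in a stable `k`-tuple (pigeonhole on indices in `Option (Fin k)`).
At the empty position: if `n = 0` then `m = 0` (histogram sizes); else there is a stable pair. -/
theorem jequiv_iff_game (hk : 2 ≤ k) : JEquiv k G H ↔ Game (k + 1) (mat G) (mat H) := by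
  constructor
  · intro hJ
    let St : (Fin k → Fin n) → (Fin k → Fin m) → Prop := fun u v =>
      ∀ s, jcolor G k s u = jcolor H k s v
    let Cov : List (Fin n × Fin m) → Prop := fun l =>
      ∃ u v, St u v ∧ ∀ p ∈ l, ∃ i, p = (u i, v i)
    let W : List (Fin n × Fin m) → Prop := fun l => l = [] ∨ ∃ u v z z', St u v ∧
      (∀ i, St (Function.update u i z) (Function.update v i z')) ∧
      ∀ p ∈ l, p = (z, z') ∨ ∃ i, p = (u i, v i)
    have hsub : ∀ {l l'}, W l → l' ⊆ l → W l' := by
      rintro l l' (rfl | ⟨u, v, z, z', h1, h2, h3⟩) hl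
      · exact Or.inl (List.eq_nil_of_subset_nil hl)
      · exact Or.inr ⟨u, v, z, z', h1, h2, fun p hp => h3 p (hl hp)⟩
    have hcov : ∀ {l}, W l → l.length ≤ k → l = [] ∨ Cov l := by
      rintro l (rfl | ⟨u, v, z, z', h1, h2, h3⟩) hl
      · exact Or.inl rfl
      right
      obtain ⟨o, ho⟩ := wl_miss (fun o : Option (Fin k) => o.elim (z, z') fun i => (u i, v i)) l
        (fun p hp => by
          rcases h3 p hp with rfl | ⟨i, rfl⟩
          · exact ⟨none, rfl⟩
          · exact ⟨some i, rfl⟩) (by simpa using Nat.lt_succ_of_le hl)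
      rcases o with _ | i
      · refine ⟨u, v, h1, fun p hp => ?_⟩
        obtain ⟨_ | j, hj, rfl⟩ := ho p hp
        · exact absurd rfl hj
        · exact ⟨j, rfl⟩
      · refine ⟨_, _, h2 i, fun p hp => ?_⟩
        obtain ⟨_ | j, hj, rfl⟩ := ho p hp
        · exact ⟨i, by simp⟩
        · have hji : j ≠ i := fun e => hj (by rw [e])
          exact ⟨j, by simp [Function.update_of_ne hji]⟩
    have hpair : ∀ {l p q}, W l → p ∈ l → q ∈ l →
        (p.1 = q.1 ↔ p.2 = q.2) ∧ (mat G p.1 q.1 ↔ mat H p.2 q.2) := by
      intro l p q hl hp hq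
      have h1 : W [p, q] := hsub hl (by simp [hp, hq])
      rcases hcov h1 hk with h2 | ⟨u, v, h2, h3⟩
      · simp at h2
      obtain ⟨i, rfl⟩ := h3 p (by simp)
      obtain ⟨j, rfl⟩ := h3 q (by simp)
      exact wl_of_atomic (h2 0) i j
    have hext : ∀ {l}, Cov l → ∃ π : Fin n ≃ Fin m, ∀ z, W ((z, π z) :: l) := by
      rintro l ⟨u, v, h1, h2⟩
      obtain ⟨π, hπ⟩ := wl_exists_equiv_all (C := fun s => Fin k → JColor k s)
        (f := fun s z i => jcolor G k s (Function.update u i z))
        (g := fun s z i => jcolor H k s (Function.update v i z))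
        (fun s a b hab => funext fun i => congrArg Prod.fst (congrFun hab i))
        (fun s => congrArg Prod.snd (h1 (s + 1)))
      refine ⟨π, fun z => Or.inr ⟨u, v, z, π z, h1, fun i s => congrFun (hπ s z) i, ?_⟩⟩
      intro p hp
      rcases List.mem_cons.1 hp with rfl | hp
      · exact Or.inl rfl
      · exact Or.inr (h2 p hp)
    refine ⟨W, Or.inl rfl, hsub, fun hl hp hq => (hpair hl hp hq).1,
      fun hl hp hq => (hpair hl hp hq).2, fun {l} hl hlen => ?_⟩
    rcases hcov hl (by omega) with rfl | h1
    · obtain ⟨Φ, hΦ⟩ := wl_exists_equiv_all (C := JColor k) (f := jcolor G k) (g := jcolor H k)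
        (fun s a b hab => congrArg Prod.fst hab) hJ
      rcases isEmpty_or_nonempty (Fin n) with hn | ⟨⟨a⟩⟩
      · have := wl_empty (by omega) Φ hn
        exact ⟨Equiv.equivOfIsEmpty _ _, fun z => hn.elim z⟩
      · exact hext ⟨fun _ => a, Φ fun _ => a, fun s => hΦ s _, by simp⟩
    · exact hext h1
  · rintro ⟨W, hW⟩ s
    obtain ⟨Φ, hΦ⟩ := hW.exists_tuple_equiv (k := k) (by omega)
    exact wl_map_eq Φ fun u => hW.jcolor_eq s u _ (hΦ u)

/-- As above with `W l := l = [] ∨ ∃ u v, stable ∧ l ⊆ pairs (u, v)`; a position of length `< k`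
misses some index `i`. -/
theorem sequiv_iff_game (hk : 2 ≤ k) : SEquiv k G H ↔ Game k (mat G) (mat H) := by
  constructor
  · intro hS
    let St : (Fin k → Fin n) → (Fin k → Fin m) → Prop := fun u v =>
      ∀ s, scolor G k s u = scolor H k s v
    let Cov : List (Fin n × Fin m) → Prop := fun l =>
      ∃ u v, St u v ∧ ∀ p ∈ l, ∃ i, p = (u i, v i)
    let W : List (Fin n × Fin m) → Prop := fun l => l = [] ∨ Cov l
    have hsub : ∀ {l l'}, W l → l' ⊆ l → W l' := by
      rintro l l' (rfl | ⟨u, v, h1, h3⟩) hl
      · exact Or.inl (List.eq_nil_of_subset_nil hl)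
      · exact Or.inr ⟨u, v, h1, fun p hp => h3 p (hl hp)⟩
    have hpair : ∀ {l p q}, W l → p ∈ l → q ∈ l →
        (p.1 = q.1 ↔ p.2 = q.2) ∧ (mat G p.1 q.1 ↔ mat H p.2 q.2) := by
      rintro l p q (rfl | ⟨u, v, h2, h3⟩) hp hq
      · simp at hp
      obtain ⟨i, rfl⟩ := h3 p hp
      obtain ⟨j, rfl⟩ := h3 q hq
      exact wl_of_atomic (h2 0) i j
    have hext : ∀ {l}, Cov l → l.length < k → ∃ π : Fin n ≃ Fin m, ∀ z, W ((z, π z) :: l) := by
      rintro l ⟨u, v, h1, h2⟩ hlen
      obtain ⟨i, hi⟩ := wl_miss (fun i => (u i, v i)) l h2 (by simpa using hlen)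
      obtain ⟨π, hπ⟩ := wl_exists_equiv_all (C := SColor k)
        (f := fun s z => scolor G k s (Function.update u i z))
        (g := fun s z => scolor H k s (Function.update v i z))
        (fun s a b hab => congrArg Prod.fst hab)
        (fun s => congrFun (congrArg Prod.snd (h1 (s + 1))) i)
      refine ⟨π, fun z => Or.inr ⟨_, _, fun s => hπ s z, ?_⟩⟩
      intro p hp
      rcases List.mem_cons.1 hp with rfl | hp
      · exact ⟨i, by simp⟩
      · obtain ⟨j, hj, rfl⟩ := hi p hp
        exact ⟨j, by simp [Function.update_of_ne hj]⟩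
    refine ⟨W, Or.inl rfl, hsub, fun hl hp hq => (hpair hl hp hq).1,
      fun hl hp hq => (hpair hl hp hq).2, fun {l} hl hlen => ?_⟩
    rcases hl with rfl | h1
    · obtain ⟨Φ, hΦ⟩ := wl_exists_equiv_all (C := SColor k) (f := scolor G k) (g := scolor H k)
        (fun s a b hab => congrArg Prod.fst hab) hS
      rcases isEmpty_or_nonempty (Fin n) with hn | ⟨⟨a⟩⟩
      · have := wl_empty (by omega) Φ hn
        exact ⟨Equiv.equivOfIsEmpty _ _, fun z => hn.elim z⟩
      · exact hext ⟨fun _ => a, Φ fun _ => a, fun s => hΦ s _, by simp⟩ hlen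
    · exact hext h1 hlen
  · rintro ⟨W, hW⟩ s
    obtain ⟨Φ, hΦ⟩ := hW.exists_tuple_equiv (k := k) le_rfl
    exact wl_map_eq Φ fun u => hW.scolor_eq s u _ (hΦ u)

theorem Win.crcolor_eq {W : List (Fin n × Fin m) → Prop} (h : Win 2 (mat G) (mat H) W) (s : ℕ)
    (u : Fin n) (v : Fin m) (huv : W [(u, v)]) : crcolor G s u = crcolor H s v := by
  induction s generalizing u v with
  | zero => rfl
  | succ s ih =>
    obtain ⟨π, -, -, h2, h3, -⟩ := h.nbr le_rfl huv
    refine Prod.ext (ih u v huv) ?_
    change (Finset.univ.filter fun w => G u w = true).val.map (crcolor G s) =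
      (Finset.univ.filter fun w => H v w = true).val.map (crcolor H s)
    have e : (Finset.univ.filter fun w => H v w = true) =
        (Finset.univ.filter fun w => G u w = true).map π.toEmbedding := by
      ext w
      obtain ⟨z, rfl⟩ := π.surjective w
      simp only [Finset.mem_filter, Finset.mem_univ, true_and, Finset.mem_map_equiv,
        Equiv.symm_apply_apply]
      exact (h3 z).symm
    rw [e, Finset.map_val, Multiset.map_map]
    exact Multiset.map_congr rfl fun z _ => ih _ _ (h2 z)

theorem wl_split {γ : Type} (hG : IsSimple G) (u : Fin n) (f : Fin n → γ) :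
    (Finset.univ : Finset (Fin n)).val.map f = {f u} +
      (Finset.univ.filter fun w => G u w = true).val.map f +
      (Finset.univ.filter fun w => w ≠ u ∧ G u w = false).val.map f := by
  rw [← Multiset.map_singleton, ← Multiset.map_add, ← Multiset.map_add]
  congr 1
  ext w
  rw [Multiset.count_add, Multiset.count_add, Multiset.count_singleton,
    Multiset.count_eq_of_nodup Finset.univ.nodup, Multiset.count_eq_of_nodup (Finset.nodup _),
    Multiset.count_eq_of_nodup (Finset.nodup _)]
  by_cases hw : w = u
  · subst hw; simp [hG.2]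
  · cases hb : G u w <;> simp [hw, hb]

theorem wl_split' {γ : Type} (hG : IsSimple G) (u : Fin n) (f : Fin n → γ) :
    (Finset.univ : Finset (Fin n)).val.map (fun z => (decide (z = u), G u z, f z)) =
      {(true, false, f u)} +
      ((Finset.univ.filter fun w => G u w = true).val.map f).map (fun c => (false, true, c)) +
      ((Finset.univ.filter fun w => w ≠ u ∧ G u w = false).val.map f).map
        (fun c => (false, false, c)) := by
  rw [wl_split hG u, Multiset.map_map, Multiset.map_map]
  congr 1
  · congr 1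
    · simp [hG.2]
    · refine Multiset.map_congr rfl fun z hz => ?_
      have h1 : G u z = true := (Finset.mem_filter.1 (Finset.mem_def.2 hz)).2
      have h2 : z ≠ u := by rintro rfl; simp [hG.2] at h1
      simp [h1, h2]
  · refine Multiset.map_congr rfl fun z hz => ?_
    have h1 := (Finset.mem_filter.1 (Finset.mem_def.2 hz)).2
    simp [h1.1, h1.2]

/-- Colour refinement is the 2-pebble game.  `←`: induction on `s` with `Win.nbr`.  `→`: `W l` iff all
pairs of `l` are stable, `l` is a partial isomorphism (`eq_iff`, `adj`) [no size bound needed]; from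
`[]` use the histograms, from `[(u, u')]` glue `u ↦ u'`, a colour-preserving bijection of the
neighbourhoods, and one of the non-neighbours (cancel multisets: `univ = {u} + N(u) + rest`); again one
bijection works for all rounds. -/
theorem crequiv_iff_game (hG : IsSimple G) (hH : IsSimple H) : CREquiv G H ↔ Game 2 (mat G) (mat H) := by
  constructor
  · intro hC
    let W : List (Fin n × Fin m) → Prop := fun l =>
      (∀ p ∈ l, ∀ s, crcolor G s p.1 = crcolor H s p.2) ∧
        ∀ p ∈ l, ∀ q ∈ l, (p.1 = q.1 ↔ p.2 = q.2) ∧ (mat G p.1 q.1 ↔ mat H p.2 q.2)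
    have hself : ∀ (a : Fin n) (b : Fin m), mat G a a ↔ mat H b b := by
      intro a b; simp [mat, hG.2, hH.2]
    refine ⟨W, ⟨by simp, by simp⟩,
      fun hl hs => ⟨fun p hp => hl.1 p (hs hp), fun p hp q hq => hl.2 p (hs hp) q (hs hq)⟩,
      fun hl hp hq => (hl.2 _ hp _ hq).1, fun hl hp hq => (hl.2 _ hp _ hq).2,
      fun {l} hl hlen => ?_⟩
    match l, hl, hlen with
    | [], _, _ =>
      obtain ⟨π, hπ⟩ := wl_exists_equiv_all (C := CRColor) (f := crcolor G) (g := crcolor H)
        (fun s a b hab => congrArg Prod.fst hab) hC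
      refine ⟨π, fun z => ⟨?_, ?_⟩⟩
      · simpa using fun s => hπ s z
      · simpa using hself _ _
    | [(u, v)], hl, _ =>
      have hst : ∀ s, crcolor G s u = crcolor H s v := hl.1 (u, v) (by simp)
      obtain ⟨π, hπ⟩ := wl_exists_equiv_all (C := fun s => Bool × Bool × CRColor s)
        (f := fun s z => (decide (z = u), G u z, crcolor G s z))
        (g := fun s z => (decide (z = v), H v z, crcolor H s z))
        (fun s a b hab => by
          simp only [Prod.mk.injEq] at hab ⊢
          exact ⟨hab.1, hab.2.1, congrArg Prod.fst hab.2.2⟩)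
        (fun s => by
          have h1 : (Finset.univ.filter fun w => G u w = true).val.map (crcolor G s) =
              (Finset.univ.filter fun w => H v w = true).val.map (crcolor H s) :=
            congrArg Prod.snd (hst (s + 1))
          have h2 := hC s
          rw [wl_split hG u, wl_split hH v, h1, hst s, add_right_inj] at h2
          rw [wl_split' hG u, wl_split' hH v, h1, hst s, h2])
      refine ⟨π, fun z => ⟨?_, ?_⟩⟩
      · intro p hp s
        rcases List.mem_cons.1 hp with rfl | hp
        · exact congrArg (fun x => x.2.2) (hπ s z)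
        · exact hl.1 p hp s
      · have h1 : z = u ↔ π z = v := decide_eq_decide.1 (congrArg Prod.fst (hπ 0 z))
        have h2 : G u z = H v (π z) := congrArg (fun x => x.2.1) (hπ 0 z)
        have h3 : G z u = H (π z) v := by rw [hG.1, hH.1, h2]
        intro p hp q hq
        simp only [List.mem_cons, List.not_mem_nil, or_false] at hp hq
        rcases hp with rfl | rfl <;> rcases hq with rfl | rfl
        · exact ⟨by simp, hself _ _⟩
        · exact ⟨h1, by simp [mat, h3]⟩
        · exact ⟨by rw [eq_comm, h1, eq_comm], by simp [mat, h2]⟩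
        · exact ⟨by simp, hself _ _⟩
    | _ :: _ :: _, _, hlen => simp at hlen
  · rintro ⟨W, hW⟩ s
    obtain ⟨π, hπ⟩ := hW.ext hW.nil (by simp)
    exact wl_map_eq π fun z => hW.crcolor_eq s z _ (hπ z)

theorem wlequiv_iff_game (hk : 1 ≤ k) (hG : IsSimple G) (hH : IsSimple H) :
    WLEquiv k G H ↔ Game (k + 1) (mat G) (mat H) := by
  unfold WLEquiv
  split_ifs with h
  · subst h; exact crequiv_iff_game hG hH
  · exact jequiv_iff_game (by omega)

theorem adjIso_iff : AdjIso G H ↔ ∃ e : Fin n ≃ Fin m, ∀ a b, mat H (e a) (e b) ↔ mat G a b := by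
  unfold AdjIso mat
  refine exists_congr fun e => forall₂_congr fun a b => ?_
  cases H (e a) (e b) <;> cases G a b <;> simp

end Crest.Agent.R290
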