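/-
R290/PsSpo: Spoiler simulates unit propagation on a product system.
Skeleton by helper86; keep the statements of the theorems unchanged (add any helper lemmas you like).
-/
import Crest.Agent.R290.XorBasic

set_option autoImplicit false

namespace Crest.Agent.R290

variable {J X D : Type} {r : ℕ}

/-- A cochain all of whose message sums vanish is a coboundary with vanishing outer values: fix `m₀` and
let `v i d` be the sum of `h` along `m₀` up to boundary `i - 1` plus `h (i-1) (m₀ (i-1)) d`
(`v 0 = 0`; at `i = last` this sum is `0` by hypothesis).  Compare the messages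
`(m₀ .., d, e, m₀ ..)` and `(m₀ .., m₀ i, e, m₀ ..)`. -/
theorem exists_coboundary [Nonempty D] (h : Fin r → D → D → ZMod 2)
    (hh : ∀ m : Fin (r + 1) → D, ∑ i, h i (m i.castSucc) (m i.succ) = 0) :
    ∃ v : Fin (r + 1) → D → ZMod 2, (∀ d, v 0 d = 0) ∧ (∀ d, v (Fin.last r) d = 0) ∧
      ∀ i d e, h i d e = v i.castSucc d + v i.succ e := by
  classical
  obtain ⟨d₀⟩ := ‹Nonempty D›
  let m₀ : Fin (r + 1) → D := fun _ => d₀
  let F : Fin r → (Fin (r + 1) → D) → ZMod 2 := fun k m => h k (m k.castSucc) (m k.succ)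
  refine ⟨fun k d => ∑ i : Fin r, if i.val < k.val then F i (Function.update m₀ k d) else 0,
    fun d => by simp, fun d => ?_, fun i d e => ?_⟩
  · have := hh (Function.update m₀ (Fin.last r) d)
    simpa [F] using this
  · have h1 := hh (Function.update (Function.update m₀ i.succ e) i.castSucc d)
    have h2 := hh (Function.update m₀ i.succ e)
    have e1 : ∀ k : Fin r, F k (Function.update (Function.update m₀ i.succ e) i.castSucc d) =
        (if k.val < i.castSucc.val then F k (Function.update m₀ i.castSucc d) else 0) +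
          (if k = i then h i d e else 0) +
          (if i.val < k.val then F k (Function.update m₀ i.succ e) else 0) := by
      intro k
      rcases lt_trichotomy k.val i.val with hk | hk | hk
      · have n1 : k ≠ i := fun e => by rw [e] at hk; omega
        have n2 : k.castSucc ≠ i.succ := fun e => by
          have := congrArg Fin.val e; simp at this; omega
        have n3 : k.succ ≠ i.succ := fun e => n1 (Fin.succ_injective _ e)
        rw [if_pos (by simpa using hk), if_neg n1, if_neg (by omega), add_zero, add_zero]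
        simp only [F, Function.update_apply, if_neg n2, if_neg n3]
      · have : k = i := Fin.ext hk
        subst this
        have n2 : k.succ ≠ k.castSucc := fun e => by
          have := congrArg Fin.val e; simp at this
        simp [F, Function.update_apply, n2]
      · have n1 : k ≠ i := fun e => by rw [e] at hk; omega
        have n2 : k.succ ≠ i.castSucc := fun e => by
          have := congrArg Fin.val e; simp at this; omega
        have n3 : k.castSucc ≠ i.castSucc := fun e => n1 (Fin.castSucc_injective _ e)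
        rw [if_neg (by simp; omega), if_neg n1, if_pos hk, zero_add, zero_add]
        simp only [F, Function.update_apply, if_neg n2, if_neg n3]
    have e2 : ∀ k : Fin r, F k (Function.update m₀ i.succ e) =
        (if k.val < i.succ.val then F k (Function.update m₀ i.succ e) else 0) +
          (if i.val < k.val then F k (Function.update m₀ i.succ e) else 0) := by
      intro k
      by_cases hk : i.val < k.val
      · rw [if_neg (by simp; omega), if_pos hk, zero_add]
      · rw [if_pos (by simp; omega), if_neg hk, add_zero]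
    change ∑ k, F k _ = 0 at h1 h2
    rw [Finset.sum_congr rfl fun k _ => e1 k] at h1
    rw [Finset.sum_congr rfl fun k _ => e2 k] at h2
    simp only [Finset.sum_add_distrib, Finset.sum_ite_eq', Finset.mem_univ, if_true] at h1 h2
    have z2 : ∀ x y z w : ZMod 2, x + y + z = 0 → w + z = 0 → y = x + w := by decide
    exact z2 _ _ _ _ h1 h2

namespace Spo

section general
variable {E Y : Type} {var : E → Fin 3 → Y} {b : E → ZMod 2} {W : List E → (Y → ZMod 2) → Prop}

/-- The intermediate positions of a sweep. -/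
def mix {α : Type} (A B : Fin r → α) (k : Fin (r + 1)) : Fin r → α :=
  fun i => if i.val < k.val then B i else A i

theorem mix_zero {α : Type} (A B : Fin r → α) : mix A B 0 = A := by
  funext i; simp [mix]

theorem mix_last {α : Type} (A B : Fin r → α) : mix A B (Fin.last r) = B := by
  funext i; simp [mix]

theorem mix_castSucc_self {α : Type} (A B : Fin r → α) (i : Fin r) : mix A B i.castSucc i = A i := by
  simp [mix]

theorem mix_succ_self {α : Type} (A B : Fin r → α) (i : Fin r) : mix A B i.succ i = B i := by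
  simp [mix]

theorem mix_succ_ne {α : Type} (A B : Fin r → α) {i k : Fin r} (h : k ≠ i) :
    mix A B i.succ k = mix A B i.castSucc k := by
  have : k.val ≠ i.val := fun e => h (Fin.ext e)
  simp only [mix, Fin.val_succ, Fin.val_castSucc]
  by_cases hk : k.val < i.val
  · rw [if_pos hk, if_pos (by omega)]
  · rw [if_neg hk, if_neg (by omega)]

theorem sweep (h : XWin (r + 1) var b W) (A B : Fin r → E)
    (Φ : Fin (r + 1) → (Y → ZMod 2) → ZMod 2)
    (hdep : ∀ k g g', (∀ i, Agree var g g' (mix A B k i)) → Φ k g' = Φ k g)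
    (hstep : ∀ (i : Fin r) g, Sat var b g (A i) → Sat var b g (B i) → Φ i.succ g = Φ i.castSucc g) :
    (∀ g, W (List.ofFn A) g → ∃ g', W (List.ofFn B) g' ∧ Φ (Fin.last r) g' = Φ 0 g) ∧
    (∀ g, W (List.ofFn B) g → ∃ g', W (List.ofFn A) g' ∧ Φ 0 g' = Φ (Fin.last r) g) := by
  have key : ∀ k : Fin (r + 1),
      (∀ g, W (List.ofFn A) g → ∃ g', W (List.ofFn (mix A B k)) g' ∧ Φ k g' = Φ 0 g) ∧
      (∀ g, W (List.ofFn (mix A B k)) g → ∃ g', W (List.ofFn A) g' ∧ Φ 0 g' = Φ k g) := by
    intro k
    induction k using Fin.induction with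
    | zero => rw [mix_zero]; exact ⟨fun g hg => ⟨g, hg, rfl⟩, fun g hg => ⟨g, hg, rfl⟩⟩
    | succ i ih =>
      constructor
      · intro g hg
        obtain ⟨g₁, h1, h2⟩ := ih.1 g hg
        obtain ⟨g₂, h3, h4⟩ := h.ext h1 (by simp) (B i)
        refine ⟨g₂, h.sub h4 fun e he => ?_, ?_⟩
        · obtain ⟨k, rfl⟩ := List.mem_ofFn.1 he
          by_cases hk : k = i
          · subst hk; rw [mix_succ_self]; exact List.mem_cons_self
          · rw [mix_succ_ne _ _ hk]
            exact List.mem_cons_of_mem _ (List.mem_ofFn.2 ⟨k, rfl⟩)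
        · rw [hstep i g₂ (h.sat h4 (List.mem_cons_of_mem _
            (List.mem_ofFn.2 ⟨i, mix_castSucc_self _ _ _⟩))) (h.sat h4 List.mem_cons_self),
            hdep _ g₁ g₂ fun k => h3 _ (List.mem_ofFn.2 ⟨k, rfl⟩), h2]
      · intro g hg
        obtain ⟨g₂, h3, h4⟩ := h.ext hg (by simp) (A i)
        have h5 : W (List.ofFn (mix A B i.castSucc)) g₂ := by
          refine h.sub h4 fun e he => ?_
          obtain ⟨k, rfl⟩ := List.mem_ofFn.1 he
          by_cases hk : k = i
          · subst hk; rw [mix_castSucc_self]; exact List.mem_cons_self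
          · rw [← mix_succ_ne _ _ hk]
            exact List.mem_cons_of_mem _ (List.mem_ofFn.2 ⟨k, rfl⟩)
        obtain ⟨g₁, h1, h2⟩ := ih.2 g₂ h5
        refine ⟨g₁, h1, ?_⟩
        rw [h2, ← hstep i g₂ (h.sat h4 List.mem_cons_self) (h.sat h4 (List.mem_cons_of_mem _
            (List.mem_ofFn.2 ⟨i, mix_succ_self _ _ _⟩))),
          hdep _ g g₂ fun k => h3 _ (List.mem_ofFn.2 ⟨k, rfl⟩)]
  have := key (Fin.last r)
  rwa [mix_last] at this

/-- The position `a` covers the tuple `ys`. -/
def Cov (var : E → Fin 3 → Y) (a : Fin r → E) (ys : Fin r → Y) : Prop := ∀ i, ∃ s, var (a i) s = ys i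

/-- The sum over `ys` is `c` in every covering position. -/
def Rel (var : E → Fin 3 → Y) (W : List E → (Y → ZMod 2) → Prop) (ys : Fin r → Y) (c : ZMod 2) : Prop :=
  ∀ a g, W (List.ofFn a) g → Cov var a ys → ∑ i, g (ys i) = c

theorem Cov.mix {A B : Fin r → E} {ys zs : Fin r → Y} (hA : Cov var A ys) (hB : Cov var B zs)
    (k : Fin (r + 1)) : Cov var (mix A B k) (mix ys zs k) := by
  intro i
  unfold Spo.mix
  split_ifs
  · exact hB i
  · exact hA i

theorem Cov.sum_eq {a : Fin r → E} {ys : Fin r → Y} (h : Cov var a ys) {g g' : Y → ZMod 2}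
    (hg : ∀ i, Agree var g g' (a i)) : ∑ i, g' (ys i) = ∑ i, g (ys i) := by
  refine Finset.sum_congr rfl fun i _ => ?_
  obtain ⟨s, hs⟩ := h i
  rw [← hs]; exact hg i s

theorem upgrade (h : XWin (r + 1) var b W) {z : Fin r → E} {ys : Fin r → Y} (hz : Cov var z ys)
    {c : ZMod 2} (hc : ∀ g, W (List.ofFn z) g → ∑ i, g (ys i) = c) : Rel var W ys c := by
  intro a g hg ha
  obtain ⟨g', h1, h2⟩ := (sweep h a z (fun _ g => ∑ i, g (ys i)) (fun k g g' hk => by
    have := ha.mix hz k
    have e : mix ys ys k = ys := by funext i; simp [mix]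
    rw [e] at this
    exact this.sum_eq hk) (fun _ _ _ _ => rfl)).1 g hg
  rw [← hc g' h1]; exact h2.symm

end general

variable (S : PS J X D r)

/-- Wire `j` of chain `c` along the message `m`. -/
def wireT (c : J × Fin 3) (j : ℕ) (m : Fin (r + 1) → D) : Fin r → Var J X D r :=
  fun i => S.wireV c j i (m i.castSucc) (m i.succ)

/-- The hub tuple. -/
def hubT (x : X) (m : Fin (r + 1) → D) : Fin r → Var J X D r :=
  fun i => .hub x i (m i.castSucc) (m i.succ)

theorem wireT_zero (c : J × Fin 3) (m : Fin (r + 1) → D) :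
    wireT S c 0 m = hubT (S.hub c.1 c.2) (act (S.pi c.1 c.2) m) := by
  funext i; simp [wireT, hubT, PS.wireV, act]

/-- The junction equations along a message. -/
def jpos (a : J) (m : Fin (r + 1) → D) : Fin r → Eqn J D r :=
  fun i => .J a i (m i.castSucc) (m i.succ)

variable {S} {b : Eqn J D r → ZMod 2} {W : List (Eqn J D r) → (Var J X D r → ZMod 2) → Prop}

theorem zero_val (hr : 1 ≤ r) (h : XWin (r + 1) S.var b W) (hz : b .zero = 0) {L : List (Eqn J D r)}
    {g : Var J X D r → ZMod 2} (hg : W L g) {e : Eqn J D r} (he : e ∈ L) {s : Fin 3}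
    (hs : S.var e s = .zero) : g .zero = 0 := by
  have h1 : W [e] g := h.sub hg (by simpa using he)
  obtain ⟨g', h2, h3⟩ := h.ext h1 (by simp; omega) .zero
  have h4 := h.sat h3 List.mem_cons_self
  have h5 := h2 e (by simp) s
  rw [hs] at h5
  simp only [Sat, PS.var, hz] at h4
  rw [← h5]
  have z2 : ∀ x : ZMod 2, x + x + x = 0 → x = 0 := by decide
  exact z2 _ h4

theorem column (hr : 1 ≤ r) (h : XWin (r + 1) S.var b W) (hz : b .zero = 0)
    (hA : ∀ c j i d e, b (.A c j i d e) = 0) (hB : ∀ c j i d e, b (.B c j i d e) = 0)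
    (c : J × Fin 3) (j : Fin (r + 2)) (m : Fin (r + 1) → D) (x : ZMod 2) :
    Rel S.var W (wireT S c j m) x ↔ Rel S.var W (wireT S c (j + 1) m) x := by
  let A : Fin r → Eqn J D r := fun i => .A c j i (m i.castSucc) (m i.succ)
  let B : Fin r → Eqn J D r := fun i => .B c j i (m i.castSucc) (m i.succ)
  have cA : Cov S.var A (wireT S c j m) := fun i => ⟨0, by simp [A, PS.var, wireT]⟩
  have cB : Cov S.var B (wireT S c (j + 1) m) := fun i => ⟨2, by simp [B, PS.var, wireT]⟩
  let i0 : Fin r := ⟨0, hr⟩
  let il : Fin r := ⟨r - 1, by omega⟩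
  have zA : ∀ g, W (List.ofFn A) g → g .zero = 0 := fun g hg =>
    zero_val hr h hz hg (List.mem_ofFn.2 ⟨i0, rfl⟩) (s := 1) (by
      have : i0.castSucc = 0 := Fin.ext rfl
      simp [A, PS.var, PS.vV, this])
  have zB : ∀ g, W (List.ofFn B) g → g .zero = 0 := fun g hg =>
    zero_val hr h hz hg (List.mem_ofFn.2 ⟨il, rfl⟩) (s := 1) (by
      have : il.succ = Fin.last r := Fin.ext (by simp [il]; omega)
      simp [B, PS.var, PS.vV, this])
  have sw := sweep h A B
    (fun k g => ∑ i, g (mix (wireT S c j m) (wireT S c (j + 1) m) k i) + g (S.vV c j k (m k)))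
    (fun k g g' hk => by
      rw [(cA.mix cB k).sum_eq hk]
      congr 1
      rcases Fin.eq_castSucc_or_eq_last k with ⟨i, rfl⟩ | rfl
      · have := hk i 1
        rw [mix_castSucc_self] at this
        simpa [A, PS.var] using this
      · have := hk il 1
        have e : il.succ = Fin.last r := Fin.ext (by simp [il]; omega)
        rw [← e, mix_succ_self] at this
        rw [← e]
        simpa [B, PS.var] using this)
    (fun i g h1 h2 => by
      simp only [Sat, A, B, PS.var, hA, hB] at h1 h2
      simp only [Fin.isValue, if_true, one_ne_zero, if_false, Fin.reduceEq] at h1 h2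
      rw [← Finset.add_sum_erase _ _ (Finset.mem_univ i), ← Finset.add_sum_erase _ _ (Finset.mem_univ i),
        mix_succ_self, mix_castSucc_self,
        Finset.sum_congr rfl fun k hk => by rw [mix_succ_ne _ _ (Finset.ne_of_mem_erase hk)]]
      have z2 : ∀ w v mi v' w' T : ZMod 2, w + v + mi = 0 → mi + v' + w' = 0 →
          w' + T + v' = w + T + v := by decide
      exact z2 _ _ _ _ _ _ h1 h2)
  simp only [mix_zero, mix_last, PS.vV, true_or, or_true, if_true] at sw
  constructor
  · intro hx
    refine upgrade h cB fun g hg => ?_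
    obtain ⟨g', h1, h2⟩ := sw.2 g hg
    rw [zA g' h1, zB g hg, add_zero, add_zero] at h2
    rw [← h2]; exact hx A g' h1 cA
  · intro hx
    refine upgrade h cA fun g hg => ?_
    obtain ⟨g', h1, h2⟩ := sw.1 g hg
    rw [zA g hg, zB g' h1, add_zero, add_zero] at h2
    rw [← h2]; exact hx B g' h1 cB

theorem chain (hr : 1 ≤ r) (h : XWin (r + 1) S.var b W) (hz : b .zero = 0)
    (hA : ∀ c j i d e, b (.A c j i d e) = 0) (hB : ∀ c j i d e, b (.B c j i d e) = 0)
    (c : J × Fin 3) (m : Fin (r + 1) → D) (x : ZMod 2) :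
    Rel S.var W (hubT (S.hub c.1 c.2) (act (S.pi c.1 c.2) m)) x ↔ Rel S.var W (wireT S c (r + 2) m) x := by
  rw [← wireT_zero]
  have : ∀ j, j ≤ r + 2 → (Rel S.var W (wireT S c 0 m) x ↔ Rel S.var W (wireT S c j m) x) := by
    intro j
    induction j with
    | zero => exact fun _ => Iff.rfl
    | succ j ih =>
      intro hj
      exact (ih (by omega)).trans (column hr h hz hA hB c ⟨j, by omega⟩ m x)
  exact this _ le_rfl

theorem cov_jpos {a : J} {s : Fin 3} (hs : S.used a s = true) (m : Fin (r + 1) → D) :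
    Cov S.var (jpos a m) (wireT S (a, s) (r + 2) m) := fun i => ⟨s, by simp [jpos, PS.var, wireT, hs]⟩

theorem jsum (hr : 1 ≤ r) (h : XWin (r + 1) S.var b W) (hz : b .zero = 0) (a : J)
    (m : Fin (r + 1) → D) {g : Var J X D r → ZMod 2} (hg : W (List.ofFn (jpos a m)) g) :
    ∑ i, b (jpos a m i) =
      ∑ s, if S.used a s = true then ∑ i, g (wireT S (a, s) (r + 2) m i) else 0 := by
  have e : ∀ i s, g (S.var (jpos a m i) s) =
      if S.used a s = true then g (wireT S (a, s) (r + 2) m i) else 0 := by
    intro i s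
    by_cases hs : S.used a s = true
    · simp [jpos, PS.var, wireT, hs]
    · have : S.var (jpos a m i) s = .zero := by simp [jpos, PS.var, hs]
      rw [if_neg hs, this]
      exact zero_val hr h hz hg (List.mem_ofFn.2 ⟨i, rfl⟩) this
  have e' : ∀ i, b (jpos a m i) =
      ∑ s, if S.used a s = true then g (wireT S (a, s) (r + 2) m i) else 0 := by
    intro i
    have := h.sat hg (List.mem_ofFn.2 ⟨i, rfl⟩)
    rw [Sat, e, e, e] at this
    rw [← this, Fin.sum_univ_three]
  rw [Finset.sum_congr rfl fun i _ => e' i, Finset.sum_comm]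
  refine Finset.sum_congr rfl fun s _ => ?_
  split_ifs <;> simp

/-- Unit propagation through one junction. -/
theorem propagate (hr : 1 ≤ r) (h : XWin (r + 1) S.var b W) (hz : b .zero = 0)
    (hA : ∀ c j i d e, b (.A c j i d e) = 0) (hB : ∀ c j i d e, b (.B c j i d e) = 0)
    (a : J) (s : Fin 3) (m : Fin (r + 1) → D) (hs : S.used a s = true) (c : Fin 3 → ZMod 2)
    (hc : ∀ s', s' ≠ s → S.used a s' = true →
      Rel S.var W (hubT (S.hub a s') (act (S.pi a s') m)) (c s')) :
    Rel S.var W (hubT (S.hub a s) (act (S.pi a s) m))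
      (∑ i, b (jpos a m i) + ∑ s' ∈ Finset.univ.erase s, if S.used a s' = true then c s' else 0) := by
  refine (chain hr h hz hA hB (a, s) m _).2 (upgrade h (cov_jpos hs m) fun g hg => ?_)
  rw [jsum hr h hz a m hg, ← Finset.add_sum_erase _ _ (Finset.mem_univ s), if_pos hs]
  have : ∑ s' ∈ Finset.univ.erase s, (if S.used a s' = true then
      ∑ i, g (wireT S (a, s') (r + 2) m i) else 0) =
      ∑ s' ∈ Finset.univ.erase s, if S.used a s' = true then c s' else 0 := by
    refine Finset.sum_congr rfl fun s' hs' => ?_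
    split_ifs with hu
    · exact (chain hr h hz hA hB (a, s') m _).1 (hc s' (Finset.ne_of_mem_erase hs') hu) _ g hg
        (cov_jpos hu m)
    · rfl
  rw [this]
  have z2 : ∀ x y : ZMod 2, x = x + y + y := by decide
  exact z2 _ _

theorem rel_of_der (hr : 1 ≤ r) (h : XWin (r + 1) S.var b W) (hz : b .zero = 0)
    (hA : ∀ c j i d e, b (.A c j i d e) = 0) (hB : ∀ c j i d e, b (.B c j i d e) = 0)
    {x : X} {m : Fin (r + 1) → D} (hd : S.Der x m) : ∃ c, Rel S.var W (hubT x m) c := by
  induction hd with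
  | step a s m hs _ ih =>
    have : ∀ s', ∃ c, s' ≠ s → S.used a s' = true →
        Rel S.var W (hubT (S.hub a s') (act (S.pi a s') m)) c := by
      intro s'
      by_cases h1 : s' ≠ s ∧ S.used a s' = true
      · obtain ⟨c, hc⟩ := ih s' h1.1 h1.2
        exact ⟨c, fun _ _ => hc⟩
      · exact ⟨0, fun h2 h3 => absurd ⟨h2, h3⟩ h1⟩
    choose c hc using this
    exact ⟨_, propagate hr h hz hA hB a s m hs c hc⟩

theorem exists_eta (hr : 1 ≤ r) (h : XWin (r + 1) S.var b W) (hz : b .zero = 0)
    (hA : ∀ c j i d e, b (.A c j i d e) = 0) (hB : ∀ c j i d e, b (.B c j i d e) = 0)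
    (hres : S.Resets) : ∃ η : X → Fin r → D → D → ZMod 2, ∀ a s m,
      Rel S.var W (hubT (S.hub a s) m) (∑ i, η (S.hub a s) i (m i.castSucc) (m i.succ)) := by
  have : ∀ x : X, ∃ η : Fin r → D → D → ZMod 2, (∃ a s, x = S.hub a s) → ∀ m,
      Rel S.var W (hubT x m) (∑ i, η i (m i.castSucc) (m i.succ)) := by
    intro x
    by_cases hx : ∃ a s, x = S.hub a s
    swap
    · exact ⟨0, fun h' => absurd h' hx⟩
    obtain ⟨a, s, rfl⟩ := hx
    obtain ⟨a', h1, h2, h3, h4, h5, h6⟩ := hres a s
    refine ⟨fun i d e => b (.J a' i d e), fun _ m => ?_⟩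
    obtain ⟨c, hc⟩ := rel_of_der hr h hz hA hB (h6 m)
    have := propagate hr h hz hA hB a' 0 m (h1 0) (fun _ => c) (fun s' hs' _ => by
      have : s' = 1 ∨ s' = 2 := (by decide : ∀ s : Fin 3, s ≠ 0 → s = 1 ∨ s = 2) s' hs'
      rcases this with rfl | rfl
      · exact hc
      · rw [← h4, ← h5]; exact hc)
    have e1 : act (S.pi a' 0) m = m := by funext i; simp [act, h3]
    have e2 : (Finset.univ.erase (0 : Fin 3)) = {1, 2} := by decide
    have z2 : ∀ x : ZMod 2, x + x = 0 := by decide
    rw [e1, h2, e2, Finset.sum_pair (by decide), if_pos (h1 1), if_pos (h1 2), z2, add_zero] at this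
    exact this
  choose η hη using this
  exact ⟨η, fun a s m => hη _ ⟨a, s, rfl⟩ m⟩

theorem solvable_norm [Nonempty D] (hr : 1 ≤ r) (h : XWin (r + 1) S.var b W) (hz : b .zero = 0)
    (hA : ∀ c j i d e, b (.A c j i d e) = 0) (hB : ∀ c j i d e, b (.B c j i d e) = 0)
    (h0 : ∀ a, S.used a 0 = true) (hres : S.Resets) : Solvable S.var b := by
  obtain ⟨η, hη⟩ := exists_eta hr h hz hA hB hres
  let H : J × Fin 3 → Fin r → D → D → ZMod 2 := fun c i d e =>
    η (S.hub c.1 c.2) i (S.pi c.1 c.2 i.castSucc d) (S.pi c.1 c.2 i.succ e)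
  have hV : ∀ a : J, ∃ v : Fin (r + 1) → D → ZMod 2, (∀ d, v 0 d = 0) ∧ (∀ d, v (Fin.last r) d = 0) ∧
      ∀ i d e, b (.J a i d e) + ∑ s, (if S.used a s = true then H (a, s) i d e else 0) =
        v i.castSucc d + v i.succ e := by
    intro a
    refine exists_coboundary
      (fun i d e => b (.J a i d e) + ∑ s, (if S.used a s = true then H (a, s) i d e else 0)) fun m => ?_
    obtain ⟨g, hg⟩ := h.exists_pos (List.ofFn (jpos a m)) (by simp)
    have e1 := jsum hr h hz a m hg
    rw [Finset.sum_add_distrib, Finset.sum_comm]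
    have e2 : ∑ s, ∑ i : Fin r, (if S.used a s = true then H (a, s) i (m i.castSucc) (m i.succ) else 0) =
        ∑ s, if S.used a s = true then ∑ i, g (wireT S (a, s) (r + 2) m i) else 0 := by
      refine Finset.sum_congr rfl fun s _ => ?_
      split_ifs with hu
      · exact ((chain hr h hz hA hB (a, s) m _).1 (hη a s _) _ g hg (cov_jpos hu m)).symm
      · simp
    rw [e2, ← e1]
    have z2 : ∀ x : ZMod 2, x + x = 0 := by decide
    exact z2 _
  choose V hV0 hVl hV using hV
  let g : Var J X D r → ZMod 2 := fun y => match y with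
    | .zero => 0
    | .hub x i d e => η x i d e
    | .wire c j i d e => H c i d e +
        (if c.2 = 0 ∧ j = r + 2 then V c.1 i.castSucc d + V c.1 i.succ e else 0)
    | .mid c j i d e => H c i d e + (if c.2 = 0 ∧ j = r + 1 then V c.1 i.castSucc d else 0)
    | .v c j i d => if c.2 = 0 ∧ j = r + 1 then V c.1 i d else 0
  have gw : ∀ c j i d e, g (S.wireV c j i d e) = H c i d e +
      (if c.2 = 0 ∧ j = r + 2 then V c.1 i.castSucc d + V c.1 i.succ e else 0) := by
    intro c j i d e
    unfold PS.wireV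
    by_cases hj : j = 0
    · subst hj; simp [g, H]
    · rw [if_neg hj]
  have gv : ∀ c j i d, g (S.vV c j i d) = if c.2 = 0 ∧ j = r + 1 then V c.1 i d else 0 := by
    intro c j i d
    unfold PS.vV
    by_cases hi : i = 0 ∨ i = Fin.last r
    · rw [if_pos hi]
      rcases hi with rfl | rfl
      · simp [g, hV0]
      · simp [g, hVl]
    · rw [if_neg hi]
  have gm : ∀ c j i d e, g (.mid c j i d e) =
      H c i d e + (if c.2 = 0 ∧ j = r + 1 then V c.1 i.castSucc d else 0) := fun _ _ _ _ _ => rfl
  refine ⟨g, fun e => ?_⟩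
  rcases e with _ | ⟨c, j, i, d, e⟩ | ⟨c, j, i, d, e⟩ | ⟨a, i, d, e⟩
  · simp [Sat, PS.var, g, hz]
  · simp only [Sat, PS.var, hA]
    simp only [Fin.isValue, if_true, one_ne_zero, if_false, Fin.reduceEq, gw, gv, gm]
    have : ¬ (c.2 = 0 ∧ j.val = r + 2) := fun h' => by have := j.2; omega
    rw [if_neg this]
    have z2 : ∀ x y : ZMod 2, x + 0 + y + (x + y) = 0 := by decide
    exact z2 _ _
  · simp only [Sat, PS.var, hB]
    simp only [Fin.isValue, if_true, one_ne_zero, if_false, Fin.reduceEq, gw, gv, gm]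
    by_cases hc : c.2 = 0 ∧ j.val = r + 1
    · rw [if_pos hc, if_pos hc, if_pos ⟨hc.1, by omega⟩]
      have z2 : ∀ x y z : ZMod 2, x + y + z + (x + (y + z)) = 0 := by decide
      exact z2 _ _ _
    · rw [if_neg hc, if_neg hc, if_neg fun h' => hc ⟨h'.1, by omega⟩]
      have z2 : ∀ x : ZMod 2, x + 0 + 0 + (x + 0) = 0 := by decide
      exact z2 _
  · have e1 : ∀ s, g (S.var (.J a i d e) s) = (if S.used a s = true then H (a, s) i d e else 0) +
        (if s = 0 then V a i.castSucc d + V a i.succ e else 0) := by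
      intro s
      by_cases hu : S.used a s = true
      · simp [PS.var, hu, gw]
      · have : s ≠ 0 := fun e' => hu (e' ▸ h0 a)
        simp [PS.var, hu, g, this]
    have e2 := hV a i d e
    rw [Fin.sum_univ_three] at e2
    rw [Sat, e1, e1, e1]
    simp only [Fin.isValue, if_true, one_ne_zero, if_false, Fin.reduceEq, add_zero]
    rw [← e2]
    have z2 : ∀ β x y z : ZMod 2, x + (β + (x + y + z)) + y + z = β := by decide
    exact z2 _ _ _ _

/-- Values of the wires of the particular solution of the chain equations. -/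
def wv (b : Eqn J D r → ZMod 2) (c : J × Fin 3) (i : Fin r) (d e : D) : ℕ → ZMod 2
  | 0 => 0
  | j + 1 => wv b c i d e j +
      (if h : j < r + 2 then b (.A c ⟨j, h⟩ i d e) + b (.B c ⟨j, h⟩ i d e) else 0)

theorem exists_norm (S : PS J X D r) (b : Eqn J D r → ZMod 2) (hz : b .zero = 0) :
    ∃ g₀ : Var J X D r → ZMod 2, shiftB S.var b g₀ .zero = 0 ∧
      (∀ c j i d e, shiftB S.var b g₀ (.A c j i d e) = 0) ∧
      ∀ c j i d e, shiftB S.var b g₀ (.B c j i d e) = 0 := by
  let g : Var J X D r → ZMod 2 := fun y => match y with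
    | .wire c j i d e => wv b c i d e j
    | .mid c j i d e => wv b c i d e j + (if h : j < r + 2 then b (.A c ⟨j, h⟩ i d e) else 0)
    | _ => 0
  have gw : ∀ c j i d e, g (S.wireV c j i d e) = wv b c i d e j := by
    intro c j i d e
    unfold PS.wireV
    by_cases hj : j = 0
    · subst hj; simp [g, wv]
    · rw [if_neg hj]
  have gv : ∀ c j i d, g (S.vV c j i d) = 0 := by
    intro c j i d
    unfold PS.vV
    split_ifs <;> rfl
  have gm : ∀ c (j : Fin (r + 2)) i d e, g (.mid c j i d e) = wv b c i d e j + b (.A c j i d e) := by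
    intro c j i d e
    simp [g, j.2]
  refine ⟨g, by simp [shiftB, PS.var, g, hz], fun c j i d e => ?_, fun c j i d e => ?_⟩
  · simp only [shiftB, PS.var]
    simp only [Fin.isValue, if_true, one_ne_zero, if_false, Fin.reduceEq, gw, gv, gm]
    have z2 : ∀ x y : ZMod 2, x + (y + 0 + (y + x)) = 0 := by decide
    exact z2 _ _
  · simp only [shiftB, PS.var]
    simp only [Fin.isValue, if_true, one_ne_zero, if_false, Fin.reduceEq, gw, gv, gm, wv, j.2,
      dif_pos, Fin.eta]
    have z2 : ∀ x y z : ZMod 2, x + (y + z + 0 + (y + (z + x))) = 0 := by decide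
    exact z2 _ _ _

end Spo

/-- Recipe.
(0) Normalise with `XDup.shift` / `Solvable.of_shift`: first choose `g₀` (zero variable `b zero`, hubs and
`v` zero, `mid`/`wire` by recursion on `j`) satisfying the equations `zero`, `A`, `B`; then choose for each
occurring hub `x` a reset junction `ρ x` and `g₁` (zero variable, `v` zero; `hub x i d e := b (J (ρ x) i d e)`,
`wire`, `mid` of a chain = value of its wire `0`).  Now `b` vanishes on `zero`, `A`, `B` and the `J (ρ x)`.
(1) For a winning family `W` and `ys : Fin r → Var` let `Rel ys c`: whenever `W S g` and each `ys i` is a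
variable of some equation of `S`, `∑ i, g (ys i) = c`.  Tools: a covering position can be shrunk to
`List.ofFn a` (`a i` covers `ys i`, length `r < r + 1`); one more equation can be pebbled; a pebbled zero
variable has value `0` (pebble `Eqn.zero` next to it).  *Upgrade*: if `z i` contains `ys i` for all `i`
one can move to the position `List.ofFn z` keeping the values of the `ys i` (one pebble at a time).
*Two-step swap*: if `E₁ ∋ α, v, α'` and `E₂ ∋ β, v, β'` have right-hand side `0`, `ys p = α`, `ys p' = β`,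
`p ≠ p'`, then `Rel (ys[p ↦ α', p' ↦ β']) c → Rel ys c` (put the spare pebble on `E₁`, use it to cover `α`,
put the freed pebble on `E₂`).  *One-step swap* for `E ∋ α, zero, α'`.
(2) Column transport: along message `m`, `Rel (wire j) c ↔ Rel (wire (j+1)) c`, through the tuples
`Y i = (wire (j+1) on rows < i, mid on row i, wire j on rows > i)`: `wire j ~ Y 0` by `A` in row `0`,
`Y (i-1) ~ Y i` by `B` in row `i-1` and `A` in row `i` (shared `v` at boundary `i`), `Y (r-1) ~ wire (j+1)`
by `B` in the last row.  Hence hub tuple (at `act pi m`) `~` wire `r + 2` tuple (at `m`).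
(3) `Der x m → ∃ c, Rel (hub tuple) c` (upgrade to the junction equations along `m`).  With the reset
junction `ρ x`: `Rel (hub x tuple at m) 0` for all `m`.  For any junction `a`, `m` pebble its equations
along `m` (`XWin.exists_pos`): `∑ i, b (J a i ..) = 0`; by `exists_coboundary` `b (J a) = δ v_a`.
(4) Solution: everything `0` except, on the chain `(a, 0)`, `v` of column `r + 1` is `v_a`,
`mid` of that column is `v_a` at `castSucc`, wire `r + 2` is `δ v_a`. -/
theorem PS.solvable_of_xdup [Nonempty D] (hr : 1 ≤ r) (S : PS J X D r) (h0 : ∀ a, S.used a 0 = true)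
    (hres : S.Resets) (b : Eqn J D r → ZMod 2) (h : XDup (r + 1) S.var b) : Solvable S.var b := by
  have hz : shiftB S.var b (fun _ => b .zero) .zero = 0 := by
    have z2 : ∀ x : ZMod 2, x + (x + x + x) = 0 := by decide
    exact z2 _
  obtain ⟨g₀, h1, h2, h3⟩ := Spo.exists_norm S _ hz
  obtain ⟨W, hW⟩ := (h.shift fun _ => b .zero).shift g₀
  exact (Spo.solvable_norm hr hW h1 h2 h3 h0 hres).of_shift.of_shift

/-- For a solution `g` and a message `m` the sum of `g` over wire `j` along `m` does not depend on `j`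
(the `v` telescope, `g zero = 0`); the two used chains of `a` start at the same hub tuple. -/
theorem PS.not_solvable [Nonempty D] (hr : 1 ≤ r) (S : PS J X D r) (a : J) (h0 : S.used a 0 = true)
    (h1 : S.used a 1 = true) (h2 : S.used a 2 = false) (hh : S.hub a 0 = S.hub a 1)
    (hp : S.pi a 0 = S.pi a 1) (hb : S.rhs a = 1) : ¬ Solvable S.var S.b := by
  rintro ⟨g, hg⟩
  obtain ⟨d₀⟩ := ‹Nonempty D›
  let m : Fin (r + 1) → D := fun _ => d₀
  have hW : XWin (r + 1) S.var S.b (fun _ g' => g' = g) :=
    ⟨⟨g, rfl⟩, fun h _ => h, fun h _ => h ▸ hg _, fun h _ _ => ⟨g, fun _ _ _ => by rw [h], rfl⟩⟩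
  have e1 := Spo.jsum hr hW rfl a m (g := g) rfl
  have hrel : Spo.Rel S.var (fun _ g' => g' = g) (Spo.hubT (S.hub a 0) (act (S.pi a 0) m))
      (∑ i, g (Spo.hubT (S.hub a 0) (act (S.pi a 0) m) i)) := by
    rintro _ _ rfl _; rfl
  have e2 := (Spo.chain hr hW rfl (fun _ _ _ _ _ => rfl) (fun _ _ _ _ _ => rfl) (a, 0) m _).1 hrel
    _ g rfl (Spo.cov_jpos h0 m)
  have e3 := (Spo.chain hr hW rfl (fun _ _ _ _ _ => rfl) (fun _ _ _ _ _ => rfl) (a, 1) m _).1
    (by rw [← hh, ← hp]; exact hrel) _ g rfl (Spo.cov_jpos h1 m)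
  rw [Fin.sum_univ_three, if_pos h0, if_pos h1, if_neg (by simp [h2]), e2, e3] at e1
  have e4 : ∑ i, S.b (Spo.jpos a m i) = 1 := by
    rw [Finset.sum_eq_single (⟨0, hr⟩ : Fin r)]
    · simp [Spo.jpos, PS.b, hb]
    · intro i _ hi
      have : i.val ≠ 0 := fun e => hi (Fin.ext e)
      simp [Spo.jpos, PS.b, this]
    · simp
  rw [e4] at e1
  have z2 : ∀ x : ZMod 2, ¬ (1 = x + x + 0) := by decide
  exact z2 _ e1

end Crest.Agent.R290
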