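/-
R290/PsDupA: cochains, paths among few pebbles (for Duplicator's strategy on product systems).
-/
import Crest.Agent.R290.PsSpo

set_option autoImplicit false

namespace Crest.Agent.R290
namespace Dup

variable {D Z : Type} {r : ℕ}

/-- Cochains: a value for each row and pair of coordinates. -/
abbrev Coch (D : Type) (r : ℕ) : Type := Fin r → D → D → ZMod 2

/-- The sum of a cochain along a message. -/
def ev (h : Coch D r) (m : Fin (r + 1) → D) : ZMod 2 := ∑ i, h i (m i.castSucc) (m i.succ)

/-- All message sums equal `ε`. -/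
def Pure (h : Coch D r) (ε : ZMod 2) : Prop := ∀ m, ev h m = ε

/-- Pullback along a coordinatewise map. -/
def pull (π : Fin (r + 1) → D → D) (h : Coch D r) : Coch D r :=
  fun i d e => h i (π i.castSucc d) (π i.succ e)

/-- Coboundary. -/
def cob (v : Fin (r + 1) → D → ZMod 2) : Coch D r := fun i d e => v i.castSucc d + v i.succ e

theorem Pure.add {h h' : Coch D r} {ε ε' : ZMod 2} (a : Pure h ε) (b : Pure h' ε') :
    Pure (h + h') (ε + ε') := fun m => by
  rw [← a m, ← b m]; simp [ev, Finset.sum_add_distrib]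

theorem Pure.smul {h : Coch D r} {ε : ZMod 2} (a : Pure h ε) (c : ZMod 2) :
    Pure (c • h) (c * ε) := fun m => by
  rw [← a m]; simp [ev, Finset.mul_sum]

theorem pure_zero : Pure (0 : Coch D r) 0 := fun m => by simp [ev]

theorem Pure.pull {h : Coch D r} {ε : ZMod 2} (a : Pure h ε) (π : Fin (r + 1) → D → D) :
    Pure (pull π h) ε := fun m => a (act π m)

theorem pull_add (π : Fin (r + 1) → D → D) (h h' : Coch D r) :
    pull π (h + h') = pull π h + pull π h' := rfl

theorem Pure.exists_cob [Nonempty D] {h h' : Coch D r} {ε : ZMod 2} (a : Pure h ε) (b : Pure h' ε) :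
    ∃ v : Fin (r + 1) → D → ZMod 2, (∀ d, v 0 d = 0) ∧ (∀ d, v (Fin.last r) d = 0) ∧
      h' = h + cob v := by
  have hab := a.add b
  have z : ε + ε = 0 := CharTwo.add_self_eq_zero ε
  rw [z] at hab
  obtain ⟨v, h0, h1, h2⟩ := exists_coboundary (h + h') hab
  refine ⟨v, h0, h1, ?_⟩
  funext i d e
  have := h2 i d e
  simp only [Pi.add_apply, cob] at this ⊢
  have z2 : ∀ x y w : ZMod 2, x + y = w → y = x + w := by decide
  exact z2 _ _ _ this

/-- The indicator of one row. -/
def row (t : Fin r) : Coch D r := fun i _ _ => if i = t then 1 else 0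

theorem pure_row (t : Fin r) : Pure (row t : Coch D r) 1 := fun m => by simp [ev, row]

/-- Each pebble carries at most one edge. -/
def Fn (R : Z → Fin r → D → D → Prop) : Prop :=
  ∀ z i d e i' d' e', R z i d e → R z i' d' e' → i = i' ∧ d = d' ∧ e = e'

/-- All the edges of the message `m` are carried by pebbles of `S`. -/
def Path (S : List Z) (R : Z → Fin r → D → D → Prop) (m : Fin (r + 1) → D) : Prop :=
  ∀ i : Fin r, ∃ z ∈ S, R z i (m i.castSucc) (m i.succ)

theorem Path.mono {S S' : List Z} {R R' : Z → Fin r → D → D → Prop} {m : Fin (r + 1) → D}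
    (h : Path S R m) (hS : S ⊆ S') (hR : ∀ z ∈ S, ∀ i d e, R z i d e → R' z i d e) : Path S' R' m :=
  fun i => by
    obtain ⟨z, hz, h⟩ := h i
    exact ⟨z, hS hz, hR z hz _ _ _ h⟩

theorem cover {S : List Z} (hS : S.length ≤ r) (p : Fin r → Z) (hp : ∀ i, p i ∈ S)
    (hinj : Function.Injective p) {z : Z} (hz : z ∈ S) : ∃ i, p i = z := by
  classical
  have h1 : Finset.univ.image p ⊆ S.toFinset := fun y hy => by
    obtain ⟨i, -, rfl⟩ := Finset.mem_image.1 hy
    exact List.mem_toFinset.2 (hp i)
  have h2 : S.toFinset.card ≤ (Finset.univ.image p).card := by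
    rw [Finset.card_image_of_injective _ hinj]
    simpa using (List.toFinset_card_le S).trans hS
  have h3 := Finset.eq_of_subset_of_card_le h1 h2
  have : z ∈ Finset.univ.image p := by rw [h3]; exact List.mem_toFinset.2 hz
  obtain ⟨i, -, hi⟩ := Finset.mem_image.1 this
  exact ⟨i, hi⟩

/-- A path among at most `r` pebbles uses all of them. -/
theorem Path.full {S : List Z} {R : Z → Fin r → D → D → Prop} (hR : Fn R) (hS : S.length ≤ r)
    {m : Fin (r + 1) → D} (h : Path S R m) {z : Z} (hz : z ∈ S) : ∃ i d e, R z i d e := by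
  choose p hp hpR using h
  have hinj : Function.Injective p := fun i i' e =>
    (hR (p i) _ _ _ _ _ _ (hpR i) (e ▸ hpR i')).1
  obtain ⟨i, rfl⟩ := cover hS p hp hinj hz
  exact ⟨_, _, _, hpR i⟩

/-- Two paths among at most `r + 1` pebbles agree on the inner coordinates. -/
theorem Path.inner {S : List Z} {R : Z → Fin r → D → D → Prop} (hR : Fn R) (hS : S.length ≤ r + 1)
    {m m' : Fin (r + 1) → D} (h : Path S R m) (h' : Path S R m') : InnerEq m m' := by
  classical
  intro k h0 hl
  by_contra hne
  obtain ⟨i, rfl⟩ := Fin.exists_succ_eq.2 h0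
  obtain ⟨i', hi'⟩ := Fin.exists_castSucc_eq.2 hl
  choose p hp hpR using h
  choose q hq hqR using h'
  have hinj : Function.Injective p := fun i i' e =>
    (hR (p i) _ _ _ _ _ _ (hpR i) (e ▸ hpR i')).1
  have hii : i ≠ i' := fun e => by
    subst e
    have := congrArg Fin.val hi'
    simp at this
  have n1 : q i ∉ Finset.univ.image p := fun hy => by
    obtain ⟨t, -, ht⟩ := Finset.mem_image.1 hy
    obtain ⟨rfl, -, e⟩ := hR (q i) _ _ _ _ _ _ (ht ▸ hpR t) (hqR i)
    exact hne e
  have n2 : q i' ∉ insert (q i) (Finset.univ.image p) := fun hy => by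
    rcases Finset.mem_insert.1 hy with e | hy
    · exact hii (hR (q i) _ _ _ _ _ _ (hqR i) (e ▸ hqR i')).1
    · obtain ⟨t, -, ht⟩ := Finset.mem_image.1 hy
      obtain ⟨rfl, e, -⟩ := hR (q i') _ _ _ _ _ _ (ht ▸ hpR t) (hqR i')
      rw [hi'] at e
      exact hne e
  have h1 : insert (q i') (insert (q i) (Finset.univ.image p)) ⊆ S.toFinset := fun y hy => by
    rw [List.mem_toFinset]
    rcases Finset.mem_insert.1 hy with rfl | hy
    · exact hq _
    rcases Finset.mem_insert.1 hy with rfl | hy
    · exact hq _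
    obtain ⟨t, -, rfl⟩ := Finset.mem_image.1 hy
    exact hp t
  have h2 := (Finset.card_le_card h1).trans ((List.toFinset_card_le S).trans hS)
  rw [Finset.card_insert_of_notMem n2, Finset.card_insert_of_notMem n1,
    Finset.card_image_of_injective _ hinj] at h2
  simp at h2

/-- If at most `r` pebbles carry no path, some cochain of class `1` vanishes on their edges. -/
theorem exists_eta (hr : 1 ≤ r) {S : List Z} {R : Z → Fin r → D → D → Prop} (hR : Fn R)
    (hS : S.length ≤ r) (h : ¬ ∃ m, Path S R m) :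
    ∃ η : Coch D r, Pure η 1 ∧ ∀ z ∈ S, ∀ i d e, R z i d e → η i d e = 0 := by
  classical
  by_cases he : ∃ t, ∀ z ∈ S, ∀ d e, ¬ R z t d e
  · obtain ⟨t, ht⟩ := he
    refine ⟨row t, pure_row t, fun z hz i d e hi => ?_⟩
    have : i ≠ t := fun e' => ht z hz d e (e' ▸ hi)
    simp [row, this]
  push Not at he
  choose p hp d e hpR using he
  have hinj : Function.Injective p := fun i i' e =>
    (hR (p i) _ _ _ _ _ _ (hpR i) (e ▸ hpR i')).1
  have huniq : ∀ z ∈ S, ∀ i d' e', R z i d' e' → d' = d i ∧ e' = e i := fun z hz i d' e' hi => by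
    obtain ⟨t, rfl⟩ := cover hS p hp hinj hz
    obtain ⟨rfl, h1, h2⟩ := hR _ _ _ _ _ _ _ hi (hpR t)
    exact ⟨h1, h2⟩
  have hmis : ∃ i i' : Fin r, i'.castSucc = i.succ ∧ d i' ≠ e i := by
    by_contra hc
    push Not at hc
    refine h ⟨fun k => if hk : k.val < r then d ⟨k, hk⟩ else e ⟨r - 1, by omega⟩, fun i => ?_⟩
    refine ⟨p i, hp i, ?_⟩
    have e1 : (if hk : (i.castSucc).val < r then d ⟨i.castSucc, hk⟩ else e ⟨r - 1, by omega⟩) = d i := by
      simp
    have e2 : (if hk : (i.succ).val < r then d ⟨i.succ, hk⟩ else e ⟨r - 1, by omega⟩) = e i := by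
      split_ifs with hk
      · exact hc _ _ (Fin.ext (by simp))
      · congr 1
        have := i.isLt
        simp at hk
        exact Fin.ext (by simp; omega)
    beta_reduce
    rw [e1, e2]
    exact hpR i
  obtain ⟨i, i', hii, hne⟩ := hmis
  have hii' : i' ≠ i := fun e => by
    subst e
    have := congrArg Fin.val hii
    simp at this
  refine ⟨fun t d' e' => (if t = i then 1 + (if e' = e i then 1 else 0) else 0) +
      (if t = i' then (if d' = e i then 1 else 0) else 0), fun m => ?_, fun z hz t d' e' ht => ?_⟩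
  · simp only [ev, Finset.sum_add_distrib, Finset.sum_ite_eq', Finset.mem_univ, if_true, hii]
    rw [add_assoc, CharTwo.add_self_eq_zero, add_zero]
  · obtain ⟨rfl, rfl⟩ := huniq z hz t d' e' ht
    by_cases h1 : t = i
    · subst h1
      simp only [if_true, if_neg hii'.symm, add_zero]
      decide
    · by_cases h2 : t = i'
      · subst h2
        simp [h1, hne]
      · simp [h1, h2]

/-- A cochain of any prescribed class vanishing on the pebbled edges. -/
theorem exists_eta' (hr : 1 ≤ r) {S : List Z} {R : Z → Fin r → D → D → Prop} (hR : Fn R)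
    (hS : S.length ≤ r) (δ : ZMod 2) (h : δ = 0 ∨ ¬ ∃ m, Path S R m) :
    ∃ η : Coch D r, Pure η δ ∧ ∀ z ∈ S, ∀ i d e, R z i d e → η i d e = 0 := by
  rcases h with rfl | h
  · exact ⟨0, pure_zero, fun _ _ _ _ _ _ => rfl⟩
  · obtain ⟨η, h1, h2⟩ := exists_eta hr hR hS h
    refine ⟨δ • η, by simpa using h1.smul δ, fun z hz i d e hi => ?_⟩
    simp [h2 z hz i d e hi]

theorem innerEq_act {m m' : Fin (r + 1) → D} (h : InnerEq m m') (π : Fin (r + 1) → D → D) :
    InnerEq (act π m) (act π m') := fun i h0 hl => by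
  simp only [R290.act, h i h0 hl]

end Dup
end Crest.Agent.R290
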