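/-
R290/PsDupB: states of Duplicator's strategy on a product system and the two elementary moves.
-/
import Crest.Agent.R290.PsDupA

set_option autoImplicit false

namespace Crest.Agent.R290
namespace Dup

variable {J X D : Type} {r : ℕ}

/-- The pebble `z` lies on column `j` of chain `c` (junctions count as column `r + 2`), edge `(i, d, e)`. -/
def On : Eqn J D r → J × Fin 3 → ℕ → Fin r → D → D → Prop
  | .zero, _, _, _, _, _ => False
  | .A c j i d e, c', j', i', d', e' => c' = c ∧ j' = j.val ∧ i' = i ∧ d' = d ∧ e' = e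
  | .B c j i d e, c', j', i', d', e' => c' = c ∧ j' = j.val ∧ i' = i ∧ d' = d ∧ e' = e
  | .J a i d e, c', j', i', d', e' => c'.1 = a ∧ j' = r + 2 ∧ i' = i ∧ d' = d ∧ e' = e

theorem On.uniq {z : Eqn J D r} {c c' : J × Fin 3} {j j' : ℕ} {i i' : Fin r} {d e d' e' : D}
    (h : On z c j i d e) (h' : On z c' j' i' d' e') :
    i = i' ∧ d = d' ∧ e = e' ∧ j = j' ∧ c.1 = c'.1 ∧ (j < r + 2 → c = c') := by
  cases z with
  | zero => exact h.elim
  | A c j i d e =>
    obtain ⟨rfl, rfl, rfl, rfl, rfl⟩ := h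
    obtain ⟨rfl, rfl, rfl, rfl, rfl⟩ := h'
    simp
  | B c j i d e =>
    obtain ⟨rfl, rfl, rfl, rfl, rfl⟩ := h
    obtain ⟨rfl, rfl, rfl, rfl, rfl⟩ := h'
    simp
  | J a i d e =>
    obtain ⟨h1, rfl, rfl, rfl, rfl⟩ := h
    obtain ⟨h2, rfl, rfl, rfl, rfl⟩ := h'
    simp [h1, h2]

theorem On.le {z : Eqn J D r} {c : J × Fin 3} {j : ℕ} {i : Fin r} {d e : D}
    (h : On z c j i d e) : j ≤ r + 2 := by
  cases z with
  | zero => exact h.elim
  | A c j i d e => obtain ⟨-, rfl, -⟩ := h; exact j.isLt.le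
  | B c j i d e => obtain ⟨-, rfl, -⟩ := h; exact j.isLt.le
  | J a i d e => obtain ⟨-, rfl, -⟩ := h; exact le_rfl

/-- Some column of any chain is free of pebbles. -/
theorem exists_free (S : List (Eqn J D r)) (hS : S.length ≤ r + 1) (c : J × Fin 3) :
    ∃ j, j < r + 2 ∧ ∀ z ∈ S, ∀ i d e, ¬ On z c j i d e := by
  classical
  let col : Eqn J D r → ℕ := fun z => if h : ∃ j i d e, On z c j i d e then h.choose else 0
  have hcol : ∀ z j i d e, On z c j i d e → col z = j := fun z j i d e hz => by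
    have h : ∃ j i d e, On z c j i d e := ⟨j, i, d, e, hz⟩
    obtain ⟨i', d', e', h'⟩ := h.choose_spec
    simp only [col, dif_pos h]
    exact (h'.uniq hz).2.2.2.1
  have h1 : (S.map col).toFinset.card < (Finset.range (r + 2)).card := by
    have := List.toFinset_card_le (S.map col)
    simp at this ⊢
    omega
  obtain ⟨j, hj, hj'⟩ := Finset.exists_mem_notMem_of_card_lt_card h1
  refine ⟨j, Finset.mem_range.1 hj, fun z hz i d e ho => hj' ?_⟩
  rw [List.mem_toFinset, ← hcol z j i d e ho]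
  exact List.mem_map_of_mem hz

/-- Labels: the broken column of each chain and the classes of hubs and junction ends. -/
structure Lab (J X : Type) where
  f : J × Fin 3 → ℕ
  εh : X → ZMod 2
  εj : J × Fin 3 → ZMod 2

/-- Data: the cochains on hubs and wires and the vertical values. -/
structure Dat (J X D : Type) (r : ℕ) where
  hx : X → Coch D r
  wr : J × Fin 3 → ℕ → Coch D r
  vv : J × Fin 3 → ℕ → Fin (r + 1) → D → ZMod 2

variable (P : PS J X D r)

/-- All equations hold outside the broken columns, and the classes are as labelled. -/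
structure Base (l : Lab J X) (t : Dat J X D r) : Prop where
  h0 : ∀ c, t.wr c 0 = pull (P.pi c.1 c.2) (t.hx (P.hub c.1 c.2))
  v0 : ∀ c j d, t.vv c j 0 d = 0
  vl : ∀ c j d, t.vv c j (Fin.last r) d = 0
  col : ∀ c j, j < r + 2 → j ≠ l.f c → t.wr c (j + 1) = t.wr c j + cob (t.vv c j)
  jun : ∀ a i d e, ∑ s, (if P.used a s = true then t.wr (a, s) (r + 2) i d e else 0) =
    if i.val = 0 then P.rhs a else 0
  ph : ∀ x, Pure (t.hx x) (l.εh x)
  pw : ∀ c j, j ≤ r + 2 → Pure (t.wr c j) (if j ≤ l.f c then l.εh (P.hub c.1 c.2) else l.εj c)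

/-- Agreement on the pebbled equations. -/
def Agr (S : List (Eqn J D r)) (t t' : Dat J X D r) : Prop :=
  ∀ z ∈ S, ∀ c j i d e, On z c j i d e →
    t'.wr c j i d e = t.wr c j i d e ∧ t'.wr c (j + 1) i d e = t.wr c (j + 1) i d e ∧
      t'.vv c j = t.vv c j

/-- The labels can be changed from `l` to `l'` without touching the pebbled equations. -/
def Step (S : List (Eqn J D r)) (l l' : Lab J X) : Prop :=
  ∀ t, Base P l t → ∃ t', Base P l' t' ∧ Agr S t t'

variable {P}

theorem Step.trans {S : List (Eqn J D r)} {l l' l'' : Lab J X} (h : Step P S l l') (h' : Step P S l' l'') :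
    Step P S l l'' := fun t ht => by
  obtain ⟨t', h1, h2⟩ := h t ht
  obtain ⟨t'', h3, h4⟩ := h' t' h1
  refine ⟨t'', h3, fun z hz c j i d e ho => ?_⟩
  obtain ⟨a1, a2, a3⟩ := h2 z hz c j i d e ho
  obtain ⟨b1, b2, b3⟩ := h4 z hz c j i d e ho
  exact ⟨b1.trans a1, b2.trans a2, b3.trans a3⟩

/-- No pebble lies on a broken column. -/
def Free (S : List (Eqn J D r)) (f : J × Fin 3 → ℕ) : Prop :=
  ∀ z ∈ S, ∀ c i d e, ¬ On z c (f c) i d e

variable (P) in
/-- Edges of the star of hub `x`. -/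
def RH (f : J × Fin 3 → ℕ) (x : X) (z : Eqn J D r) (i : Fin r) (d' e' : D) : Prop :=
  ∃ c j d e, On z c j i d e ∧ j < f c ∧ j < r + 2 ∧ P.hub c.1 c.2 = x ∧
    d' = P.pi c.1 c.2 i.castSucc d ∧ e' = P.pi c.1 c.2 i.succ e

/-- Edges of the star of junction `a`. -/
def RJ (f : J × Fin 3 → ℕ) (a : J) (z : Eqn J D r) (i : Fin r) (d e : D) : Prop :=
  ∃ s j, On z (a, s) j i d e ∧ f (a, s) < j

/-- Edges of a segment of a chain. -/
def RS (c : J × Fin 3) (lo hi : ℕ) (z : Eqn J D r) (i : Fin r) (d e : D) : Prop :=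
  ∃ j, On z c j i d e ∧ lo < j ∧ j < hi

theorem fn_RH (f : J × Fin 3 → ℕ) (x : X) : Fn (RH P f x) := by
  rintro z i _ _ i' _ _ ⟨c, j, d, e, h, -, hj, -, rfl, rfl⟩ ⟨c', j', d', e', h', -, -, -, rfl, rfl⟩
  obtain ⟨rfl, rfl, rfl, rfl, -, hc⟩ := h.uniq h'
  obtain rfl := hc hj
  exact ⟨rfl, rfl, rfl⟩

theorem fn_RJ (f : J × Fin 3 → ℕ) (a : J) : Fn (RJ (D := D) (r := r) f a) := by
  rintro z i d e i' d' e' ⟨s, j, h, -⟩ ⟨s', j', h', -⟩
  obtain ⟨rfl, rfl, rfl, -⟩ := h.uniq h'
  exact ⟨rfl, rfl, rfl⟩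

theorem fn_RS (c : J × Fin 3) (lo hi : ℕ) : Fn (RS (D := D) (r := r) c lo hi) := by
  rintro z i d e i' d' e' ⟨j, h, -⟩ ⟨j', h', -⟩
  obtain ⟨rfl, rfl, rfl, -⟩ := h.uniq h'
  exact ⟨rfl, rfl, rfl⟩

/-- Change all the stars at once. -/
theorem step_adj {S : List (Eqn J D r)} {l : Lab J X} (hfl : ∀ c, l.f c < r + 2) (hfree : Free S l.f)
    (ηh : X → Coch D r) (δh : X → ZMod 2) (hηh : ∀ x, Pure (ηh x) (δh x))
    (hvh : ∀ x, ∀ z ∈ S, ∀ i d e, RH P l.f x z i d e → ηh x i d e = 0)
    (ηj : J × Fin 3 → Coch D r) (δj : J × Fin 3 → ZMod 2) (hηj : ∀ c, Pure (ηj c) (δj c))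
    (hsum : ∀ a i d e, ∑ s, (if P.used a s = true then ηj (a, s) i d e else 0) = 0)
    (hvj : ∀ a s, ∀ z ∈ S, ∀ i d e, RJ l.f a z i d e → ηj (a, s) i d e = 0) :
    Step P S l ⟨l.f, l.εh + δh, l.εj + δj⟩ := by
  intro t ht
  let add : J × Fin 3 → ℕ → Coch D r := fun c j =>
    if j ≤ l.f c then pull (P.pi c.1 c.2) (ηh (P.hub c.1 c.2)) else ηj c
  have hadd : ∀ c j, j ≠ l.f c → add c (j + 1) = add c j := fun c j hj => by
    simp only [add]
    by_cases h : j ≤ l.f c
    · rw [if_pos h, if_pos (by omega)]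
    · rw [if_neg h, if_neg (by omega)]
  refine ⟨⟨t.hx + ηh, fun c j => t.wr c j + add c j, t.vv⟩,
    ⟨fun c => ?_, ht.v0, ht.vl, fun c j hj hjf => ?_, fun a i d e => ?_, fun x => ?_,
      fun c j hj => ?_⟩, fun z hz c j i d e ho => ?_⟩
  · simp only [add, Nat.zero_le, if_true, ht.h0, Pi.add_apply, pull_add]
  · simp only [hadd c j hjf, ht.col c j hj hjf]
    abel
  · have h1 := ht.jun a i d e
    have h2 := hsum a i d e
    rw [← h1, ← add_zero (∑ s, if P.used a s = true then t.wr (a, s) (r + 2) i d e else 0), ← h2,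
      ← Finset.sum_add_distrib]
    refine Finset.sum_congr rfl fun s _ => ?_
    have := hfl (a, s)
    have h3 : add (a, s) (r + 2) = ηj (a, s) := by simp only [add]; rw [if_neg (by omega)]
    simp only [h3, Pi.add_apply]
    split_ifs <;> simp
  · exact (ht.ph x).add (hηh x)
  · have := ht.pw c j hj
    simp only [add, Pi.add_apply]
    split_ifs at this ⊢ with h
    · exact this.add ((hηh _).pull _)
    · exact this.add (hηj c)
  · have hjf : j ≠ l.f c := fun e' => hfree z hz c i d e (e' ▸ ho)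
    have h0 : add c j i d e = 0 := by
      simp only [add]
      split_ifs with h
      · have := hfl c
        exact hvh _ z hz i _ _ ⟨c, j, d, e, ho, by omega, by omega, rfl, rfl, rfl⟩
      · exact hvj c.1 c.2 z hz i d e ⟨c.2, j, ho, by simpa using h⟩
    simp only [Pi.add_apply, hadd c j hjf, h0, add_zero, and_self]

/-- Set the classes of the stars without a path. -/
theorem step_set (hr : 1 ≤ r) {S : List (Eqn J D r)} (hS : S.length ≤ r) {l : Lab J X}
    (hfl : ∀ c, l.f c < r + 2) (hfree : Free S l.f)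
    (hsum : ∀ a, ∑ s, (if P.used a s = true then l.εj (a, s) else 0) = P.rhs a)
    (εh : X → ZMod 2) (εj : J × Fin 3 → ZMod 2)
    (hh : ∀ x, εh x = l.εh x ∨ ¬ ∃ m, Path S (RH P l.f x) m)
    (hj : ∀ a, (∀ s, εj (a, s) = l.εj (a, s)) ∨ ¬ ∃ m, Path S (RJ l.f a) m)
    (hsum' : ∀ a, ∑ s, (if P.used a s = true then εj (a, s) else 0) = P.rhs a) :
    Step P S l ⟨l.f, εh, εj⟩ := by
  have z2 : ∀ x y : ZMod 2, x + (x + y) = y := by decide
  have z3 : ∀ x y : ZMod 2, y = x → x + y = 0 := by decide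
  have H1 : ∀ x, ∃ η : Coch D r, Pure η (l.εh x + εh x) ∧
      ∀ z ∈ S, ∀ i d e, RH P l.f x z i d e → η i d e = 0 := fun x =>
    exists_eta' hr (fn_RH _ _) hS _ ((hh x).imp_left (z3 _ _))
  have H2 : ∀ a, ∃ η : Coch D r, (∀ s, Pure ((l.εj (a, s) + εj (a, s)) • η) (l.εj (a, s) + εj (a, s))) ∧
      ∀ z ∈ S, ∀ i d e, RJ l.f a z i d e → η i d e = 0 := fun a => by
    rcases hj a with h | h
    · refine ⟨0, fun s => ?_, fun _ _ _ _ _ _ => rfl⟩
      rw [z3 _ _ (h s), smul_zero]
      exact pure_zero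
    · obtain ⟨η, h1, h2⟩ := exists_eta hr (fn_RJ _ _) hS h
      exact ⟨η, fun s => by simpa using h1.smul (l.εj (a, s) + εj (a, s)), h2⟩
  choose ηh h1 h2 using H1
  choose ηj h3 h4 using H2
  have := step_adj (P := P) hfl hfree ηh (l.εh + εh) h1 h2
    (fun c => (l.εj c + εj c) • ηj c.1) (l.εj + εj) (fun c => h3 c.1 c.2) (fun a i d e => ?_)
    (fun a s z hz i d e hi => by simp [h4 a z hz i d e hi])
  · have e1 : l.εh + (l.εh + εh) = εh := funext fun x => z2 _ _
    have e2 : l.εj + (l.εj + εj) = εj := funext fun x => z2 _ _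
    rwa [e1, e2] at this
  · have : ∑ s, (if P.used a s = true then ((l.εj (a, s) + εj (a, s)) • ηj a) i d e else 0) =
        (∑ s, (if P.used a s = true then l.εj (a, s) else 0) +
          ∑ s, (if P.used a s = true then εj (a, s) else 0)) * ηj a i d e := by
      rw [← Finset.sum_add_distrib, Finset.sum_mul]
      refine Finset.sum_congr rfl fun s _ => ?_
      split_ifs <;> simp
    rw [this, hsum, hsum', CharTwo.add_self_eq_zero, zero_mul]

open Classical in
/-- Move the broken column of chain `c`. -/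
theorem step_move [Nonempty D] (hr : 1 ≤ r) {S : List (Eqn J D r)} (hS : S.length ≤ r) {l : Lab J X}
    (hfl : ∀ c, l.f c < r + 2) (hfree : Free S l.f) (c : J × Fin 3) (k : ℕ) (hk : k < r + 2)
    (hkf : k ≠ l.f c) (hkfree : ∀ z ∈ S, ∀ i d e, ¬ On z c k i d e)
    (hseg : l.εh (P.hub c.1 c.2) = l.εj c ∨
      ¬ ∃ m, Path S (RS c (min (l.f c) k) (max (l.f c) k)) m) :
    Step P S l ⟨Function.update l.f c k, l.εh, l.εj⟩ := by
  intro t ht
  have z2 : ∀ x y : ZMod 2, x + (x + y) = y := by decide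
  have z2' : ∀ x y : ZMod 2, y + (x + y) = x := by decide
  have z3 : ∀ x y : ZMod 2, x = y → x + y = 0 := by decide
  obtain ⟨η, h1, h2⟩ := exists_eta' hr (fn_RS c (min (l.f c) k) (max (l.f c) k)) hS
    (l.εh (P.hub c.1 c.2) + l.εj c) (hseg.imp_left (z3 _ _))
  have hfc := hfl c
  let w : ℕ → Coch D r := fun j =>
    t.wr c j + if min (l.f c) k < j ∧ j ≤ max (l.f c) k then η else 0
  have hw : ∀ j, j ≤ r + 2 → Pure (w j) (if j ≤ k then l.εh (P.hub c.1 c.2) else l.εj c) := by
    intro j hj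
    have := ht.pw c j hj
    simp only [w]
    by_cases a1 : j ≤ l.f c <;> by_cases a2 : j ≤ k
    · rw [if_neg (by omega), add_zero, if_pos a2]; rwa [if_pos a1] at this
    · rw [if_pos (by omega), if_neg a2]; rw [if_pos a1] at this
      have := this.add h1
      rwa [z2] at this
    · rw [if_pos (by omega), if_pos a2]; rw [if_neg a1] at this
      have := this.add h1
      rwa [z2'] at this
    · rw [if_neg (by omega), add_zero, if_neg a2]; rwa [if_neg a1] at this
  obtain ⟨v, hv0, hvl, hv⟩ : ∃ v : Fin (r + 1) → D → ZMod 2, (∀ d, v 0 d = 0) ∧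
      (∀ d, v (Fin.last r) d = 0) ∧ w (l.f c + 1) = w (l.f c) + cob v := by
    have a1 := hw (l.f c) (by omega)
    have a2 := hw (l.f c + 1) (by omega)
    by_cases h : l.f c ≤ k
    · rw [if_pos h] at a1; rw [if_pos (by omega)] at a2; exact a1.exists_cob a2
    · rw [if_neg h] at a1; rw [if_neg (by omega)] at a2; exact a1.exists_cob a2
  refine ⟨⟨t.hx, Function.update t.wr c w,
      Function.update t.vv c (Function.update (t.vv c) (l.f c) v)⟩,
    ⟨fun c' => ?_, fun c' j d => ?_, fun c' j d => ?_, fun c' j hj hjf => ?_, fun a i d e => ?_,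
      ht.ph, fun c' j hj => ?_⟩, fun z hz c' j i d e ho => ?_⟩
  · by_cases hc : c' = c
    · subst hc
      simp only [Function.update_self, w]
      rw [if_neg (by omega), add_zero, ht.h0]
    · simp only [Function.update_of_ne hc, ht.h0]
  · by_cases hc : c' = c
    · subst hc
      by_cases hj : j = l.f c'
      · subst hj; simp only [Function.update_self, hv0]
      · simp only [Function.update_self, Function.update_of_ne hj, ht.v0]
    · simp only [Function.update_of_ne hc, ht.v0]
  · by_cases hc : c' = c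
    · subst hc
      by_cases hj : j = l.f c'
      · subst hj; simp only [Function.update_self, hvl]
      · simp only [Function.update_self, Function.update_of_ne hj, ht.vl]
    · simp only [Function.update_of_ne hc, ht.vl]
  · by_cases hc : c' = c
    · subst hc
      simp only [Function.update_self] at hjf ⊢
      by_cases hj' : j = l.f c'
      · subst hj'; simp only [Function.update_self, hv]
      · simp only [Function.update_of_ne hj', w, ht.col c' j hj hj']
        by_cases hin : min (l.f c') k < j ∧ j ≤ max (l.f c') k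
        · rw [if_pos hin, if_pos (by omega)]; abel
        · rw [if_neg hin, if_neg (by omega)]; abel
    · simp only [Function.update_of_ne hc] at hjf ⊢
      exact ht.col c' j hj hjf
  · rw [← ht.jun a i d e]
    refine Finset.sum_congr rfl fun s _ => ?_
    by_cases hc : (a, s) = c
    · subst hc
      simp only [Function.update_self, w]
      rw [if_neg (show ¬ (min (l.f (a, s)) k < r + 2 ∧ r + 2 ≤ max (l.f (a, s)) k) by omega), add_zero]
    · simp only [Function.update_of_ne hc]
  · by_cases hc : c' = c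
    · subst hc
      simp only [Function.update_self]
      exact hw j hj
    · simp only [Function.update_of_ne hc]
      exact ht.pw c' j hj
  · by_cases hc : c' = c
    · subst hc
      have hjf : j ≠ l.f c' := fun e' => hfree z hz c' i d e (e' ▸ ho)
      have hjk : j ≠ k := fun e' => hkfree z hz i d e (e' ▸ ho)
      simp only [Function.update_self, Function.update_of_ne hjf, w, Pi.add_apply, and_true]
      by_cases hin : min (l.f c') k < j ∧ j ≤ max (l.f c') k
      · have h0 := h2 z hz i d e ⟨j, ho, hin.1, by omega⟩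
        rw [if_pos hin, if_pos (by omega), h0]; simp
      · rw [if_neg hin, if_neg (by omega)]; simp
    · simp only [Function.update_of_ne hc, and_self]

end Dup
end Crest.Agent.R290
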