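/-
R290/PsDup: Duplicator's strategy on the XOR system of an arc-consistent product system.
Each chain has one broken, unpebbled column; hubs and junction ends carry cochains of constant class;
a class is forced only along a path of `r` pebbles, where arc consistency fixes it.
-/
import Crest.Agent.R290.PsDupB

set_option autoImplicit false

namespace Crest.Agent.R290
namespace Dup

variable {J X D : Type} {r : ℕ}

/-- The invariant on labels. -/
structure Good (P : PS J X D r) (Kn : X → (Fin (r + 1) → D) → Prop) (S : List (Eqn J D r))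
    (l : Lab J X) : Prop where
  fl : ∀ c, l.f c < r + 2
  free : Free S l.f
  sum : ∀ a, ∑ s, (if P.used a s = true then l.εj (a, s) else 0) = P.rhs a
  gh : ∀ x m, Path S (RH P l.f x) m → Kn x m → l.εh x = 0
  gj : ∀ a m, Path S (RJ l.f a) m → ∀ s, Kn (P.hub a s) (act (P.pi a s) m) → l.εj (a, s) = 0

variable {P : PS J X D r} {Kn : X → (Fin (r + 1) → D) → Prop}

theorem Good.sub {S S' : List (Eqn J D r)} {l : Lab J X} (h : Good P Kn S l) (hs : S' ⊆ S) :
    Good P Kn S' l :=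
  ⟨h.fl, fun z hz => h.free z (hs hz), h.sum, fun x m hm => h.gh x m (hm.mono hs fun _ _ _ _ _ h => h),
    fun a m hm => h.gj a m (hm.mono hs fun _ _ _ _ _ h => h)⟩

theorem inner_RH {S S' S'' : List (Eqn J D r)} (h1 : S' ⊆ S) (h2 : S'' ⊆ S) (hS : S.length ≤ r + 1)
    {f f' : J × Fin 3 → ℕ} {x : X} {m m' : Fin (r + 1) → D}
    (hm : Path S' (RH P f x) m) (hm' : Path S'' (RH P f' x) m') : InnerEq m m' := by
  refine Path.inner (fn_RH (P := P) (fun _ => r + 2) x) hS (hm.mono h1 ?_) (hm'.mono h2 ?_)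
  · rintro z - i _ _ ⟨c, j, d, e, a1, -, a2, a3⟩
    exact ⟨c, j, d, e, a1, a2, a2, a3⟩
  · rintro z - i _ _ ⟨c, j, d, e, a1, -, a2, a3⟩
    exact ⟨c, j, d, e, a1, a2, a2, a3⟩

/-- Edges on the chains of junction `a`. -/
def RA (a : J) (z : Eqn J D r) (i : Fin r) (d e : D) : Prop := ∃ s j, On z (a, s) j i d e

theorem fn_RA (a : J) : Fn (RA (D := D) (r := r) a) := by
  rintro z i d e i' d' e' ⟨s, j, h⟩ ⟨s', j', h'⟩
  obtain ⟨rfl, rfl, rfl, -⟩ := h.uniq h'
  exact ⟨rfl, rfl, rfl⟩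

theorem path_RA {S S' : List (Eqn J D r)} (h1 : S' ⊆ S) {f : J × Fin 3 → ℕ} {a : J}
    {m : Fin (r + 1) → D} (hm : Path S' (RJ f a) m) : Path S (RA a) m :=
  hm.mono h1 fun _ _ _ _ _ ⟨s, j, h, _⟩ => ⟨s, j, h⟩

/-- Normalise the classes for a larger position and new breaks. -/
theorem norm (hr : 1 ≤ r) (hin : ∀ x m m', InnerEq m m' → Kn x m → Kn x m') (hAC : P.AC Kn)
    {S S' : List (Eqn J D r)} (hS : S.length ≤ r) (hS' : S'.length ≤ r + 1) (hsub : S ⊆ S')
    {l : Lab J X} (h : Good P Kn S l) (f' : J × Fin 3 → ℕ) (hfl : ∀ c, f' c < r + 2)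
    (hfree : Free S' f') :
    ∃ εh εj, Step P S l ⟨l.f, εh, εj⟩ ∧ Good P Kn S' ⟨f', εh, εj⟩ := by
  classical
  have H : ∀ a, ∃ ε : Fin 3 → ZMod 2,
      ((∀ s, ε s = l.εj (a, s)) ∨ ¬ ∃ m, Path S (RJ l.f a) m) ∧
      ∑ s, (if P.used a s = true then ε s else 0) = P.rhs a ∧
      ∀ m, Path S' (RJ f' a) m → ∀ s, Kn (P.hub a s) (act (P.pi a s) m) → ε s = 0 := by
    intro a
    by_cases h1 : ∃ m, Path S (RJ l.f a) m
    · obtain ⟨m₀, h1⟩ := h1
      refine ⟨fun s => l.εj (a, s), Or.inl fun _ => rfl, h.sum a, fun m hm s hk => ?_⟩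
      have := Path.inner (fn_RA a) hS' (path_RA (List.Subset.refl _) hm) (path_RA hsub h1)
      exact h.gj a m₀ h1 s (hin _ _ _ (innerEq_act this _) hk)
    by_cases h2 : ∃ m, Path S' (RJ f' a) m
    · obtain ⟨m₀, h2⟩ := h2
      obtain ⟨ε, -, a1, a2⟩ := hAC a m₀ 0 0 (fun h => (h rfl).elim)
      refine ⟨ε, Or.inr h1, a2, fun m hm s hk => a1 s ?_⟩
      have := Path.inner (fn_RJ f' a) hS' hm h2
      exact hin _ _ _ (innerEq_act this _) hk
    · exact ⟨fun s => l.εj (a, s), Or.inl fun _ => rfl, h.sum a, fun m hm => (h2 ⟨m, hm⟩).elim⟩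
  choose ε h1 h2 h3 using H
  refine ⟨fun x => if ∃ m, Path S (RH P l.f x) m then l.εh x else 0, fun c => ε c.1 c.2,
    step_set hr hS h.fl h.free h.sum _ _ (fun x => ?_) h1 h2, hfl, hfree, h2, fun x m hm hk => ?_, h3⟩
  · by_cases hx : ∃ m, Path S (RH P l.f x) m
    · exact Or.inl (if_pos hx)
    · exact Or.inr hx
  · dsimp only
    split_ifs with hx
    · obtain ⟨m₀, hx⟩ := hx
      exact h.gh x m₀ hx (hin _ _ _ (inner_RH (List.Subset.refl _) hsub hS' hm hx) hk)
    · rfl

/-- The combinatorial heart: a new pebble can always be absorbed. -/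
theorem absorb [Nonempty D] (hr : 1 ≤ r) (hin : ∀ x m m', InnerEq m m' → Kn x m → Kn x m')
    (hAC : P.AC Kn) {S : List (Eqn J D r)} (hS : S.length ≤ r) {l : Lab J X} (h : Good P Kn S l)
    (z : Eqn J D r) : ∃ l', Step P S l l' ∧ Good P Kn (z :: S) l' := by
  classical
  have hS' : (z :: S).length ≤ r + 1 := by simpa using hS
  have hsub : S ⊆ z :: S := List.subset_cons_self _ _
  by_cases hz : ∃ c i d e, On z c (l.f c) i d e
  swap
  · have hfree : Free (z :: S) l.f := fun y hy c i d e ho => by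
      rcases List.mem_cons.1 hy with rfl | hy
      · exact hz ⟨c, i, d, e, ho⟩
      · exact h.free y hy c i d e ho
    obtain ⟨εh, εj, h1, h2⟩ := norm hr hin hAC hS hS' hsub h l.f h.fl hfree
    exact ⟨_, h1, h2⟩
  obtain ⟨c, i₀, d₀, e₀, hz⟩ := hz
  obtain ⟨k, hk, hkfree⟩ := exists_free (z :: S) hS' c
  have hfc := h.fl c
  have hkf : k ≠ l.f c := fun e => hkfree z List.mem_cons_self i₀ d₀ e₀ (e ▸ hz)
  have hfl : ∀ c', Function.update l.f c k c' < r + 2 := fun c' => by
    by_cases hc : c' = c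
    · subst hc; simpa using hk
    · rw [Function.update_of_ne hc]; exact h.fl c'
  have hfree : Free (z :: S) (Function.update l.f c k) := fun y hy c' i d e ho => by
    by_cases hc : c' = c
    · subst hc
      rw [Function.update_self] at ho
      exact hkfree y hy i d e ho
    · rw [Function.update_of_ne hc] at ho
      rcases List.mem_cons.1 hy with rfl | hy
      · exact hc ((hz.uniq ho).2.2.2.2.2 hfc).symm
      · exact h.free y hy c' i d e ho
  have hkS : ∀ y ∈ S, ∀ i d e, ¬ On y c k i d e := fun y hy => hkfree y (hsub hy)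
  by_cases hseg : ∃ m, Path S (RS c (min (l.f c) k) (max (l.f c) k)) m
  swap
  · obtain ⟨εh, εj, h1, h2⟩ := norm hr hin hAC hS hS' hsub h _ hfl hfree
    exact ⟨_, h1.trans (step_move (l := ⟨l.f, εh, εj⟩) hr hS h.fl h.free c k hk hkf hkS (Or.inr hseg)),
      h2⟩
  obtain ⟨m₀, hm₀⟩ := hseg
  -- every pebble lies on the segment
  have hall : ∀ y ∈ S, ∀ c' j i d e, On y c' j i d e →
      c' = c ∧ min (l.f c) k < j ∧ j < max (l.f c) k := fun y hy c' j i d e ho => by
    obtain ⟨i', d', e', j', ho', a1, a2⟩ := hm₀.full (fn_RS _ _ _) hS hy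
    obtain ⟨-, -, -, rfl, -, hc⟩ := ho'.uniq ho
    exact ⟨(hc (by omega)).symm, a1, a2⟩
  have hzall : ∀ c' j i d e, On z c' j i d e → c' = c ∧ j = l.f c := fun c' j i d e ho => by
    obtain ⟨-, -, -, rfl, -, hc⟩ := hz.uniq ho
    exact ⟨(hc hfc).symm, rfl⟩
  let i1 : Fin r := ⟨0, hr⟩
  rcases lt_or_gt_of_ne hkf with hlt | hlt
  · -- the segment passes from the hub to the junction
    have hp : Path S (RH P l.f (P.hub c.1 c.2)) (act (P.pi c.1 c.2) m₀) := fun i => by
      obtain ⟨y, hy, j, ho, a1, a2⟩ := hm₀ i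
      exact ⟨y, hy, c, j, _, _, ho, by omega, by omega, rfl, rfl, rfl⟩
    obtain ⟨ε, a0, a1, a2⟩ := hAC c.1 m₀ c.2 (l.εh (P.hub c.1 c.2)) fun hne hk => hne (h.gh _ _ hp hk)
    let εj : J × Fin 3 → ZMod 2 := fun c' => if c'.1 = c.1 then ε c'.2 else l.εj c'
    have hsum : ∀ a, ∑ s, (if P.used a s = true then εj (a, s) else 0) = P.rhs a := fun a => by
      by_cases ha : a = c.1
      · subst ha; simpa only [εj, if_true] using a2
      · simpa only [εj, if_neg ha] using h.sum a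
    have s1 : Step P S l ⟨l.f, l.εh, εj⟩ := by
      refine step_set hr hS h.fl h.free h.sum _ _ (fun x => Or.inl rfl) (fun a => Or.inr ?_) hsum
      rintro ⟨m, hm⟩
      obtain ⟨y, hy, s, j, ho, hj⟩ := hm i1
      obtain ⟨rfl, b1, b2⟩ := hall y hy _ _ _ _ _ ho
      omega
    have s2 := step_move (P := P) (l := ⟨l.f, l.εh, εj⟩) hr hS h.fl h.free c k hk hkf hkS
      (Or.inl (by simp only [εj, if_true, a0]))
    refine ⟨_, s1.trans s2, hfl, hfree, hsum, fun x m hm => ?_, fun a m hm s hk => ?_⟩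
    · exfalso
      obtain ⟨y, hy, c', j, d, e, ho, hj, -⟩ := hm i1
      rcases List.mem_cons.1 hy with rfl | hy
      · obtain ⟨rfl, rfl⟩ := hzall _ _ _ _ _ ho
        simp only [Function.update_self] at hj
        omega
      · obtain ⟨rfl, b1, b2⟩ := hall y hy _ _ _ _ _ ho
        simp only [Function.update_self] at hj
        omega
    · have ha : a = c.1 := by
        obtain ⟨y, hy, s', j, ho, -⟩ := hm i1
        rcases List.mem_cons.1 hy with rfl | hy
        · rw [← (hzall _ _ _ _ _ ho).1]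
        · rw [← (hall y hy _ _ _ _ _ ho).1]
      subst ha
      have hp' : Path (z :: S) (RA c.1) m₀ := hm₀.mono hsub fun _ _ _ _ _ ⟨j, ho, _⟩ => ⟨c.2, j, ho⟩
      have := Path.inner (fn_RA c.1) hS' (path_RA (List.Subset.refl _) hm) hp'
      simp only [εj, if_true]
      exact a1 s (hin _ _ _ (innerEq_act this _) hk)
  · -- the segment passes from the junction to the hub
    have hp : Path S (RJ l.f c.1) m₀ := fun i => by
      obtain ⟨y, hy, j, ho, a1, a2⟩ := hm₀ i
      exact ⟨y, hy, c.2, j, ho, by change l.f c < j; omega⟩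
    let εh : X → ZMod 2 := fun x => if x = P.hub c.1 c.2 then l.εj c else 0
    have s1 : Step P S l ⟨l.f, εh, l.εj⟩ := by
      refine step_set hr hS h.fl h.free h.sum _ _ (fun x => Or.inr ?_) (fun a => Or.inl fun _ => rfl) h.sum
      rintro ⟨m, hm⟩
      obtain ⟨y, hy, c', j, d, e, ho, hj, -⟩ := hm i1
      obtain ⟨rfl, b1, b2⟩ := hall y hy _ _ _ _ _ ho
      omega
    have s2 := step_move (P := P) (l := ⟨l.f, εh, l.εj⟩) hr hS h.fl h.free c k hk hkf hkS
      (Or.inl (by simp only [εh, if_true]))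
    refine ⟨_, s1.trans s2, hfl, hfree, h.sum, fun x m hm hk => ?_, fun a m hm => ?_⟩
    · simp only [εh]
      split_ifs with hx
      · subst hx
        have hp' : Path S (RH P (fun _ => r + 2) (P.hub c.1 c.2)) (act (P.pi c.1 c.2) m₀) := fun i => by
          obtain ⟨y, hy, j, ho, a1, a2⟩ := hm₀ i
          exact ⟨y, hy, c, j, _, _, ho, by show j < r + 2; omega, by omega, rfl, rfl, rfl⟩
        exact h.gj c.1 m₀ hp c.2 (hin _ _ _ (inner_RH (List.Subset.refl _) hsub hS' hm hp') hk)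
      · rfl
    · exfalso
      obtain ⟨y, hy, s, j, ho, hj⟩ := hm i1
      rcases List.mem_cons.1 hy with rfl | hy
      · obtain ⟨rfl, rfl⟩ := hzall _ _ _ _ _ ho
        simp only [Function.update_self] at hj
        omega
      · obtain ⟨rfl, b1, b2⟩ := hall y hy _ _ _ _ _ ho
        simp only [Function.update_self] at hj
        omega

/-- The assignment of a state. -/
def asg (t : Dat J X D r) : Var J X D r → ZMod 2
  | .zero => 0
  | .hub x i d e => t.hx x i d e
  | .wire c j i d e => t.wr c j i d e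
  | .mid c j i d e => t.wr c j i d e + t.vv c j i.castSucc d
  | .v c j i d => t.vv c j i d

theorem asg_mid (t : Dat J X D r) (c : J × Fin 3) (j : ℕ) (i : Fin r) (d e : D) :
    asg t (.mid c j i d e) = t.wr c j i d e + t.vv c j i.castSucc d := rfl

theorem asg_wire {l : Lab J X} {t : Dat J X D r} (h : Base P l t) (c : J × Fin 3) (j : ℕ) (i : Fin r)
    (d e : D) : asg t (P.wireV c j i d e) = t.wr c j i d e := by
  unfold PS.wireV
  split_ifs with hj
  · subst hj; rw [h.h0]; rfl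
  · rfl

theorem asg_v {l : Lab J X} {t : Dat J X D r} (h : Base P l t) (c : J × Fin 3) (j : ℕ) (i : Fin (r + 1))
    (d : D) : asg t (P.vV c j i d) = t.vv c j i d := by
  unfold PS.vV
  split_ifs with hj
  · rcases hj with rfl | rfl
    · rw [h.v0]; rfl
    · rw [h.vl]; rfl
  · rfl

theorem asg_J {l : Lab J X} {t : Dat J X D r} (h : Base P l t) (a : J) (i : Fin r) (d e : D) (s : Fin 3) :
    asg t (P.var (.J a i d e) s) = if P.used a s = true then t.wr (a, s) (r + 2) i d e else 0 := by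
  simp only [PS.var]
  split_ifs
  · exact asg_wire h _ _ _ _ _
  · rfl

theorem agree_of_agr {S : List (Eqn J D r)} {l l' : Lab J X} {t t' : Dat J X D r} (h : Base P l t)
    (h' : Base P l' t') (ha : Agr S t t') {z : Eqn J D r} (hz : z ∈ S) :
    Agree P.var (asg t) (asg t') z := by
  intro s
  cases z with
  | zero => rfl
  | A c j i d e =>
    obtain ⟨a1, a2, a3⟩ := ha _ hz c j i d e ⟨rfl, rfl, rfl, rfl, rfl⟩
    simp only [PS.var]
    split_ifs
    · rw [asg_wire h, asg_wire h', a1]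
    · rw [asg_v h, asg_v h', a3]
    · simp only [asg, a1, a3]
  | B c j i d e =>
    obtain ⟨a1, a2, a3⟩ := ha _ hz c j i d e ⟨rfl, rfl, rfl, rfl, rfl⟩
    simp only [PS.var]
    split_ifs
    · simp only [asg, a1, a3]
    · rw [asg_v h, asg_v h', a3]
    · rw [asg_wire h, asg_wire h', a2]
  | J a i d e =>
    rw [asg_J h, asg_J h', (ha _ hz (a, s) (r + 2) i d e ⟨rfl, rfl, rfl, rfl, rfl⟩).1]

theorem sat_of_base {S : List (Eqn J D r)} {l : Lab J X} {t : Dat J X D r} (h : Base P l t)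
    (hf : Free S l.f) {z : Eqn J D r} (hz : z ∈ S) : Sat P.var P.b (asg t) z := by
  cases z with
  | zero => simp [Sat, PS.var, PS.b, asg]
  | A c j i d e =>
    have e0 : P.var (.A c j i d e) 0 = P.wireV c j i d e := rfl
    have e1 : P.var (.A c j i d e) 1 = P.vV c j i.castSucc d := rfl
    have e2 : P.var (.A c j i d e) 2 = .mid c j i d e := rfl
    simp only [Sat, e0, e1, e2, asg_wire h, asg_v h, PS.b, asg_mid]
    exact CharTwo.add_self_eq_zero _
  | B c j i d e =>
    have e0 : P.var (.B c j i d e) 0 = .mid c j i d e := rfl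
    have e1 : P.var (.B c j i d e) 1 = P.vV c j i.succ e := rfl
    have e2 : P.var (.B c j i d e) 2 = P.wireV c (j + 1) i d e := rfl
    have hj : j.val ≠ l.f c := fun e' => hf _ hz c i d e ⟨rfl, e'.symm, rfl, rfl, rfl⟩
    simp only [Sat, e0, e1, e2, asg_wire h, asg_v h, PS.b, asg_mid, h.col c j j.isLt hj, Pi.add_apply, cob]
    have z4 : ∀ x y w : ZMod 2, x + y + w + (x + (y + w)) = 0 := by decide
    exact z4 _ _ _
  | J a i d e =>
    have := h.jun a i d e
    rw [Fin.sum_univ_three] at this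
    simp only [Sat, asg_J h, PS.b]
    exact this

theorem exists_init [Nonempty D] (hr : 1 ≤ r) (hAC : P.AC Kn) :
    ∃ l t, Base P l t ∧ Good P Kn [] l := by
  obtain ⟨d₀⟩ := ‹Nonempty D›
  have H := fun a => hAC a (fun _ => d₀) 0 0 (fun h => (h rfl).elim)
  choose ε h1 h2 h3 using H
  let i1 : Fin r := ⟨0, hr⟩
  refine ⟨⟨fun _ => 0, fun _ => 0, fun c => ε c.1 c.2⟩,
    ⟨0, fun c j => if j = 0 then 0 else ε c.1 c.2 • row i1, 0⟩,
    ⟨fun c => rfl, fun _ _ _ => rfl, fun _ _ _ => rfl, fun c j hj hj0 => ?_, fun a i d e => ?_,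
      fun x => pure_zero, fun c j hj => ?_⟩,
    ⟨fun _ => by simp, fun z hz => by simp at hz, h3, fun x m hm => ?_, fun a m hm => ?_⟩⟩
  · dsimp only at hj0 ⊢
    rw [if_neg hj0, if_neg (by omega)]
    funext i d e
    simp [cob]
  · dsimp only
    rw [← h3 a]
    by_cases hi : i.val = 0
    · have : i = i1 := Fin.ext hi
      simp [row, this, i1]
    · have : i ≠ i1 := fun e => hi (by rw [e])
      simp [row, this, hi]
  · dsimp only
    by_cases hj0 : j = 0
    · subst hj0; simpa using pure_zero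
    · rw [if_neg hj0, if_neg (by omega)]
      simpa using (pure_row i1).smul (ε c.1 c.2)
  · obtain ⟨z, hz, -⟩ := hm i1
    simp at hz
  · obtain ⟨z, hz, -⟩ := hm i1
    simp at hz

end Dup

theorem PS.xdup {J X D : Type} {r : ℕ} [Nonempty D] (hr : 1 ≤ r) (S : PS J X D r)
    (Kn : X → (Fin (r + 1) → D) → Prop) (hin : ∀ x m m', InnerEq m m' → Kn x m → Kn x m')
    (hAC : S.AC Kn) : XDup (r + 1) S.var S.b := by
  refine ⟨fun L g => ∃ l t, Dup.Base S l t ∧ Dup.Good S Kn L l ∧ g = Dup.asg t, ?_, ?_, ?_, ?_⟩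
  · obtain ⟨l, t, h1, h2⟩ := Dup.exists_init (P := S) hr hAC
    exact ⟨_, l, t, h1, h2, rfl⟩
  · rintro L L' g ⟨l, t, h1, h2, rfl⟩ hs
    exact ⟨l, t, h1, h2.sub hs, rfl⟩
  · rintro L g e ⟨l, t, h1, h2, rfl⟩ he
    exact Dup.sat_of_base h1 h2.free he
  · rintro L g ⟨l, t, h1, h2, rfl⟩ hL z
    obtain ⟨l', h3, h4⟩ := Dup.absorb hr hin hAC (by omega) h2 z
    obtain ⟨t', h5, h6⟩ := h3 t h1
    exact ⟨_, fun e he => Dup.agree_of_agr h1 h5 h6 he, l', t', h5, h4, rfl⟩

end Crest.Agent.R290
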