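/-
R290/HornPs: Horn systems as product systems.
Skeleton by helper86; keep the statements of the theorems unchanged (add any helper lemmas you like).
-/
import Crest.Agent.R290.PsDup
import Crest.Agent.R290.PsSpo

set_option autoImplicit false

namespace Crest.Agent.R290

variable {I P X M D : Type} {r : ℕ} (H : Horn I P X M D r)

theorem hornPs_ac (K : Fin 3 → Prop) (u : Fin 3 → Bool) (c : ZMod 2) (s₀ : Fin 3) (e : ZMod 2)
    (he : e ≠ 0 → ¬ K s₀)
    (h : (if u s₀ = true then e else 0) ≠ c → ∃ s₁, s₁ ≠ s₀ ∧ u s₁ = true ∧ ¬ K s₁) :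
    ∃ ε : Fin 3 → ZMod 2, ε s₀ = e ∧ (∀ s, K s → ε s = 0) ∧
      ∑ s, (if u s = true then ε s else 0) = c := by
  have hs : ∀ (s₁ : Fin 3) (x : ZMod 2),
      ∑ s, (if u s = true then (Pi.single s₁ x : Fin 3 → ZMod 2) s else 0) =
        if u s₁ = true then x else 0 := by
    intro s₁ x
    rw [Finset.sum_eq_single s₁ (fun b _ hb => by simp [Pi.single_eq_of_ne hb]) (by simp)]
    simp
  have h0 : ∀ s, K s → (Pi.single s₀ e : Fin 3 → ZMod 2) s = 0 := by
    intro s hK
    by_cases hss : s = s₀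
    · subst hss
      rw [Pi.single_eq_same]
      by_contra h
      exact he h hK
    · exact Pi.single_eq_of_ne hss _
  by_cases hc : (if u s₀ = true then e else 0) = c
  · exact ⟨Pi.single s₀ e, by simp, h0, by rw [hs, hc]⟩
  · obtain ⟨s₁, h1, h2, h3⟩ := h hc
    refine ⟨Pi.single s₀ e + Pi.single s₁ 1, by simp [Pi.single_eq_of_ne h1.symm], fun s hK => ?_, ?_⟩
    · have : s ≠ s₁ := by rintro rfl; exact h3 hK
      rw [Pi.add_apply, h0 s hK, Pi.single_eq_of_ne this, add_zero]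
    · have : ∀ s, (if u s = true then (Pi.single s₀ e + Pi.single s₁ 1 : Fin 3 → ZMod 2) s else 0) =
          (if u s = true then (Pi.single s₀ e : Fin 3 → ZMod 2) s else 0) +
            (if u s = true then (Pi.single s₁ 1 : Fin 3 → ZMod 2) s else 0) := by
        intro s
        split_ifs <;> simp
      simp only [this, Finset.sum_add_distrib, hs, h2, if_true]
      exact (by decide : ∀ x c : ZMod 2, ¬ x = c → x + 1 = c) _ _ hc

theorem Horn.act_id (m : Fin (r + 1) → D) : act (H.app H.idm) m = m :=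
  funext fun i => H.app_id i (m i)

theorem InnerEq.act {m m' : Fin (r + 1) → D} (h : InnerEq m m') (π : Fin (r + 1) → D → D) :
    InnerEq (act π m) (act π m') := fun i h0 h1 => congrArg (π i) (h i h0 h1)

/-- the known instances attached to a model -/
def Horn.kn (Tr : X → (Fin (r + 1) → D) → Prop) : X ⊕ P × Bool → (Fin (r + 1) → D) → Prop
  | Sum.inl x, m => Tr x m
  | Sum.inr (ρ, false), m => H.At Tr (H.p1 ρ) m ∨ (H.At Tr (H.hd ρ) m ∧ H.At Tr (H.p2 ρ) m)
  | Sum.inr (ρ, true), m => H.At Tr (H.p2 ρ) m ∨ (H.At Tr (H.hd ρ) m ∧ H.At Tr (H.p1 ρ) m)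

theorem Horn.der_of_hder {x : X} {m : Fin (r + 1) → D} (h : H.HDer x m) :
    H.toPS.Der (Sum.inl x) m := by
  induction h with
  | ax i m hax =>
    refine PS.Der.step (S := H.toPS) (i, 2) 0 m rfl fun s' hs' hu => ?_
    fin_cases s'
    · exact absurd rfl hs'
    · simp [Horn.toPS, usedOf, hax] at hu
    · simp [Horn.toPS, usedOf, hax] at hu
  | rule i m _ _ ih1 ih2 =>
    have hA := PS.Der.step (S := H.toPS) (i, 0) 0 m rfl fun s' hs' _ => by
      fin_cases s'
      · exact absurd rfl hs'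
      · exact ih1
      · exact ih1
    have hB := PS.Der.step (S := H.toPS) (i, 1) 0 m rfl fun s' hs' _ => by
      fin_cases s'
      · exact absurd rfl hs'
      · exact ih2
      · exact ih2
    refine PS.Der.step (S := H.toPS) (i, 2) 0 m rfl fun s' hs' _ => ?_
    fin_cases s'
    · exact absurd rfl hs'
    · exact hA
    · exact hB

/-- Apply `PS.xdup` with `Kn (inl x) := Tr x`, `Kn (inr (ρ, false)) m := T1 ∨ (TH ∧ T2)`,
`Kn (inr (ρ, true)) m := T2 ∨ (TH ∧ T1)` where `T1 = At Tr (p1 ρ) m`, `T2`, `TH = At Tr (hd ρ) m`;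
check `AC` for the ten kinds of junctions (`act (app idm) m = m`; for `e = 0` and `rhs = 0` take `ε = 0`,
for `e = 1` put a second `1` on another unknown used slot). -/
theorem Horn.xdup [Nonempty D] (hr : 1 ≤ r) {Tr : X → (Fin (r + 1) → D) → Prop} (hT : H.Model Tr) :
    XDup (r + 1) H.toPS.var H.toPS.b := by
  refine PS.xdup hr H.toPS (H.kn Tr) ?_ ?_
  · have hat : ∀ x m m', InnerEq m m' → H.At Tr x m → H.At Tr x m' :=
      fun x m m' h => hT.inner _ _ _ (h.act _)
    rintro (x | ⟨ρ, _ | _⟩) m m' h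
    · exact hT.inner x m m' h
    · exact Or.imp (hat _ _ _ h) (And.imp (hat _ _ _ h) (hat _ _ _ h))
    · exact Or.imp (hat _ _ _ h) (And.imp (hat _ _ _ h) (hat _ _ _ h))
  · rintro ⟨i, κ⟩ m s₀ e he
    refine hornPs_ac (fun s => H.kn Tr (H.toPS.hub (i, κ) s) (act (H.toPS.pi (i, κ) s) m))
      (H.toPS.used (i, κ)) _ s₀ e he fun hc => ?_
    have hcl := hT.closed i m
    have hrej := hT.rej m
    have he' : e = 0 ∨ ¬ H.kn Tr (H.toPS.hub (i, κ) s₀) (act (H.toPS.pi (i, κ) s₀) m) := by tauto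
    clear he
    simp only [Horn.At] at hcl hrej
    fin_cases κ <;> fin_cases s₀ <;>
      simp [Fin.exists_fin_succ, Horn.toPS, Horn.slot, slotOf, usedOf, Horn.kn, Horn.At,
        Horn.act_id] at hc he' hcl ⊢ <;>
      first | tauto | (cases hax : H.ax (H.ι i) <;> simp [hax] at hc hcl ⊢ <;> tauto)

/-- `HDer x m → toPS.Der (inl x) m` (junctions `0`, `1`, then `2`), hence `Resets`. -/
theorem Horn.solvable [Nonempty D] (hr : 1 ≤ r)
    (hacc : ∀ m, H.HDer H.acc.1 (act (H.app H.acc.2) m)) (b : Eqn (I × Fin 10) D r → ZMod 2)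
    (h : XDup (r + 1) H.toPS.var b) : Solvable H.toPS.var b := by
  have hd : ∀ m, H.toPS.Der (Sum.inl H.acc.1) (act (H.app H.acc.2) m) :=
    fun m => H.der_of_hder (hacc m)
  refine PS.solvable_of_xdup hr H.toPS (fun _ => rfl) ?_ b h
  rintro ⟨i, κ⟩ s
  have k3 : ∀ κ' : Fin 10, 3 ≤ κ'.val → κ'.val ≤ 8 → H.toPS.hub (i, κ') 0 = H.toPS.hub (i, κ) s →
      ∃ a' : I × Fin 10, (∀ s', H.toPS.used a' s' = true) ∧
        H.toPS.hub a' 0 = H.toPS.hub (i, κ) s ∧ (∀ j d, H.toPS.pi a' 0 j d = d) ∧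
        H.toPS.hub a' 1 = H.toPS.hub a' 2 ∧ H.toPS.pi a' 1 = H.toPS.pi a' 2 ∧
        ∀ m, H.toPS.Der (H.toPS.hub a' 1) (act (H.toPS.pi a' 1) m) := by
    intro κ' h3 h8 hh
    refine ⟨(i, κ'), ?_, hh, ?_⟩
    · intro s'
      fin_cases κ' <;> simp at h3 h8 <;> fin_cases s' <;> rfl
    · fin_cases κ' <;> simp at h3 h8 <;> exact ⟨H.app_id, rfl, rfl, hd⟩
  fin_cases κ <;> fin_cases s <;>
    first
    | exact k3 3 (by decide) (by decide) rfl
    | exact k3 4 (by decide) (by decide) rfl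
    | exact k3 5 (by decide) (by decide) rfl
    | exact k3 6 (by decide) (by decide) rfl
    | exact k3 7 (by decide) (by decide) rfl
    | exact k3 8 (by decide) (by decide) rfl

/-- The goal junction `(i, 9)`. -/
theorem Horn.not_solvable [Nonempty D] [Nonempty I] (hr : 1 ≤ r) : ¬ Solvable H.toPS.var H.toPS.b := by
  obtain ⟨i⟩ := ‹Nonempty I›
  exact PS.not_solvable hr H.toPS (i, 9) rfl rfl rfl rfl rfl rfl

end Crest.Agent.R290
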