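/-
R290/Tableau: soundness and completeness of the tableau Horn system.
Skeleton by helper86; keep the statements of the theorems unchanged (add any helper lemmas you like).
-/
import Crest.Agent.R290.Defs

set_option autoImplicit false

namespace Crest.Agent.R290

namespace Tab

/-! ### digit vectors -/

/-- value of a digit vector -/
def val (R q : ℕ) (w : ℕ → ℕ) : ℕ := ∑ i ∈ Finset.range R, w i * q ^ i

/-- value after applying a mode -/
def mval (R q : ℕ) (μ : Mode) (w : ℕ → ℕ) : ℕ := val R q fun i => modeApp q μ i (w i)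

theorem val_congr {R q : ℕ} {w w' : ℕ → ℕ} (h : ∀ i < R, w i = w' i) : val R q w = val R q w' :=
  Finset.sum_congr rfl fun i hi => by rw [h i (Finset.mem_range.1 hi)]

theorem mval_congr {R q : ℕ} (μ : Mode) {w w' : ℕ → ℕ} (h : ∀ i < R, w i = w' i) :
    mval R q μ w = mval R q μ w' :=
  val_congr fun i hi => by rw [h i hi]

theorem mval_eq {R q : ℕ} {μ : Mode} {w w' : ℕ → ℕ} (h : ∀ i < R, modeApp q μ i (w i) = w' i) :
    mval R q μ w = val R q w' := val_congr h

theorem val_succ (R q : ℕ) (w : ℕ → ℕ) : val (R + 1) q w = val R q w + w R * q ^ R :=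
  Finset.sum_range_succ _ _

theorem modeApp_lt {q : ℕ} (hq : 2 ≤ q) {μ : Mode} (hμ : μ.2.2 < q) (i : ℕ) {d : ℕ} (hd : d < q) :
    modeApp q μ i d < q := by
  unfold modeApp
  split_ifs <;> omega

theorem modeApp_id (q i d : ℕ) : modeApp q (0, 0, 0) i d = d := by
  simp [modeApp]

theorem mval_id (R q : ℕ) (w : ℕ → ℕ) : mval R q (0, 0, 0) w = val R q w :=
  mval_eq fun i _ => modeApp_id q i _

theorem mval_cst {R : ℕ} (hR : 1 ≤ R) (q c : ℕ) (w : ℕ → ℕ) : mval R q (1, 0, c) w = c := by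
  unfold mval val
  rw [Finset.sum_eq_single 0]
  · simp [modeApp]
  · intro i _ hi
    simp [modeApp, hi]
  · intro h
    exact absurd (Finset.mem_range.2 hR) h

theorem le_val {R q : ℕ} (w : ℕ → ℕ) {j : ℕ} (hj : j < R) : w j * q ^ j ≤ val R q w :=
  Finset.single_le_sum (f := fun i => w i * q ^ i) (fun _ _ => Nat.zero_le _)
    (Finset.mem_range.2 hj)

theorem le_val_of_ne {R q : ℕ} (hq : 2 ≤ q) (w : ℕ → ℕ) {j : ℕ} (hj : j < R) (hj0 : j ≠ 0)
    (hw : w j ≠ 0) : q ≤ val R q w := by
  refine le_trans ?_ (le_val w hj)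
  calc q = 1 * q ^ 1 := by simp
    _ ≤ w j * q ^ j :=
      Nat.mul_le_mul (Nat.one_le_iff_ne_zero.2 hw) (Nat.pow_le_pow_right (by omega) (by omega))

theorem eq_zero_of_val {R q : ℕ} (hq : 2 ≤ q) {w : ℕ → ℕ} (h : val R q w = 0) :
    ∀ i < R, w i = 0 := by
  intro i hi
  have h1 := le_val (q := q) w hi
  rw [h, Nat.le_zero, Nat.mul_eq_zero] at h1
  rcases h1 with h1 | h1
  · exact h1
  · exact absurd h1 (pow_pos (by omega) i).ne'

theorem val_max {q : ℕ} (hq : 2 ≤ q) (n : ℕ) {w : ℕ → ℕ} (h : ∀ i < n, w i = q - 1) :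
    val n q w + 1 = q ^ n := by
  induction n with
  | zero => simp [val]
  | succ n ih =>
    rw [val_succ, add_right_comm, ih fun i hi => h i (by omega), h n (by omega), pow_succ]
    obtain ⟨q', rfl⟩ : ∃ q', q = q' + 1 := ⟨q - 1, by omega⟩
    simp only [Nat.add_sub_cancel]
    ring

theorem mval_hi {R q j : ℕ} (hq : 2 ≤ q) (hj : j < R) (w : ℕ → ℕ) :
    mval R q (3, j, 0) w = mval R q (2, j, 0) w + 1 := by
  induction R, hj using Nat.le_induction with
  | base =>
    unfold mval
    rw [val_succ, val_succ, add_right_comm,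
      val_max hq j (w := fun i => modeApp q (2, j, 0) i (w i)) fun i hi => by simp [modeApp, hi]]
    have : val j q (fun i => modeApp q (3, j, 0) i (w i)) = 0 := by
      refine Finset.sum_eq_zero fun i hi => ?_
      simp [modeApp, Finset.mem_range.1 hi]
    rw [this]
    simp only [modeApp]
    simp
    ring
  | succ n hn ih =>
    unfold mval at ih ⊢
    rw [val_succ, val_succ, ih, add_right_comm]
    have h1 : ¬ n < j := by omega
    have h2 : n ≠ j := by omega
    simp [modeApp, h1, h2]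

theorem exists_hi {R q : ℕ} (hq : 2 ≤ q) {w : ℕ → ℕ} (hw : ∀ i, w i < q) {u : ℕ}
    (h : val R q w = u + 1) : ∃ j < R, ∃ w' : ℕ → ℕ, (∀ i, w' i < q) ∧
      (∀ i < R, modeApp q (3, j, 0) i (w' i) = w i) ∧ mval R q (2, j, 0) w' = u := by
  have hex : ∃ j, j < R ∧ w j ≠ 0 := by
    by_contra hne
    push Not at hne
    have : val R q w = 0 :=
      Finset.sum_eq_zero fun i hi => by rw [hne i (Finset.mem_range.1 hi), zero_mul]
    omega
  classical
  obtain ⟨hj1, hj2⟩ := Nat.find_spec hex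
  have hmin : ∀ i < Nat.find hex, w i = 0 := by
    intro i hi
    have := Nat.find_min hex hi
    by_contra h0
    exact this ⟨by omega, h0⟩
  generalize Nat.find hex = j at hj1 hj2 hmin
  have key : ∀ i < R, modeApp q (3, j, 0) i (if i = j then w j - 1 else w i) = w i := by
    intro i _
    have := hw j
    by_cases h1 : i < j
    · simp [modeApp, h1, hmin i h1]
    · by_cases h2 : i = j
      · subst h2
        simp only [modeApp]
        simp
        omega
      · simp [modeApp, h1, h2]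
  refine ⟨j, hj1, fun i => if i = j then w j - 1 else w i, fun i => ?_, key, ?_⟩
  · have := hw j
    have := hw i
    dsimp only
    split_ifs <;> omega
  · have h1 := mval_hi hq hj1 fun i => if i = j then w j - 1 else w i
    rw [mval_eq key, h] at h1
    omega

theorem exists_lo {R q : ℕ} (hq : 2 ≤ q) {w : ℕ → ℕ} (hw : ∀ i, w i < q)
    (h : val R q w + 1 < q ^ R) : ∃ j < R, (∀ i < R, modeApp q (2, j, 0) i (w i) = w i) ∧
      mval R q (3, j, 0) w = val R q w + 1 := by
  have hex : ∃ j, j < R ∧ w j ≠ q - 1 := by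
    by_contra hne
    push Not at hne
    have := val_max hq R hne
    omega
  classical
  obtain ⟨hj1, hj2⟩ := Nat.find_spec hex
  have hmin : ∀ i < Nat.find hex, w i = q - 1 := by
    intro i hi
    have := Nat.find_min hex hi
    by_contra h0
    exact this ⟨by omega, h0⟩
  generalize Nat.find hex = j at hj1 hj2 hmin
  have key : ∀ i < R, modeApp q (2, j, 0) i (w i) = w i := by
    intro i _
    have := hw j
    by_cases h1 : i < j
    · simp [modeApp, h1, hmin i h1]
    · by_cases h2 : i = j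
      · subst h2
        simp only [modeApp]
        simp
        omega
      · simp [modeApp, h1, h2]
  exact ⟨j, hj1, key, by rw [mval_hi hq hj1, mval_eq key]⟩

theorem exists_digits {R q : ℕ} (hq : 2 ≤ q) (t : ℕ) (ht : t < q ^ R) :
    ∃ w : ℕ → ℕ, (∀ i, w i < q) ∧ val R q w = t := by
  induction t with
  | zero => exact ⟨fun _ => 0, fun _ => by dsimp only; omega, by simp [val]⟩
  | succ t ih =>
    obtain ⟨w, hw, rfl⟩ := ih (by omega)
    obtain ⟨j, -, -, h⟩ := exists_lo hq hw ht
    exact ⟨fun i => modeApp q (3, j, 0) i (w i),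
      fun i => modeApp_lt hq (by simp; omega) i (hw i), h⟩

/-! ### messages -/

section msg
variable {r q : ℕ}

/-- digit `i` of a message -/
def dig (m : Fin (r + 1) → Fin q) (i : ℕ) : ℕ := if h : i < r + 1 then (m ⟨i, h⟩).val else 0

/-- time digits -/
def tdig (m : Fin (r + 1) → Fin q) (i : ℕ) : ℕ := dig m (1 + i)

/-- depth digits -/
def hdig (R : ℕ) (m : Fin (r + 1) → Fin q) (i : ℕ) : ℕ := dig m (R + 1 + i)

/-- time -/
def tval (R : ℕ) (m : Fin (r + 1) → Fin q) : ℕ := val R q (tdig m)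

/-- depth -/
def hval (R : ℕ) (m : Fin (r + 1) → Fin q) : ℕ := val R q (hdig R m)

theorem dig_lt (hq : 2 ≤ q) (m : Fin (r + 1) → Fin q) (i : ℕ) : dig m i < q := by
  unfold dig
  split_ifs
  · exact Fin.is_lt _
  · omega

theorem tdig_lt (hq : 2 ≤ q) (m : Fin (r + 1) → Fin q) (i : ℕ) : tdig m i < q := dig_lt hq m _

theorem hdig_lt (hq : 2 ≤ q) (R : ℕ) (m : Fin (r + 1) → Fin q) (i : ℕ) : hdig R m i < q :=
  dig_lt hq m _

/-- the action of a pair of modes -/
def ap [NeZero q] (R : ℕ) (μ : Mode × Mode) (m : Fin (r + 1) → Fin q) : Fin (r + 1) → Fin q :=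
  fun i => Fin.ofNat q (piN R q μ i.val (m i).val)

variable [NeZero q] {R : ℕ}

theorem dig_ap (μ : Mode × Mode) (m : Fin (r + 1) → Fin q) {i : ℕ} (hi : i < r + 1) :
    dig (ap R μ m) i = piN R q μ i (dig m i) % q := by
  simp only [dig, dif_pos hi, ap]
  rfl

theorem tdig_ap (hq : 2 ≤ q) (hr : 2 * R + 1 ≤ r) {μ : Mode × Mode} (hμ : μ.1.2.2 < q)
    (m : Fin (r + 1) → Fin q) {i : ℕ} (hi : i < R) :
    tdig (ap R μ m) i = modeApp q μ.1 i (tdig m i) := by
  unfold tdig
  rw [dig_ap μ m (by omega), piN, if_pos ⟨by omega, by omega⟩, Nat.add_sub_cancel_left,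
    Nat.mod_eq_of_lt (modeApp_lt hq hμ _ (dig_lt hq m _))]

theorem hdig_ap (hq : 2 ≤ q) (hr : 2 * R + 1 ≤ r) {μ : Mode × Mode} (hμ : μ.2.2.2 < q)
    (m : Fin (r + 1) → Fin q) {i : ℕ} (hi : i < R) :
    hdig R (ap R μ m) i = modeApp q μ.2 i (hdig R m i) := by
  unfold hdig
  rw [dig_ap μ m (by omega), piN, if_neg (by omega), if_pos ⟨by omega, by omega⟩,
    show R + 1 + i - 1 - R = i by omega, Nat.mod_eq_of_lt (modeApp_lt hq hμ _ (dig_lt hq m _))]

theorem tval_ap (hq : 2 ≤ q) (hr : 2 * R + 1 ≤ r) (μ₁ μ₂ : Mode) (hμ : μ₁.2.2 < q)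
    (m : Fin (r + 1) → Fin q) : tval R (ap R (μ₁, μ₂) m) = mval R q μ₁ (tdig m) :=
  val_congr fun _ hi => tdig_ap hq hr (μ := (μ₁, μ₂)) hμ m hi

theorem hval_ap (hq : 2 ≤ q) (hr : 2 * R + 1 ≤ r) (μ₁ μ₂ : Mode) (hμ : μ₂.2.2 < q)
    (m : Fin (r + 1) → Fin q) : hval R (ap R (μ₁, μ₂) m) = mval R q μ₂ (hdig R m) :=
  val_congr fun _ hi => hdig_ap hq hr (μ := (μ₁, μ₂)) hμ m hi

/-- replace the time and depth digits -/
def mk (R : ℕ) (m : Fin (r + 1) → Fin q) (T H : ℕ → ℕ) : Fin (r + 1) → Fin q := fun i =>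
  if 1 ≤ i.val ∧ i.val ≤ R then Fin.ofNat q (T (i.val - 1))
  else if R + 1 ≤ i.val ∧ i.val ≤ 2 * R then Fin.ofNat q (H (i.val - 1 - R)) else m i

theorem tdig_mk (hr : 2 * R + 1 ≤ r) (m : Fin (r + 1) → Fin q) {T : ℕ → ℕ} (H : ℕ → ℕ)
    (hT : ∀ i, T i < q) {i : ℕ} (hi : i < R) : tdig (mk R m T H) i = T i := by
  unfold tdig dig
  rw [dif_pos (by omega)]
  simp only [mk]
  rw [if_pos ⟨by omega, by omega⟩, Nat.add_sub_cancel_left]
  exact Nat.mod_eq_of_lt (hT i)

theorem hdig_mk (hr : 2 * R + 1 ≤ r) (m : Fin (r + 1) → Fin q) (T : ℕ → ℕ) {H : ℕ → ℕ}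
    (hH : ∀ i, H i < q) {i : ℕ} (hi : i < R) : hdig R (mk R m T H) i = H i := by
  unfold hdig dig
  rw [dif_pos (by omega)]
  simp only [mk]
  rw [if_neg (by omega), if_pos ⟨by omega, by omega⟩, show R + 1 + i - 1 - R = i by omega]
  exact Nat.mod_eq_of_lt (hH i)

theorem ap_mk_congr {μ₁' μ₂' : Mode} (μ₁ μ₂ : Mode) (m m₀ : Fin (r + 1) → Fin q) {T H : ℕ → ℕ}
    (hT : ∀ i, T i < q) (hH : ∀ i, H i < q)
    (h1 : ∀ i < R, modeApp q μ₁ i (T i) = modeApp q μ₁' i (tdig m₀ i))
    (h2 : ∀ i < R, modeApp q μ₂ i (H i) = modeApp q μ₂' i (hdig R m₀ i))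
    (h3 : m = m₀) : ap R (μ₁, μ₂) (mk R m T H) = ap R (μ₁', μ₂') m₀ := by
  subst h3
  funext i
  simp only [ap, mk, piN]
  by_cases c1 : 1 ≤ i.val ∧ i.val ≤ R
  · simp only [if_pos c1]
    have e : tdig m (i.val - 1) = (m i).val := by
      unfold tdig dig
      rw [dif_pos (by omega)]
      congr 2
      exact Fin.ext (by simp only; omega)
    rw [Fin.val_ofNat, Nat.mod_eq_of_lt (hT _), h1 _ (by omega), e]
  · simp only [if_neg c1]
    by_cases c2 : R + 1 ≤ i.val ∧ i.val ≤ 2 * R
    · simp only [if_pos c2]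
      have e : hdig R m (i.val - 1 - R) = (m i).val := by
        unfold hdig dig
        rw [dif_pos (by omega)]
        congr 2
        exact Fin.ext (by simp only; omega)
      rw [Fin.val_ofNat, Nat.mod_eq_of_lt (hH _), h2 _ (by omega), e]
    · simp only [if_neg c2]

theorem ap_id (m : Fin (r + 1) → Fin q) : ap R ((0, 0, 0), (0, 0, 0)) m = m := by
  funext i
  have := piN_idModes R q i.val (m i).val
  unfold idModes at this
  simp only [ap, this]
  exact Fin.ofNat_val_eq_self _

theorem exists_pre (hr : 2 * R + 1 ≤ r) (μ₁ μ₂ : Mode) (m : Fin (r + 1) → Fin q) {T H : ℕ → ℕ}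
    (hT : ∀ i, T i < q) (hH : ∀ i, H i < q) (h1 : ∀ i < R, modeApp q μ₁ i (T i) = tdig m i)
    (h2 : ∀ i < R, modeApp q μ₂ i (H i) = hdig R m i) :
    ∃ m' : Fin (r + 1) → Fin q, ap R (μ₁, μ₂) m' = m ∧ (∀ μ, mval R q μ (tdig m') = mval R q μ T) ∧
      ∀ μ, mval R q μ (hdig R m') = mval R q μ H := by
  refine ⟨mk R m T H, ?_, fun μ => mval_congr μ fun i hi => tdig_mk hr m H hT hi,
    fun μ => mval_congr μ fun i hi => hdig_mk hr m T hH hi⟩
  rw [ap_mk_congr (μ₁' := (0, 0, 0)) (μ₂' := (0, 0, 0)) μ₁ μ₂ m m hT hH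
    (fun i hi => by rw [h1 i hi, modeApp_id]) (fun i hi => by rw [h2 i hi, modeApp_id]) rfl, ap_id]

end msg

/-! ### runs of the machine -/

section run
variable {τ : GM} {y : List Bool}

/-- configuration at time `t` -/
def cfg (τ : GM) (y : List Bool) (t : ℕ) : ℕ × List (List ℕ) := (GM.step τ)^[t] (GM.init τ y)

theorem cfg_succ (t : ℕ) : cfg τ y (t + 1) = GM.step τ (cfg τ y t) :=
  Function.iterate_succ_apply' _ _ _

theorem getD_set_self {α : Type} (l : List α) {k : ℕ} (hk : k < l.length) (x d : α) :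
    (l.set k x).getD k d = x := by
  simp [List.getD_eq_getElem?_getD, hk]

theorem getD_set_ne {α : Type} (l : List α) {k k' : ℕ} (hk : k' ≠ k) (x d : α) :
    (l.set k x).getD k' d = l.getD k' d := by
  simp [List.getD_eq_getElem?_getD, List.getElem?_set_ne hk.symm]

theorem cfg_len (t : ℕ) : (cfg τ y t).2.length = GM.A τ := by
  induction t with
  | zero => simp [cfg, GM.init]
  | succ t ih =>
    rw [cfg_succ, GM.step]
    dsimp only
    split_ifs <;> simp [ih]

theorem lab_zero : GM.lab τ y 0 = 0 := rfl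

theorem lab_succ (t : ℕ) : GM.lab τ y (t + 1) =
    GM.nxt τ (GM.lab τ y t) (GM.cell τ y t (GM.stk τ (GM.lab τ y t)) 0) := by
  change (cfg τ y (t + 1)).1 = GM.nxt τ (cfg τ y t).1
    (((cfg τ y t).2.getD (GM.stk τ (cfg τ y t).1) []).getD 0 0)
  rw [cfg_succ, GM.step]
  dsimp only
  congr 1
  cases (cfg τ y t).2.getD (GM.stk τ (cfg τ y t).1) [] <;> rfl

theorem cell_keep {t k l : ℕ} (hl : GM.lab τ y t = l)
    (ho : (if k = GM.stk τ l then GM.op τ l else 0) = 0) (h : ℕ) :
    GM.cell τ y (t + 1) k h = GM.cell τ y t k h := by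
  change ((cfg τ y (t + 1)).2.getD k []).getD h 0 = ((cfg τ y t).2.getD k []).getD h 0
  change (cfg τ y t).1 = l at hl
  rw [cfg_succ, GM.step, hl]
  dsimp only
  by_cases hk : k = GM.stk τ l
  · rw [if_pos hk] at ho
    rw [if_pos ho]
  · split_ifs
    · rfl
    · rw [getD_set_ne _ hk]
    · rw [getD_set_ne _ hk]

theorem cell_pop (hwf : GM.WF τ) {t l : ℕ} (hl : GM.lab τ y t = l) (ho : GM.op τ l = 1) (h : ℕ) :
    GM.cell τ y (t + 1) (GM.stk τ l) h = GM.cell τ y t (GM.stk τ l) (h + 1) := by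
  change ((cfg τ y (t + 1)).2.getD _ []).getD h 0 = ((cfg τ y t).2.getD _ []).getD (h + 1) 0
  change (cfg τ y t).1 = l at hl
  rw [cfg_succ, GM.step, hl]
  dsimp only
  rw [if_neg (by omega), if_pos ho, getD_set_self _ (by rw [cfg_len]; exact hwf.stk l)]
  cases (cfg τ y t).2.getD (GM.stk τ l) [] <;> simp

theorem cell_push_zero (hwf : GM.WF τ) {t l : ℕ} (hl : GM.lab τ y t = l) (ho : 2 ≤ GM.op τ l) :
    GM.cell τ y (t + 1) (GM.stk τ l) 0 = GM.op τ l - 1 := by
  change ((cfg τ y (t + 1)).2.getD _ []).getD 0 0 = _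
  change (cfg τ y t).1 = l at hl
  rw [cfg_succ, GM.step, hl]
  dsimp only
  rw [if_neg (by omega), if_neg (by omega), getD_set_self _ (by rw [cfg_len]; exact hwf.stk l)]
  rfl

theorem cell_push_succ (hwf : GM.WF τ) {t l : ℕ} (hl : GM.lab τ y t = l) (ho : 2 ≤ GM.op τ l)
    (h : ℕ) : GM.cell τ y (t + 1) (GM.stk τ l) (h + 1) = GM.cell τ y t (GM.stk τ l) h := by
  change ((cfg τ y (t + 1)).2.getD _ []).getD (h + 1) 0 = ((cfg τ y t).2.getD _ []).getD h 0
  change (cfg τ y t).1 = l at hl
  rw [cfg_succ, GM.step, hl]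
  dsimp only
  rw [if_neg (by omega), if_neg (by omega), getD_set_self _ (by rw [cfg_len]; exact hwf.stk l)]
  rfl

theorem cell_zero_zero (hwf : GM.WF τ) (h : ℕ) :
    GM.cell τ y 0 0 h = (y.map fun b => b.toNat + 1).getD h 0 := by
  change (((List.replicate (GM.A τ) []).set 0 (y.map fun b => b.toNat + 1)).getD 0 []).getD h 0 = _
  rw [getD_set_self _ (by have := hwf.three; simp; omega)]

theorem cell_zero_big (hwf : GM.WF τ) {h : ℕ} (hh : y.length ≤ h) : GM.cell τ y 0 0 h = 0 := by
  rw [cell_zero_zero hwf, List.getD_eq_default]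
  simpa using hh

theorem cell_zero_ne {k : ℕ} (hk : k ≠ 0) (h : ℕ) : GM.cell τ y 0 k h = 0 := by
  change (((List.replicate (GM.A τ) []).set 0 (y.map fun b => b.toNat + 1)).getD k []).getD h 0 = _
  rw [getD_set_ne _ hk]
  have : (List.replicate (GM.A τ) ([] : List ℕ)).getD k [] = [] := by
    rw [List.getD_eq_getElem?_getD, List.getElem?_replicate]
    split_ifs <;> rfl
  rw [this]
  rfl

theorem lab_lt (hwf : GM.WF τ) (t : ℕ) : GM.lab τ y t < GM.A τ := by
  cases t with
  | zero => have := hwf.three; rw [lab_zero]; omega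
  | succ t => rw [lab_succ]; exact hwf.nxt _ _

theorem cell_lt (hwf : GM.WF τ) (t k h : ℕ) : GM.cell τ y t k h < GM.A τ := by
  have h3 := hwf.three
  induction t generalizing k h with
  | zero =>
    by_cases hk : k = 0
    · subst hk
      rw [cell_zero_zero hwf, List.getD_eq_getElem?_getD, List.getElem?_map]
      cases y[h]? with
      | none => simp; omega
      | some b => cases b <;> simp <;> omega
    · rw [cell_zero_ne hk]; omega
  | succ t ih =>
    by_cases ho : (if k = GM.stk τ (GM.lab τ y t) then GM.op τ (GM.lab τ y t) else 0) = 0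
    · rw [cell_keep rfl ho]; exact ih _ _
    · have hk : k = GM.stk τ (GM.lab τ y t) := by
        by_contra hk
        exact ho (if_neg hk)
      rw [if_pos hk] at ho
      subst hk
      by_cases h1 : GM.op τ (GM.lab τ y t) = 1
      · rw [cell_pop hwf rfl h1]; exact ih _ _
      · cases h with
        | zero =>
          rw [cell_push_zero hwf rfl (by omega)]
          have := hwf.op (GM.lab τ y t)
          omega
        | succ h => rw [cell_push_succ hwf rfl (by omega)]; exact ih _ _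

end run

/-! ### rules -/

/-- the rule with decoded parameters -/
def ruleF (τ : GM) (y : List Bool) (ty l a k jt jh p : ℕ) : Atom × Atom × Atom × Bool :=
  let idm : Mode := (0, 0, 0)
  let z : Mode := (1, 0, 0)
  let ctrl : Atom := ((0, l, 0), (2, jt, 0), z)
  let start : Atom := ((0, 0, 0), z, z)
  let o := if k = GM.stk τ l then GM.op τ l else 0
  if ty = 0 then (((0, GM.nxt τ l a, 0), (3, jt, 0), z), ctrl, ((1, GM.stk τ l, a), (2, jt, 0), z), false)
  else if ty = 1 then
    (((1, k, a), (3, jt, 0), if o = 0 then idm else if o = 1 then (2, jh, 0) else (3, jh, 0)), ctrl,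
      ((1, k, a), (2, jt, 0), if o = 0 then idm else if o = 1 then (3, jh, 0) else (2, jh, 0)), false)
  else if ty = 2 then
    (if 2 ≤ GM.op τ l then ((1, GM.stk τ l, GM.op τ l - 1), (3, jt, 0), z) else ctrl, ctrl, ctrl, false)
  else if ty = 3 then (start, start, start, true)
  else if ty = 4 then
    (((1, 0, (y.map fun b => b.toNat + 1).getD p 0), z, (1, 0, p)), start, start, true)
  else if ty = 5 then
    (if k = 0 ∧ jh = 0 then start else ((1, k, 0), z, if k = 0 then (0, jh, 1) else idm),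
      start, start, true)
  else (((2, 0, 0), z, z), ((0, 1, 0), idm, z), ((0, 1, 0), idm, z), false)

theorem rule_decode (τ : GM) (y : List Bool) {q R ρ : ℕ} (hR : 1 ≤ R) (hρ : ρ < nRule τ q R) :
    ∃ ty l a k jt jh p, jt < R ∧ jh < R ∧ p < q ∧ rule τ y R ρ = ruleF τ y ty l a k jt jh p := by
  refine ⟨ρ % 7, ρ / 7 % GM.A τ, ρ / 7 / GM.A τ % GM.A τ, ρ / 7 / GM.A τ / GM.A τ % GM.A τ,
    ρ / 7 / GM.A τ / GM.A τ / GM.A τ % R, ρ / 7 / GM.A τ / GM.A τ / GM.A τ / R % R,
    ρ / 7 / GM.A τ / GM.A τ / GM.A τ / R / R, Nat.mod_lt _ hR, Nat.mod_lt _ hR, ?_, rfl⟩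
  simp only [Nat.div_div_eq_div_mul]
  exact Nat.div_lt_of_lt_mul hρ

theorem enc_lt {a b n m : ℕ} (ha : a < n) (hb : b < m) : a + n * b < n * m := by
  calc a + n * b < n + n * b := by omega
    _ = n * (b + 1) := by ring
    _ ≤ n * m := Nat.mul_le_mul_left _ hb

theorem enc_mod {a n : ℕ} (ha : a < n) (b : ℕ) : (a + n * b) % n = a := by
  rw [Nat.add_mul_mod_self_left, Nat.mod_eq_of_lt ha]

theorem enc_div {a n : ℕ} (ha : a < n) (b : ℕ) : (a + n * b) / n = b := by
  rw [Nat.add_mul_div_left _ _ (by omega), Nat.div_eq_of_lt ha, zero_add]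

theorem rule_encode (τ : GM) (y : List Bool) {q R ty l a k jt jh p : ℕ} (hty : ty < 7)
    (hl : l < GM.A τ) (ha : a < GM.A τ) (hk : k < GM.A τ) (hjt : jt < R) (hjh : jh < R)
    (hp : p < q) : ∃ ρ < nRule τ q R, rule τ y R ρ = ruleF τ y ty l a k jt jh p := by
  refine ⟨ty + 7 * (l + GM.A τ * (a + GM.A τ * (k + GM.A τ * (jt + R * (jh + R * p))))), ?_, ?_⟩
  · have := enc_lt hty (enc_lt hl (enc_lt ha (enc_lt hk (enc_lt hjt (enc_lt hjh hp)))))
    unfold nRule
    simpa only [mul_assoc] using this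
  · have : ∀ ρ, rule τ y R ρ = ruleF τ y (ρ % 7) (ρ / 7 % GM.A τ) (ρ / 7 / GM.A τ % GM.A τ)
        (ρ / 7 / GM.A τ / GM.A τ % GM.A τ) (ρ / 7 / GM.A τ / GM.A τ / GM.A τ % R)
        (ρ / 7 / GM.A τ / GM.A τ / GM.A τ / R % R) (ρ / 7 / GM.A τ / GM.A τ / GM.A τ / R / R) :=
      fun _ => rfl
    rw [this, enc_mod hty, enc_div hty, enc_mod hl, enc_div hl, enc_mod ha, enc_div ha,
      enc_mod hk, enc_div hk, enc_mod hjt, enc_div hjt, enc_mod hjh, enc_div hjh]

/-! ### soundness -/

/-- the intended meaning of the hubs -/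
def TrN (τ : GM) (y : List Bool) (x : ℕ × ℕ × ℕ) (t h : ℕ) : Prop :=
  if x.1 = 0 then GM.lab τ y t = x.2.1 else if x.1 = 1 then GM.cell τ y t x.2.1 h = x.2.2 else False

theorem TrN_zero (τ : GM) (y : List Bool) (l a t h : ℕ) :
    TrN τ y (0, l, a) t h ↔ GM.lab τ y t = l := by simp [TrN]

theorem TrN_one (τ : GM) (y : List Bool) (k a t h : ℕ) :
    TrN τ y (1, k, a) t h ↔ GM.cell τ y t k h = a := by simp [TrN]

theorem TrN_two (τ : GM) (y : List Bool) (k a t h : ℕ) : ¬ TrN τ y (2, k, a) t h := by simp [TrN]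

/-- the meaning of an atom at given digit vectors -/
def Sem (τ : GM) (y : List Bool) (R q : ℕ) (T H : ℕ → ℕ) (α : Atom) : Prop :=
  TrN τ y α.1 (mval R q α.2.1 T) (mval R q α.2.2 H)

/-- the modes of an atom keep digits below `q` -/
def Good (q : ℕ) (α : Atom) : Prop := α.2.1.2.2 < q ∧ α.2.2.2.2 < q

theorem ruleF_good (τ : GM) (y : List Bool) {q : ℕ} (hq : 2 ≤ q) (ty l a k jt jh : ℕ) {p : ℕ}
    (hp : p < q) : Good q (ruleF τ y ty l a k jt jh p).1 ∧ Good q (ruleF τ y ty l a k jt jh p).2.1 ∧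
      Good q (ruleF τ y ty l a k jt jh p).2.2.1 := by
  unfold ruleF Good
  dsimp only
  split_ifs <;> dsimp only <;> omega

theorem ruleF_sound {τ : GM} {y : List Bool} {r q R : ℕ} (h : Ok τ y r q R)
    (hrej : ∀ t, GM.lab τ y t ≠ 1) (ty l a k : ℕ) {jt jh : ℕ} (p : ℕ) (hjt : jt < R) (hjh : jh < R)
    (T H : ℕ → ℕ)
    (hp : (ruleF τ y ty l a k jt jh p).2.2.2 = true ∨
      (Sem τ y R q T H (ruleF τ y ty l a k jt jh p).2.1 ∧
        Sem τ y R q T H (ruleF τ y ty l a k jt jh p).2.2.1)) :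
    Sem τ y R q T H (ruleF τ y ty l a k jt jh p).1 := by
  have hq := h.two
  have hR := h.one
  have hwf := h.wf
  unfold ruleF at hp ⊢
  dsimp only at hp ⊢
  by_cases h0 : ty = 0
  · simp only [if_pos h0, Sem, TrN_zero, TrN_one, mval_cst hR, mval_hi hq hjt, Bool.false_eq_true,
      false_or] at hp ⊢
    rw [lab_succ, hp.1, hp.2]
  simp only [if_neg h0] at hp ⊢
  by_cases h1 : ty = 1
  · simp only [if_pos h1, Sem, TrN_zero, TrN_one, mval_cst hR, mval_hi hq hjt, Bool.false_eq_true,
      false_or] at hp ⊢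
    obtain ⟨hl, ha⟩ := hp
    by_cases o0 : (if k = GM.stk τ l then GM.op τ l else 0) = 0
    · rw [if_pos o0] at ha ⊢
      rw [cell_keep hl o0, ha]
    · rw [if_neg o0] at ha ⊢
      have hk : k = GM.stk τ l := by
        by_contra hk
        exact o0 (if_neg hk)
      rw [if_pos hk] at ha o0 ⊢
      subst hk
      by_cases o1 : GM.op τ l = 1
      · rw [if_pos o1] at ha ⊢
        rw [cell_pop hwf hl o1, ← mval_hi hq hjh, ha]
      · rw [if_neg o1] at ha ⊢
        rw [mval_hi hq hjh, cell_push_succ hwf hl (by omega), ha]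
  simp only [if_neg h1] at hp ⊢
  by_cases h2 : ty = 2
  · simp only [if_pos h2, Bool.false_eq_true, false_or] at hp ⊢
    by_cases o2 : 2 ≤ GM.op τ l
    · rw [if_pos o2]
      simp only [Sem, TrN_zero, TrN_one, mval_cst hR, mval_hi hq hjt] at hp ⊢
      exact cell_push_zero hwf hp.1 o2
    · rw [if_neg o2]
      exact hp.1
  simp only [if_neg h2] at hp ⊢
  by_cases h3 : ty = 3
  · simp only [if_pos h3, Sem, TrN_zero, mval_cst hR]
    rfl
  simp only [if_neg h3] at hp ⊢
  by_cases h4 : ty = 4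
  · simp only [if_pos h4, Sem, TrN_one, mval_cst hR]
    exact cell_zero_zero hwf p
  simp only [if_neg h4] at hp ⊢
  by_cases h5 : ty = 5
  · simp only [if_pos h5]
    by_cases c : k = 0 ∧ jh = 0
    · simp only [if_pos c, Sem, TrN_zero, mval_cst hR]
      rfl
    · simp only [if_neg c, Sem, TrN_one, mval_cst hR]
      by_cases hk : k = 0
      · rw [if_pos hk, hk]
        refine cell_zero_big hwf (h.len.le.trans ?_)
        refine le_val_of_ne hq _ hjh (fun e => c ⟨hk, e⟩) ?_
        simp [modeApp]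
      · exact cell_zero_ne hk _
  simp only [if_neg h5, Sem, TrN_zero, Bool.false_eq_true, false_or] at hp
  exact absurd hp.1 (hrej _)

/-! ### completeness -/

section complete
variable {τ : GM} {y : List Bool} {r q R : ℕ} [NeZero q]

theorem der_rule {ty l a k jt jh p : ℕ} (hty : ty < 7)
    (hl : l < GM.A τ) (ha : a < GM.A τ) (hk : k < GM.A τ) (hjt : jt < R) (hjh : jh < R)
    (hp : p < q) {α β γ : Atom} {b : Bool} (e : ruleF τ y ty l a k jt jh p = (α, β, γ, b))
    (m : Fin (r + 1) → Fin q) (h1 : (gmHorn τ y r q R).HDer β.1 (ap R β.2 m))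
    (h2 : (gmHorn τ y r q R).HDer γ.1 (ap R γ.2 m)) :
    (gmHorn τ y r q R).HDer α.1 (ap R α.2 m) := by
  obtain ⟨ρ, hρ, e'⟩ := rule_encode τ y hty hl ha hk hjt hjh hp
  rw [e] at e'
  have := Horn.HDer.rule (H := gmHorn τ y r q R) ⟨ρ, hρ⟩ m
  simp only [gmHorn, e'] at this
  exact this h1 h2

theorem der_ax {ty l a k jt jh p : ℕ} (hty : ty < 7)
    (hl : l < GM.A τ) (ha : a < GM.A τ) (hk : k < GM.A τ) (hjt : jt < R) (hjh : jh < R)
    (hp : p < q) {α β γ : Atom} (e : ruleF τ y ty l a k jt jh p = (α, β, γ, true))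
    (m : Fin (r + 1) → Fin q) : (gmHorn τ y r q R).HDer α.1 (ap R α.2 m) := by
  obtain ⟨ρ, hρ, e'⟩ := rule_encode τ y hty hl ha hk hjt hjh hp
  rw [e] at e'
  have := Horn.HDer.ax (H := gmHorn τ y r q R) ⟨ρ, hρ⟩ m
  simp only [gmHorn, e'] at this
  exact this trivial

theorem modeApp_z (q i d : ℕ) : modeApp q (1, 0, 0) i d = 0 := by
  simp [modeApp]

theorem der_base (h : Ok τ y r q R) (m : Fin (r + 1) → Fin q) (ht : tval R m = 0) :
    (hval R m = 0 → (gmHorn τ y r q R).HDer (0, GM.lab τ y 0, 0) m) ∧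
      ∀ k < GM.A τ, (gmHorn τ y r q R).HDer (1, k, GM.cell τ y 0 k (hval R m)) m := by
  have hq := h.two
  have hR := h.one
  have hwf := h.wf
  have hA : 0 < GM.A τ := by have := hwf.three; omega
  have hT : ∀ i < R, modeApp q (1, 0, 0) i (tdig m i) = tdig m i := fun i hi => by
    rw [modeApp_z, eq_zero_of_val hq ht i hi]
  have fix : ∀ μ : Mode, (∀ i < R, modeApp q μ i (hdig R m i) = hdig R m i) →
      ∃ m' : Fin (r + 1) → Fin q, ap R ((1, 0, 0), μ) m' = m := fun μ hμ =>
    (exists_pre h.rows (1, 0, 0) μ m (tdig_lt hq m) (hdig_lt hq R m) hT hμ).imp fun _ h' => h'.1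
  refine ⟨fun hh => ?_, fun k hk => ?_⟩
  · obtain ⟨m', e⟩ := fix (1, 0, 0) fun i hi => by rw [modeApp_z, eq_zero_of_val hq hh i hi]
    have := der_ax (τ := τ) (y := y) (ty := 3) (by omega) hA hA hA hR hR (by omega : 0 < q) rfl m'
    dsimp only at this
    rwa [e] at this
  · by_cases hk0 : k = 0
    · subst hk0
      by_cases hex : ∃ j, j < R ∧ j ≠ 0 ∧ hdig R m j ≠ 0
      · obtain ⟨j, hj, hj0, hw⟩ := hex
        obtain ⟨m', e⟩ := fix (0, j, 1) fun i _ => by
          by_cases hi : i = j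
          · subst hi
            simp only [modeApp]
            simp
            omega
          · simp [modeApp, hi]
        have := der_ax (τ := τ) (y := y) (ty := 5) (α := ((1, 0, 0), (1, 0, 0), (0, j, 1)))
          (β := ((0, 0, 0), (1, 0, 0), (1, 0, 0))) (γ := ((0, 0, 0), (1, 0, 0), (1, 0, 0)))
          (by omega) hA hA hA hR hj (by omega : 0 < q) (by simp [ruleF, hj0]) m'
        dsimp only at this
        rw [e] at this
        rwa [cell_zero_big hwf (h := hval R m) (h.len.le.trans (le_val_of_ne hq _ hj hj0 hw))]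
      · push Not at hex
        have key : ∀ i < R, modeApp q (1, 0, hdig R m 0) i (hdig R m i) = hdig R m i := by
          intro i hi
          by_cases hi0 : i = 0
          · simp [modeApp, hi0]
          · simp [modeApp, hi0, hex i hi hi0]
        obtain ⟨m', e⟩ := fix _ key
        have hv : hval R m = hdig R m 0 := by
          rw [← mval_cst hR q (hdig R m 0) (hdig R m), mval_eq key]
          rfl
        have := der_ax (τ := τ) (y := y) (ty := 4) (by omega) hA hA hA hR hR (hdig_lt hq R m 0)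
          rfl m'
        dsimp only at this
        rw [e] at this
        rwa [cell_zero_zero hwf, hv]
    · obtain ⟨m', e⟩ := fix (0, 0, 0) fun i _ => modeApp_id q i _
      have := der_ax (τ := τ) (y := y) (ty := 5) (α := ((1, k, 0), (1, 0, 0), (0, 0, 0)))
        (β := ((0, 0, 0), (1, 0, 0), (1, 0, 0))) (γ := ((0, 0, 0), (1, 0, 0), (1, 0, 0)))
        (by omega) hA hA hk hR hR (by omega : 0 < q) (by simp [ruleF, hk0]) m'
      dsimp only at this
      rw [e] at this
      rwa [cell_zero_ne hk0]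

theorem der_all (h : Ok τ y r q R) (t : ℕ) (ht : t < q ^ R) (m : Fin (r + 1) → Fin q)
    (hm : tval R m = t) :
    (hval R m = 0 → (gmHorn τ y r q R).HDer (0, GM.lab τ y t, 0) m) ∧
      ∀ k < GM.A τ, t + hval R m < q ^ R →
        (gmHorn τ y r q R).HDer (1, k, GM.cell τ y t k (hval R m)) m := by
  have hq := h.two
  have hR := h.one
  have hwf := h.wf
  have hr := h.rows
  have hq0 : 0 < q := by omega
  have hA : 0 < GM.A τ := by have := hwf.three; omega
  induction t generalizing m with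
  | zero => exact ⟨(der_base h m hm).1, fun k hk _ => (der_base h m hm).2 k hk⟩
  | succ t ih =>
    obtain ⟨jt, hjt, T, hT1, hT2, hT3⟩ := exists_hi hq (tdig_lt hq m) hm
    have hl := lab_lt (y := y) hwf t
    -- premises
    have ctrl : ∀ m' : Fin (r + 1) → Fin q, mval R q (2, jt, 0) (tdig m') = t →
        (gmHorn τ y r q R).HDer (0, GM.lab τ y t, 0) (ap R ((2, jt, 0), (1, 0, 0)) m') :=
      fun m' e => (ih (by omega) _ (by rw [tval_ap hq hr _ _ hq0, e])).1
        (by rw [hval_ap hq hr _ _ hq0, mval_cst hR])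
    have cel : ∀ (m' : Fin (r + 1) → Fin q) (μ : Mode) (u k : ℕ), μ.2.2 < q → k < GM.A τ →
        mval R q (2, jt, 0) (tdig m') = t → mval R q μ (hdig R m') = u → t + u < q ^ R →
        (gmHorn τ y r q R).HDer (1, k, GM.cell τ y t k u) (ap R ((2, jt, 0), μ) m') := by
      intro m' μ u k hμ hk e e' hu
      have := (ih (by omega) (ap R ((2, jt, 0), μ) m') (by rw [tval_ap hq hr _ _ hq0, e])).2 k hk
      rw [hval_ap hq hr _ _ hμ, e'] at this
      exact this hu
    have pre0 : hval R m = 0 → ∃ m' : Fin (r + 1) → Fin q, ap R ((3, jt, 0), (1, 0, 0)) m' = m ∧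
        mval R q (2, jt, 0) (tdig m') = t := by
      intro hh
      obtain ⟨m', e, e1, -⟩ := exists_pre hr (3, jt, 0) (1, 0, 0) m hT1 (hdig_lt hq R m) hT2
        fun i hi => by rw [modeApp_z, eq_zero_of_val hq hh i hi]
      exact ⟨m', e, by rw [e1, hT3]⟩
    refine ⟨fun hh => ?_, fun k hk hlt => ?_⟩
    · obtain ⟨m', e, e1⟩ := pre0 hh
      have := der_rule (τ := τ) (y := y) (ty := 0) (by omega) hl
        (cell_lt (y := y) hwf t (GM.stk τ (GM.lab τ y t)) 0) hA hjt hR hq0 rfl m' (ctrl m' e1)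
        (cel m' (1, 0, 0) 0 _ hq0 (hwf.stk _) e1 (mval_cst hR _ _ _) (by omega))
      dsimp only at this
      rw [e] at this
      rwa [lab_succ]
    · by_cases o0 : (if k = GM.stk τ (GM.lab τ y t) then GM.op τ (GM.lab τ y t) else 0) = 0
      · obtain ⟨m', e, e1, e2⟩ := exists_pre hr (3, jt, 0) (0, 0, 0) m hT1 (hdig_lt hq R m) hT2
          fun i _ => modeApp_id q i _
        have := der_rule (τ := τ) (y := y) (ty := 1)
          (α := ((1, k, GM.cell τ y t k (hval R m)), (3, jt, 0), (0, 0, 0)))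
          (β := ((0, GM.lab τ y t, 0), (2, jt, 0), (1, 0, 0)))
          (γ := ((1, k, GM.cell τ y t k (hval R m)), (2, jt, 0), (0, 0, 0))) (b := false)
          (by omega) hl (cell_lt (y := y) hwf t k (hval R m)) hk hjt hR hq0
          (by simp only [ruleF, o0]; simp) m' (ctrl m' (by rw [e1, hT3]))
          (cel m' (0, 0, 0) (hval R m) k hq0 hk (by rw [e1, hT3]) (by rw [e2, mval_id]; rfl)
            (by omega))
        dsimp only at this
        rw [e] at this
        rwa [cell_keep rfl o0]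
      · have hk' : k = GM.stk τ (GM.lab τ y t) := by
          by_contra hk'
          exact o0 (if_neg hk')
        rw [if_pos hk'] at o0
        subst hk'
        by_cases o1 : GM.op τ (GM.lab τ y t) = 1
        · obtain ⟨jh, hjh, hH1, hH2⟩ := exists_lo (R := R) hq (hdig_lt hq R m)
            (by change hval R m + 1 < _; omega)
          obtain ⟨m', e, e1, e2⟩ := exists_pre hr (3, jt, 0) (2, jh, 0) m hT1 (hdig_lt hq R m) hT2
            hH1
          have := der_rule (τ := τ) (y := y) (ty := 1)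
            (α := ((1, GM.stk τ (GM.lab τ y t),
              GM.cell τ y t (GM.stk τ (GM.lab τ y t)) (hval R m + 1)), (3, jt, 0), (2, jh, 0)))
            (β := ((0, GM.lab τ y t, 0), (2, jt, 0), (1, 0, 0)))
            (γ := ((1, GM.stk τ (GM.lab τ y t),
              GM.cell τ y t (GM.stk τ (GM.lab τ y t)) (hval R m + 1)), (2, jt, 0), (3, jh, 0)))
            (b := false)
            (by omega) hl (cell_lt (y := y) hwf t (GM.stk τ (GM.lab τ y t)) (hval R m + 1)) hk hjt hjh hq0
            (by simp [ruleF, o1]) m' (ctrl m' (by rw [e1, hT3]))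
            (cel m' (3, jh, 0) (hval R m + 1) _ hq0 hk (by rw [e1, hT3]) (by rw [e2, hH2]; rfl)
              (by omega))
          dsimp only at this
          rw [e] at this
          rwa [cell_pop hwf rfl o1]
        · have o2 : 2 ≤ GM.op τ (GM.lab τ y t) := by omega
          rcases hh : hval R m with _ | u
          · obtain ⟨m', e, e1⟩ := pre0 hh
            have := der_rule (τ := τ) (y := y) (ty := 2)
              (α := ((1, GM.stk τ (GM.lab τ y t), GM.op τ (GM.lab τ y t) - 1), (3, jt, 0), (1, 0, 0)))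
              (β := ((0, GM.lab τ y t, 0), (2, jt, 0), (1, 0, 0)))
              (γ := ((0, GM.lab τ y t, 0), (2, jt, 0), (1, 0, 0))) (b := false)
              (by omega) hl hA hA hjt hR hq0 (by simp [ruleF, o2]) m' (ctrl m' e1) (ctrl m' e1)
            dsimp only at this
            rw [e] at this
            rwa [cell_push_zero hwf rfl o2]
          · obtain ⟨jh, hjh, H, hH1, hH2, hH3⟩ := exists_hi hq (hdig_lt hq R m) hh
            obtain ⟨m', e, e1, e2⟩ := exists_pre hr (3, jt, 0) (3, jh, 0) m hT1 hH1 hT2 hH2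
            have := der_rule (τ := τ) (y := y) (ty := 1)
              (α := ((1, GM.stk τ (GM.lab τ y t),
                GM.cell τ y t (GM.stk τ (GM.lab τ y t)) u), (3, jt, 0), (3, jh, 0)))
              (β := ((0, GM.lab τ y t, 0), (2, jt, 0), (1, 0, 0)))
              (γ := ((1, GM.stk τ (GM.lab τ y t),
                GM.cell τ y t (GM.stk τ (GM.lab τ y t)) u), (2, jt, 0), (2, jh, 0)))
              (b := false)
              (by omega) hl (cell_lt (y := y) hwf t (GM.stk τ (GM.lab τ y t)) u) hk hjt hjh hq0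
              (by simp [ruleF, o0, o1]) m' (ctrl m' (by rw [e1, hT3]))
              (cel m' (2, jh, 0) u _ hq0 hk (by rw [e1, hT3]) (by rw [e2, hH3]) (by omega))
            dsimp only at this
            rw [e] at this
            rwa [cell_push_succ hwf rfl o2]

end complete

end Tab

open Tab

variable {τ : GM} {y : List Bool} {r q R : ℕ}

/-- Let `dig m i := (m i).val` (`0` out of range), `tval m = ∑ i < R, dig m (1+i) * q^i`,
`hval m = ∑ i < R, dig m (R+1+i) * q^i`, and
`Tr (tag, x, a) m := if tag = 0 then lab (tval m) = x else if tag = 1 then cell (tval m) x (hval m) = a else False`.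
Facts: all modes used keep digits `< q` (so `Fin.ofNat` does not reduce); `val (hi j w) = val (lo j w) + 1`
for `j < R`; `val (cst c) = c`; `val (max 1 at j) ≥ q ^ j`; along the run the list of stacks has length
`A`, labels and cells are `< A`. -/
theorem gm_model [NeZero q] (h : Ok τ y r q R) (hrej : ∀ t, GM.lab τ y t ≠ 1) :
    ∃ Tr, (gmHorn τ y r q R).Model Tr := by
  have hq := h.two
  have hr := h.rows
  have hAt : ∀ (α : Atom) (m : Fin (r + 1) → Fin q), Good q α →
      ((gmHorn τ y r q R).At (fun x m => TrN τ y x (tval R m) (hval R m)) α m ↔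
        Sem τ y R q (tdig m) (hdig R m) α) := by
    rintro ⟨x, μ₁, μ₂⟩ m hα
    change TrN τ y x (tval R (ap R (μ₁, μ₂) m)) (hval R (ap R (μ₁, μ₂) m)) ↔ _
    rw [tval_ap hq hr _ _ hα.1, hval_ap hq hr _ _ hα.2]
    rfl
  refine ⟨fun x m => TrN τ y x (tval R m) (hval R m), ?_, ?_, ?_⟩
  · intro x m m' hmm' hx
    have key : ∀ i, 1 ≤ i → i < r → dig m i = dig m' i := by
      intro i h1 h2
      unfold dig
      rw [dif_pos (by omega), dif_pos (by omega), hmm']
      · intro e
        have := congrArg Fin.val e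
        simp only [Fin.val_zero] at this
        omega
      · intro e
        have := congrArg Fin.val e
        simp only [Fin.val_last] at this
        omega
    have e1 : tval R m = tval R m' := val_congr fun i hi => key _ (by omega) (by omega)
    have e2 : hval R m = hval R m' := val_congr fun i hi => key _ (by omega) (by omega)
    rwa [← e1, ← e2]
  · intro i m hp
    obtain ⟨ty, l, a, k, jt, jh, p, hjt, hjh, hp', e⟩ := rule_decode τ y h.one i.2
    obtain ⟨g1, g2, g3⟩ := ruleF_good τ y hq ty l a k jt jh hp'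
    have e1 : (gmHorn τ y r q R).hd ((gmHorn τ y r q R).ι i) = (ruleF τ y ty l a k jt jh p).1 := by
      rw [← e]; rfl
    have e2 : (gmHorn τ y r q R).p1 ((gmHorn τ y r q R).ι i) =
        (ruleF τ y ty l a k jt jh p).2.1 := by rw [← e]; rfl
    have e3 : (gmHorn τ y r q R).p2 ((gmHorn τ y r q R).ι i) =
        (ruleF τ y ty l a k jt jh p).2.2.1 := by rw [← e]; rfl
    have e4 : (gmHorn τ y r q R).ax ((gmHorn τ y r q R).ι i) =
        (ruleF τ y ty l a k jt jh p).2.2.2 := by rw [← e]; rfl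
    rw [e2, e3, e4, hAt _ _ g2, hAt _ _ g3] at hp
    rw [e1, hAt _ _ g1]
    exact ruleF_sound h hrej ty l a k p hjt hjh _ _ hp
  · intro m
    exact TrN_two τ y 0 0 _ _

/-- Induction on `t < q ^ R`: for every message `m` with `tval m = t`: if `hval m = 0` then
`HDer (0, lab t, 0) m`, and for `k < A` with `t + hval m < q ^ R`, `HDer (1, k, cell t k (hval m)) m`.
To apply a rule write `m` as `act (head modes) m'`: if a digit vector has value `u + 1` let `j` be its
least nonzero digit and decrease that digit (then `hi j` gives it back and `lo j` has value `u`); if it has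
value `u` with `u + 1 < q ^ R` let `j` be the least digit `≠ q - 1` (then `lo j` fixes it and `hi j` has
value `u + 1`); value `0` means all digits are `0`.  Rule numbers are
`ty + 7 (l + A (a + A (k + A (jt + R (jh + R p))))) < nRule`.  Finally rule type `6` applied to `m` with its
time digits replaced by those of `t`. -/
theorem gm_hder [NeZero q] (h : Ok τ y r q R) {t : ℕ} (ht : t < q ^ R) (hacc : GM.lab τ y t = 1)
    (m : Fin (r + 1) → Fin q) :
    (gmHorn τ y r q R).HDer (gmHorn τ y r q R).acc.1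
      (act ((gmHorn τ y r q R).app (gmHorn τ y r q R).acc.2) m) := by
  have hq := h.two
  have hR := h.one
  have hr := h.rows
  have hq0 : 0 < q := by omega
  have hA : 0 < GM.A τ := by have := h.wf.three; omega
  obtain ⟨T, hT1, hT2⟩ := exists_digits hq t ht
  have e : ap R ((1, 0, 0), (1, 0, 0)) (mk R m T (hdig R m)) = ap R ((1, 0, 0), (1, 0, 0)) m :=
    ap_mk_congr _ _ m m hT1 (hdig_lt hq R m) (fun i _ => by rw [modeApp_z, modeApp_z])
      (fun _ _ => rfl) rfl
  have h1 : (gmHorn τ y r q R).HDer (0, 1, 0)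
      (ap R ((0, 0, 0), (1, 0, 0)) (mk R m T (hdig R m))) := by
    have := (der_all h t ht (ap R ((0, 0, 0), (1, 0, 0)) (mk R m T (hdig R m))) (by
      rw [tval_ap hq hr _ _ hq0, mval_id, ← hT2]
      exact val_congr fun i hi => tdig_mk hr m _ hT1 hi)).1
      (by rw [hval_ap hq hr _ _ hq0, mval_cst hR])
    rwa [hacc] at this
  have := der_rule (τ := τ) (y := y) (ty := 6) (by omega) hA hA hA hR hR hq0 rfl
    (mk R m T (hdig R m)) h1 h1
  dsimp only at this
  rw [e] at this
  exact this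

end Crest.Agent.R290
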