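/-
R290/Numeric: the numeric system `varN`, `bN` is the XOR system of the tableau product system.
Skeleton by helper86; keep the statements of the theorems unchanged (add any helper lemmas you like).
-/
import Crest.Agent.R290.HornPs
import Crest.Agent.R290.Tableau

set_option autoImplicit false

namespace Crest.Agent.R290

variable {τ : GM} {y : List Bool} {r q R : ℕ}

theorem Ok.nRule_pos (h : Ok τ y r q R) : 0 < nRule τ q R := by
  have h1 := h.wf.three; have h2 := h.two; have h3 := h.one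
  unfold nRule; positivity

theorem Ok.neN_pos (h : Ok τ y r q R) : 0 < neN τ r q R := by
  have h1 := h.nRule_pos; have h2 := h.two; have h3 := h.rows
  have : 0 < r := by omega
  unfold neN; positivity

namespace Num

theorem dig_mod {x n : ℕ} (z : ℕ) (h : x < n) : (x + n * z) % n = x := by
  rw [Nat.add_mul_mod_self_left, Nat.mod_eq_of_lt h]

theorem dig_div {x n : ℕ} (z : ℕ) (h : x < n) : (x + n * z) / n = z := by
  rw [Nat.add_mul_div_left _ _ (by omega), Nat.div_eq_of_lt h, zero_add]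

theorem dig_lt {x n z m : ℕ} (h : x < n) (hz : z < m) : x + n * z < m * n := by
  have : n * (z + 1) ≤ n * m := Nat.mul_le_mul_left n hz
  rw [mul_comm m n]
  nlinarith

/-- The equation with given digits. -/
def mkE {J D : Type} {r : ℕ} (a : J) (s₀ : Fin 3) (j : ℕ) (i : Fin r) (d e : D) (half : ℕ) :
    Eqn J D r :=
  if hj : j < r + 2 then (if half = 0 then .A (a, s₀) ⟨j, hj⟩ i d e else .B (a, s₀) ⟨j, hj⟩ i d e)
  else if s₀.val = 0 ∧ half = 0 then .J a i d e else .zero

/-- The number of a junction. -/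
def jn {n : ℕ} (a : Fin n × Fin 10) : ℕ := 10 * a.1.val + a.2.val

theorem jn_div {n : ℕ} (a : Fin n × Fin 10) : jn a / 10 = a.1.val := by
  have := a.2.isLt; unfold jn; omega

theorem jn_mod {n : ℕ} (a : Fin n × Fin 10) : jn a % 10 = a.2.val := by
  have := a.2.isLt; unfold jn; omega

theorem jn_inj {n : ℕ} {a b : Fin n × Fin 10} (h : jn a = jn b) : a = b :=
  Prod.ext (Fin.ext (by rw [← jn_div a, h, jn_div])) (Fin.ext (by rw [← jn_mod a, h, jn_mod]))

theorem jn_lt {n : ℕ} (a : Fin n × Fin 10) : jn a < 10 * n := by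
  have := a.2.isLt; have := a.1.isLt; unfold jn; omega

/-- Names of variables. -/
def code {n q r : ℕ} : Var (Fin n × Fin 10) HubN (Fin q) r → VCode
  | .zero => zeroC
  | .hub x i d e => (1, x, [i.val, d.val, e.val])
  | .wire c j i d e => (2, Sum.inl (0, 0, 0), [jn c.1, c.2.val, j, i.val, d.val, e.val])
  | .mid c j i d e => midC (jn c.1) c.2.val j i.val d.val e.val
  | .v c j i d => (4, Sum.inl (0, 0, 0), [jn c.1, c.2.val, j, i.val, d.val])

theorem code_inj {n q r : ℕ} :
    Function.Injective (code : Var (Fin n × Fin 10) HubN (Fin q) r → VCode) := by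
  intro u w h
  cases u <;> cases w <;>
    simp only [code, zeroC, midC, Prod.mk.injEq, List.cons.injEq, Fin.val_inj] at h <;>
    first
    | rfl
    | omega
    | (obtain ⟨-, h1, h2, h3, h4, -⟩ := h; subst h1 h2 h3 h4; rfl)
    | (obtain ⟨-, -, h1, h2, h3, h4, h5, h6, -⟩ := h
       subst h3 h4 h5 h6
       rw [Prod.ext (jn_inj h1) h2])
    | (obtain ⟨-, -, h1, h2, h3, h4, h5, -⟩ := h
       subst h3 h4 h5
       rw [Prod.ext (jn_inj h1) h2])

theorem slot_eq [NeZero q] (a : Fin (nRule τ q R) × Fin 10) (s : Fin 3) :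
    (gmHorn τ y r q R).slot a s = slotN τ y R (jn a) s.val := by
  simp only [Horn.slot, slotN, jn_div, jn_mod, gmHorn]

theorem code_wireV [NeZero q] (a : Fin (nRule τ q R) × Fin 10) (s : Fin 3) (j : ℕ) (i : Fin r)
    (d e : Fin q) : code ((gmHorn τ y r q R).toPS.wireV (a, s) j i d e) =
      wireC τ y q R (jn a) s.val j i.val d.val e.val := by
  unfold PS.wireV wireC
  split_ifs with hj
  · simp only [code, Horn.toPS, slot_eq]
    simp [gmHorn]
  · rfl

theorem code_vV [NeZero q] (a : Fin (nRule τ q R) × Fin 10) (s : Fin 3) (j : ℕ) (i : Fin (r + 1))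
    (d : Fin q) : code ((gmHorn τ y r q R).toPS.vV (a, s) j i d) =
      vC r (jn a) s.val j i.val d.val := by
  unfold PS.vV vC
  have : (i = 0 ∨ i = Fin.last r) ↔ (i.val = 0 ∨ i.val = r) :=
    or_congr Fin.ext_iff Fin.ext_iff
  by_cases h : i.val = 0 ∨ i.val = r
  · rw [if_pos h, if_pos (this.2 h)]; rfl
  · rw [if_neg h, if_neg (fun h' => h (this.1 h'))]; rfl

theorem a_lt (E : Fin (neN τ r q R)) :
    E.val / 2 / q / q / r / (r + 3) / 3 < 10 * nRule τ q R := by
  have := E.isLt
  unfold neN at this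
  iterate 6 apply Nat.div_lt_of_lt_mul; rw [mul_comm]
  exact this

/-- The junction of equation number `E`. -/
def junc (E : Fin (neN τ r q R)) : Fin (nRule τ q R) × Fin 10 :=
  (⟨E.val / 2 / q / q / r / (r + 3) / 3 / 10, by have := a_lt E; omega⟩,
    ⟨E.val / 2 / q / q / r / (r + 3) / 3 % 10, Nat.mod_lt _ (by norm_num)⟩)

theorem jn_junc (E : Fin (neN τ r q R)) : jn (junc E) = E.val / 2 / q / q / r / (r + 3) / 3 := by
  simp only [jn, junc]; omega

/-- The decoding of equation numbers. -/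
def phi (hr : 0 < r) (hq : 0 < q) (E : Fin (neN τ r q R)) :
    Eqn (Fin (nRule τ q R) × Fin 10) (Fin q) r :=
  mkE (junc E) ⟨E.val / 2 / q / q / r / (r + 3) % 3, Nat.mod_lt _ (by norm_num)⟩
    (E.val / 2 / q / q / r % (r + 3)) ⟨E.val / 2 / q / q % r, Nat.mod_lt _ hr⟩
    ⟨E.val / 2 / q % q, Nat.mod_lt _ hq⟩ ⟨E.val / 2 % q, Nat.mod_lt _ hq⟩ (E.val % 2)

theorem phi_onto (hr : 0 < r) (hq : 0 < q) (a : Fin (nRule τ q R) × Fin 10) (s₀ : Fin 3) (j : ℕ)
    (hj : j < r + 3) (i : Fin r) (d e : Fin q) (half : ℕ) (hh : half < 2) :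
    ∃ E, phi (τ := τ) (R := R) hr hq E = mkE a s₀ j i d e half := by
  have hlt : half + 2 * (e.val + q * (d.val + q * (i.val + r * (j + (r + 3) * (s₀.val + 3 * jn a)))))
      < neN τ r q R :=
    dig_lt hh (dig_lt e.isLt (dig_lt d.isLt (dig_lt i.isLt (dig_lt hj (dig_lt s₀.isLt (jn_lt a))))))
  refine ⟨⟨_, hlt⟩, ?_⟩
  have hj' : junc ⟨_, hlt⟩ = a := jn_inj (by
    rw [jn_junc]
    simp only [dig_div _ hh, dig_div _ e.isLt, dig_div _ d.isLt, dig_div _ i.isLt, dig_div _ hj,
      dig_div _ s₀.isLt])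
  unfold phi
  rw [hj']
  simp only [dig_div _ hh, dig_div _ e.isLt, dig_div _ d.isLt, dig_div _ i.isLt, dig_div _ hj,
    dig_mod _ hh, dig_mod _ e.isLt, dig_mod _ d.isLt, dig_mod _ i.isLt, dig_mod _ hj,
    dig_mod _ s₀.isLt]

theorem phi_surj (hr : 0 < r) (hq : 0 < q) (hn : 0 < nRule τ q R) :
    Function.Surjective (phi (τ := τ) (R := R) hr hq) := by
  intro x
  cases x with
  | zero =>
    obtain ⟨E, hE⟩ := phi_onto (τ := τ) (R := R) hr hq (⟨0, hn⟩, 0) 0 (r + 2) (by omega) ⟨0, hr⟩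
      ⟨0, hq⟩ ⟨0, hq⟩ 1 (by omega)
    exact ⟨E, by rw [hE]; simp [mkE]⟩
  | A c j i d e =>
    obtain ⟨E, hE⟩ := phi_onto (τ := τ) (R := R) hr hq c.1 c.2 j (by omega) i d e 0 (by omega)
    exact ⟨E, by rw [hE]; simp [mkE]⟩
  | B c j i d e =>
    obtain ⟨E, hE⟩ := phi_onto (τ := τ) (R := R) hr hq c.1 c.2 j (by omega) i d e 1 (by omega)
    exact ⟨E, by rw [hE]; simp [mkE]⟩
  | J a i d e =>
    obtain ⟨E, hE⟩ := phi_onto (τ := τ) (R := R) hr hq a 0 (r + 2) (by omega) i d e 0 (by omega)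
    exact ⟨E, by rw [hE]; simp [mkE]⟩

theorem code_var_mkE [NeZero q] (a : Fin (nRule τ q R) × Fin 10) (s₀ : Fin 3) (j : ℕ)
    (hj : j < r + 3) (i : Fin r) (d e : Fin q) (half : ℕ) (s : Fin 3) :
    code ((gmHorn τ y r q R).toPS.var (mkE a s₀ j i d e half) s) =
      if j < r + 2 then
        (if half = 0 then
          (if s.val = 0 then wireC τ y q R (jn a) s₀ j i d e
            else if s.val = 1 then vC r (jn a) s₀ j i d else midC (jn a) s₀ j i d e)
        else
          (if s.val = 0 then midC (jn a) s₀ j i d e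
            else if s.val = 1 then vC r (jn a) s₀ j (i + 1) e
            else wireC τ y q R (jn a) s₀ (j + 1) i d e))
      else if s₀.val = 0 ∧ half = 0 ∧
          usedOf (rule τ y R (jn a / 10)).2.2.2 (jn a % 10) s = true then
        wireC τ y q R (jn a) s (r + 2) i d e
      else zeroC := by
  have e0 : (s = 0) ↔ (s.val = 0) := Fin.ext_iff
  have e1 : (s = 1) ↔ (s.val = 1) := Fin.ext_iff
  unfold mkE
  by_cases h1 : j < r + 2
  · rw [dif_pos h1, if_pos h1]
    by_cases h2 : half = 0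
    · rw [if_pos h2, if_pos h2]
      simp only [PS.var, e0, e1]
      split_ifs
      · exact code_wireV ..
      · exact code_vV ..
      · rfl
    · rw [if_neg h2, if_neg h2]
      simp only [PS.var, e0, e1]
      split_ifs
      · rfl
      · exact code_vV ..
      · exact code_wireV ..
  · rw [dif_neg h1, if_neg h1]
    have hu : (gmHorn τ y r q R).toPS.used a s =
        usedOf (rule τ y R (jn a / 10)).2.2.2 (jn a % 10) s := by
      simp only [Horn.toPS, gmHorn, jn_div, jn_mod]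
    by_cases h2 : s₀.val = 0 ∧ half = 0
    · rw [if_pos h2]
      simp only [PS.var, hu, h2.1, h2.2, true_and]
      split_ifs
      · exact code_wireV ..
      · rfl
    · rw [if_neg h2, if_neg (fun h => h2 ⟨h.1, h.2.1⟩)]
      rfl

end Num

/-- `φ E` decodes `E = half + 2 (e + q (d + q (i + r (j + (r+3) (s₀ + 3 a)))))`, `a = 10 ρ + κ`: for
`j < r + 2` it is `A`/`B` of chain `((ρ, κ), s₀)`, for `j = r + 2`, `s₀ = 0`, `half = 0` the junction
equation, else `zero`.  `code` sends `zero ↦ zeroC`, `hub x i d e ↦ (1, x, [i, d, e])`,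
`wire ((ρ,κ), s) j i d e ↦ (2, _, [10 ρ + κ, s, j, i, d, e])`, `mid ↦ midC`, `v ↦ (4, _, [10ρ+κ, s, j, i, d])`. -/
theorem exists_numbering [NeZero q] (h : Ok τ y r q R) :
    ∃ (φ : Fin (neN τ r q R) → Eqn (Fin (nRule τ q R) × Fin 10) (Fin q) r)
      (code : Var (Fin (nRule τ q R) × Fin 10) HubN (Fin q) r → VCode),
      Function.Surjective φ ∧ Function.Injective code ∧
      (∀ E s, varE (neN τ r q R) (varN τ y r q R) E s = code ((gmHorn τ y r q R).toPS.var (φ E) s)) ∧
      rhsE (neN τ r q R) (bN r q true) = (gmHorn τ y r q R).toPS.b ∘ φ := by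
  have hr : 0 < r := by have := h.rows; omega
  have hq : 0 < q := by have := h.two; omega
  refine ⟨Num.phi hr hq, Num.code, Num.phi_surj hr hq h.nRule_pos, Num.code_inj, fun E s => ?_, ?_⟩
  · have h1 : (3 * E.val + s.val) % 3 = s.val := by omega
    have h2 : (3 * E.val + s.val) / 3 = E.val := by omega
    unfold Num.phi
    rw [Num.code_var_mkE _ _ _ (Nat.mod_lt _ (by omega)), Num.jn_junc]
    simp only [varE, varN, h1, h2]
  · funext E
    have hj : E.val / 2 / q / q / r % (r + 3) < r + 3 := Nat.mod_lt _ (by omega)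
    simp only [rhsE, bN, isGoal, Function.comp, Num.phi, Num.mkE, true_and]
    by_cases h1 : E.val / 2 / q / q / r % (r + 3) < r + 2
    · rw [dif_pos h1, if_neg (fun hh => by omega)]
      split_ifs <;> rfl
    · rw [dif_neg h1]
      have h1' : E.val / 2 / q / q / r % (r + 3) = r + 2 := by omega
      by_cases h2 : E.val / 2 / q / q / r / (r + 3) % 3 = 0 ∧ E.val % 2 = 0
      · rw [if_pos h2]
        simp only [PS.b, Horn.toPS, Num.junc, h1', h2.1, h2.2, true_and]
        by_cases h3 : E.val / 2 / q / q % r = 0 <;> simp [h3]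
      · rw [if_neg h2, if_neg (fun hh => h2 ⟨hh.2.2.2.1, hh.1⟩)]
        rfl

theorem num_xdup (h : Ok τ y r q R) (hrej : ∀ t, GM.lab τ y t ≠ 1) :
    XDup (r + 1) (varE (neN τ r q R) (varN τ y r q R)) (rhsE (neN τ r q R) (bN r q true)) := by
  haveI : NeZero q := ⟨by have := h.two; omega⟩
  obtain ⟨φ, code, -, h2, h3, h4⟩ := exists_numbering h
  obtain ⟨Tr, hT⟩ := gm_model h hrej
  rw [h4]
  exact ((gmHorn τ y r q R).xdup (by have := h.rows; omega) hT).pull φ code h2 h3

theorem num_solvable (h : Ok τ y r q R) {t : ℕ} (ht : t < q ^ R) (hacc : GM.lab τ y t = 1)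
    (b' : Fin (neN τ r q R) → ZMod 2) (hx : XDup (r + 1) (varE (neN τ r q R) (varN τ y r q R)) b') :
    Solvable (varE (neN τ r q R) (varN τ y r q R)) b' := by
  haveI : NeZero q := ⟨by have := h.two; omega⟩
  have hr : 1 ≤ r := by have := h.rows; omega
  obtain ⟨φ, code, h1, h2, h3, -⟩ := exists_numbering h
  obtain ⟨b, rfl, hb⟩ := hx.push φ code h3 h1 (by omega)
  exact ((gmHorn τ y r q R).solvable hr (gm_hder h ht hacc) b hb).pull φ code h2 h3

theorem num_not_solvable (h : Ok τ y r q R) :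
    ¬ Solvable (varE (neN τ r q R) (varN τ y r q R)) (rhsE (neN τ r q R) (bN r q true)) := by
  haveI : NeZero q := ⟨by have := h.two; omega⟩
  haveI : Nonempty (Fin (nRule τ q R)) := ⟨⟨0, h.nRule_pos⟩⟩
  obtain ⟨φ, code, h1, -, h3, h4⟩ := exists_numbering h
  rw [h4]
  exact fun hs => (gmHorn τ y r q R).not_solvable (by have := h.rows; omega) (hs.push φ code h3 h1)

end Crest.Agent.R290
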