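/-
R290/Core: the graph-level properties of the construction.  Author: helper86.
-/
import Crest.Agent.R290.Numeric
import Crest.Agent.R290.CfiXor
import Crest.Agent.R290.CfiStruct
import Crest.Agent.R290.GameWL

set_option autoImplicit false

namespace Crest.Agent.R290

open Crest.WLRefine

variable {τ : GM} {y : List Bool} {r q R : ℕ}

/-- The two graphs of the construction. -/
noncomputable abbrev gr (τ : GM) (y : List Bool) (r q R : ℕ) (fl : Bool) :
    Fin (nV τ r q R) → Fin (nV τ r q R) → Bool := matOf (nV τ r q R) (adjN τ y r q R fl)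

theorem bN_false (r q : ℕ) : bN r q false = fun _ => 0 := by
  funext E; simp [bN]

theorem Ok.nV_ge (h : Ok τ y r q R) : 5 ≤ nV τ r q R := by
  have := h.neN_pos
  unfold nV; omega

theorem core_sub (h : Ok τ y r q R) (fl : Bool) : SimpleConnSubcubic (gr τ y r q R fl) :=
  cfiN_subcubic h.neN_pos

/-- Games on the numeric graphs are games on the structured CFI graphs. -/
theorem game_gr_iff {V' : Type} {H : V' → V' → Prop} (K : ℕ) (fl : Bool) :
    Game K (mat (gr τ y r q R fl)) H ↔
      Game K (CFI (neN τ r q R) (varN τ y r q R) (bN r q fl)) H := by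
  obtain ⟨e, he⟩ := exists_cfi_equiv (neN τ r q R)
  exact game_congr e (Equiv.refl V') (he _ _ _) fun _ _ => Iff.rfl

theorem game_gr_gr (K : ℕ) : Game K (mat (gr τ y r q R false)) (mat (gr τ y r q R true)) ↔
    Game K (CFI (neN τ r q R) (varN τ y r q R) fun _ => 0)
      (CFI (neN τ r q R) (varN τ y r q R) (bN r q true)) := by
  rw [game_gr_iff, bN_false]
  exact ⟨fun h => ((game_gr_iff K true).1 h.symm).symm, fun h => ((game_gr_iff K true).2 h.symm).symm⟩

theorem core_rej (h : Ok τ y r q R) (hrej : ∀ t, GM.lab τ y t ≠ 1) :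
    Game (r + 1) (mat (gr τ y r q R false)) (mat (gr τ y r q R true)) :=
  (game_gr_gr _).2 (cfi_game_of_xdup (num_xdup h hrej))

theorem core_noniso (h : Ok τ y r q R) : ¬ AdjIso (gr τ y r q R false) (gr τ y r q R true) := by
  intro hi
  obtain ⟨e, he⟩ := adjIso_iff.1 hi
  have h1 := (game_gr_gr _).1 (Game.of_iso (neN τ r q R + 3) e he)
  exact num_not_solvable h ((xdup_of_cfi_game (by omega) h1).solvable (by simp))

theorem core_acc (h : Ok τ y r q R) {t : ℕ} (ht : t < q ^ R) (hacc : GM.lab τ y t = 1) {m : ℕ}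
    (H : Fin m → Fin m → Bool) (hH : Game (r + 1) (mat (gr τ y r q R false)) (mat H)) :
    AdjIso (gr τ y r q R false) H := by
  have hr : 3 ≤ r + 1 := by have := h.rows; have := h.one; omega
  rw [game_gr_iff, bN_false] at hH
  obtain ⟨b, e, he⟩ := cfi_struct hr hH
  have h1 : Game (r + 1) (CFI (neN τ r q R) (varN τ y r q R) fun _ => 0)
      (CFI (neN τ r q R) (varN τ y r q R) b) := hH.trans (Game.of_iso _ e he).symm
  have h2 := num_solvable h ht hacc _ (xdup_of_cfi_game hr h1)
  have h3 : Game (nV τ r q R) (CFI (neN τ r q R) (varN τ y r q R) fun _ => 0) (mat H) :=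
    (cfi_game_of_xdup (h2.xdup _)).trans (Game.of_iso _ e he)
  rw [← bN_false r q, ← game_gr_iff] at h3
  exact adjIso_iff.2 (h3.iso_of_card (by have := h.nV_ge; omega) (by simp))

theorem core_acc' (h : Ok τ y r q R) {t : ℕ} (ht : t < q ^ R) (hacc : GM.lab τ y t = 1) :
    ¬ Game (r + 1) (mat (gr τ y r q R false)) (mat (gr τ y r q R true)) :=
  fun hg => core_noniso h (core_acc h ht hacc _ hg)

end Crest.Agent.R290
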