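/-
R290/GameApex: padding with a universal vertex, and disjoint unions.
Skeleton by helper86; keep the statements of the theorems unchanged (add any helper lemmas you like).
-/
import Crest.Agent.R290.GameWL

set_option autoImplicit false

namespace Crest.Agent.R290

open Crest.WLRefine Crest.WLRefine.ParityLift

theorem apex_diam {N n : ℕ} (hn : N < n) {A : ℕ → ℕ → Bool} (hA : IsSimple (matOf N A)) :
    SimpleConnDiamTwo (matOf n (apexN n N A)) := by
  have hs : IsSimple (matOf n (apexN n N A)) := by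
    constructor
    · intro v w
      simp only [matOf, apexN]
      by_cases h1 : v.val + 1 = n <;> by_cases h2 : w.val + 1 = n <;> simp [h1, h2]
      by_cases h3 : v.val < N <;> by_cases h4 : w.val < N <;> simp [h3, h4]
      exact hA.1 ⟨v, h3⟩ ⟨w, h4⟩
    · intro v
      simp only [matOf, apexN]
      by_cases h1 : v.val + 1 = n <;> simp [h1]
      exact fun h3 => hA.2 ⟨v, h3⟩
  obtain ⟨t, ht⟩ : ∃ t : Fin n, t.val + 1 = n := ⟨⟨n - 1, by omega⟩, by simp; omega⟩
  have h1 : ∀ v, v ≠ t → matOf n (apexN n N A) t v = true := fun v hv => by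
    have : v.val + 1 ≠ n := fun h => hv (Fin.ext (by omega))
    simp [matOf, apexN, ht, this]
  refine ⟨hs, ?_, fun v w hvw => ?_⟩
  · have : Nonempty (Fin n) := ⟨t⟩
    refine ⟨fun u v => ?_⟩
    have key : ∀ v, (adjGraph (matOf n (apexN n N A))).Reachable t v := fun v => by
      by_cases hv : v = t
      · rw [hv]
      · exact SimpleGraph.Adj.reachable
          ((SimpleGraph.fromRel_adj _ _ _).2 ⟨Ne.symm hv, Or.inl (h1 v hv)⟩)
    exact (key u).symm.trans (key v)
  · by_cases hv : v = t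
    · exact Or.inl (hv ▸ h1 w (hv ▸ hvw.symm))
    · by_cases hw : w = t
      · exact Or.inl (by rw [hs.1, hw]; exact h1 v hv)
      · exact Or.inr ⟨t, by rw [hs.1]; exact h1 v hv, h1 w hw⟩

theorem exists_short {P Q₁ Q₂ : Type} (f₁ : Q₁ → P) (f₂ : Q₂ → P) (l₁ : List Q₁) (l₂ : List Q₂)
    (l : List P) (h : ∀ p ∈ l, (∃ q ∈ l₁, p = f₁ q) ∨ ∃ q ∈ l₂, p = f₂ q) :
    ∃ l₁' l₂', l₁' ⊆ l₁ ∧ l₂' ⊆ l₂ ∧ l₁'.length ≤ l.length ∧ l₂'.length ≤ l.length ∧
      ∀ p ∈ l, (∃ q ∈ l₁', p = f₁ q) ∨ ∃ q ∈ l₂', p = f₂ q := by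
  induction l with
  | nil => exact ⟨[], [], by simp, by simp, le_rfl, le_rfl, by simp⟩
  | cons p l ih =>
    obtain ⟨m₁, m₂, a1, a2, a3, a4, a5⟩ := ih fun p hp => h p (List.mem_cons_of_mem _ hp)
    rcases h p List.mem_cons_self with ⟨q, hq, rfl⟩ | ⟨q, hq, rfl⟩
    · refine ⟨q :: m₁, m₂, List.cons_subset.2 ⟨hq, a1⟩, a2, by simpa, by simp; omega,
        fun p hp => ?_⟩
      rcases List.mem_cons.1 hp with rfl | hp
      · exact Or.inl ⟨q, List.mem_cons_self, rfl⟩
      · exact (a5 p hp).imp_left fun ⟨r, hr, e⟩ => ⟨r, List.mem_cons_of_mem _ hr, e⟩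
    · refine ⟨m₁, q :: m₂, a1, List.cons_subset.2 ⟨hq, a2⟩, by simp; omega, by simpa,
        fun p hp => ?_⟩
      rcases List.mem_cons.1 hp with rfl | hp
      · exact Or.inr ⟨q, List.mem_cons_self, rfl⟩
      · exact (a5 p hp).imp_right fun ⟨r, hr, e⟩ => ⟨r, List.mem_cons_of_mem _ hr, e⟩

/-- Gluing winning families along a decomposition of both vertex sets into two parts. -/
theorem Win.sum {A B A' B' V V' : Type} {K : ℕ} (e : A ⊕ B ≃ V) (e' : A' ⊕ B' ≃ V')
    {G : V → V → Prop} {H : V' → V' → Prop} {W₁ : List (A × A') → Prop} {W₂ : List (B × B') → Prop}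
    (h₁ : Win K (fun a b => G (e (.inl a)) (e (.inl b))) (fun a b => H (e' (.inl a)) (e' (.inl b))) W₁)
    (h₂ : Win K (fun a b => G (e (.inr a)) (e (.inr b))) (fun a b => H (e' (.inr a)) (e' (.inr b))) W₂)
    (hc : ∀ a a' b b', W₂ [(b, b')] →
      (G (e (.inl a)) (e (.inr b)) ↔ H (e' (.inl a')) (e' (.inr b'))) ∧
      (G (e (.inr b)) (e (.inl a)) ↔ H (e' (.inr b')) (e' (.inl a')))) :
    Win K G H fun l => ∃ l₁ l₂, W₁ l₁ ∧ W₂ l₂ ∧ ∀ p ∈ l,
      (∃ q ∈ l₁, p = (e (.inl q.1), e' (.inl q.2))) ∨ ∃ q ∈ l₂, p = (e (.inr q.1), e' (.inr q.2)) where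
  nil := ⟨[], [], h₁.nil, h₂.nil, by simp⟩
  sub := fun ⟨l₁, l₂, a1, a2, a3⟩ hs => ⟨l₁, l₂, a1, a2, fun p hp => a3 p (hs hp)⟩
  eq_iff := by
    rintro l p q ⟨l₁, l₂, a1, a2, a3⟩ hp hq
    replace hp := a3 p hp
    replace hq := a3 q hq
    rcases hp with ⟨p, hp, rfl⟩ | ⟨p, hp, rfl⟩ <;> rcases hq with ⟨q, hq, rfl⟩ | ⟨q, hq, rfl⟩
    · simpa using h₁.eq_iff a1 hp hq
    · simp
    · simp
    · simpa using h₂.eq_iff a2 hp hq
  adj := by
    rintro l p q ⟨l₁, l₂, a1, a2, a3⟩ hp hq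
    replace hp := a3 p hp
    replace hq := a3 q hq
    rcases hp with ⟨p, hp, rfl⟩ | ⟨p, hp, rfl⟩ <;> rcases hq with ⟨q, hq, rfl⟩ | ⟨q, hq, rfl⟩
    · exact h₁.adj a1 hp hq
    · exact (hc _ _ _ _ (h₂.sub a2 (by simpa using hq))).1
    · exact (hc _ _ _ _ (h₂.sub a2 (by simpa using hp))).2
    · exact h₂.adj a2 hp hq
  ext := by
    rintro l ⟨l₁, l₂, a1, a2, a3⟩ hl
    obtain ⟨m₁, m₂, b1, b2, b3, b4, b5⟩ := exists_short
      (fun q : A × A' => (e (.inl q.1), e' (.inl q.2))) (fun q : B × B' => (e (.inr q.1), e' (.inr q.2)))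
      l₁ l₂ l a3
    obtain ⟨π₁, hπ₁⟩ := h₁.ext (h₁.sub a1 b1) (b3.trans_lt hl)
    obtain ⟨π₂, hπ₂⟩ := h₂.ext (h₂.sub a2 b2) (b4.trans_lt hl)
    refine ⟨e.symm.trans ((π₁.sumCongr π₂).trans e'), fun z => ?_⟩
    obtain ⟨z | z, rfl⟩ := e.surjective z
    · refine ⟨_, m₂, hπ₁ z, h₂.sub a2 b2, fun p hp => ?_⟩
      rcases List.mem_cons.1 hp with rfl | hp
      · exact Or.inl ⟨_, List.mem_cons_self, by simp⟩
      · exact (b5 p hp).imp_left fun ⟨r, hr, e⟩ => ⟨r, List.mem_cons_of_mem _ hr, e⟩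
    · refine ⟨m₁, _, h₁.sub a1 b1, hπ₂ z, fun p hp => ?_⟩
      rcases List.mem_cons.1 hp with rfl | hp
      · exact Or.inr ⟨_, List.mem_cons_self, by simp⟩
      · exact (b5 p hp).imp_right fun ⟨r, hr, e⟩ => ⟨r, List.mem_cons_of_mem _ hr, e⟩

theorem win_diag {V : Type} (K : ℕ) (G : V → V → Prop) : Win K G G fun l => ∀ p ∈ l, p.1 = p.2 where
  nil := by simp
  sub := fun h hs p hp => h p (hs hp)
  eq_iff := fun h hp hq => by rw [h _ hp, h _ hq]
  adj := fun h hp hq => by rw [h _ hp, h _ hq]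
  ext := fun h _ => ⟨Equiv.refl V, fun z p hp => by
    rcases List.mem_cons.1 hp with rfl | hp
    · rfl
    · exact h p hp⟩

theorem apex_univ {N n : ℕ} (hN : 5 ≤ N) (hn : N < n) {A : ℕ → ℕ → Bool}
    (hA : SimpleConnSubcubic (matOf N A)) (u : Fin n) :
    (∀ z, z ≠ u → mat (matOf n (apexN n N A)) u z) ↔ u.val + 1 = n := by
  constructor
  · intro h
    by_contra hu
    by_cases h1 : u.val < N
    · have h2 := hA.2.2 ⟨u, h1⟩
      have h3 : (Finset.univ : Finset (Fin N)).erase ⟨u, h1⟩ ⊆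
          Finset.univ.filter fun w => matOf N A ⟨u, h1⟩ w = true := fun w hw => by
        have hw' : w.val ≠ u.val := fun e => (Finset.mem_erase.1 hw).1 (Fin.ext e)
        have := h ⟨w, by omega⟩ fun e => hw' (congrArg Fin.val e)
        have hw2 : w.val + 1 ≠ n := by omega
        simp only [mat, matOf, apexN, hu, hw2, if_false, Bool.and_eq_true] at this
        simpa [matOf] using this.2
      have := Finset.card_le_card h3
      simp only [Finset.mem_univ, Finset.card_erase_of_mem, Finset.card_univ,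
        Fintype.card_fin] at this
      omega
    · have := h ⟨0, by omega⟩ fun e => h1 (by rw [← e]; show 0 < N; omega)
      have h0 : 0 + 1 ≠ n := by omega
      simp [mat, matOf, apexN, hu, h0, h1] at this
  · intro h z hz
    have : z.val + 1 ≠ n := fun e => hz (Fin.ext (by omega))
    simp [mat, matOf, apexN, h, this]

theorem apex_core {N n : ℕ} (hN : 5 ≤ N) (hn : N < n) {A : ℕ → ℕ → Bool}
    (hA : SimpleConnSubcubic (matOf N A)) (u : Fin n) :
    (u.val + 1 ≠ n ∧ ∃ z : Fin n, z.val + 1 ≠ n ∧ mat (matOf n (apexN n N A)) u z) ↔ u.val < N := by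
  constructor
  · rintro ⟨h1, z, h2, h3⟩
    simp only [mat, matOf, apexN, h1, h2, if_false, Bool.and_eq_true, decide_eq_true_eq] at h3
    exact h3.1.1
  · intro h
    have h1 : u.val + 1 ≠ n := by omega
    have : Nontrivial (Fin N) := Fin.nontrivial_iff_two_le.2 (by omega)
    obtain ⟨z, hz⟩ := hA.2.1.preconnected.exists_adj_of_nontrivial (⟨u, h⟩ : Fin N)
    have h2 : z.val + 1 ≠ n := by omega
    refine ⟨h1, ⟨z, by omega⟩, h2, ?_⟩
    have h3 : matOf N A ⟨u, h⟩ z = true := by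
      rcases ((SimpleGraph.fromRel_adj _ _ _).1 hz).2 with h | h
      · exact h
      · rwa [hA.1.1]
    simpa [mat, matOf, apexN, h1, h2, h] using h3

/-- `←`: positions whose pairs are either core pairs coming from a winning position (take the sublist of
core pairs, as a `filterMap`) or `(u, u)` with `N ≤ u`; extend `π` by the identity.  `→`: "adjacent to
all other vertices" singles out `n - 1` (a core vertex has at most three core neighbours and `5 ≤ N`),
"has a non-universal neighbour" singles out the core among the others (connected with `≥ 2` vertices);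
both are preserved (`Win.nbr`), then `Win.restrict` and `game_congr`. -/
theorem game_apex {K N n : ℕ} (hK : 2 ≤ K) (hN : 5 ≤ N) (hn : N < n) {A B : ℕ → ℕ → Bool}
    (hA : SimpleConnSubcubic (matOf N A)) (hB : SimpleConnSubcubic (matOf N B)) :
    Game K (mat (matOf n (apexN n N A))) (mat (matOf n (apexN n N B))) ↔
      Game K (mat (matOf N A)) (mat (matOf N B)) := by
  have core : ∀ (A : ℕ → ℕ → Bool) (a b : ℕ), a < N → b < N → apexN n N A a b = A a b := by
    intro A a b ha hb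
    simp [apexN, show a + 1 ≠ n by omega, show b + 1 ≠ n by omega, ha, hb]
  constructor
  · rintro ⟨W, hW⟩
    have h1 : ∀ u u', W [(u, u')] → (u.val + 1 = n ↔ u'.val + 1 = n) := fun u u' hu => by
      obtain ⟨π, rfl, -, -, h, -⟩ := hW.nbr hK hu
      rw [← apex_univ hN hn hA, ← apex_univ hN hn hB,
        π.surjective.forall (p := fun z => z ≠ π u → _)]
      simp only [h, ne_eq, EmbeddingLike.apply_eq_iff_eq]
    have h2 := hW.restrict (fun u => u.val < N) (fun u => u.val < N) fun u u' hu => by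
      obtain ⟨π, e, -, h', h, -⟩ := hW.nbr hK hu
      rw [← apex_core hN hn hA, ← apex_core hN hn hB,
        π.surjective.exists (p := fun z => _ ∧ mat (matOf n (apexN n N B)) u' z), ne_eq, ne_eq,
        h1 u u' hu]
      refine and_congr_right fun _ => exists_congr fun z => ?_
      rw [ne_eq, ne_eq, h1 _ _ (h' z), h]
    let e : Fin N ≃ {a : Fin n // a.val < N} :=
      ⟨fun a => ⟨⟨a, by omega⟩, a.2⟩, fun a => ⟨a.1, a.2⟩, fun _ => rfl, fun _ => rfl⟩
    refine (game_congr e e (fun a b => ?_) fun a b => ?_).2 h2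
    · exact Eq.congr_left (core A a b a.2 b.2)
    · exact Eq.congr_left (core B a b a.2 b.2)
  · rintro ⟨W, hW⟩
    obtain ⟨d, rfl⟩ := Nat.exists_eq_add_of_le hn.le
    refine ⟨_, Win.sum (W₁ := W) (W₂ := fun l => ∀ p ∈ l, p.1 = p.2) finSumFinEquiv finSumFinEquiv
      ?_ ?_ fun a a' b b' h => ?_⟩
    · convert hW using 3 with a b a b
      · exact Eq.congr_left (core A a b a.2 b.2)
      · exact Eq.congr_left (core B a b a.2 b.2)
    · convert win_diag K _ using 3 with a b
      simp [mat, matOf, apexN]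
    · obtain rfl : b = b' := h (b, b') (by simp)
      have ha : a.val + 1 ≠ N + d := by omega
      have ha' : a'.val + 1 ≠ N + d := by omega
      simp [mat, matOf, apexN, ha, ha']

/-- A winning family on `G`, `H` gives one on the disjoint union against itself that swaps the parts:
`W' l` iff every pair of `l` is `(inl a, inr c)` or `(inr c, inl a)`, the list of the `(a, c)` of the first
kind is in `W` and so is the list of the `(a, c)` of the second kind. -/
theorem Win.union {n m K : ℕ} {G : Fin n → Fin n → Bool} {H : Fin m → Fin m → Bool}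
    {W : List (Fin n × Fin m) → Prop} (h : Win K (mat G) (mat H) W) :
    ∃ W', Win K (mat (asMatrix (unionAdj G H))) (mat (asMatrix (unionAdj G H))) W' ∧
      ∀ l, W l → W' (l.map fun p =>
        (Fintype.equivFin _ (Sum.inl p.1 : Fin n ⊕ Fin m), Fintype.equivFin _ (Sum.inr p.2 : Fin n ⊕ Fin m))) := by
  refine ⟨_, Win.sum (W₁ := W) (W₂ := fun l => W (l.map Prod.swap))
    (Fintype.equivFin (Fin n ⊕ Fin m))
    ((Equiv.sumComm _ _).trans (Fintype.equivFin (Fin n ⊕ Fin m))) ?_ ?_ (fun a a' b b' _ => ?_),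
    fun l hl => ⟨l, [], hl, h.nil, fun p hp => ?_⟩⟩
  · convert h using 3 <;> simp [mat, asMatrix, unionAdj]
  · convert h.symm using 3 <;> simp [mat, asMatrix, unionAdj]
  · simp [mat, asMatrix, unionAdj]
  · obtain ⟨q, hq, rfl⟩ := List.mem_map.1 hp
    exact Or.inl ⟨q, hq, rfl⟩

/-- `exists_tuple_equiv`, `Win.union`, `jcolor_eq`. -/
theorem pureJEquiv_of_game {n m k : ℕ} {G : Fin n → Fin n → Bool} {H : Fin m → Fin m → Bool}
    (h : Game (k + 1) (mat G) (mat H)) : PureJEquiv k G H := by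
  obtain ⟨W, hW⟩ := h
  obtain ⟨Φ, hΦ⟩ := hW.exists_tuple_equiv (Nat.le_succ k)
  obtain ⟨W', hW', h2⟩ := hW.union
  intro s
  unfold PureJHistEq
  rw [← Finset.map_univ_equiv Φ, Finset.map_val, Multiset.map_map]
  refine Multiset.map_congr rfl fun u _ => hW'.jcolor_eq s _ _ ?_
  have := h2 _ (hΦ u)
  rwa [List.map_ofFn] at this

theorem pureSEquiv_of_game {n m k : ℕ} {G : Fin n → Fin n → Bool} {H : Fin m → Fin m → Bool}
    (h : Game k (mat G) (mat H)) : PureSEquiv k G H := by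
  obtain ⟨W, hW⟩ := h
  obtain ⟨Φ, hΦ⟩ := hW.exists_tuple_equiv le_rfl
  obtain ⟨W', hW', h2⟩ := hW.union
  intro s
  unfold PureSHistEq
  rw [← Finset.map_univ_equiv Φ, Finset.map_val, Multiset.map_map]
  refine Multiset.map_congr rfl fun u _ => hW'.scolor_eq s _ _ ?_
  have := h2 _ (hΦ u)
  rwa [List.map_ofFn] at this

end Crest.Agent.R290
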