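/-
R290/LangCodes: membership of codes in the languages of `Def_WL`.
Skeleton by helper86; keep the statements of the theorems unchanged (add any helper lemmas you like).
-/
import Crest.Agent.R290.Defs

set_option autoImplicit false

namespace Crest.Agent.R290

open Crest.WLRefine Crest.Enc Crest.Agent.Lib.PolyTime

variable {n m k : ℕ}

theorem code_matOf (n : ℕ) (A : ℕ → ℕ → Bool) : adjMatrixCode (matOf n A) = codeN n A := by
  unfold adjMatrixCode codeN matOf
  rw [List.flatMap_def, List.flatMap_def, map_finRange_eq_map_range _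
    (fun u => (List.range n).map fun w => A u w) fun u => map_finRange_eq_map_range _ _ fun w => rfl]

theorem adjMatrixCode_eq_rowsOf (G : Fin n → Fin n → Bool) :
    adjMatrixCode G = natCode n ++ (rowsOf G).flatten := by
  rfl

theorem length_adjMatrixCode (G : Fin n → Fin n → Bool) :
    (adjMatrixCode G).length = (natCode n).length + n * n := by
  simp [adjMatrixCode, List.length_flatMap]

/-- Prefix-freeness (use `exists_bitTable_decoder`; `rowsOf` is injective). -/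
theorem adjMatrixCode_append_inj {n' : ℕ} {G : Fin n → Fin n → Bool} {G' : Fin n' → Fin n' → Bool}
    {s s' : List Bool} (h : adjMatrixCode G ++ s = adjMatrixCode G' ++ s') :
    ∃ e : n = n', e ▸ G = G' ∧ s = s' := by
  obtain ⟨dec, -, hd⟩ := exists_bitTable_decoder
  have h1 := congrArg dec h
  rw [adjMatrixCode_eq_rowsOf, adjMatrixCode_eq_rowsOf, hd, hd] at h1
  simp only [Prod.mk.injEq] at h1
  obtain ⟨⟨rfl, h2⟩, h3⟩ := h1
  refine ⟨rfl, ?_, h3⟩
  change G = G'
  funext i j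
  rw [← getD_rowsOf G i j false, h2, getD_rowsOf]

theorem adjMatrixCode_inj {n' : ℕ} {G : Fin n → Fin n → Bool} {G' : Fin n' → Fin n' → Bool}
    (h : adjMatrixCode G = adjMatrixCode G') : ∃ e : n = n', e ▸ G = G' := by
  obtain ⟨e, h1, -⟩ := adjMatrixCode_append_inj (G := G) (G' := G') (s := []) (s' := [])
    (by simpa using h)
  exact ⟨e, h1⟩

theorem natCode_append_inj {k' : ℕ} {s s' : List Bool} (h : natCode k ++ s = natCode k' ++ s') :
    k = k' ∧ s = s' := by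
  obtain ⟨run, -, -, hr⟩ := Parses.nat (ι := Unit)
  have h1 := hr () k s trivial
  rw [h, hr () k' s' trivial] at h1
  simp only [Prod.mk.injEq] at h1
  exact ⟨h1.1.symm, h1.2.symm⟩

theorem mem_jointEquivLang (G : Fin n → Fin n → Bool) (H : Fin m → Fin m → Bool) :
    adjMatrixCode G ++ adjMatrixCode H ∈ jointEquivLang k ↔ IsSimple G ∧ IsSimple H ∧ JEquiv k G H := by
  constructor
  · rintro ⟨n', m', G', H', h1, h2, h3, h4⟩
    obtain ⟨rfl, rfl, h5⟩ := adjMatrixCode_append_inj h4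
    obtain ⟨rfl, rfl⟩ := adjMatrixCode_inj h5
    exact ⟨h1, h2, h3⟩
  · rintro ⟨h1, h2, h3⟩
    exact ⟨n, m, G, H, h1, h2, h3, rfl⟩

theorem mem_sepEquivLang (G : Fin n → Fin n → Bool) (H : Fin m → Fin m → Bool) :
    adjMatrixCode G ++ adjMatrixCode H ∈ sepEquivLang k ↔ IsSimple G ∧ IsSimple H ∧ SEquiv k G H := by
  constructor
  · rintro ⟨n', m', G', H', h1, h2, h3, h4⟩
    obtain ⟨rfl, rfl, h5⟩ := adjMatrixCode_append_inj h4
    obtain ⟨rfl, rfl⟩ := adjMatrixCode_inj h5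
    exact ⟨h1, h2, h3⟩
  · rintro ⟨h1, h2, h3⟩
    exact ⟨n, m, G, H, h1, h2, h3, rfl⟩

theorem mem_varDimEquivLang (G : Fin n → Fin n → Bool) (H : Fin m → Fin m → Bool) :
    natCode k ++ adjMatrixCode G ++ adjMatrixCode H ∈ varDimEquivLang ↔
      2 ≤ k ∧ IsSimple G ∧ IsSimple H ∧ JEquiv k G H := by
  constructor
  · rintro ⟨k', n', m', G', H', h0, h1, h2, h3, h4⟩
    rw [List.append_assoc, List.append_assoc] at h4
    obtain ⟨rfl, h4'⟩ := natCode_append_inj h4
    obtain ⟨rfl, rfl, h5⟩ := adjMatrixCode_append_inj h4'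
    obtain ⟨rfl, rfl⟩ := adjMatrixCode_inj h5
    exact ⟨h0, h1, h2, h3⟩
  · rintro ⟨h0, h1, h2, h3⟩
    exact ⟨k, n, m, G, H, h0, h1, h2, h3, rfl⟩

theorem mem_subcubicVarDimEquivLang (G H : Fin n → Fin n → Bool) :
    natCode k ++ adjMatrixCode G ++ adjMatrixCode H ∈ subcubicVarDimEquivLang ↔
      2 ≤ k ∧ 0 < n ∧ SimpleConnSubcubic G ∧ SimpleConnSubcubic H ∧ JEquiv k G H := by
  constructor
  · rintro ⟨k', n', G', H', h0, h0', h1, h2, h3, h4⟩
    rw [List.append_assoc, List.append_assoc] at h4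
    obtain ⟨rfl, h4'⟩ := natCode_append_inj h4
    obtain ⟨rfl, rfl, h5⟩ := adjMatrixCode_append_inj h4'
    obtain ⟨_, rfl⟩ := adjMatrixCode_inj h5
    exact ⟨h0, h0', h1, h2, h3⟩
  · rintro ⟨h0, h0', h1, h2, h3⟩
    exact ⟨k, n, G, H, h0, h0', h1, h2, h3, rfl⟩

theorem mem_wlDimLeLang (G : Fin n → Fin n → Bool) :
    natCode k ++ adjMatrixCode G ∈ wlDimLeLang ↔
      1 ≤ k ∧ 0 < n ∧ IsSimple G ∧ ∃ k', 1 ≤ k' ∧ k' ≤ k ∧ Identifies k' G := by
  constructor
  · rintro ⟨k', n', G', h0, h1, h2, h3, h4⟩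
    obtain ⟨rfl, h4'⟩ := natCode_append_inj h4
    obtain ⟨rfl, rfl⟩ := adjMatrixCode_inj h4'
    exact ⟨h0, h1, h2, h3⟩
  · rintro ⟨h0, h1, h2, h3⟩
    exact ⟨k, n, G, h0, h1, h2, h3, rfl⟩

end Crest.Agent.R290
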