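/-
R290/NumPT: the numeric construction is computable in polynomial time, uniformly in the machine.
Skeleton by helper86; proofs by helper37.
-/
import Crest.Agent.R290.Defs

set_option autoImplicit false

namespace Crest.Agent.R290

open Crest.Agent.Lib.PolyTime

namespace NumPT

variable {α : Type} [Enc α]

@[fun_prop] theorem pt_A {τ : α → GM} (hτ : PT τ) : PT fun x => GM.A (τ x) := by
  unfold GM.A; fun_prop

@[fun_prop] theorem pb_A {τ : α → GM} (hτ : PT τ) : PB fun x => GM.A (τ x) := by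
  unfold GM.A; fun_prop

@[fun_prop] theorem pt_stk {τ : α → GM} {q : α → ℕ} (hτ : PT τ) (hq : PT q) :
    PT fun x => GM.stk (τ x) (q x) := by
  unfold GM.stk; fun_prop

@[fun_prop] theorem pt_op {τ : α → GM} {q : α → ℕ} (hτ : PT τ) (hq : PT q) :
    PT fun x => GM.op (τ x) (q x) := by
  unfold GM.op; fun_prop

@[fun_prop] theorem pt_nxt {τ : α → GM} {q a : α → ℕ} (hτ : PT τ) (hq : PT q) (ha : PT a) :
    PT fun x => GM.nxt (τ x) (q x) (a x) := by
  unfold GM.nxt; fun_prop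

@[fun_prop] theorem pt_modeApp {q i d : α → ℕ} {μ : α → Mode} (hq : PT q) (hμ : PT μ)
    (hi : PT i) (hd : PT d) : PT fun x => modeApp (q x) (μ x) (i x) (d x) := by
  unfold modeApp; pt

@[fun_prop] theorem pt_piN {R q i d : α → ℕ} {μ : α → Mode × Mode} (hR : PT R) (hq : PT q)
    (hμ : PT μ) (hi : PT i) (hd : PT d) : PT fun x => piN (R x) (q x) (μ x) (i x) (d x) := by
  unfold piN; pt

@[fun_prop] theorem pt_nRule {τ : α → GM} {q R : α → ℕ} (hτ : PT τ) (hq : PT q) (hR : PT R) :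
    PT fun x => nRule (τ x) (q x) (R x) := by
  unfold nRule; fun_prop

@[fun_prop] theorem pb_nRule {τ : α → GM} {q R : α → ℕ} (hτ : PT τ) (hq : PB q) (hR : PB R) :
    PB fun x => nRule (τ x) (q x) (R x) := by
  unfold nRule; fun_prop

@[fun_prop] theorem pt_neN {τ : α → GM} {r q R : α → ℕ} (hτ : PT τ) (hr : PT r) (hq : PT q)
    (hR : PT R) : PT fun x => neN (τ x) (r x) (q x) (R x) := by
  unfold neN; fun_prop

@[fun_prop] theorem pb_neN {τ : α → GM} {r q R : α → ℕ} (hτ : PT τ) (hr : PB r) (hq : PB q)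
    (hR : PB R) : PB fun x => neN (τ x) (r x) (q x) (R x) := by
  unfold neN; fun_prop

@[fun_prop] theorem pt_nV' {τ : α → GM} {r q R : α → ℕ} (hτ : PT τ) (hr : PT r) (hq : PT q)
    (hR : PT R) : PT fun x => nV (τ x) (r x) (q x) (R x) := by
  unfold nV; fun_prop

@[fun_prop] theorem pb_nV' {τ : α → GM} {r q R : α → ℕ} (hτ : PT τ) (hr : PB r) (hq : PB q)
    (hR : PB R) : PB fun x => nV (τ x) (r x) (q x) (R x) := by
  unfold nV; fun_prop

/-- The rule as a function of its decoded fields. -/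
def ruleF (τ : GM) (y : List Bool) (ty l a k jt jh p o : ℕ) : Atom × Atom × Atom × Bool :=
  if ty = 0 then (((0, GM.nxt τ l a, 0), (3, jt, 0), (1, 0, 0)), ((0, l, 0), (2, jt, 0), (1, 0, 0)),
    ((1, GM.stk τ l, a), (2, jt, 0), (1, 0, 0)), false)
  else if ty = 1 then
    (((1, k, a), (3, jt, 0), if o = 0 then (0, 0, 0) else if o = 1 then (2, jh, 0) else (3, jh, 0)),
      ((0, l, 0), (2, jt, 0), (1, 0, 0)),
      ((1, k, a), (2, jt, 0), if o = 0 then (0, 0, 0) else if o = 1 then (3, jh, 0) else (2, jh, 0)),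
      false)
  else if ty = 2 then
    (if 2 ≤ GM.op τ l then ((1, GM.stk τ l, GM.op τ l - 1), (3, jt, 0), (1, 0, 0))
      else ((0, l, 0), (2, jt, 0), (1, 0, 0)), ((0, l, 0), (2, jt, 0), (1, 0, 0)),
      ((0, l, 0), (2, jt, 0), (1, 0, 0)), false)
  else if ty = 3 then (((0, 0, 0), (1, 0, 0), (1, 0, 0)), ((0, 0, 0), (1, 0, 0), (1, 0, 0)),
    ((0, 0, 0), (1, 0, 0), (1, 0, 0)), true)
  else if ty = 4 then
    (((1, 0, (y.map fun b => b.toNat + 1).getD p 0), (1, 0, 0), (1, 0, p)),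
      ((0, 0, 0), (1, 0, 0), (1, 0, 0)), ((0, 0, 0), (1, 0, 0), (1, 0, 0)), true)
  else if ty = 5 then
    (if k = 0 ∧ jh = 0 then ((0, 0, 0), (1, 0, 0), (1, 0, 0))
      else ((1, k, 0), (1, 0, 0), if k = 0 then (0, jh, 1) else (0, 0, 0)),
      ((0, 0, 0), (1, 0, 0), (1, 0, 0)), ((0, 0, 0), (1, 0, 0), (1, 0, 0)), true)
  else (((2, 0, 0), (1, 0, 0), (1, 0, 0)), ((0, 1, 0), (0, 0, 0), (1, 0, 0)),
    ((0, 1, 0), (0, 0, 0), (1, 0, 0)), false)

theorem pt_ruleF {τ : α → GM} {y : α → List Bool} {ty l a k jt jh p o : α → ℕ} (hτ : PT τ)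
    (hy : PT y) (hty : PT ty) (hl : PT l) (ha : PT a) (hk : PT k) (hjt : PT jt) (hjh : PT jh)
    (hp : PT p) (ho : PT o) :
    PT fun x => ruleF (τ x) (y x) (ty x) (l x) (a x) (k x) (jt x) (jh x) (p x) (o x) := by
  have hm : PT fun x => (y x).map fun b => b.toNat + 1 := by fun_prop
  unfold ruleF
  refine PT.ite (by fun_prop) (by fun_prop) ?_
  refine PT.ite (by fun_prop) (by fun_prop) ?_
  refine PT.ite (by fun_prop) (by fun_prop) ?_
  refine PT.ite (by fun_prop) (by fun_prop) ?_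
  refine PT.ite (by fun_prop) (by fun_prop) ?_
  refine PT.ite (by fun_prop) (by fun_prop) ?_
  fun_prop

@[fun_prop] theorem pt_rule {τ : α → GM} {y : α → List Bool} {R ρ : α → ℕ} (hτ : PT τ)
    (hy : PT y) (hR : PT R) (hρ : PT ρ) : PT fun x => rule (τ x) (y x) (R x) (ρ x) := by
  have h := pt_ruleF (ty := fun x => ρ x % 7) (l := fun x => ρ x / 7 % GM.A (τ x))
    (a := fun x => ρ x / 7 / GM.A (τ x) % GM.A (τ x))
    (k := fun x => ρ x / 7 / GM.A (τ x) / GM.A (τ x) % GM.A (τ x))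
    (jt := fun x => ρ x / 7 / GM.A (τ x) / GM.A (τ x) / GM.A (τ x) % R x)
    (jh := fun x => ρ x / 7 / GM.A (τ x) / GM.A (τ x) / GM.A (τ x) / R x % R x)
    (p := fun x => ρ x / 7 / GM.A (τ x) / GM.A (τ x) / GM.A (τ x) / R x / R x)
    (o := fun x => if ρ x / 7 / GM.A (τ x) / GM.A (τ x) % GM.A (τ x) =
      GM.stk (τ x) (ρ x / 7 % GM.A (τ x)) then GM.op (τ x) (ρ x / 7 % GM.A (τ x)) else 0)
    hτ hy (by fun_prop) (by fun_prop) (by fun_prop) (by fun_prop) (by fun_prop) (by fun_prop)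
    (by fun_prop) (by fun_prop)
  exact h.of_eq fun x => rfl

@[fun_prop] theorem pt_slotOf {P X M : Type} [Enc P] [Enc X] [Enc M]
    {hd p1 p2 acc : α → X × M} {idm : α → M} {ρ : α → P} {κ s : α → ℕ} (h1 : PT hd) (h2 : PT p1)
    (h3 : PT p2) (h4 : PT acc) (h5 : PT idm) (h6 : PT ρ) (h7 : PT κ) (h8 : PT s) :
    PT fun x => slotOf (hd x) (p1 x) (p2 x) (acc x) (idm x) (ρ x) (κ x) (s x) := by
  unfold slotOf
  refine PT.ite (by fun_prop) ?_ ?_
  · refine PT.ite (by fun_prop) (by fun_prop) ?_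
    refine PT.ite (by fun_prop) (by fun_prop) ?_
    refine PT.ite (by fun_prop) (by fun_prop) ?_
    refine PT.ite (by fun_prop) (by fun_prop) ?_
    refine PT.ite (by fun_prop) (by fun_prop) ?_
    refine PT.ite (by fun_prop) (by fun_prop) ?_
    refine PT.ite (by fun_prop) (by fun_prop) ?_
    fun_prop
  · refine PT.ite (by fun_prop) (by fun_prop) ?_
    refine PT.ite (by fun_prop) (by fun_prop) ?_
    refine PT.ite (by fun_prop) (by fun_prop) ?_
    fun_prop

@[fun_prop] theorem pt_usedOf {ax : α → Bool} {κ s : α → ℕ} (h1 : PT ax) (h2 : PT κ) (h3 : PT s) :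
    PT fun x => usedOf (ax x) (κ x) (s x) := by
  unfold usedOf; pt

@[fun_prop] theorem pt_slotN {τ : α → GM} {y : α → List Bool} {R a s : α → ℕ} (hτ : PT τ)
    (hy : PT y) (hR : PT R) (ha : PT a) (hs : PT s) :
    PT fun x => slotN (τ x) (y x) (R x) (a x) (s x) := by
  have h : PT fun x => rule (τ x) (y x) (R x) (a x / 10) := by fun_prop
  unfold slotN
  exact pt_slotOf h.fst h.snd.fst h.snd.snd.fst (PT.const _) (PT.const _) (by fun_prop)
    (by fun_prop) hs

@[fun_prop] theorem pt_wireC {τ : α → GM} {y : α → List Bool} {q R a s j i d e : α → ℕ}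
    (hτ : PT τ) (hy : PT y) (hq : PT q) (hR : PT R) (ha : PT a) (hs : PT s) (hj : PT j)
    (hi : PT i) (hd : PT d) (he : PT e) :
    PT fun x => wireC (τ x) (y x) (q x) (R x) (a x) (s x) (j x) (i x) (d x) (e x) := by
  have h : PT fun x => slotN (τ x) (y x) (R x) (a x) (s x) := by fun_prop
  have h1 : PT fun x => piN (R x) (q x) (slotN (τ x) (y x) (R x) (a x) (s x)).2 (i x) (d x) :=
    pt_piN hR hq h.snd hi hd
  have h2 : PT fun x => piN (R x) (q x) (slotN (τ x) (y x) (R x) (a x) (s x)).2 (i x + 1) (e x) :=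
    pt_piN hR hq h.snd (by fun_prop) he
  unfold wireC
  refine PT.ite (by fun_prop) ?_ (by fun_prop)
  exact (PT.const _).prodMk (h.fst.prodMk (hi.cons ((h1.nat_mod hq).cons
    ((h2.nat_mod hq).cons (PT.const _)))))

@[fun_prop] theorem pt_midC {a s j i d e : α → ℕ} (ha : PT a) (hs : PT s) (hj : PT j)
    (hi : PT i) (hd : PT d) (he : PT e) :
    PT fun x => midC (a x) (s x) (j x) (i x) (d x) (e x) := by
  unfold midC; fun_prop

@[fun_prop] theorem pt_vC {r a s j i d : α → ℕ} (hr : PT r) (ha : PT a) (hs : PT s) (hj : PT j)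
    (hi : PT i) (hd : PT d) : PT fun x => vC (r x) (a x) (s x) (j x) (i x) (d x) := by
  unfold vC; fun_prop

/-- The variable name as a function of the decoded fields. -/
def varF (τ : GM) (y : List Bool) (r q R s half e d i j s₀ a : ℕ) : VCode :=
  if j < r + 2 then
    (if half = 0 then
      (if s = 0 then wireC τ y q R a s₀ j i d e else if s = 1 then vC r a s₀ j i d else midC a s₀ j i d e)
    else
      (if s = 0 then midC a s₀ j i d e else if s = 1 then vC r a s₀ j (i + 1) e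
        else wireC τ y q R a s₀ (j + 1) i d e))
  else if s₀ = 0 ∧ half = 0 ∧ usedOf (rule τ y R (a / 10)).2.2.2 (a % 10) s = true then
    wireC τ y q R a s (r + 2) i d e
  else zeroC

theorem pt_varF {τ : α → GM} {y : α → List Bool} {r q R s half e d i j s₀ a : α → ℕ}
    (hτ : PT τ) (hy : PT y) (hr : PT r) (hq : PT q) (hR : PT R) (hs : PT s) (hh : PT half)
    (he : PT e) (hd : PT d) (hi : PT i) (hj : PT j) (hs₀ : PT s₀) (ha : PT a) :
    PT fun x => varF (τ x) (y x) (r x) (q x) (R x) (s x) (half x) (e x) (d x) (i x) (j x) (s₀ x)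
      (a x) := by
  have h : PT fun x => rule (τ x) (y x) (R x) (a x / 10) := by fun_prop
  unfold varF
  refine PT.ite (by fun_prop) (PT.ite (by fun_prop) ?_ ?_) (PT.ite ?_ ?_ (PT.const _))
  · refine PT.ite (by fun_prop) (pt_wireC hτ hy hq hR ha hs₀ hj hi hd he) ?_
    exact PT.ite (by fun_prop) (pt_vC hr ha hs₀ hj hi hd) (pt_midC ha hs₀ hj hi hd he)
  · refine PT.ite (by fun_prop) (pt_midC ha hs₀ hj hi hd he) ?_
    exact PT.ite (by fun_prop) (pt_vC hr ha hs₀ hj (by fun_prop) he)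
      (pt_wireC hτ hy hq hR ha hs₀ (by fun_prop) hi hd he)
  · exact PT.and (by fun_prop) (PT.and (by fun_prop)
      (pt_usedOf h.snd.snd.snd (by fun_prop) hs).eq_true)
  · exact pt_wireC hτ hy hq hR ha hs (by fun_prop) hi hd he

@[fun_prop] theorem pt_varN {τ : α → GM} {y : α → List Bool} {r q R σ : α → ℕ}
    (hτ : PT τ) (hy : PT y) (hr : PT r) (hq : PT q) (hR : PT R) (hσ : PT σ) :
    PT fun x => varN (τ x) (y x) (r x) (q x) (R x) (σ x) := by
  have h := pt_varF (s := fun x => σ x % 3) (half := fun x => σ x / 3 % 2)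
    (e := fun x => σ x / 3 / 2 % q x) (d := fun x => σ x / 3 / 2 / q x % q x)
    (i := fun x => σ x / 3 / 2 / q x / q x % r x)
    (j := fun x => σ x / 3 / 2 / q x / q x / r x % (r x + 3))
    (s₀ := fun x => σ x / 3 / 2 / q x / q x / r x / (r x + 3) % 3)
    (a := fun x => σ x / 3 / 2 / q x / q x / r x / (r x + 3) / 3)
    hτ hy hr hq hR (by fun_prop) (by fun_prop) (by fun_prop) (by fun_prop) (by fun_prop)
    (by fun_prop) (by fun_prop) (by fun_prop)
  exact h.of_eq fun x => rfl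

@[fun_prop] theorem pt_isGoal {r q E : α → ℕ} (hr : PT r) (hq : PT q) (hE : PT E) :
    PT fun x => isGoal (r x) (q x) (E x) := by
  unfold isGoal; fun_prop

theorem pt_Link {Y : Type} [Enc Y] {ns σ σ' : α → ℕ} {var : α → ℕ → Y} (hn : PT ns) (hn' : PB ns)
    (hv : PT fun p : α × ℕ => var p.1 p.2) (hσ : PT σ) (hσ' : PT σ') :
    PT fun x => Link (ns x) (var x) (σ x) (σ' x) := by
  have h1 : PT fun x => var x (σ x) := hv.comp (g := fun x => (x, σ x)) (by fun_prop)
  have h2 : PT fun x => var x (σ' x) := hv.comp (g := fun x => (x, σ' x)) (by fun_prop)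
  unfold Link
  refine PT.and (by fun_prop) (PT.and (h1.eq h2) (PT.forall_lt hn hn' ?_))
  refine PT.imp (by fun_prop) (PT.imp (by fun_prop) (hv.ne ?_))
  exact h1.comp PT.fst'

theorem pt_First {Y : Type} [Enc Y] {ns σ : α → ℕ} {var : α → ℕ → Y} (hn : PT ns) (hn' : PB ns)
    (hv : PT fun p : α × ℕ => var p.1 p.2) (hσ : PT σ) :
    PT fun x => First (ns x) (var x) (σ x) := by
  have h1 : PT fun x => var x (σ x) := hv.comp (g := fun x => (x, σ x)) (by fun_prop)
  unfold First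
  refine PT.forall_lt hn hn' ?_
  refine PT.imp (by fun_prop) (hv.ne ?_)
  exact h1.comp PT.fst'

theorem pt_fin37 {u : α → ℕ} (hu : PT u) :
    PT fun x => (⟨u x % 37, Nat.mod_lt _ (by norm_num)⟩ : Fin 37) :=
  PT.finMk (by fun_prop) _

theorem pt_slot {u : α → ℕ} (hu : PT u) : PT fun x => (kindOf (u x)).slot.val :=
  (PT.of_finite fun i : Fin 37 => (kindEquiv i).slot.val).comp (pt_fin37 hu)

open Classical in
theorem pt_ArcP {u w : α → ℕ} {same succ link first sameE g : α → Prop} (hu : PT u) (hw : PT w)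
    (h1 : PT same) (h2 : PT succ) (h3 : PT link) (h4 : PT first) (h5 : PT sameE) (h6 : PT g) :
    PT fun x => ArcP (kindOf (u x)) (kindOf (w x)) (same x) (succ x) (link x) (first x) (sameE x)
      (if g x then 1 else 0) :=
  (PT.of_finite fun p : Fin 37 × Fin 37 × Prop × Prop × Prop × Prop × Prop × Prop =>
    ArcP (kindEquiv p.1) (kindEquiv p.2.1) p.2.2.1 p.2.2.2.1 p.2.2.2.2.1 p.2.2.2.2.2.1
      p.2.2.2.2.2.2.1 (if p.2.2.2.2.2.2.2 then 1 else 0)).comp
    ((pt_fin37 hu).prodMk ((pt_fin37 hw).prodMk (h1.prodMk (h2.prodMk (h3.prodMk (h4.prodMk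
      (h5.prodMk h6)))))))

theorem pt_ArcN {Y : Type} [Enc Y] {ne u w : α → ℕ} {var : α → ℕ → Y} {b : α → ℕ → ZMod 2}
    {g : α → ℕ → Prop} [∀ x E, Decidable (g x E)] (hb : ∀ x E, b x E = if g x E then 1 else 0)
    (hn : PT ne) (hn' : PB ne) (hv : PT fun p : α × ℕ => var p.1 p.2)
    (hg : PT fun p : α × ℕ => g p.1 p.2) (hu : PT u) (hw : PT w) :
    PT fun x => ArcN (ne x) (var x) (b x) (u x / 37) (kindOf (u x)) (w x / 37) (kindOf (w x)) := by
  have su := pt_slot hu
  have sw := pt_slot hw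
  have h1 : PT fun x => 3 * (u x / 37) + (kindOf (u x)).slot.val :=
    PT.nat_add (by fun_prop) su
  have h2 : PT fun x => 3 * (w x / 37) + (kindOf (w x)).slot.val :=
    PT.nat_add (by fun_prop) sw
  have hn3 : PT fun x => 3 * ne x := by fun_prop
  have hn3' : PB fun x => 3 * ne x := by fun_prop
  have h := pt_ArcP hu hw (h1.eq h2) (h1.eq (h2.nat_add (PT.const 1)))
    (pt_Link hn3 hn3' hv h1 h2) (pt_First hn3 hn3' hv h1)
    (PT.eq (f := fun x => u x / 37) (g := fun x => w x / 37) (by fun_prop) (by fun_prop))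
    (hg.comp (g := fun x => (x, u x / 37)) (by fun_prop))
  refine h.of_eq fun x => ?_
  unfold ArcN
  rw [hb]
  congr

theorem pt_cfiN {Y : Type} [Enc Y] {ne u w : α → ℕ} {var : α → ℕ → Y} {b : α → ℕ → ZMod 2}
    {g : α → ℕ → Prop} [∀ x E, Decidable (g x E)] (hb : ∀ x E, b x E = if g x E then 1 else 0)
    (hn : PT ne) (hn' : PB ne) (hv : PT fun p : α × ℕ => var p.1 p.2)
    (hg : PT fun p : α × ℕ => g p.1 p.2) (hu : PT u) (hw : PT w) :
    PT fun x => cfiN (ne x) (var x) (b x) (u x) (w x) := by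
  classical
  unfold cfiN
  exact PT.decide ((pt_ArcN hb hn hn' hv hg hu hw).or (pt_ArcN hb hn hn' hv hg hw hu))

theorem pt_adjN' {τ : α → GM} {y : α → List Bool} {r q R u w : α → ℕ} {fl : α → Bool}
    (hτ : PT τ) (hy : PT y) (hr : PT r) (hq : PT q) (hR : PT R) (hr' : PB r) (hq' : PB q)
    (hR' : PB R) (hfl : PT fl) (hu : PT u) (hw : PT w) :
    PT fun x => adjN (τ x) (y x) (r x) (q x) (R x) (fl x) (u x) (w x) := by
  unfold adjN
  refine pt_cfiN (g := fun x E => fl x = true ∧ isGoal (r x) (q x) E) (fun x E => rfl)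
    (pt_neN hτ hr hq hR) (pb_neN hτ hr' hq' hR') ?_ ?_ hu hw
  · exact pt_varN (hτ.comp PT.fst') (hy.comp PT.fst') (hr.comp PT.fst') (hq.comp PT.fst')
      (hR.comp PT.fst') PT.snd'
  · exact (hfl.comp PT.fst').eq_true.and
      (pt_isGoal (hr.comp PT.fst') (hq.comp PT.fst') PT.snd')

theorem pt_codeN {n : α → ℕ} {A : α → ℕ → ℕ → Bool} (hn : PT n) (hn' : PB n)
    (hA : PT fun p : α × ℕ × ℕ => A p.1 p.2.1 p.2.2) : PT fun x => codeN (n x) (A x) := by
  unfold codeN
  refine PT.append hn.natCode (PT.flatMap (PT.range hn hn') ?_)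
  refine PT.map (PT.range (hn.comp PT.fst') (hn'.comp PT.fst')) ?_
  exact hA.comp (g := fun p : (α × ℕ) × ℕ => (p.1.1, p.1.2, p.2)) (by fun_prop)

theorem pt_apexN {n N u w : α → ℕ} {A : α → ℕ → ℕ → Bool} (hn : PT n) (hN : PT N)
    (hu : PT u) (hw : PT w) (hA : PT fun x => A x (u x) (w x)) :
    PT fun x => apexN (n x) (N x) (A x) (u x) (w x) := by
  unfold apexN
  refine PT.ite (by fun_prop) (by fun_prop) (PT.ite (by fun_prop) (PT.const _) ?_)
  exact PT.band (by fun_prop) hA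

end NumPT

open NumPT

theorem pt_nV : PT fun p : Par => nV p.1 p.2.2.1.length p.2.2.2.1.length p.2.2.2.2.length :=
  pt_nV' (by fun_prop) (by fun_prop) (by fun_prop) (by fun_prop)

theorem pb_nV : PB fun p : Par => nV p.1 p.2.2.1.length p.2.2.2.1.length p.2.2.2.2.length :=
  pb_nV' (by fun_prop) (by fun_prop) (by fun_prop) (by fun_prop)

/-- Bottom-up: `PT` lemmas for `rule`, `slotOf`/`slotN`, `usedOf`, `modeApp`, `piN`, `wireC`, `vC`, `varN`
(unfold, `pt` / `fun_prop`; state each for arbitrary `PT` arguments and tag it `fun_prop`), then `Link`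
and `First` (`PT.forall_lt` with the `PB` bound `3 * neN`), then `ArcN`: `kindOf u = kindEquiv ⟨u % 37, _⟩`,
so `Kind.slot` and `ArcP` are functions of finite arguments
(`PT.of_finite` on `Fin 37`, `Fin 37 × Fin 37 × Prop × Prop × Prop × Prop × Prop × Prop`; pass `bN` as the
proposition `fl = true ∧ isGoal ..`; `PT.of_enc_eq_out` turns `u % 37` into an element of `Fin 37`). -/
theorem pt_adjN : PT fun p : (Par × Bool) × ℕ × ℕ =>
    adjN p.1.1.1 p.1.1.2.1 p.1.1.2.2.1.length p.1.1.2.2.2.1.length p.1.1.2.2.2.2.length p.1.2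
      p.2.1 p.2.2 :=
  pt_adjN' (by fun_prop) (by fun_prop) (by fun_prop) (by fun_prop) (by fun_prop) (by fun_prop)
    (by fun_prop) (by fun_prop) (by fun_prop) (by fun_prop) (by fun_prop)

theorem pt_code : PT fun p : Par × Bool =>
    codeN (nV p.1.1 p.1.2.2.1.length p.1.2.2.2.1.length p.1.2.2.2.2.length)
      (adjN p.1.1 p.1.2.1 p.1.2.2.1.length p.1.2.2.2.1.length p.1.2.2.2.2.length p.2) :=
  pt_codeN (pt_nV.comp PT.fst') (pb_nV.comp PT.fst') pt_adjN

theorem pt_code_apex : PT fun p : (Par × Bool) × List Unit =>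
    codeN p.2.length (apexN p.2.length
      (nV p.1.1.1 p.1.1.2.2.1.length p.1.1.2.2.2.1.length p.1.1.2.2.2.2.length)
      (adjN p.1.1.1 p.1.1.2.1 p.1.1.2.2.1.length p.1.1.2.2.2.1.length p.1.1.2.2.2.2.length p.1.2)) := by
  refine pt_codeN (by fun_prop) (by fun_prop) ?_
  refine pt_apexN (by fun_prop) (pt_nV.comp (g := fun p : ((Par × Bool) × List Unit) × ℕ × ℕ =>
    p.1.1.1) (by fun_prop)) (by fun_prop) (by fun_prop) ?_
  exact pt_adjN.comp (g := fun p : ((Par × Bool) × List Unit) × ℕ × ℕ => (p.1.1, p.2))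
    (by fun_prop)

end Crest.Agent.R290
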