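/-
R290/Diag: the self-referential diagonal argument.  Author: helper86.
-/
import Crest.Agent.R290.Core
import Crest.Agent.R290.GameApex
import Crest.Agent.R290.GmSim
import Crest.Agent.R290.NumPT
import Crest.Agent.R290.LangCodes

set_option autoImplicit false

namespace Crest.Agent.R290

open Crest.WLRefine Crest.Agent.Lib.PolyTime

theorem size_small (C₁ C₂ : ℕ) : ∃ q₀, ∀ q ≥ q₀, C₁ + C₂ * q.size < q := by
  refine ⟨(C₁ + 2 * C₂ + 4) ^ 2, fun q hq => ?_⟩
  have h1 : C₁ + 2 * C₂ + 4 ≤ q.sqrt := Nat.le_sqrt'.2 hq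
  have h2 : q < (q.sqrt + 1) ^ 2 := Nat.lt_succ_sqrt' q
  have h3 : ∀ u, 4 ≤ u → u ^ 2 ≤ 2 ^ u := by
    intro u hu
    induction u, hu using Nat.le_induction with
    | base => norm_num
    | succ u hu ih => rw [pow_succ 2]; nlinarith
  have h4 : q.size ≤ q.sqrt + 1 := Nat.size_le.2 (h2.trans_le (h3 _ (by omega)))
  have h5 : q.sqrt ^ 2 ≤ q := Nat.sqrt_le' q
  have h6 : C₂ * q.size ≤ C₂ * (q.sqrt + 1) := Nat.mul_le_mul_left _ h4
  nlinarith

/-- The data fed to the diagonal machine: `(p, τ, r, q, R, n, N)`. -/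
abbrev DData (β : Type) : Type := β × GM × ℕ × ℕ × ℕ × ℕ × ℕ

/-- The pair of graphs built from the data, with parameters clipped by the pad. -/
noncomputable def dCode {β : Type} [Enc β] (x : DData β × List Unit) (fl : Bool) : List Bool :=
  codeN (x.2.take x.1.2.2.2.2.2.1).length (apexN (x.2.take x.1.2.2.2.2.2.1).length
    (nV x.1.2.1 (x.2.take x.1.2.2.1).length (x.2.take x.1.2.2.2.1).length (x.2.take x.1.2.2.2.2.1).length)
    (adjN x.1.2.1 (enc x.1).bits (x.2.take x.1.2.2.1).length (x.2.take x.1.2.2.2.1).length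
      (x.2.take x.1.2.2.2.2.1).length fl))

theorem pt_dCode {β : Type} [Enc β] (fl : Bool) : PT fun x : DData β × List Unit => dCode x fl := by
  have h1 : PT fun x : DData β × List Unit => (enc x.1).bits := PT.encBits (by fun_prop)
  have h2 : PT fun x : DData β × List Unit => ((((x.1.2.1, (enc x.1).bits, x.2.take x.1.2.2.1,
      x.2.take x.1.2.2.2.1, x.2.take x.1.2.2.2.2.1) : Par), fl), x.2.take x.1.2.2.2.2.2.1) := by
    fun_prop
  have h3 := pt_code_apex.comp h2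
  dsimp only at h3
  unfold dCode
  exact h3

theorem nV_eq (τ : GM) (r q R : ℕ) :
    nV τ r q R = (37 * (10 * (7 * GM.A τ * GM.A τ * GM.A τ * R * R) * 3 * (r + 3) * r * 2)) * q ^ 3 := by
  unfold nV neN nRule; ring

theorem diag {β : Type} [Enc β] (I : β × ℕ × List Bool × List Unit → Bool) (hI : PT I) :
    ∃ c : ℝ, 0 < c ∧ ∃ r₀ : ℕ, ∀ r ≥ r₀, ∀ (p : β) (T : ℕ → ℕ),
      (∀ (n : ℕ) (G H : Fin n → Fin n → Bool) (pad : List Unit), SimpleConnDiamTwo G →
        SimpleConnDiamTwo H → T n ≤ pad.length →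
        (I (p, n, adjMatrixCode G ++ adjMatrixCode H, pad) = true ↔ Game (r + 1) (mat G) (mat H))) →
      ∃ n₀ : ℕ, ∀ n ≥ n₀, (n : ℝ) ^ (c * (r + 1)) ≤ T n := by
  have hg : PT fun x : DData β × List Unit =>
      I (x.1.1, x.1.2.2.2.2.2.1, dCode x false ++ dCode x true, x.2) := by
    have h1 := pt_dCode (β := β) false
    have h2 := pt_dCode (β := β) true
    exact hI.comp (by fun_prop)
  obtain ⟨e, hct⟩ := PT.exists_CT_of_pad (N := fun a : DData β => a.2.2.2.2.2.2) (by fun_prop) hg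
  obtain ⟨τ, cD, hwf, hD⟩ := exists_gm_of_CT hct
  refine ⟨1 / (20 * (e + 1)), by positivity, 20 * (e + 1), fun r hr p T hT => ?_⟩
  obtain ⟨R, hR⟩ : ∃ R, R = (r - 1) / 2 := ⟨_, rfl⟩
  obtain ⟨j, hj⟩ : ∃ j, j = R / (e + 1) - 1 := ⟨_, rfl⟩
  have hdiv : 9 ≤ R / (e + 1) := (Nat.le_div_iff_mul_le (by omega)).2 (by omega)
  have hj8 : 8 ≤ j := by omega
  have hj1 : (j + 1) * (e + 1) ≤ R := by
    rw [show j + 1 = R / (e + 1) by omega]; exact Nat.div_mul_le_self _ _
  have hj2 : R < (e + 1) * (j + 2) := by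
    rw [show j + 2 = R / (e + 1) + 1 by omega]; exact Nat.lt_mul_div_succ _ (by omega)
  have hj3 : r + 1 ≤ 4 * (e + 1) * j := by
    have : r ≤ 2 * R + 2 := by omega
    nlinarith
  obtain ⟨q₀, hq₀⟩ := size_small (esize p + esize τ + esize r + esize R + 9) (6 * (6 + j))
  obtain ⟨C₀, hC₀⟩ : ∃ C₀, ∀ q, nV τ r q R = C₀ * q ^ 3 := ⟨_, fun q => nV_eq τ r q R⟩
  obtain ⟨q₁, hq₁⟩ : ∃ q₁, q₁ = q₀ + C₀ + 2 * cD + r + 17 := ⟨_, rfl⟩
  refine ⟨q₁ ^ 4, fun n hn => ?_⟩
  by_contra hbad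
  rw [not_le] at hbad
  obtain ⟨q, hq⟩ : ∃ q, q = n.sqrt.sqrt := ⟨_, rfl⟩
  have hqq : q₁ ≤ q := by
    rw [hq]; refine Nat.le_sqrt'.2 (Nat.le_sqrt'.2 ?_); rw [← pow_mul]; exact hn
  have hq4 : q ^ 4 ≤ n := by
    have h1 := Nat.sqrt_le' n
    have h2 := Nat.sqrt_le' n.sqrt
    rw [← hq] at h2
    calc q ^ 4 = (q ^ 2) ^ 2 := by ring
      _ ≤ n.sqrt ^ 2 := Nat.pow_le_pow_left h2 _
      _ ≤ n := h1
  have hn5 : n < q ^ 5 := by
    have h1 := Nat.lt_succ_sqrt' n
    have h2 := Nat.lt_succ_sqrt' n.sqrt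
    rw [← hq] at h2
    have h3 : (n.sqrt + 1) ^ 2 ≤ ((q + 1) ^ 2) ^ 2 := Nat.pow_le_pow_left h2 _
    have h4 : ((q + 1) ^ 2) ^ 2 ≤ ((2 * q) ^ 2) ^ 2 :=
      Nat.pow_le_pow_left (Nat.pow_le_pow_left (by omega) _) _
    have h5 : ((2 * q) ^ 2) ^ 2 = 16 * q ^ 4 := by ring
    have h6 : 16 * q ^ 4 ≤ q * q ^ 4 := Nat.mul_le_mul_right _ (by omega)
    have h7 : q * q ^ 4 = q ^ 5 := by ring
    simp only [Nat.succ_eq_add_one] at h1
    omega
  have hq1 : 1 ≤ q := by omega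
  have hqj : q ^ 5 ≤ q ^ j := Nat.pow_le_pow_right hq1 (by omega)
  have hqj' : q ≤ q ^ j := Nat.le_self_pow (by omega) q
  obtain ⟨a, ha⟩ : ∃ a : DData β, a = (p, τ, r, q, R, n, q ^ j) := ⟨_, rfl⟩
  have hsz : esize a < q := by
    have h0 := hq₀ q (by omega)
    have h1 : q < 2 ^ q.size := Nat.lt_size_self q
    have h2 : esize q ≤ 6 * q.size + 1 := esize_nat_le_of_lt_two_pow h1
    have h3 : esize n ≤ 6 * (q.size * 5) + 1 := esize_nat_le_of_lt_two_pow
      (hn5.trans (by rw [pow_mul]; exact Nat.pow_lt_pow_left h1 (by omega)))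
    have h4 : esize (q ^ j) ≤ 6 * (q.size * j) + 1 := esize_nat_le_of_lt_two_pow
      (by rw [pow_mul]; exact Nat.pow_lt_pow_left h1 (by omega))
    have h6 : esize a = esize p + esize τ + esize r + esize q + esize R + esize n + esize (q ^ j) + 6 := by
      rw [ha]; simp only [esize_pair]; omega
    have h5 : 6 * (6 + j) * q.size = 6 * q.size + 6 * (q.size * 5) + 6 * (q.size * j) := by ring
    omega
  have hok : Ok τ (enc a).bits r q R :=
    ⟨hwf, by rw [Tr.length_bits]; exact hsz, by omega, by omega, by omega⟩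
  have hNn : nV τ r q R < n := by
    rw [hC₀]
    calc C₀ * q ^ 3 < q * q ^ 3 := Nat.mul_lt_mul_of_pos_right (by omega) (by positivity)
      _ = q ^ 4 := by ring
      _ ≤ n := hq4
  have hTn : T n ≤ q ^ j := by
    have h1 : (n : ℝ) ^ ((1 / (20 * (e + 1)) : ℝ) * (r + 1)) ≤ ((q : ℝ) ^ 5) ^ ((1 / (20 * (e + 1)) : ℝ) * (r + 1)) :=
      Real.rpow_le_rpow (by positivity) (by exact_mod_cast hn5.le) (by positivity)
    have h2 : ((q : ℝ) ^ 5) ^ ((1 / (20 * (e + 1)) : ℝ) * (r + 1)) ≤ (q : ℝ) ^ j := by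
      rw [← Real.rpow_natCast, ← Real.rpow_mul (by positivity), ← Real.rpow_natCast]
      refine Real.rpow_le_rpow_of_exponent_le (by exact_mod_cast hq1) ?_
      have h3 : (r : ℝ) + 1 ≤ 4 * (e + 1) * j := by exact_mod_cast hj3
      have h4 : (0 : ℝ) < e + 1 := by positivity
      rw [show ((5 : ℕ) : ℝ) * ((1 / (20 * (e + 1)) : ℝ) * (r + 1)) = (r + 1) / (4 * (e + 1)) by
        field_simp; push_cast; ring, div_le_iff₀ (by positivity)]
      linarith
    have h5 : (T n : ℝ) ≤ (q : ℝ) ^ j := by linarith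
    exact_mod_cast h5
  have hcode : ∀ fl, dCode (a, List.replicate (q ^ j) ()) fl =
      adjMatrixCode (matOf n (apexN n (nV τ r q R) (adjN τ (enc a).bits r q R fl))) := by
    intro fl
    rw [code_matOf]
    have h1 : ∀ u, u ≤ q ^ j → ((List.replicate (q ^ j) ()).take u).length = u := fun u hu => by
      simp [hu]
    have e1 : a.2.1 = τ := by rw [ha]
    have e2 : a.2.2.1 = r := by rw [ha]
    have e3 : a.2.2.2.1 = q := by rw [ha]
    have e4 : a.2.2.2.2.1 = R := by rw [ha]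
    have e5 : a.2.2.2.2.2.1 = n := by rw [ha]
    simp only [dCode, e1, e2, e3, e4, e5]
    rw [h1 n (by omega), h1 r (by omega), h1 q hqj', h1 R (by omega)]
  have hiff := hT n _ _ (List.replicate (q ^ j) ())
    (apex_diam hNn (core_sub hok false).1) (apex_diam hNn (core_sub hok true).1) (by simpa using hTn)
  rw [game_apex (by omega) hok.nV_ge hNn (core_sub hok false) (core_sub hok true),
    ← hcode, ← hcode] at hiff
  obtain ⟨hacc, hrej⟩ := hD a
  have e0 : a.1 = p := by rw [ha]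
  have e5 : a.2.2.2.2.2.1 = n := by rw [ha]
  have e6 : a.2.2.2.2.2.2 = q ^ j := by rw [ha]
  simp only [e0, e5, e6] at hacc hrej
  cases hv : I (p, n, dCode (a, List.replicate (q ^ j) ()) false ++
      dCode (a, List.replicate (q ^ j) ()) true, List.replicate (q ^ j) ()) with
  | false => exact absurd (hiff.2 (core_rej hok (hrej hv))) (by rw [hv]; simp)
  | true =>
    refine core_acc' hok ?_ (hacc hv _ le_rfl) (hiff.1 hv)
    have h1 : esize a + q ^ j + 2 ≤ q ^ (j + 1) := by rw [pow_succ]; nlinarith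
    have h2 : (esize a + q ^ j + 2) ^ e ≤ q ^ ((j + 1) * e) := by
      rw [pow_mul]; exact Nat.pow_le_pow_left h1 _
    have h3 : q ^ ((j + 1) * e) ≤ q ^ ((j + 1) * e + 1) := Nat.pow_le_pow_right hq1 (by omega)
    have h4 : q ≤ q ^ ((j + 1) * e + 1) := Nat.le_self_pow (by omega) q
    have h5 : q ^ ((j + 1) * e + 2) ≤ q ^ R := Nat.pow_le_pow_right hq1 (by nlinarith)
    have h6 : 0 < q ^ ((j + 1) * e + 1) := by positivity
    calc cD * ((esize a + q ^ j + 2) ^ e + esize a + 1) ≤ cD * (2 * q ^ ((j + 1) * e + 1)) :=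
          Nat.mul_le_mul_left _ (by omega)
      _ = (2 * cD) * q ^ ((j + 1) * e + 1) := by ring
      _ < q * q ^ ((j + 1) * e + 1) := Nat.mul_lt_mul_of_pos_right (by omega) h6
      _ = q ^ ((j + 1) * e + 2) := by ring
      _ ≤ q ^ R := h5

end Crest.Agent.R290
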