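/-
R290/ExpMem: the three languages are in EXPTIME.
Skeleton by helper86; keep the statements of the theorems unchanged (add any helper lemmas you like).
-/
import Crest.Agent.R290.ExpAlg
import Crest.Agent.R290.GameWL
import Crest.Agent.R290.LangCodes

set_option autoImplicit false

namespace Crest.Agent.R290

open Crest.WLRefine Crest.ExpTime Crest.Agent.Lib.PolyTime

/-! ### Tables -/

/-- Entry of a table. -/
def emEnt (A : List (List Bool)) (i j : ℕ) : Bool := (A.getD i []).getD j false

/-- The table is square. -/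
def emSq (A : List (List Bool)) : Prop := ∀ r ∈ A, r.length = A.length

/-- The table is symmetric with zero diagonal. -/
def emSimple (A : List (List Bool)) : Prop :=
  ∀ i < A.length, (∀ j < A.length, emEnt A i j = emEnt A j i) ∧ emEnt A i i = false

/-- Every row has at most three entries `true`. -/
def emDeg (A : List (List Bool)) : Prop := ∀ r ∈ A, r.countP (fun b => b) ≤ 3

/-- Every mask below the pad which contains `0` and is closed under adjacency is full. -/
def emConn (A : List (List Bool)) (pad : List Unit) : Prop :=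
  ∀ s < pad.length, s.testBit 0 = true →
    (∀ i < A.length, ∀ j < A.length, s.testBit i = true → emEnt A i j = true → s.testBit j = true) →
    ∀ i < A.length, s.testBit i = true

/-- The table read off the bits of a number. -/
def emTab (A : List (List Bool)) (s : ℕ) : List (List Bool) :=
  (List.range A.length).map fun i => (List.range A.length).map fun j => s.testBit (i * A.length + j)

section pt
variable {α : Type} [Enc α]

@[fun_prop] theorem emEnt_pt {A : α → List (List Bool)} {i j : α → ℕ} (hA : PT A) (hi : PT i)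
    (hj : PT j) : PT fun a => emEnt (A a) (i a) (j a) := by
  unfold emEnt; fun_prop

@[fun_prop] theorem emSq_pt {A : α → List (List Bool)} (hA : PT A) : PT fun a => emSq (A a) := by
  unfold emSq; pt

@[fun_prop] theorem emSimple_pt {A : α → List (List Bool)} (hA : PT A) :
    PT fun a => emSimple (A a) := by
  unfold emSimple; pt

@[fun_prop] theorem emDeg_pt {A : α → List (List Bool)} (hA : PT A) : PT fun a => emDeg (A a) := by
  unfold emDeg; pt

@[fun_prop] theorem emConn_pt {A : α → List (List Bool)} {pad : α → List Unit} (hA : PT A)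
    (hp : PT pad) : PT fun a => emConn (A a) (pad a) := by
  unfold emConn; pt

@[fun_prop] theorem emTab_pt {A : α → List (List Bool)} {s : α → ℕ} (hA : PT A) (hs : PT s) :
    PT fun a => emTab (A a) (s a) := by
  unfold emTab; fun_prop

end pt

variable {n m k : ℕ}

theorem emEnt_rowsOf (G : Fin n → Fin n → Bool) (i j : Fin n) : emEnt (rowsOf G) i j = G i j :=
  getD_rowsOf G i j false

theorem emEnt_rowsOf' (G : Fin n → Fin n → Bool) {i j : ℕ} (hi : i < n) (hj : j < n) :
    emEnt (rowsOf G) i j = G ⟨i, hi⟩ ⟨j, hj⟩ :=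
  emEnt_rowsOf G ⟨i, hi⟩ ⟨j, hj⟩

theorem emSq_rowsOf (G : Fin n → Fin n → Bool) : emSq (rowsOf G) := fun r hr => by
  rw [length_of_mem_rowsOf hr, length_rowsOf]

theorem emSq.exists_rowsOf {A : List (List Bool)} (h : emSq A) (hn : A.length = n) :
    ∃ G : Fin n → Fin n → Bool, A = rowsOf G := by
  subst hn
  refine ⟨fun i j => emEnt A i j, List.ext_getElem (by simp) fun i h1 h2 => ?_⟩
  have h3 := h _ (List.getElem_mem h1)
  refine List.ext_getElem (by simp [rowsOf, h3]) fun j h4 h5 => ?_
  simp [rowsOf, emEnt, h4]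

theorem emSimple_rowsOf (G : Fin n → Fin n → Bool) : emSimple (rowsOf G) ↔ IsSimple G := by
  unfold emSimple IsSimple
  rw [length_rowsOf]
  constructor
  · intro h
    refine ⟨fun v w => ?_, fun v => ?_⟩
    · have := (h v v.2).1 w w.2
      rwa [emEnt_rowsOf, emEnt_rowsOf] at this
    · have := (h v v.2).2
      rwa [emEnt_rowsOf] at this
  · rintro ⟨h1, h2⟩ i hi
    refine ⟨fun j hj => ?_, ?_⟩
    · rw [emEnt_rowsOf' G hi hj, emEnt_rowsOf' G hj hi, h1]
    · rw [emEnt_rowsOf' G hi hi, h2]

theorem emDeg_rowsOf (G : Fin n → Fin n → Bool) : emDeg (rowsOf G) ↔ MaxDegLeThree G := by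
  have key : ∀ v : Fin n, ((List.finRange n).map fun j => G v j).countP (fun b => b) =
      (Finset.univ.filter fun w => G v w = true).card := by
    intro v
    rw [List.countP_map, List.countP_eq_length_filter, Fin.univ_def, Finset.card_def,
      Finset.filter_val, Multiset.filter_coe, Multiset.coe_card]
    simp [Function.comp_def]
  unfold emDeg MaxDegLeThree rowsOf
  simp only [List.mem_map, List.mem_finRange, true_and, forall_exists_index,
    forall_apply_eq_imp_iff, key]

theorem em_exists_mask (N : ℕ) (p : ℕ → Bool) : ∃ s < 2 ^ N, ∀ i < N, s.testBit i = p i :=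
  ⟨Nat.ofBits fun i : Fin N => p i, Nat.ofBits_lt_two_pow _, fun i hi =>
    Nat.testBit_ofBits_lt _ i hi⟩

theorem emConn_rowsOf {G : Fin n → Fin n → Bool} (hG : IsSimple G) (hn : 0 < n) {pad : List Unit}
    (hp : 2 ^ n ≤ pad.length) : emConn (rowsOf G) pad ↔ (adjGraph G).Connected := by
  classical
  have hadj : ∀ v w, (adjGraph G).Adj v w ↔ G v w = true := by
    intro v w
    rw [adjGraph, SimpleGraph.fromRel_adj, hG.1 w v, or_self]
    refine ⟨fun h => h.2, fun h => ⟨?_, h⟩⟩
    rintro rfl
    rw [hG.2] at h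
    exact Bool.false_ne_true h
  unfold emConn
  rw [length_rowsOf]
  constructor
  · intro h
    obtain ⟨s, hs, hs'⟩ := em_exists_mask n
      fun i => decide (∃ hi : i < n, (adjGraph G).Reachable ⟨0, hn⟩ ⟨i, hi⟩)
    have h1 := h s (hs.trans_le hp) (by
      rw [hs' 0 hn, decide_eq_true_eq]; exact ⟨hn, SimpleGraph.Reachable.refl _⟩) (by
      intro i hi j hj h2 h3
      rw [hs' i hi, decide_eq_true_eq] at h2
      rw [hs' j hj, decide_eq_true_eq]
      rw [emEnt_rowsOf' G hi hj] at h3
      obtain ⟨_, h2⟩ := h2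
      exact ⟨hj, h2.trans ((hadj _ _).2 h3).reachable⟩)
    have h2 : ∀ v : Fin n, (adjGraph G).Reachable ⟨0, hn⟩ v := by
      intro v
      have := h1 v v.2
      rw [hs' v v.2, decide_eq_true_eq] at this
      exact this.2
    have : Nonempty (Fin n) := ⟨⟨0, hn⟩⟩
    exact ⟨fun u v => (h2 u).symm.trans (h2 v)⟩
  · intro h s _ h0 hcl i hi
    have key : ∀ v : Fin n, Relation.ReflTransGen (adjGraph G).Adj ⟨0, hn⟩ v →
        s.testBit v = true := by
      intro v hv
      induction hv with
      | refl => exact h0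
      | @tail b c _ hbc ih =>
        exact hcl b b.2 c c.2 ih (by rw [emEnt_rowsOf]; exact (hadj _ _).1 hbc)
    exact key ⟨i, hi⟩ ((SimpleGraph.reachable_iff_reflTransGen _ _).1 (h.preconnected _ _))

theorem emTab_rowsOf (G : Fin n → Fin n → Bool) (s : ℕ) :
    emTab (rowsOf G) s = rowsOf fun i j : Fin n => s.testBit (i * n + j) := by
  unfold emTab
  rw [length_rowsOf]
  unfold rowsOf
  exact (map_finRange_eq_map_range _ _ fun i =>
    map_finRange_eq_map_range _ (fun j => s.testBit (i * n + j)) fun j => rfl).symm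

theorem em_exists_tab (H : Fin n → Fin n → Bool) :
    ∃ s < 2 ^ (n * n), H = fun i j : Fin n => s.testBit (i * n + j) := by
  obtain ⟨s, hs, hs'⟩ := em_exists_mask (n * n) fun t => emEnt (rowsOf H) (t / n) (t % n)
  refine ⟨s, hs, funext fun i => funext fun j => ?_⟩
  have hi := i.2
  have hj := j.2
  have h1 : (i : ℕ) * n + j < n * n := by nlinarith
  have h2 : ((i : ℕ) * n + j) / n = i := by
    rw [add_comm, Nat.add_mul_div_right _ _ (by omega), Nat.div_eq_of_lt hj, zero_add]
  have h3 : ((i : ℕ) * n + j) % n = j := by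
    rw [add_comm, Nat.add_mul_mod_self_right, Nat.mod_eq_of_lt hj]
  rw [hs' _ h1, h2, h3, emEnt_rowsOf]

theorem em_card_eq {K : ℕ} {G : Fin n → Fin n → Bool} {H : Fin m → Fin m → Bool}
    (h : Game (K + 1) (mat G) (mat H)) : n = m := by
  obtain ⟨W, hW⟩ := h
  obtain ⟨π, -⟩ := hW.ext hW.nil (by simp)
  simpa using Fintype.card_congr π

theorem em_pad {x : List Bool} (h : n + 2 ≤ x.length) :
    2 ^ (n + 2) ^ 4 ≤ (List.replicate (2 ^ x.length ^ 4) ()).length := by
  rw [List.length_replicate]
  exact Nat.pow_le_pow_right (by norm_num) (Nat.pow_le_pow_left h 4)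

theorem em_length (k : ℕ) (G : Fin n → Fin n → Bool) :
    n + 2 ≤ (Crest.Enc.natCode k ++ adjMatrixCode G).length := by
  rw [List.length_append, length_adjMatrixCode, length_natCode]
  nlinarith [Nat.le_mul_self n]

/-! ### Generic membership in EXPTIME -/

/-- Languages of a number and one matrix. -/
theorem inEXP_one {L : Set (List Bool)} (P : (ℕ × List (List Bool)) × List Unit → Prop) (hP : PT P)
    (hL : ∀ x ∈ L, ∃ (k n : ℕ) (G : Fin n → Fin n → Bool),
      x = Crest.Enc.natCode k ++ adjMatrixCode G)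
    (h : ∀ (k n : ℕ) (G : Fin n → Fin n → Bool) (pad : List Unit), 2 ^ (n + 2) ^ 4 ≤ pad.length →
      (Crest.Enc.natCode k ++ adjMatrixCode G ∈ L ↔ P ((k, rowsOf G), pad))) : InEXP L := by
  obtain ⟨d1, hd1, hd1'⟩ := (Parses.nat (ι := Unit)).exists_decoder_rest
  obtain ⟨d2, hd2, hd2'⟩ := exists_bitTable_decoder
  let dec : List Bool → ℕ × List (List Bool) := fun x => ((d1 x).1, (d2 (d1 x).2).1.2)
  have hdec : PT dec := by fun_prop
  have hdec' : ∀ (k n : ℕ) (G : Fin n → Fin n → Bool),
      dec (Crest.Enc.natCode k ++ adjMatrixCode G) = (k, rowsOf G) := by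
    intro k n G
    have := hd2' n G []
    rw [List.append_nil] at this
    simp only [dec, hd1' k _ trivial, adjMatrixCode_eq_rowsOf, this]
  refine PT.inEXP 4 (R := fun p => emSq (dec p.1).2 ∧ p.1 = Crest.Enc.natCode (dec p.1).1 ++
    (Crest.Enc.natCode (dec p.1).2.length ++ (dec p.1).2.flatten) ∧ P (dec p.1, p.2))
    (by fun_prop) fun x => ⟨fun hx => ?_, fun hx => ?_⟩
  · obtain ⟨k, n, G, rfl⟩ := hL x hx
    simp only [hdec']
    refine ⟨emSq_rowsOf G, by rw [length_rowsOf, adjMatrixCode_eq_rowsOf], ?_⟩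
    exact (h k n G _ (em_pad (em_length k G))).1 hx
  · obtain ⟨h1, h2, h3⟩ := hx
    obtain ⟨G, hG⟩ := h1.exists_rowsOf rfl
    simp only at h2 h3 hG
    have h4 : x = Crest.Enc.natCode (dec x).1 ++ adjMatrixCode G := by
      rw [adjMatrixCode_eq_rowsOf, ← hG]; exact h2
    have h5 := h (dec x).1 _ G _ (em_pad (x := x) (by
      have := em_length (dec x).1 G
      rwa [← h4] at this))
    rw [← h4, ← hG] at h5
    exact h5.2 h3

/-- Languages of a number and two matrices of the same order. -/
theorem inEXP_two {L : Set (List Bool)}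
    (P : (ℕ × List (List Bool) × List (List Bool)) × List Unit → Prop) (hP : PT P)
    (hL : ∀ x ∈ L, ∃ (k n : ℕ) (G H : Fin n → Fin n → Bool),
      x = Crest.Enc.natCode k ++ adjMatrixCode G ++ adjMatrixCode H)
    (h : ∀ (k n : ℕ) (G H : Fin n → Fin n → Bool) (pad : List Unit),
      2 ^ (n + 2) ^ 4 ≤ pad.length →
      (Crest.Enc.natCode k ++ adjMatrixCode G ++ adjMatrixCode H ∈ L ↔
        P ((k, rowsOf G, rowsOf H), pad))) : InEXP L := by
  obtain ⟨d1, hd1, hd1'⟩ := (Parses.nat (ι := Unit)).exists_decoder_rest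
  obtain ⟨d2, hd2, hd2'⟩ := exists_bitTable_decoder
  let dec : List Bool → ℕ × List (List Bool) × List (List Bool) := fun x =>
    ((d1 x).1, (d2 (d1 x).2).1.2, (d2 (d2 (d1 x).2).2).1.2)
  have hdec : PT dec := by fun_prop
  have hdec' : ∀ (k n : ℕ) (G H : Fin n → Fin n → Bool),
      dec (Crest.Enc.natCode k ++ adjMatrixCode G ++ adjMatrixCode H) = (k, rowsOf G, rowsOf H) := by
    intro k n G H
    have h1 := hd2' n H []
    rw [List.append_nil] at h1
    have h2 := hd2' n G (Crest.Enc.natCode n ++ (rowsOf H).flatten)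
    rw [List.append_assoc (Crest.Enc.natCode k)]
    simp only [dec, hd1' k _ trivial, adjMatrixCode_eq_rowsOf, h1, h2]
  refine PT.inEXP 4 (R := fun p => emSq (dec p.1).2.1 ∧ emSq (dec p.1).2.2 ∧
    (dec p.1).2.2.length = (dec p.1).2.1.length ∧ p.1 = Crest.Enc.natCode (dec p.1).1 ++
    (Crest.Enc.natCode (dec p.1).2.1.length ++ (dec p.1).2.1.flatten) ++
    (Crest.Enc.natCode (dec p.1).2.1.length ++ (dec p.1).2.2.flatten) ∧ P (dec p.1, p.2))
    (by fun_prop) fun x => ⟨fun hx => ?_, fun hx => ?_⟩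
  · obtain ⟨k, n, G, H, rfl⟩ := hL x hx
    simp only [hdec']
    refine ⟨emSq_rowsOf G, emSq_rowsOf H, by simp,
      by rw [length_rowsOf, adjMatrixCode_eq_rowsOf, adjMatrixCode_eq_rowsOf], ?_⟩
    refine (h k n G H _ (em_pad ?_)).1 hx
    have := em_length k G
    rw [List.length_append]
    omega
  · obtain ⟨h1, h1', h0, h2, h3⟩ := hx
    obtain ⟨G, hG⟩ := h1.exists_rowsOf rfl
    obtain ⟨H, hH⟩ := h1'.exists_rowsOf h0
    simp only at h2 h3 hG hH
    have h4 : x = Crest.Enc.natCode (dec x).1 ++ adjMatrixCode G ++ adjMatrixCode H := by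
      rw [adjMatrixCode_eq_rowsOf, adjMatrixCode_eq_rowsOf, ← hG, ← hH]; exact h2
    have h5 := h (dec x).1 _ G H _ (em_pad (x := x) (by
      have := em_length (dec x).1 G
      have h6 := congrArg List.length h4
      rw [List.length_append] at h6
      omega))
    rw [← h4, ← hG, ← hH] at h5
    exact h5.2 h3

theorem em_pow_le (n : ℕ) : n * n ≤ (n + 2) ^ 4 ∧ n ≤ (n + 2) ^ 4 := by
  constructor <;> nlinarith [Nat.zero_le (n ^ 4), Nat.zero_le (n ^ 3), Nat.zero_le (n ^ 2)]

/-- Identification by some dimension `≤ k` in terms of games on graphs of the same order. -/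
theorem em_identifies {G : Fin n → Fin n → Bool} (hk : 1 ≤ k) (hG : IsSimple G) :
    (∃ k', 1 ≤ k' ∧ k' ≤ k ∧ Identifies k' G) ↔ ∀ H : Fin n → Fin n → Bool, IsSimple H →
      Game (k + 1) (mat G) (mat H) → Game (n + 1) (mat G) (mat H) := by
  constructor
  · rintro ⟨k', h1, h2, h3⟩ H hH hg
    obtain ⟨e, he⟩ := adjIso_iff.1
      (h3 n H hH ((wlequiv_iff_game h1 hG hH).2 (hg.mono (by omega))))
    exact Game.of_iso _ e he
  · intro h
    refine ⟨k, hk, le_rfl, fun m H hH hW => ?_⟩
    have hg := (wlequiv_iff_game hk hG hH).1 hW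
    obtain rfl := em_card_eq hg
    exact adjIso_iff.2 ((h H hH hg).iso_of_card (by omega) (by simp))

/-- `PT.inEXP 4` (inputs have length `≥ n + 2`).  Decode with `Parses.nat` / `exists_bitTable_decoder`,
check that re-encoding gives the input back and that the tables are square (then they are `rowsOf` of
matrices), `2 ≤ k`, simplicity, `n = m` (a game with `≥ 1` pebble gives `Fin n ≃ Fin m`), and call
`exists_gameAlg` with `K = k + 1` (`jequiv_iff_game`). -/
theorem inEXP_var : InEXP varDimEquivLang := by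
  obtain ⟨F, hF, hF'⟩ := exists_gameAlg
  refine inEXP_two (fun p => 2 ≤ p.1.1 ∧ emSimple p.1.2.1 ∧ emSimple p.1.2.2 ∧
    F ((p.1.1 + 1, p.1.2), p.2)) (by fun_prop) ?_ ?_
  · rintro x ⟨k, n, m, G, H, hk, -, -, hJ, rfl⟩
    obtain rfl := em_card_eq ((jequiv_iff_game hk).1 hJ)
    exact ⟨k, n, G, H, rfl⟩
  · intro k n G H pad hp
    simp only [mem_varDimEquivLang, emSimple_rowsOf, hF' _ n G H pad hp]
    exact and_congr_right fun hk => by rw [jequiv_iff_game hk]

/-- In addition degrees, and connectedness (e.g. `n` rounds of neighbourhood growth from vertex `0`, or: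
every bit mask `< 2 ^ n` closed under adjacency and containing `0` is full). -/
theorem inEXP_sub : InEXP subcubicVarDimEquivLang := by
  obtain ⟨F, hF, hF'⟩ := exists_gameAlg
  refine inEXP_two (fun p => 2 ≤ p.1.1 ∧ 0 < p.1.2.1.length ∧
    (emSimple p.1.2.1 ∧ emConn p.1.2.1 p.2 ∧ emDeg p.1.2.1) ∧
    (emSimple p.1.2.2 ∧ emConn p.1.2.2 p.2 ∧ emDeg p.1.2.2) ∧
    F ((p.1.1 + 1, p.1.2), p.2)) (by fun_prop) ?_ ?_
  · rintro x ⟨k, n, G, H, -, -, -, -, -, rfl⟩
    exact ⟨k, n, G, H, rfl⟩
  · intro k n G H pad hp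
    have hp' : 2 ^ n ≤ pad.length := (Nat.pow_le_pow_right (by norm_num) (em_pow_le n).2).trans hp
    simp only [mem_subcubicVarDimEquivLang, emSimple_rowsOf, emDeg_rowsOf, hF' _ n G H pad hp,
      length_rowsOf, SimpleConnSubcubic]
    refine and_congr_right fun hk => and_congr_right fun hn => ?_
    rw [jequiv_iff_game hk]
    exact and_congr (and_congr_right fun hG => by rw [emConn_rowsOf hG hn hp'])
      (and_congr_left' (and_congr_right fun hH => by rw [emConn_rowsOf hH hn hp']))

/-- By `wlequiv_iff_game` and `Game.mono`, `∃ k' ∈ [1, k], Identifies k' G` iff for all simple `H` on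
`Fin n`: `Game (k + 1) G H → Game (n + 1) G H` (the latter is isomorphism).  Enumerate `H` by numbers
`< 2 ^ (n * n)` (`testBit`), range clipped by the pad. -/
theorem inEXP_dim : InEXP wlDimLeLang := by
  obtain ⟨F, hF, hF'⟩ := exists_gameAlg
  refine inEXP_one (fun p => 1 ≤ p.1.1 ∧ 0 < p.1.2.length ∧ emSimple p.1.2 ∧
    ∀ s < p.2.length, emSimple (emTab p.1.2 s) → F ((p.1.1 + 1, p.1.2, emTab p.1.2 s), p.2) →
      F ((p.1.2.length + 1, p.1.2, emTab p.1.2 s), p.2)) (by pt) ?_ ?_
  · rintro x ⟨k, n, G, -, -, -, -, rfl⟩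
    exact ⟨k, n, G, rfl⟩
  · intro k n G pad hp
    have hp' : 2 ^ (n * n) ≤ pad.length :=
      (Nat.pow_le_pow_right (by norm_num) (em_pow_le n).1).trans hp
    simp only [mem_wlDimLeLang, emSimple_rowsOf, emTab_rowsOf, hF' _ n G _ pad hp, length_rowsOf]
    refine and_congr_right fun hk => and_congr_right fun _ => and_congr_right fun hG => ?_
    rw [em_identifies hk hG]
    refine ⟨fun h s _ => h _, fun h H => ?_⟩
    obtain ⟨s, hs, rfl⟩ := em_exists_tab H
    exact h s (hs.trans_le hp')

end Crest.Agent.R290
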