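/-
R290/Hard: EXPTIME-hardness.  Author: helper86.
-/
import Crest.Agent.R290.Core
import Crest.Agent.R290.GmSim
import Crest.Agent.R290.NumPT
import Crest.Agent.R290.LangCodes

set_option autoImplicit false

namespace Crest.Agent.R290

open Crest.WLRefine Crest.ExpTime Crest.Enc Crest.Agent.Lib.PolyTime

theorem exists_red {A : Set (List Bool)} (hA : InEXP A) (val : Bool) :
    ∃ (τ : GM) (R : List Bool → ℕ), PT R ∧ PB R ∧ ∀ x, Ok τ x (2 * R x + 1) (x.length + 2) (R x) ∧
      ((x ∈ A ↔ val = true) → ∃ t < (x.length + 2) ^ R x, GM.lab τ x t = 1) ∧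
      (¬ (x ∈ A ↔ val = true) → ∀ t, GM.lab τ x t ≠ 1) := by
  obtain ⟨k, f, c, ⟨M, hM⟩, hf⟩ := hA
  obtain ⟨τ, c', hwf, h⟩ := exists_gm_of_tm M val
  refine ⟨τ, fun x => x.length ^ k + (c' * (2 * c + 1) + 1), by fun_prop, by fun_prop, fun x =>
    ⟨⟨hwf, by omega, by omega, by dsimp only; omega, le_rfl⟩, fun hx => ?_, fun hx => ?_⟩⟩
  · have hv : f x = val := by
      rw [hf] at hx; cases hfx : f x <;> cases val <;> simp_all
    refine ⟨_, ?_, (h x).1 hv _ le_rfl⟩
    have h1 : M.time ((Computability.encodingList Bool).encode x).length ≤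
        c * 2 ^ x.length ^ k + c := hM _
    have h2 : 1 ≤ 2 ^ x.length ^ k := Nat.one_le_two_pow
    have h3 : c' * (2 * c + 1) < 2 ^ (c' * (2 * c + 1) + 1) :=
      Nat.lt_two_pow_self.trans (Nat.pow_lt_pow_right (by norm_num) (by omega))
    calc c' * (M.time ((Computability.encodingList Bool).encode x).length + 1)
        ≤ c' * ((2 * c + 1) * 2 ^ x.length ^ k) := Nat.mul_le_mul_left _ (by nlinarith)
      _ = 2 ^ x.length ^ k * (c' * (2 * c + 1)) := by ring
      _ < 2 ^ x.length ^ k * 2 ^ (c' * (2 * c + 1) + 1) := Nat.mul_lt_mul_of_pos_left h3 h2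
      _ = 2 ^ (x.length ^ k + (c' * (2 * c + 1) + 1)) := by rw [← pow_add]
      _ ≤ _ := Nat.pow_le_pow_left (by omega) _
  · refine (h x).2 fun hv => hx ?_
    rw [hf, hv]

theorem pt_gr_code (τ : GM) {R : List Bool → ℕ} (h1 : PT R) (h2 : PB R) (fl : Bool) :
    PT fun x : List Bool => adjMatrixCode (gr τ x (2 * R x + 1) (x.length + 2) (R x) fl) := by
  have h3 : PT fun x : List Bool => (((τ, x, List.replicate (2 * R x + 1) (),
      List.replicate (x.length + 2) (), List.replicate (R x) ()) : Par), fl) := by fun_prop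
  have h4 := pt_code.comp h3
  simp only [List.length_replicate] at h4
  exact h4.of_eq fun x => (code_matOf _ _).symm

theorem red_equiv {A : Set (List Bool)} (hA : InEXP A) :
    ∃ f : List Bool → List Bool, PT f ∧ ∀ x, ∃ (k n : ℕ) (G H : Fin n → Fin n → Bool),
      f x = natCode k ++ adjMatrixCode G ++ adjMatrixCode H ∧ 2 ≤ k ∧ 0 < n ∧ SimpleConnSubcubic G ∧
        SimpleConnSubcubic H ∧ (x ∈ A ↔ JEquiv k G H) := by
  obtain ⟨τ, R, h1, h2, h⟩ := exists_red hA false
  have p1 := pt_gr_code τ h1 h2 false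
  have p2 := pt_gr_code τ h1 h2 true
  refine ⟨fun x => natCode (2 * R x + 1) ++ adjMatrixCode (gr τ x (2 * R x + 1) (x.length + 2) (R x) false)
    ++ adjMatrixCode (gr τ x (2 * R x + 1) (x.length + 2) (R x) true),
    ((PT.natCode (by fun_prop)).append p1).append p2, fun x => ?_⟩
  obtain ⟨hok, ha, hr⟩ := h x
  have hk : 2 ≤ 2 * R x + 1 := by have := hok.one; omega
  refine ⟨_, _, _, _, rfl, hk, by have := hok.nV_ge; omega, core_sub hok _, core_sub hok _, ?_⟩
  rw [jequiv_iff_game hk]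
  refine ⟨fun hx => core_rej hok (hr (by simp [hx])), fun hg => ?_⟩
  by_contra hx
  obtain ⟨t, ht, hacc⟩ := ha (by simp [hx])
  exact core_acc' hok ht hacc hg

theorem hard_var : EXPHard varDimEquivLang := by
  intro A hA
  obtain ⟨f, hf, h⟩ := red_equiv hA
  refine hf.polyTimeReducible fun x => ?_
  obtain ⟨k, n, G, H, e, hk, -, hG, hH, hx⟩ := h x
  rw [e, mem_varDimEquivLang, hx]
  exact ⟨fun h => ⟨hk, hG.1, hH.1, h⟩, fun h => h.2.2.2⟩

theorem hard_sub : EXPHard subcubicVarDimEquivLang := by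
  intro A hA
  obtain ⟨f, hf, h⟩ := red_equiv hA
  refine hf.polyTimeReducible fun x => ?_
  obtain ⟨k, n, G, H, e, hk, hn, hG, hH, hx⟩ := h x
  rw [e, mem_subcubicVarDimEquivLang, hx]
  exact ⟨fun h => ⟨hk, hn, hG, hH, h⟩, fun h => h.2.2.2.2⟩

theorem hard_dim : EXPHard wlDimLeLang := by
  intro A hA
  obtain ⟨τ, R, h1, h2, h⟩ := exists_red hA true
  have p1 := pt_gr_code τ h1 h2 false
  refine PT.polyTimeReducible (f := fun x => natCode (2 * R x + 1) ++
    adjMatrixCode (gr τ x (2 * R x + 1) (x.length + 2) (R x) false))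
    ((PT.natCode (by fun_prop)).append p1) fun x => ?_
  obtain ⟨hok, ha, hr⟩ := h x
  have hG := (core_sub hok false).1
  rw [mem_wlDimLeLang]
  refine ⟨fun hx => ⟨by omega, by have := hok.nV_ge; omega, hG, 2 * R x + 1, by omega, le_rfl,
    fun m H hH he => ?_⟩, fun ⟨_, _, _, k', hk1, hk2, hid⟩ => ?_⟩
  · obtain ⟨t, ht, hacc⟩ := ha (by simp [hx])
    exact core_acc hok ht hacc H ((wlequiv_iff_game (by omega) hG hH).1 he)
  · by_contra hx
    have hH := (core_sub hok true).1
    exact core_noniso hok (hid _ _ hH ((wlequiv_iff_game hk1 hG hH).2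
      ((core_rej hok (hr (by simp [hx]))).mono (by omega))))

end Crest.Agent.R290
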