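/-
R290/LiftBasic: parity lifts: simplicity, orders.
Skeleton by helper86; keep the statements of the theorems unchanged (add any helper lemmas you like).
-/
import Crest.Agent.R290.Defs

set_option autoImplicit false

namespace Crest.Agent.R290

open Crest.WLRefine Crest.WLRefine.ParityLift

variable {t : ℕ}

theorem tAdj_symm (a a' : TV t) : tAdj a a' = tAdj a' a := by
  rcases a with a | a <;> rcases a' with a' | a' <;> simp [tAdj, eq_comm]

theorem bAdj_symm (C : ChoiceSystem t) (u v : BV C) : bAdj C u v = bAdj C v u := by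
  rcases u with u | u <;> rcases v with v | v <;> simp [bAdj, Bool.or_comm]

theorem liftAdj_symm (C : ChoiceSystem t) (b : TV t → Bool) (x y : LiftV C b) :
    liftAdj C b x y = liftAdj C b y x := by
  unfold liftAdj
  apply decide_eq_decide.2
  constructor
  · rintro ⟨h, h', h1, h2⟩
    exact ⟨h', h, by rw [bAdj_symm]; exact h1, h2.symm⟩
  · rintro ⟨h, h', h1, h2⟩
    exact ⟨h', h, by rw [bAdj_symm]; exact h1, h2.symm⟩

theorem liftAdj_irrefl (C : ChoiceSystem t) (b : TV t → Bool) (x : LiftV C b) :
    liftAdj C b x x = false := by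
  unfold liftAdj
  apply decide_eq_false
  rintro ⟨h, -⟩
  generalize typeOf C x.1.1 = a at h
  rcases a with a | a <;> simp [tAdj] at h

theorem lift_isSimple (C : ChoiceSystem t) (b : TV t → Bool) : IsSimple (asMatrix (liftAdj C b)) :=
  ⟨fun _ _ => liftAdj_symm C b _ _, fun _ => liftAdj_irrefl C b _⟩

/-- Boolean vectors on a nonempty finite type with prescribed parity: `2 ^ (card - 1)` of them (flip one
fixed coordinate: the two parity classes are in bijection and partition everything). -/
theorem card_parity {ι : Type} [Fintype ι] [DecidableEq ι] [Nonempty ι] (β : Bool) :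
    Fintype.card {z : ι → Bool // (Finset.univ.filter fun a => z a = true).card % 2 = β.toNat} =
      2 ^ (Fintype.card ι - 1) := by
  classical
  obtain ⟨a₀⟩ := ‹Nonempty ι›
  have flip : ∀ z : ι → Bool,
      (Finset.univ.filter fun a => Function.update z a₀ (!z a₀) a = true).card % 2 =
        1 - (Finset.univ.filter fun a => z a = true).card % 2 := by
    intro z
    rw [Finset.card_filter, Finset.card_filter, ← Finset.add_sum_erase _ _ (Finset.mem_univ a₀),
      ← Finset.add_sum_erase _ _ (Finset.mem_univ a₀),
      Finset.sum_congr rfl (fun a ha => by rw [Function.update_of_ne (Finset.ne_of_mem_erase ha)]),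
      Function.update_self]
    cases z a₀ <;> simp <;> omega
  have e : {z : ι → Bool // (Finset.univ.filter fun a => z a = true).card % 2 = β.toNat} ≃
      {z : ι → Bool // ¬ (Finset.univ.filter fun a => z a = true).card % 2 = β.toNat} :=
    Equiv.subtypeEquiv (Function.Involutive.toPerm (fun z => Function.update z a₀ (!z a₀))
      (fun z => by simp)) (fun z => by
        simp only [Function.Involutive.coe_toPerm, flip]
        cases β <;> simp <;> omega)
  have h1 := Fintype.card_congr e
  rw [Fintype.card_subtype_compl, Fintype.card_fun, Fintype.card_bool] at h1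
  have h2 := Fintype.card_subtype_le
    (fun z : ι → Bool => (Finset.univ.filter fun a => z a = true).card % 2 = β.toNat)
  rw [Fintype.card_fun, Fintype.card_bool] at h2
  have h3 : Fintype.card ι = Fintype.card ι - 1 + 1 := by
    have := Fintype.card_pos_iff.2 ⟨a₀⟩
    omega
  rw [h3, pow_succ] at h1 h2
  omega

theorem nbr_nonempty (ht : 2 ≤ t) (a : TV t) : Nonempty (Nbr a) := by
  rcases a with i | h
  · have : Nontrivial (Fin t) := Fin.nontrivial_iff_two_le.2 ht
    obtain ⟨j, hj⟩ := exists_ne i
    exact ⟨⟨Sum.inl j, by simpa [tAdj] using hj.symm⟩⟩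
  · exact ⟨⟨Sum.inl h.1.1, by simp [tAdj]⟩⟩

/-- `LiftV C b ≃ Σ u, {z // parity}`; every template vertex has a neighbour when `2 ≤ t`. -/
theorem card_liftV (ht : 2 ≤ t) (C : ChoiceSystem t) (b : TV t → Bool) :
    Fintype.card (LiftV C b) = ∑ u : BV C, 2 ^ (Fintype.card (Nbr (typeOf C u)) - 1) := by
  have e : LiftV C b ≃ Σ u : BV C, {z : Nbr (typeOf C u) → Bool //
      (Finset.univ.filter fun a => z a = true).card % 2 = (b (typeOf C u)).toNat} :=
    { toFun := fun x => ⟨x.1.1, x.1.2, x.2⟩
      invFun := fun x => ⟨⟨x.1, x.2.1⟩, x.2.2⟩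
      left_inv := fun _ => rfl
      right_inv := fun _ => rfl }
  rw [Fintype.card_congr e, Fintype.card_sigma]
  refine Finset.sum_congr rfl fun u _ => ?_
  have := nbr_nonempty ht (typeOf C u)
  convert card_parity (ι := Nbr (typeOf C u)) (b (typeOf C u))

theorem card_lift_eq (ht : 2 ≤ t) (C : ChoiceSystem t) (b b' : TV t → Bool) :
    Fintype.card (LiftV C b) = Fintype.card (LiftV C b') := by
  rw [card_liftV ht, card_liftV ht]

theorem card_third_le (i : Fin t) :
    (Finset.univ.filter fun h : Helper t => h.1.2.2 = i).card ≤ (t - 1).choose 2 := by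
  have hc : (Finset.powersetCard 2 (Finset.univ.erase i)).card = (t - 1).choose 2 := by
    simp [Finset.card_powersetCard]
  rw [← hc]
  refine Finset.card_le_card_of_injOn (fun h => {h.1.1, h.1.2.1}) ?_ ?_
  · rintro ⟨⟨a, b, c⟩, h1, h2, h3⟩ hh
    simp only [Finset.coe_filter, Finset.mem_univ, true_and, Set.mem_ofPred_eq] at hh h1 h2 h3
    subst hh
    rw [Finset.mem_coe, Finset.mem_powersetCard]
    refine ⟨?_, Finset.card_pair h1.ne⟩
    intro x hx
    simp only [Finset.mem_insert, Finset.mem_singleton] at hx
    rcases hx with rfl | rfl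
    · simpa using h2.symm
    · simpa using h3.symm
  · rintro ⟨⟨a, b, c⟩, h1, h2, h3⟩ hh ⟨⟨a', b', c'⟩, h1', h2', h3'⟩ hh' he
    simp only [Finset.coe_filter, Finset.mem_univ, true_and, Set.mem_ofPred_eq] at hh hh' h1 h1' he
    have m1 : a ∈ ({a', b'} : Finset (Fin t)) := he ▸ by simp
    have m2 : b ∈ ({a', b'} : Finset (Fin t)) := he ▸ by simp
    have m3 : a' ∈ ({a, b} : Finset (Fin t)) := he.symm ▸ by simp
    simp only [Finset.mem_insert, Finset.mem_singleton] at m1 m2 m3
    apply Subtype.ext
    simp only [Prod.mk.injEq]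
    refine ⟨?_, ?_, hh.trans hh'.symm⟩ <;> omega

theorem two_mul_choose_two' (n : ℕ) : 2 * n.choose 2 = n * n - n := by
  have := Nat.choose_succ_right_eq n 1
  simp only [Nat.choose_one_right] at this
  rw [mul_comm, this, Nat.mul_sub_one]

theorem card_pair_le (i : Fin t) :
    (Finset.univ.filter fun h : Helper t => h.1.1 = i ∨ h.1.2.1 = i).card ≤ 2 * (t - 1).choose 2 := by
  have hc : (Finset.offDiag (Finset.univ.erase i)).card = 2 * (t - 1).choose 2 := by
    simp [Finset.offDiag_card, two_mul_choose_two']
  rw [← hc]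
  refine Finset.card_le_card_of_injOn
    (fun h => (if h.1.1 = i then h.1.2.1 else h.1.1, h.1.2.2)) ?_ ?_
  · rintro ⟨⟨a, b, c⟩, h1, h2, h3⟩ hh
    simp only [Finset.coe_filter, Finset.mem_univ, true_and, Set.mem_ofPred_eq] at hh h1 h2 h3
    simp only [Finset.mem_coe, Finset.mem_offDiag, Finset.mem_erase, Finset.mem_univ, and_true]
    split_ifs <;> omega
  · rintro ⟨⟨a, b, c⟩, h1, h2, h3⟩ hh ⟨⟨a', b', c'⟩, h1', h2', h3'⟩ hh' he
    simp only [Finset.coe_filter, Finset.mem_univ, true_and, Set.mem_ofPred_eq,
      Prod.mk.injEq] at hh hh' h1 h1' he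
    apply Subtype.ext
    simp only [Prod.mk.injEq]
    obtain ⟨he1, he2⟩ := he
    split_ifs at he1 <;> omega

theorem card_helper_le (t : ℕ) : Fintype.card (Helper t) ≤ 3 * t.choose 3 := by
  rw [← Finset.card_univ, Finset.card_eq_sum_card_fiberwise (f := fun h : Helper t => h.1.2.2)
    (t := Finset.univ) (fun _ _ => Finset.mem_univ _)]
  calc _ ≤ ∑ _i : Fin t, (t - 1).choose 2 := Finset.sum_le_sum fun i _ => card_third_le i
    _ = _ := by
      rcases t with _ | n
      · simp
      · have := Nat.add_one_mul_choose_eq n 2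
        simp only [Finset.sum_const, Finset.card_univ, Fintype.card_fin, smul_eq_mul,
          Nat.add_sub_cancel]
        rw [this, mul_comm]

theorem card_nbr_main (i : Fin t) :
    Fintype.card (Nbr (Sum.inl i : TV t)) ≤ t - 1 + 3 * (t - 1).choose 2 := by
  rw [Fintype.card_subtype, Finset.card_filter, Fintype.sum_sum_type, ← Finset.card_filter,
    ← Finset.card_filter]
  refine add_le_add ?_ ?_
  · refine le_of_eq ?_
    rw [show (Finset.univ.filter fun j : Fin t => tAdj (Sum.inl i : TV t) (Sum.inl j) = true) =
      Finset.univ.erase i by ext j; simp [tAdj, @eq_comm _ i j]]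
    simp
  · have h1 := card_third_le i
    have h2 := card_pair_le i
    have h3 := Finset.card_union_le (Finset.univ.filter fun h : Helper t => h.1.2.2 = i)
      (Finset.univ.filter fun h : Helper t => h.1.1 = i ∨ h.1.2.1 = i)
    have h4 : (Finset.univ.filter fun h : Helper t => tAdj (Sum.inl i : TV t) (Sum.inr h) = true) =
        (Finset.univ.filter fun h : Helper t => h.1.2.2 = i) ∪
          (Finset.univ.filter fun h : Helper t => h.1.1 = i ∨ h.1.2.1 = i) := by
      ext h
      simp only [tAdj, decide_eq_true_eq, Finset.mem_filter, Finset.mem_univ, true_and,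
        Finset.mem_union, eq_comm (a := i)]
      tauto
    rw [h4]
    omega

theorem card_nbr_helper (h : Helper t) : Fintype.card (Nbr (Sum.inr h : TV t)) ≤ 3 := by
  rw [Fintype.card_subtype]
  refine le_trans (Finset.card_le_card
    (t := {Sum.inl h.1.1, Sum.inl h.1.2.1, Sum.inl h.1.2.2}) ?_) Finset.card_le_three
  rintro (j | j) hj
  · simpa [tAdj] using hj
  · simp [tAdj] at hj

/-- A main has at most `t - 1 + 3 * C(t-1, 2)` template neighbours (helpers with it as third vertex:
`C(t-1,2)`; as a pair member: `(t-1)(t-2) = 2 C(t-1,2)`), a helper has exactly three, and there are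
at most `C(t,2) (t-2) = 3 C(t,3)` helpers. -/
theorem card_lift_le (ht : 4 ≤ t) (C : ChoiceSystem t) (b : TV t → Bool) (A : ℕ) (hA : C.SizeAtMost A) :
    Fintype.card (LiftV C b) ≤ A * orderFactor t := by
  rw [card_liftV (by omega), Fintype.sum_sum_type, Fintype.sum_sigma, Fintype.sum_sigma,
    orderFactor, mul_add]
  refine add_le_add ?_ ?_
  · calc _ ≤ ∑ _i : Fin t, A * 2 ^ (t - 2 + 3 * (t - 1).choose 2) := by
          refine Finset.sum_le_sum fun i _ => ?_
          refine (Finset.sum_le_card_nsmul _ _ (2 ^ (t - 2 + 3 * (t - 1).choose 2))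
            fun x _ => Nat.pow_le_pow_right (by norm_num) ?_).trans ?_
          · have := card_nbr_main i
            change Fintype.card (Nbr (Sum.inl i : TV t)) - 1 ≤ _
            omega
          · rw [Finset.card_univ, Fintype.card_fin, smul_eq_mul]
            exact Nat.mul_le_mul_right _ (hA.1 i)
      _ = _ := by simp; ring
  · calc _ ≤ ∑ _h : Helper t, A * 4 := by
          refine Finset.sum_le_sum fun h _ => ?_
          refine (Finset.sum_le_card_nsmul _ _ (2 ^ 2)
            fun x _ => Nat.pow_le_pow_right (by norm_num) ?_).trans ?_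
          · have := card_nbr_helper h
            change Fintype.card (Nbr (Sum.inr h : TV t)) - 1 ≤ _
            omega
          · rw [Finset.card_univ, Fintype.card_fin, smul_eq_mul]
            exact Nat.mul_le_mul_right _ (hA.2 _ _ h.2.1)
      _ ≤ _ := by
          have := card_helper_le t
          simp only [Finset.sum_const, Finset.card_univ, smul_eq_mul]
          nlinarith [Nat.zero_le A]

end Crest.Agent.R290
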