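/-
R290/LiftDup: Duplicator wins on the two parity lifts when there is no successful choice.
Skeleton by helper86; keep the statements of the theorems unchanged (add any helper lemmas you like).
-/
import Crest.Agent.R290.LiftBasic

set_option autoImplicit false

namespace Crest.Agent.R290

open Crest.WLRefine Crest.WLRefine.ParityLift

namespace LD

variable {t : ℕ} {C : ChoiceSystem t}

/-- The label of a main base vertex towards another main type. -/
def lb (C : ChoiceSystem t) (p : Σ i : Fin t, Fin (C.dom i)) (c : Fin t) : ℕ :=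
  if p.1 < c then (C.lamL p.1 c p.2).val else (C.lamR c p.1 p.2).val

theorem bAdj_main {p q : Σ i : Fin t, Fin (C.dom i)} (h : bAdj C (Sum.inl p) (Sum.inl q) = true) :
    p.1 ≠ q.1 ∧ lb C p q.1 = lb C q p.1 := by
  simp only [bAdj, mainAgree, Bool.or_eq_true, decide_eq_true_eq] at h
  rcases h with ⟨h1, h2⟩ | ⟨h1, h2⟩
  · refine ⟨ne_of_lt h1, ?_⟩
    simp only [lb, if_pos h1, if_neg (not_lt.mpr h1.le), h2]
  · refine ⟨(ne_of_lt h1).symm, ?_⟩
    simp only [lb, if_pos h1, if_neg (not_lt.mpr h1.le), h2]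

theorem helperAgree_iff {p : Σ i : Fin t, Fin (C.dom i)}
    {hq : Σ h : Helper t, Fin (C.lab h.1.1 h.1.2.1)} (h : helperAgree C p hq = true) :
    (p.1 = hq.1.1.1 ∧ lb C p hq.1.1.2.1 = hq.2.val) ∨ (p.1 = hq.1.1.2.1 ∧ lb C p hq.1.1.1 = hq.2.val) ∨
      p.1 = hq.1.1.2.2 := by
  obtain ⟨c, e⟩ := p
  obtain ⟨⟨⟨i, j, a⟩, hij, h1, h2⟩, q⟩ := hq
  simp only [helperAgree, decide_eq_true_eq] at h
  simp only at hij h1 h2 h ⊢
  rcases h with ⟨rfl, h⟩ | ⟨rfl, h⟩ | h
  · left
    refine ⟨rfl, ?_⟩
    simp only [lb, if_pos hij, h]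
    rfl
  · right; left
    refine ⟨rfl, ?_⟩
    simp only [lb, if_neg (not_lt.mpr hij.le), h]
    rfl
  · right; right; exact h

theorem tAdj_of_bAdj {u v : BV C} (h : bAdj C u v = true) : tAdj (typeOf C u) (typeOf C v) = true := by
  rcases u with p | p <;> rcases v with q | q
  · simpa [typeOf, tAdj] using (bAdj_main h).1
  · have := helperAgree_iff (show helperAgree C p q = true from h)
    simp only [typeOf, tAdj, decide_eq_true_eq]
    tauto
  · have := helperAgree_iff (show helperAgree C q p = true from h)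
    simp only [typeOf, tAdj, decide_eq_true_eq]
    tauto
  · simp [bAdj] at h

theorem tAdj_of_bAdj' {u v : BV C} (h : bAdj C u v = true) :
    tAdj (typeOf C v) (typeOf C u) = true := by
  rcases u with p | p <;> rcases v with q | q
  · simpa [typeOf, tAdj] using (bAdj_main h).1.symm
  · have := helperAgree_iff (show helperAgree C p q = true from h)
    simp only [typeOf, tAdj, decide_eq_true_eq]
    tauto
  · have := helperAgree_iff (show helperAgree C q p = true from h)
    simp only [typeOf, tAdj, decide_eq_true_eq]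
    tauto
  · simp [bAdj] at h

/-- Indicator in `ZMod 2`. -/
def ind (P : Prop) [Decidable P] : ZMod 2 := if P then 1 else 0

theorem ind_add_not (P : Prop) [Decidable P] : ind P + ind (¬ P) = 1 := by
  unfold ind; by_cases h : P <;> simp [h]

theorem z2_add_self (x : ZMod 2) : x + x = 0 := by
  revert x; decide

/-- The tag of a lift vertex as a total function. -/
def tag {b : TV t → Bool} (x : LiftV C b) (a : TV t) : ZMod 2 :=
  if h : tAdj (typeOf C x.1.1) a = true then ind (x.1.2 ⟨a, h⟩ = true) else 0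

theorem ind_bool_inj {β γ : Bool} (h : ind (β = true) = ind (γ = true)) : β = γ := by
  revert h; unfold ind; cases β <;> cases γ <;> simp

theorem liftV_ext {b : TV t → Bool} {x y : LiftV C b} (h1 : x.1.1 = y.1.1)
    (h2 : ∀ a, tAdj (typeOf C x.1.1) a = true → tag x a = tag y a) : x = y := by
  obtain ⟨⟨u, z⟩, hx⟩ := x
  obtain ⟨⟨v, w⟩, hy⟩ := y
  simp only at h1
  subst h1
  apply Subtype.ext
  simp only [Sigma.mk.injEq, heq_eq_eq, true_and]
  funext a
  have := h2 a.1 a.2
  simp only [tag, dif_pos a.2] at this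
  exact ind_bool_inj this

theorem liftAdj_iff {b : TV t → Bool} (x y : LiftV C b) :
    liftAdj C b x y = true ↔
      bAdj C x.1.1 y.1.1 = true ∧ tag x (typeOf C y.1.1) = tag y (typeOf C x.1.1) := by
  simp only [liftAdj, decide_eq_true_eq]
  constructor
  · rintro ⟨h, h', h1, h2⟩
    refine ⟨h1, ?_⟩
    simp only [tag, dif_pos h, dif_pos h', h2]
  · rintro ⟨h1, h2⟩
    refine ⟨tAdj_of_bAdj h1, tAdj_of_bAdj' h1, h1, ?_⟩
    simp only [tag, dif_pos (tAdj_of_bAdj h1), dif_pos (tAdj_of_bAdj' h1)] at h2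
    exact ind_bool_inj h2

theorem parity_iff {ι : Type} [Fintype ι] (z : ι → Bool) (β : Bool) :
    (Finset.univ.filter fun a => z a = true).card % 2 = β.toNat ↔
      ∑ a, ind (z a = true) = ind (β = true) := by
  have h : ∑ a, ind (z a = true) = (((Finset.univ.filter fun a => z a = true).card : ℕ) : ZMod 2) := by
    simp [ind]
  rw [h]
  generalize (Finset.univ.filter fun a => z a = true).card = n
  rw [← ZMod.natCast_mod n 2]
  have : n % 2 = 0 ∨ n % 2 = 1 := by omega
  rcases this with h | h <;> rw [h] <;> cases β <;> simp [ind]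

/-- Twists. -/
abbrev Tw (C : ChoiceSystem t) : Type := BV C → TV t → ZMod 2

/-- Parity of a twist at a base vertex. -/
def par (τ : Tw C) (u : BV C) : ZMod 2 := ∑ a : Nbr (typeOf C u), τ u a.1

theorem par_add (τ φ : Tw C) (u : BV C) : par (τ + φ) u = par τ u + par φ u := by
  simp [par, Finset.sum_add_distrib]

theorem par_eq (τ : Tw C) (u : BV C) :
    par τ u = ∑ a : TV t, if tAdj (typeOf C u) a = true then τ u a else 0 := by
  rw [par, ← Finset.sum_filter]
  exact (Finset.sum_subtype _ (by simp) (fun a => τ u a)).symm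

/-- Edge consistency. -/
def Cons (τ : Tw C) : Prop := ∀ u v, bAdj C u v = true → τ u (typeOf C v) = τ v (typeOf C u)

theorem Cons.add {τ φ : Tw C} (h : Cons τ) (h' : Cons φ) : Cons (τ + φ) := by
  intro u v huv
  simp only [Pi.add_apply, h u v huv, h' u v huv]

/-- `y` is the shift of `x` by the twist. -/
def Match {b b' : TV t → Bool} (τ : Tw C) (x : LiftV C b) (y : LiftV C b') : Prop :=
  x.1.1 = y.1.1 ∧ ∀ a, tAdj (typeOf C x.1.1) a = true → tag y a = tag x a + τ x.1.1 a

theorem ind_xor (β : Bool) (s : ZMod 2) :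
    ind (xor β (decide (s = 1)) = true) = ind (β = true) + s := by
  revert s; cases β <;> decide

/-- The shift. -/
def shift {b b' : TV t → Bool} (σ : Tw C)
    (hσ : ∀ u, par σ u = ind (b (typeOf C u) = true) + ind (b' (typeOf C u) = true))
    (x : LiftV C b) : LiftV C b' :=
  ⟨⟨x.1.1, fun a => xor (x.1.2 a) (decide (σ x.1.1 a.1 = 1))⟩, by
    have hx := (parity_iff _ _).1 x.2
    rw [parity_iff]
    simp only [ind_xor, Finset.sum_add_distrib]
    rw [hx]
    have := hσ x.1.1
    rw [par] at this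
    rw [this, ← add_assoc, z2_add_self, zero_add]⟩

theorem match_shift {b b' : TV t → Bool} (σ : Tw C)
    (hσ : ∀ u, par σ u = ind (b (typeOf C u) = true) + ind (b' (typeOf C u) = true))
    (x : LiftV C b) : Match σ x (shift σ hσ x) := by
  refine ⟨rfl, fun a ha => ?_⟩
  have ha' : tAdj (typeOf C (shift σ hσ x).1.1) a = true := ha
  simp only [tag, dif_pos ha, dif_pos ha']
  exact ind_xor _ _

theorem match_match {b b' : TV t → Bool} {σ : Tw C} {x x' : LiftV C b} {y : LiftV C b'}
    (h : Match σ x y) (h' : Match σ y x') : x' = x := by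
  symm
  refine liftV_ext (h.1.trans h'.1) fun a ha => ?_
  rw [h'.2 a (h.1 ▸ ha), h.2 a ha, ← h.1, add_assoc, z2_add_self, add_zero]

theorem exists_equiv {b b' : TV t → Bool} (σ : Tw C)
    (hσ : ∀ u, par σ u = ind (b (typeOf C u) = true) + ind (b' (typeOf C u) = true)) :
    ∃ π : LiftV C b ≃ LiftV C b', ∀ x, Match σ x (π x) := by
  have hσ' : ∀ u, par σ u = ind (b' (typeOf C u) = true) + ind (b (typeOf C u) = true) :=
    fun u => by rw [hσ u, add_comm]
  exact ⟨⟨shift σ hσ, shift σ hσ',
    fun x => match_match (match_shift σ hσ x) (match_shift σ hσ' _),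
    fun x => match_match (match_shift σ hσ' x) (match_shift σ hσ _)⟩, match_shift σ hσ⟩

/-! ### Flips -/

/-- Flip along the main edges between types `a`, `a'` whose label satisfies `S`. -/
def flipY (C : ChoiceSystem t) (a a' : Fin t) (S : ℕ → Prop) [DecidablePred S] : Tw C
  | Sum.inl p, Sum.inl c => if (p.1 = a ∧ c = a') ∨ (p.1 = a' ∧ c = a) then ind (S (lb C p c)) else 0
  | _, _ => 0

theorem cons_flipY (a a' : Fin t) (S : ℕ → Prop) [DecidablePred S] : Cons (flipY C a a' S) := by
  intro u v h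
  rcases u with p | p <;> rcases v with q | q
  · obtain ⟨_, h2⟩ := bAdj_main h
    simp only [typeOf, flipY, h2]
    congr 1
    apply propext; tauto
  · simp [typeOf, flipY]
  · simp [typeOf, flipY]
  · simp [typeOf, flipY]

theorem par_flipY_inl {a a' : Fin t} (haa : a ≠ a') (S : ℕ → Prop) [DecidablePred S]
    (p : Σ i : Fin t, Fin (C.dom i)) :
    par (flipY C a a' S) (Sum.inl p) =
      if p.1 = a then ind (S (lb C p a')) else if p.1 = a' then ind (S (lb C p a)) else 0 := by
  rw [par_eq, Fintype.sum_sum_type]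
  simp only [typeOf, flipY, tAdj, ite_self, Finset.sum_const_zero, add_zero, decide_eq_true_eq]
  by_cases h1 : p.1 = a
  · rw [if_pos h1, Finset.sum_eq_single a']
    · simp [h1, haa]
    · intro c _ hc
      have : ¬ ((p.1 = a ∧ c = a') ∨ (p.1 = a' ∧ c = a)) := by
        rintro (⟨_, h⟩ | ⟨h, _⟩)
        · exact hc h
        · exact haa (h1.symm.trans h)
      simp only [if_neg this, ite_self]
    · simp
  · rw [if_neg h1]
    by_cases h2 : p.1 = a'
    · rw [if_pos h2, Finset.sum_eq_single a]
      · simp [h2, haa.symm]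
      · intro c _ hc
        have : ¬ ((p.1 = a ∧ c = a') ∨ (p.1 = a' ∧ c = a)) := by
          rintro (⟨h, _⟩ | ⟨_, h⟩)
          · exact h1 h
          · exact hc h
        simp only [if_neg this, ite_self]
      · simp
    · rw [if_neg h2]
      simp [h1, h2]

theorem par_flipY_inr (a a' : Fin t) (S : ℕ → Prop) [DecidablePred S]
    (p : Σ h : Helper t, Fin (C.lab h.1.1 h.1.2.1)) : par (flipY C a a' S) (Sum.inr p) = 0 := by
  simp [par, flipY]

/-- Flip around the helper type `h` at label `q`. -/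
def flipH (C : ChoiceSystem t) (h : Helper t) (q : ℕ) : Tw C
  | Sum.inl p, Sum.inr h' =>
      if h' = h then
        (if p.1 = h.1.1 then ind (lb C p h.1.2.1 = q) else if p.1 = h.1.2.1 then ind (lb C p h.1.1 ≠ q)
          else if p.1 = h.1.2.2 then 1 else 0)
      else 0
  | Sum.inr r, Sum.inl c =>
      if r.1 = h then
        (if c = h.1.1 then ind (r.2.val = q) else if c = h.1.2.1 then ind (r.2.val ≠ q)
          else if c = h.1.2.2 then 1 else 0)
      else 0
  | _, _ => 0

theorem flipH_aux (h : Helper t) (q : ℕ) (p : Σ i : Fin t, Fin (C.dom i))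
    (r : Σ h : Helper t, Fin (C.lab h.1.1 h.1.2.1)) (hpr : helperAgree C p r = true) :
    flipH C h q (Sum.inl p) (Sum.inr r.1) = flipH C h q (Sum.inr r) (Sum.inl p.1) := by
  have := helperAgree_iff hpr
  simp only [flipH]
  by_cases hr : r.1 = h
  · subst hr
    obtain ⟨hij, h1, h2⟩ := r.1.2
    simp only [if_true]
    rcases this with ⟨e1, e2⟩ | ⟨e1, e2⟩ | e1
    · rw [if_pos e1, if_pos e1, e2]
    · have : p.1 ≠ r.1.1.1 := by rw [e1]; exact (ne_of_lt hij).symm
      rw [if_neg this, if_neg this, if_pos e1, if_pos e1, e2]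
    · have n1 : p.1 ≠ r.1.1.1 := by rw [e1]; exact h1
      have n2 : p.1 ≠ r.1.1.2.1 := by rw [e1]; exact h2
      rw [if_neg n1, if_neg n1, if_neg n2, if_neg n2]
  · rw [if_neg hr, if_neg hr]

theorem cons_flipH (h : Helper t) (q : ℕ) : Cons (flipH C h q) := by
  intro u v huv
  rcases u with p | p <;> rcases v with r | r
  · simp [typeOf, flipH]
  · exact flipH_aux h q p r huv
  · exact (flipH_aux h q r p huv).symm
  · simp [typeOf, flipH]

theorem par_flipH_inl (h : Helper t) (q : ℕ) (p : Σ i : Fin t, Fin (C.dom i)) :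
    par (flipH C h q) (Sum.inl p) =
      if p.1 = h.1.1 then ind (lb C p h.1.2.1 = q) else if p.1 = h.1.2.1 then ind (lb C p h.1.1 ≠ q)
          else if p.1 = h.1.2.2 then 1 else 0 := by
  rw [par_eq, Fintype.sum_sum_type]
  simp only [typeOf, flipH, tAdj, ite_self, Finset.sum_const_zero, zero_add, decide_eq_true_eq]
  rw [Finset.sum_eq_single h]
  · simp only [if_true]
    by_cases h1 : p.1 = h.1.1
    · simp [h1]
    · by_cases h2 : p.1 = h.1.2.1
      · simp [h2]
      · by_cases h3 : p.1 = h.1.2.2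
        · simp [h3]
        · simp [h1, h2, h3]
  · intro c _ hc
    simp [hc]
  · simp

theorem par_flipH_inr (h : Helper t) (q : ℕ) (r : Σ h : Helper t, Fin (C.lab h.1.1 h.1.2.1)) :
    par (flipH C h q) (Sum.inr r) = 0 := by
  rw [par_eq, Fintype.sum_sum_type]
  simp only [typeOf, flipH, tAdj, ite_self, Finset.sum_const_zero, add_zero, decide_eq_true_eq]
  by_cases hr : r.1 = h
  · subst hr
    obtain ⟨hij, h1, h2⟩ := r.1.2
    simp only [if_true]
    have hij' : r.1.1.2.1 ≠ r.1.1.1 := (ne_of_lt hij).symm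
    have e : ∀ c : Fin t, (if c = r.1.1.1 ∨ c = r.1.1.2.1 ∨ c = r.1.1.2.2 then
        (if c = r.1.1.1 then ind (r.2.val = q) else if c = r.1.1.2.1 then ind (r.2.val ≠ q)
          else if c = r.1.1.2.2 then 1 else 0) else 0) =
        (if c = r.1.1.1 then ind (r.2.val = q) else 0) + (if c = r.1.1.2.1 then ind (r.2.val ≠ q) else 0) +
          (if c = r.1.1.2.2 then (1 : ZMod 2) else 0) := by
      intro c
      by_cases c1 : c = r.1.1.1
      · subst c1; simp [hij'.symm, h1.symm]
      · by_cases c2 : c = r.1.1.2.1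
        · subst c2; simp [hij', h2.symm]
        · by_cases c3 : c = r.1.1.2.2
          · subst c3; simp [h1, h2]
          · simp [c1, c2, c3]
    simp only [e, Finset.sum_add_distrib, Finset.sum_ite_eq', Finset.mem_univ, if_true]
    rw [ind_add_not, z2_add_self]
    try simp
  · simp [hr]

/-- Indicator of the main type `a`. -/
def typ (C : ChoiceSystem t) (a : Fin t) (u : BV C) : ZMod 2 := ind (typeOf C u = Sum.inl a)

/-- Indicator of the split set of `(i, j, q)`. -/
def split (C : ChoiceSystem t) (i j : Fin t) (q : ℕ) : BV C → ZMod 2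
  | Sum.inl p => if p.1 = i then ind (lb C p j = q) else if p.1 = j then ind (lb C p i ≠ q) else 0
  | Sum.inr _ => 0

theorem exists_move {a a' : Fin t} (haa : a ≠ a') :
    ∃ φ : Tw C, Cons φ ∧ (∀ u, par φ u = typ C a u + typ C a' u) ∧
      ∀ u, typeOf C u ≠ Sum.inl a → typeOf C u ≠ Sum.inl a' → φ u = 0 := by
  refine ⟨flipY C a a' fun _ => True, cons_flipY _ _ _, fun u => ?_, fun u h1 h2 => ?_⟩
  · rcases u with p | p
    · rw [par_flipY_inl haa]
      by_cases h1 : p.1 = a
      · simp [typ, ind, typeOf, h1, haa]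
      · by_cases h2 : p.1 = a'
        · simp [typ, ind, typeOf, h2, haa.symm]
        · simp [typ, ind, typeOf, h1, h2]
    · rw [par_flipY_inr]; simp [typ, ind, typeOf]
  · funext c
    rcases u with p | p <;> rcases c with c | c
    · simp only [typeOf, ne_eq, Sum.inl.injEq] at h1 h2
      simp [flipY, h1, h2]
    · simp [flipY]
    · simp [flipY]
    · simp [flipY]

theorem exists_flip {i j : Fin t} (hij : i < j) (q : ℕ) (a : Fin t) :
    ∃ φ : Tw C, Cons φ ∧ (∀ u, par φ u = typ C a u + split C i j q u) ∧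
      ∀ p : Σ i : Fin t, Fin (C.dom i), p.1 ≠ a → (p.1 = i → lb C p j ≠ q) → (p.1 = j → lb C p i = q) →
        φ (Sum.inl p) = 0 := by
  have hne : i ≠ j := ne_of_lt hij
  by_cases hai : a = i
  · subst hai
    refine ⟨flipY C a j fun r => r ≠ q, cons_flipY _ _ _, fun u => ?_, fun p h1 _ h3 => ?_⟩
    · rcases u with p | p
      · rw [par_flipY_inl hne]
        by_cases h1 : p.1 = a
        · by_cases hq : lb C p j = q <;> simp [typ, ind, typeOf, split, h1, hq]
          rfl
        · simp [typ, ind, typeOf, split, h1]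
      · rw [par_flipY_inr]; simp [typ, ind, typeOf, split]
    · funext c
      rcases c with c | c
      · simp only [flipY, h1, false_and, false_or, Pi.zero_apply]
        split_ifs with h
        · obtain ⟨e1, rfl⟩ := h
          simp [ind, h3 e1]
        · rfl
      · simp [flipY]
  · by_cases haj : a = j
    · subst haj
      refine ⟨flipY C i a fun r => r = q, cons_flipY _ _ _, fun u => ?_, fun p h1 h2 _ => ?_⟩
      · rcases u with p | p
        · rw [par_flipY_inl hne]
          by_cases h1 : p.1 = i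
          · simp [typ, ind, typeOf, split, h1, hne]
          · by_cases h2 : p.1 = a
            · by_cases hq : lb C p i = q <;> simp [typ, ind, typeOf, split, h2, hq, hai]
              rfl
            · simp [typ, ind, typeOf, split, h1, h2]
        · rw [par_flipY_inr]; simp [typ, ind, typeOf, split]
      · funext c
        rcases c with c | c
        · simp only [flipY, h1, false_and, or_false, Pi.zero_apply]
          split_ifs with h
          · obtain ⟨e1, rfl⟩ := h
            simp [ind, h2 e1]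
          · rfl
        · simp [flipY]
    · let h : Helper t := ⟨(i, j, a), hij, hai, haj⟩
      refine ⟨flipH C h q, cons_flipH _ _, fun u => ?_, fun p h1 h2 h3 => ?_⟩
      · rcases u with p | p
        · rw [par_flipH_inl]
          show (if p.1 = i then ind (lb C p j = q) else if p.1 = j then ind (lb C p i ≠ q)
            else if p.1 = a then 1 else 0) = _
          by_cases h1 : p.1 = i
          · simp [typ, ind, typeOf, split, h1, Ne.symm hai]
          · by_cases h2 : p.1 = j
            · simp [typ, ind, typeOf, split, h2, Ne.symm haj, hne.symm]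
            · simp [typ, ind, typeOf, split, h1, h2]
        · rw [par_flipH_inr]; simp [typ, ind, typeOf, split]
      · funext c
        rcases c with c | c
        · simp [flipH]
        · show (if c = h then (if p.1 = i then ind (lb C p j = q) else if p.1 = j then ind (lb C p i ≠ q)
            else if p.1 = a then 1 else 0) else 0) = 0
          by_cases hc : c = h
          · rw [if_pos hc]
            by_cases e1 : p.1 = i
            · simp [e1, ind, h2 e1]
            · by_cases e2 : p.1 = j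
              · rw [if_neg e1, if_pos e2]; simp [ind, h3 e2]
              · rw [if_neg e1, if_neg e2, if_neg h1]
          · rw [if_neg hc]

/-! ### Good positions -/

/-- State (A). -/
def StA (o : Fin t) (P : List (BV C)) (τ : Tw C) (a : Fin t) : Prop :=
  (∀ u, par τ u = typ C o u + typ C a u) ∧ ∀ u ∈ P, typeOf C u ≠ Sum.inl a

/-- State (B). -/
def StB (o : Fin t) (P : List (BV C)) (τ : Tw C) : Prop :=
  ∃ (d : ∀ i, Fin (C.dom i)) (i j : Fin t) (q : ℕ), i < j ∧ lb C ⟨i, d i⟩ j ≠ q ∧ lb C ⟨j, d j⟩ i = q ∧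
    (∀ u, par τ u = typ C o u + split C i j q u) ∧ ∀ u ∈ P, ∃ c, u = Sum.inl ⟨c, d c⟩

/-- Good twists for a list of pebbled base vertices. -/
def Good (o : Fin t) (P : List (BV C)) (τ : Tw C) : Prop :=
  Cons τ ∧ ((∃ a, StA o P τ a) ∨ StB o P τ)

theorem Good.sub {o : Fin t} {P P' : List (BV C)} {τ : Tw C} (h : Good o P τ) (hP : P' ⊆ P) :
    Good o P' τ := by
  refine ⟨h.1, ?_⟩
  rcases h.2 with ⟨a, h1, h2⟩ | ⟨d, i, j, q, h1, h2, h3, h4, h5⟩
  · exact Or.inl ⟨a, h1, fun u hu => h2 u (hP hu)⟩
  · exact Or.inr ⟨d, i, j, q, h1, h2, h3, h4, fun u hu => h5 u (hP hu)⟩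

theorem Good.par {o : Fin t} {P : List (BV C)} {τ : Tw C} (h : Good o P τ) {u : BV C} (hu : u ∈ P) :
    par τ u = typ C o u := by
  rcases h.2 with ⟨a, h1, h2⟩ | ⟨d, i, j, q, h1, h2, h3, h4, h5⟩
  · rw [h1 u]; simp [typ, ind, h2 u hu]
  · obtain ⟨c, rfl⟩ := h5 u hu
    rw [h4]
    simp only [split]
    by_cases e1 : c = i
    · subst e1; simp [ind, h2]
    · by_cases e2 : c = j
      · subst e2; simp [ind, h3, e1]
      · simp [e1, e2]

theorem exists_free (P : List (BV C)) (hP : P.length < t) :
    ∃ a : Fin t, ∀ u ∈ P, typeOf C u ≠ Sum.inl a := by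
  classical
  by_contra hcon
  push Not at hcon
  choose f hf1 hf2 using hcon
  have hinj : Function.Injective f := by
    intro a a' h
    have := hf2 a
    rw [h, hf2 a'] at this
    exact (Sum.inl_injective this).symm
  have h1 : (Finset.univ.image f).card = t := by
    rw [Finset.card_image_of_injective _ hinj]; simp
  have h2 : Finset.univ.image f ⊆ P.toFinset := by
    intro u hu
    obtain ⟨a, _, rfl⟩ := Finset.mem_image.1 hu
    exact List.mem_toFinset.2 (hf1 a)
  have h3 := Finset.card_le_card h2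
  have h4 := List.toFinset_card_le P
  omega

theorem exists_choice (P : List (BV C)) (hP : P.length ≤ t)
    (h : ∀ a : Fin t, ∃ u ∈ P, typeOf C u = Sum.inl a) :
    ∃ d : ∀ i, Fin (C.dom i), ∀ u ∈ P, ∃ c, u = Sum.inl ⟨c, d c⟩ := by
  classical
  have h' : ∀ a : Fin t, ∃ e : Fin (C.dom a), (Sum.inl ⟨a, e⟩ : BV C) ∈ P := by
    intro a
    obtain ⟨u, hu, hu'⟩ := h a
    rcases u with ⟨c, e⟩ | p
    · simp only [typeOf, Sum.inl.injEq] at hu'
      subst hu'
      exact ⟨e, hu⟩
    · simp [typeOf] at hu'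
  choose d hd using h'
  refine ⟨d, fun u hu => ?_⟩
  let f : Fin t → BV C := fun a => Sum.inl ⟨a, d a⟩
  have hinj : Function.Injective f := by
    intro a a' h
    have := congrArg (typeOf C) h
    simpa [f, typeOf] using this
  have h1 : (Finset.univ.image f).card = t := by
    rw [Finset.card_image_of_injective _ hinj]; simp
  have h2 : Finset.univ.image f ⊆ P.toFinset := by
    intro u hu
    obtain ⟨a, _, rfl⟩ := Finset.mem_image.1 hu
    exact List.mem_toFinset.2 (hd a)
  have h4 := List.toFinset_card_le P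
  have h5 : Finset.univ.image f = P.toFinset := Finset.eq_of_subset_of_card_le h2 (by omega)
  have : u ∈ Finset.univ.image f := by rw [h5]; exact List.mem_toFinset.2 hu
  obtain ⟨a, _, rfl⟩ := Finset.mem_image.1 this
  exact ⟨a, rfl⟩

theorem z2_cancel (x y z : ZMod 2) : x + y + (z + y) = x + z := by
  revert x y z; decide

theorem z2_cancel' (x y z : ZMod 2) : x + y + (y + z) = x + z := by
  revert x y z; decide

theorem to_stA {o : Fin t} {P : List (BV C)} {τ : Tw C} (h : Good o P τ) (hP : P.length < t) :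
    ∃ τ' a, (∀ v ∈ P, τ' v = τ v) ∧ Cons τ' ∧ StA o P τ' a := by
  rcases h.2 with ⟨a, ha⟩ | ⟨d, i, j, q, h1, h2, h3, h4, h5⟩
  · exact ⟨τ, a, fun _ _ => rfl, h.1, ha⟩
  · obtain ⟨a, ha⟩ := exists_free P hP
    obtain ⟨φ, c1, c2, c3⟩ := exists_flip (C := C) h1 q a
    refine ⟨τ + φ, a, fun v hv => ?_, h.1.add c1, fun u => ?_, ha⟩
    · obtain ⟨c, rfl⟩ := h5 v hv
      have hca : c ≠ a := by simpa [typeOf] using ha _ hv
      rw [Pi.add_apply, c3 ⟨c, d c⟩ hca, add_zero]
      · rintro rfl; exact h2
      · rintro rfl; exact h3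
    · rw [par_add, h4, c2, z2_cancel]

theorem from_stA (hC : ¬ C.Successful) {o : Fin t} {P : List (BV C)} {τ : Tw C} {a : Fin t}
    (hc : Cons τ) (h : StA o P τ a) (hP : P.length < t) (u : BV C) :
    ∃ τ', (∀ v ∈ P, τ' v = τ v) ∧ Good o (u :: P) τ' := by
  by_cases hu : typeOf C u = Sum.inl a
  swap
  · refine ⟨τ, fun _ _ => rfl, hc, Or.inl ⟨a, h.1, fun v hv => ?_⟩⟩
    rcases List.mem_cons.1 hv with rfl | hv
    · exact hu
    · exact h.2 v hv
  by_cases hfree : ∃ a', a ≠ a' ∧ ∀ v ∈ P, typeOf C v ≠ Sum.inl a'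
  · obtain ⟨a', haa, ha'⟩ := hfree
    obtain ⟨φ, c1, c2, c3⟩ := exists_move (C := C) haa
    refine ⟨τ + φ, fun v hv => ?_, hc.add c1, Or.inl ⟨a', fun v => ?_, fun v hv => ?_⟩⟩
    · rw [Pi.add_apply, c3 v (h.2 v hv) (ha' v hv), add_zero]
    · rw [par_add, h.1, c2, z2_cancel']
    · rcases List.mem_cons.1 hv with rfl | hv
      · rw [hu]; simpa using haa
      · exact ha' v hv
  · push Not at hfree
    obtain ⟨d, hd⟩ := exists_choice (u :: P) (by simp; omega) (fun c => by
      by_cases hca : a = c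
      · exact ⟨u, List.mem_cons_self, hca ▸ hu⟩
      · obtain ⟨v, hv, hv'⟩ := hfree c hca
        exact ⟨v, List.mem_cons_of_mem _ hv, hv'⟩)
    unfold ChoiceSystem.Successful at hC
    push Not at hC
    obtain ⟨i, j, hij, hne⟩ := hC d
    have h2 : lb C ⟨i, d i⟩ j ≠ lb C ⟨j, d j⟩ i := by
      simp only [lb, if_pos hij, if_neg (not_lt.mpr hij.le)]
      exact fun e => hne (Fin.ext e)
    obtain ⟨φ, c1, c2, c3⟩ := exists_flip (C := C) hij (lb C ⟨j, d j⟩ i) a
    refine ⟨τ + φ, fun v hv => ?_, hc.add c1, Or.inr ⟨d, i, j, _, hij, h2, rfl, fun v => ?_, hd⟩⟩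
    · obtain ⟨c, rfl⟩ := hd v (List.mem_cons_of_mem _ hv)
      have hca : c ≠ a := by simpa [typeOf] using h.2 _ hv
      rw [Pi.add_apply, c3 ⟨c, d c⟩ hca, add_zero]
      · rintro rfl; exact h2
      · rintro rfl; rfl
    · rw [par_add, h.1, c2, z2_cancel']

theorem Good.ext (hC : ¬ C.Successful) {o : Fin t} {P : List (BV C)} {τ : Tw C} (h : Good o P τ)
    (hP : P.length < t) (u : BV C) : ∃ τ', (∀ v ∈ P, τ' v = τ v) ∧ Good o (u :: P) τ' := by
  obtain ⟨τ₁, a, e1, c1, s1⟩ := to_stA h hP
  obtain ⟨τ₂, e2, g2⟩ := from_stA hC c1 s1 hP u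
  exact ⟨τ₂, fun v hv => (e2 v hv).trans (e1 v hv), g2⟩

end LD

open LD in
/-- Recipe.  A *twist* is `τ : (u : BV C) → Nbr (typeOf C u) → Bool` (or `ZMod 2`) which is
edge-consistent: `τ u (type v) = τ v (type u)` whenever `bAdj u v`, and has even parity at every helper
vertex.  It is convenient to generate twists from global data `y i j q`, `zL h q`, `zR h q`, `w h`
(`τ (i,d) (main j) = y` at the label of `d`, `τ (i,d) (helper h) = zL/zR` at the label of `d` or `w h` if
`i` is the third vertex, `τ (h,q) = zL h q, zR h q, w h`), or to work with consistent `τ` directly and add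
*flips*.  `Viol τ` = main base vertices whose parity differs from `liftStarParity`.  The shift
`(u, z) ↦ (u, z xor τ u)` maps the fibre of `lift0` over `u ∉ Viol τ` onto the fibre of `liftStar`.
Position `l` is good if all pairs are `(x, shift τ x)` for one twist `τ` with one of
(A) `Viol τ` = all mains of one type `a`, and no pebble has type `a`;
(B) there are `d : ∀ i, Fin (C.dom i)`, `i < j`, and a set `Q` of labels of `(i, j)` with all pebbles among
the `(c, d c)`, `lamL i j (d i) ∉ Q`, `lamR i j (d j) ∈ Q`, and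
`Viol τ = {(i, e) | lamL e ∈ Q} ∪ {(j, e) | lamR e ∉ Q}`.
Flips: for unpebbled main types `a ≠ a'` flip all `y a a' q` (moves (A) from `a` to `a'`).  For `i < j`, `Q`
and a type `a`, the flip `F(a; i, j, Q)` toggles `Viol` by (type `a`) + (split set of `i, j, Q`) and does
not change `τ (c, d c)` for `c ≠ a` when `lamL (d i) ∉ Q`, `lamR (d j) ∈ Q`: if `a = i` flip `y i j q` for
`q ∉ Q`; if `a = j` flip `y i j q` for `q ∈ Q`; otherwise with the helper `h = (i, j, a)` flip `w h`,
`zL h q` for `q ∈ Q` and `zR h q` for `q ∉ Q`.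
Extension (fewer than `t` pebbles, new base vertex `u`): from (B) some type `a` is unpebbled, flip to
(A) at `a`.  From (A) at `a`: if `u` is not of type `a` do nothing; if another main type is unpebbled move
there; otherwise the `< t` pebbles are mains, one of each type `≠ a`; with `u` they form a choice `d`,
which is not successful: take `i < j` with `lamL (d i) ≠ lamR (d j)`, `Q = {lamR (d j)}`, and flip to (B).
The bijection uses for each base vertex `u` its own twist `τ_u`.  Start: `τ = 0`, (A) at type `0`. -/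
theorem lift_game {t : ℕ} (ht : 3 ≤ t) (C : ChoiceSystem t) (hC : ¬ C.Successful) :
    Game t (mat (liftAdj C (lift0Parity t))) (mat (liftAdj C (liftStarParity t))) := by
  have h0 : 0 < t := by omega
  let o : Fin t := ⟨0, h0⟩
  have hstar : ∀ u : BV C, typ C o u =
      ind (lift0Parity t (typeOf C u) = true) + ind (liftStarParity t (typeOf C u) = true) := by
    intro u
    simp [typ, ind, lift0Parity, liftStarParity, h0, o]
  refine ⟨fun l => ∃ τ : Tw C, Good o (l.map fun p => p.1.1.1) τ ∧ ∀ p ∈ l, Match τ p.1 p.2,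
    ?_, ?_, ?_, ?_, ?_⟩
  · refine ⟨0, ⟨fun _ _ _ => rfl, Or.inl ⟨o, fun u => ?_, by simp⟩⟩, by simp⟩
    rw [z2_add_self]; simp [par]
  · rintro l l' ⟨τ, h1, h2⟩ hl
    exact ⟨τ, h1.sub (List.map_subset _ hl), fun p hp => h2 p (hl hp)⟩
  · rintro l p q ⟨τ, _, h2⟩ hp hq
    obtain ⟨a1, a2⟩ := h2 p hp
    obtain ⟨b1, b2⟩ := h2 q hq
    constructor
    · intro e
      refine liftV_ext (by rw [← a1, ← b1, e]) fun a ha => ?_
      rw [a2 a (a1 ▸ ha), b2 a (e ▸ a1 ▸ ha), e]
    · intro e
      have e1 : p.1.1.1 = q.1.1.1 := by rw [a1, b1, e]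
      refine liftV_ext e1 fun a ha => ?_
      have x1 := a2 a ha
      have x2 := b2 a (e1 ▸ ha)
      rw [e, x2, e1] at x1
      exact (add_right_cancel x1).symm
  · rintro l p q ⟨τ, h1, h2⟩ hp hq
    obtain ⟨a1, a2⟩ := h2 p hp
    obtain ⟨b1, b2⟩ := h2 q hq
    simp only [mat, liftAdj_iff, ← a1, ← b1]
    refine and_congr_right fun hb => ?_
    rw [a2 _ (tAdj_of_bAdj hb), b2 _ (tAdj_of_bAdj' hb), h1.1 _ _ hb]
    exact (add_left_inj _).symm
  · rintro l ⟨τ, h1, h2⟩ hl
    have := fun u => h1.ext hC (by simpa using hl) u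
    choose T hT1 hT2 using this
    obtain ⟨π, hπ⟩ := exists_equiv (b := lift0Parity t) (b' := liftStarParity t) (fun u => T u u)
      (fun u => by
        rw [← hstar u, ← (hT2 u).par List.mem_cons_self]
        rfl)
    refine ⟨π, fun z => ⟨T z.1.1, hT2 z.1.1, fun p hp => ?_⟩⟩
    rcases List.mem_cons.1 hp with rfl | hp
    · exact hπ z
    · refine ⟨(h2 p hp).1, fun a ha => ?_⟩
      rw [hT1 z.1.1 p.1.1.1 (List.mem_map.2 ⟨p, hp, rfl⟩)]
      exact (h2 p hp).2 a ha

end Crest.Agent.R290
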