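/-
R290/LiftSpoAux: tags of lift vertices as `ZMod 2`-valued functions, shifts, template combinatorics.
Author: helper93.
-/
import Crest.Agent.R290.LiftBasic

set_option autoImplicit false

namespace Crest.Agent.R290.Spo

open Crest.WLRefine Crest.WLRefine.ParityLift Finset

variable {t : ℕ} {C : ChoiceSystem t} {b : TV t → Bool}

/-- A Boolean as an element of `ZMod 2`. -/
def bz (β : Bool) : ZMod 2 := if β = true then 1 else 0

theorem bz_inj {β β' : Bool} (h : bz β = bz β') : β = β' := by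
  revert h; cases β <;> cases β' <;> decide

theorem bz_decide (e : ZMod 2) : bz (decide (e = 1)) = e := by
  revert e; decide

theorem z2_add_self (e : ZMod 2) : e + e = 0 := by revert e; decide

/-- The type of a lift vertex. -/
def ty (x : LiftV C b) : TV t := typeOf C x.1.1

/-- The tag of a lift vertex, extended by zero. -/
def tg (x : LiftV C b) (a : TV t) : ZMod 2 :=
  if h : tAdj (ty x) a = true then bz (x.1.2 ⟨a, h⟩) else 0

theorem tg_of_not {x : LiftV C b} {a : TV t} (h : ¬ tAdj (ty x) a = true) : tg x a = 0 := by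
  unfold tg; rw [dif_neg h]

theorem tAdj_irrefl (a : TV t) : ¬ tAdj a a = true := by
  cases a <;> simp [tAdj]

theorem parity_iff (a₀ : TV t) (z : Nbr a₀ → Bool) (β : Bool) :
    (univ.filter fun a' => z a' = true).card % 2 = β.toNat ↔
      ∑ a : TV t, (if h : tAdj a₀ a = true then bz (z ⟨a, h⟩) else 0) = bz β := by
  have h1 : ∑ a : TV t, (if h : tAdj a₀ a = true then bz (z ⟨a, h⟩) else 0) =
      ((univ.filter fun a' => z a' = true).card : ZMod 2) := by
    rw [Finset.card_filter, ← Fintype.sum_subtype_add_sum_subtype (fun a => tAdj a₀ a = true),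
      Finset.sum_eq_zero (s := (univ : Finset {a // ¬ tAdj a₀ a = true}))
        (fun a _ => dif_neg a.2), add_zero]
    push_cast
    exact sum_congr rfl fun a _ => by rw [dif_pos a.2]; rfl
  rw [h1, ← ZMod.natCast_mod _ 2]
  rcases Nat.mod_two_eq_zero_or_one (univ.filter fun a' => z a' = true).card with h | h <;>
    rw [h] <;> cases β <;> decide

theorem sum_tg (x : LiftV C b) : ∑ a, tg x a = bz (b (ty x)) :=
  (parity_iff (ty x) x.1.2 _).1 x.2

/-- The lift vertex with base `u` and tag `τ`. -/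
def mk (u : BV C) (τ : TV t → ZMod 2) (h0 : ∀ a, ¬ tAdj (typeOf C u) a = true → τ a = 0)
    (h : ∑ a, τ a = bz (b (typeOf C u))) : LiftV C b :=
  ⟨⟨u, fun a => decide (τ a.1 = 1)⟩, (parity_iff _ _ _).2 (by
    rw [← h]
    refine sum_congr rfl fun a _ => ?_
    split_ifs with ha
    · exact bz_decide _
    · exact (h0 a ha).symm)⟩

theorem mk_base (u : BV C) (τ : TV t → ZMod 2) (h0) (h : ∑ a, τ a = bz (b (typeOf C u))) :
    (mk u τ h0 h).1.1 = u := rfl

theorem mk_ty (u : BV C) (τ : TV t → ZMod 2) (h0) (h : ∑ a, τ a = bz (b (typeOf C u))) :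
    ty (mk u τ h0 h) = typeOf C u := rfl

theorem mk_tg (u : BV C) (τ : TV t → ZMod 2) (h0) (h : ∑ a, τ a = bz (b (typeOf C u))) :
    tg (mk u τ h0 h) = τ := by
  funext a
  unfold tg
  split_ifs with ha
  · exact bz_decide _
  · exact (h0 a ha).symm

theorem lift_ext {x y : LiftV C b} (h1 : x.1.1 = y.1.1) (h2 : tg x = tg y) : x = y := by
  obtain ⟨⟨u, z⟩, hx⟩ := x
  obtain ⟨⟨v, w⟩, hy⟩ := y
  dsimp only at h1
  subst h1
  have : z = w := by
    funext a
    have e1 : tg (b := b) ⟨⟨u, z⟩, hx⟩ a.1 = bz (z a) := dif_pos a.2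
    have e2 : tg (b := b) ⟨⟨u, w⟩, hy⟩ a.1 = bz (w a) := dif_pos a.2
    exact bz_inj (e1.symm.trans ((congrFun h2 a.1).trans e2))
  subst this
  rfl

theorem tAdj_of_bAdj {u v : BV C} (h : bAdj C u v = true) :
    tAdj (typeOf C u) (typeOf C v) = true := by
  rcases u with p | p <;> rcases v with q | q
  · simp only [bAdj, mainAgree, Bool.or_eq_true, decide_eq_true_eq] at h
    simp only [typeOf, tAdj, decide_eq_true_eq]
    rcases h with ⟨h, -⟩ | ⟨h, -⟩
    · exact h.ne
    · exact h.ne'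
  · simp only [bAdj, helperAgree, decide_eq_true_eq] at h
    simp only [typeOf, tAdj, decide_eq_true_eq]
    rcases h with ⟨h, -⟩ | ⟨h, -⟩ | h <;> simp [h]
  · simp only [bAdj, helperAgree, decide_eq_true_eq] at h
    simp only [typeOf, tAdj, decide_eq_true_eq]
    rcases h with ⟨h, -⟩ | ⟨h, -⟩ | h <;> simp [h]
  · simp [bAdj] at h

theorem adj_iff (x y : LiftV C b) : liftAdj C b x y = true ↔
    bAdj C x.1.1 y.1.1 = true ∧ tg x (ty y) = tg y (ty x) := by
  unfold liftAdj
  rw [decide_eq_true_eq]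
  constructor
  · rintro ⟨h, h', h1, h2⟩
    refine ⟨h1, ?_⟩
    unfold tg
    rw [dif_pos (show tAdj (ty x) (ty y) = true from h), dif_pos (show tAdj (ty y) (ty x) = true from h')]
    exact congrArg bz h2
  · rintro ⟨h1, h2⟩
    have h : tAdj (ty x) (ty y) = true := tAdj_of_bAdj h1
    have h' : tAdj (ty y) (ty x) = true := by rw [tAdj_symm]; exact h
    refine ⟨h, h', h1, ?_⟩
    unfold tg at h2
    rw [dif_pos h, dif_pos h'] at h2
    exact bz_inj h2

theorem tAdj_of_adj {x y : LiftV C b} (h : liftAdj C b x y = true) : tAdj (ty x) (ty y) = true :=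
  tAdj_of_bAdj ((adj_iff x y).1 h).1

/-- `δ` is an admissible change of the tags over the type `a`. -/
def Ok (a : TV t) (δ : TV t → ZMod 2) : Prop :=
  (∀ a', ¬ tAdj a a' = true → δ a' = 0) ∧ ∑ a', δ a' = 0

open Classical in
/-- Add `δ` to the tag (if admissible). -/
noncomputable def shift (δ : TV t → ZMod 2) (x : LiftV C b) : LiftV C b :=
  if h : Ok (ty x) δ then
    mk x.1.1 (fun a => tg x a + δ a)
      (fun a ha => by rw [tg_of_not ha, h.1 a ha, add_zero])
      (by rw [sum_add_distrib, h.2, add_zero]; exact sum_tg x)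
  else x

theorem shift_base (δ : TV t → ZMod 2) (x : LiftV C b) : (shift δ x).1.1 = x.1.1 := by
  unfold shift; split_ifs <;> rfl

theorem shift_ty (δ : TV t → ZMod 2) (x : LiftV C b) : ty (shift δ x) = ty x := by
  unfold ty; rw [shift_base]

theorem shift_tg {δ : TV t → ZMod 2} {x : LiftV C b} (h : Ok (ty x) δ) (a : TV t) :
    tg (shift δ x) a = tg x a + δ a := by
  unfold shift; rw [dif_pos h, mk_tg]

theorem shift_shift (δ : TV t → ZMod 2) (x : LiftV C b) : shift δ (shift δ x) = x := by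
  by_cases h : Ok (ty x) δ
  · refine lift_ext (by rw [shift_base, shift_base]) (funext fun a => ?_)
    rw [shift_tg (by rw [shift_ty]; exact h), shift_tg h, add_assoc, z2_add_self, add_zero]
  · have : shift δ x = x := by unfold shift; rw [dif_neg h]
    rw [this, this]

/-- The change of two coordinates. -/
def two (a₁ a₂ : TV t) : TV t → ZMod 2 := fun a => (if a = a₁ then 1 else 0) + (if a = a₂ then 1 else 0)

theorem two_of_ne {a₁ a₂ a : TV t} (h1 : a ≠ a₁) (h2 : a ≠ a₂) : two a₁ a₂ a = 0 := by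
  simp [two, h1, h2]

theorem two_left {a₁ a₂ : TV t} (h : a₁ ≠ a₂) : two a₁ a₂ a₁ = 1 := by
  simp [two, h]

theorem ok_two {a a₁ a₂ : TV t} (h1 : tAdj a a₁ = true) (h2 : tAdj a a₂ = true) :
    Ok a (two a₁ a₂) := by
  refine ⟨fun a' ha => two_of_ne (fun h => ha (h ▸ h1)) (fun h => ha (h ▸ h2)), ?_⟩
  simp only [two, sum_add_distrib, sum_ite_eq', mem_univ, if_true]
  decide

theorem ok_zero (a : TV t) : Ok a (fun _ => 0) := ⟨fun _ _ => rfl, by simp⟩

/-! ### template combinatorics -/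

theorem tAdj_main_helper {i : Fin t} {h : Helper t} :
    tAdj (Sum.inl i : TV t) (Sum.inr h) = true ↔ i = h.1.1 ∨ i = h.1.2.1 ∨ i = h.1.2.2 := by
  simp [tAdj]

theorem main_of_adj_helper {a : TV t} {h : Helper t} (ha : tAdj a (Sum.inr h) = true) :
    ∃ i, a = Sum.inl i := by
  rcases a with i | h'
  · exact ⟨i, rfl⟩
  · simp [tAdj] at ha

/-- The three mains of a helper. -/
def mains (h : Helper t) : Finset (TV t) := {Sum.inl h.1.1, Sum.inl h.1.2.1, Sum.inl h.1.2.2}

theorem mem_mains {a : TV t} {h : Helper t} : a ∈ mains h ↔ tAdj a (Sum.inr h) = true := by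
  rcases a with i | h'
  · simp [mains, tAdj]
  · simp [mains, tAdj]

theorem card_mains (h : Helper t) : (mains h).card = 3 := by
  obtain ⟨⟨i, j, l⟩, h1, h2, h3⟩ := h
  simp only at h1 h2 h3
  refine card_eq_three.2 ⟨_, _, _, ?_, ?_, ?_, rfl⟩
  · simpa using h1.ne
  · simpa using h2.symm
  · simpa using h3.symm

/-- All three mains of `h` occur among the types `T`. -/
def Full (T : Fin t → TV t) (h : Helper t) : Prop := ∀ a ∈ mains h, ∃ p, T p = a

theorem full_of_card {T : Fin t → TV t} (hT : Function.Injective T) {h : Helper t}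
    {P : Finset (Fin t)} (hP : 3 ≤ P.card) (hadj : ∀ p ∈ P, tAdj (T p) (Sum.inr h) = true) :
    Full T h := by
  have hsub : P.image T ⊆ mains h := by
    intro a ha
    obtain ⟨p, hp, rfl⟩ := mem_image.1 ha
    exact mem_mains.2 (hadj p hp)
  have heq : P.image T = mains h :=
    eq_of_subset_of_card_le hsub (by rw [card_mains, card_image_of_injective _ hT]; exact hP)
  intro a ha
  rw [← heq] at ha
  obtain ⟨p, -, hp⟩ := mem_image.1 ha
  exact ⟨p, hp⟩

theorem card_adj_of_full {T : Fin t → TV t} (hT : Function.Injective T) {h : Helper t}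
    (hf : Full T h) : (univ.filter fun p => tAdj (T p) (Sum.inr h) = true).card = 3 := by
  rw [← card_image_of_injective _ hT, ← card_mains h]
  congr 1
  ext a
  simp only [mem_image, mem_filter, mem_univ, true_and]
  constructor
  · rintro ⟨p, hp, rfl⟩; exact mem_mains.2 hp
  · intro ha
    obtain ⟨p, rfl⟩ := hf a ha
    exact ⟨p, mem_mains.1 ha, rfl⟩

/-- Three helpers on a sorted triple. -/
theorem three_helpers {a b c : Fin t} (hab : a < b) (hbc : b < c) :
    ∃ h₁ h₂ h₃ : Helper t, h₁ ≠ h₂ ∧ h₁ ≠ h₃ ∧ h₂ ≠ h₃ ∧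
      mains h₁ = {Sum.inl a, Sum.inl b, Sum.inl c} ∧ mains h₂ = {Sum.inl a, Sum.inl b, Sum.inl c} ∧
      mains h₃ = {Sum.inl a, Sum.inl b, Sum.inl c} := by
  have hac := hab.trans hbc
  refine ⟨⟨(a, b, c), hab, hac.ne', hbc.ne'⟩, ⟨(a, c, b), hac, hab.ne', hbc.ne⟩,
    ⟨(b, c, a), hbc, hab.ne, hac.ne⟩, ?_, ?_, ?_, rfl, ?_, ?_⟩
  · intro h; exact hbc.ne (congrArg (fun x : Helper t => x.1.2.1) h)
  · intro h; exact hab.ne (congrArg (fun x : Helper t => x.1.1) h)
  · intro h; exact hab.ne (congrArg (fun x : Helper t => x.1.1) h)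
  · ext x; simp only [mains, mem_insert, mem_singleton]; tauto
  · ext x; simp only [mains, mem_insert, mem_singleton]; tauto

/-- Every main has two helper neighbours different from a given template vertex. -/
theorem two_helpers (ht : 4 ≤ t) (i : Fin t) (a₀ : TV t) :
    ∃ h₁ h₂ : Helper t, h₁ ≠ h₂ ∧ tAdj (Sum.inl i : TV t) (Sum.inr h₁) = true ∧
      tAdj (Sum.inl i : TV t) (Sum.inr h₂) = true ∧ a₀ ≠ Sum.inr h₁ ∧ a₀ ≠ Sum.inr h₂ := by
  obtain ⟨a, b, c, hab, hbc, hi⟩ : ∃ a b c : Fin t, a < b ∧ b < c ∧ (i = a ∨ i = b ∨ i = c) := by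
    by_cases h : i.val ≤ 2
    · refine ⟨⟨0, by omega⟩, ⟨1, by omega⟩, ⟨2, by omega⟩, by simp, by simp, ?_⟩
      simp only [Fin.ext_iff]; omega
    · refine ⟨⟨0, by omega⟩, ⟨1, by omega⟩, i, by simp, ?_, by simp⟩
      rw [Fin.lt_def]; simp only; omega
  obtain ⟨h₁, h₂, h₃, n12, n13, n23, e1, e2, e3⟩ := three_helpers hab hbc
  have m : (Sum.inl i : TV t) ∈ ({Sum.inl a, Sum.inl b, Sum.inl c} : Finset (TV t)) := by
    simpa using hi
  have a1 := mem_mains.1 (e1 ▸ m)
  have a2 := mem_mains.1 (e2 ▸ m)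
  have a3 := mem_mains.1 (e3 ▸ m)
  by_cases c1 : a₀ = Sum.inr h₁
  · exact ⟨h₂, h₃, n23, a2, a3, by simpa [c1] using n12, by simpa [c1] using n13⟩
  · by_cases c2 : a₀ = Sum.inr h₂
    · exact ⟨h₁, h₃, n13, a1, a3, c1, by simpa [c2] using n23⟩
    · exact ⟨h₁, h₂, n12, a1, a2, c1, c2⟩

/-- Another helper with the same three mains. -/
theorem other_helper (h : Helper t) : ∃ h' : Helper t, h' ≠ h ∧ mains h' = mains h := by
  obtain ⟨⟨i, j, l⟩, h1, h2, h3⟩ := h
  simp only at h1 h2 h3
  rcases lt_or_gt_of_ne h2 with hl | hl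
  · refine ⟨⟨(l, i, j), hl, (hl.trans h1).ne', h1.ne'⟩, fun h => ?_, ?_⟩
    · exact h2 (congrArg (fun x : Helper t => x.1.1) h)
    · ext x; simp only [mains, mem_insert, mem_singleton]; tauto
  · refine ⟨⟨(i, l, j), hl, h1.ne', fun h => h3 h.symm⟩, fun h => ?_, ?_⟩
    · exact h3 (congrArg (fun x : Helper t => x.1.2.1) h)
    · ext x; simp only [mains, mem_insert, mem_singleton]; tauto

/-- A main outside the three mains of a helper. -/
theorem missing_main (ht : 4 ≤ t) (h : Helper t) : ∃ m : Fin t, (Sum.inl m : TV t) ∉ mains h := by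
  by_contra hcon
  push Not at hcon
  have hsub : (univ : Finset (Fin t)).image (Sum.inl : Fin t → TV t) ⊆ mains h := by
    intro a ha
    obtain ⟨m, -, rfl⟩ := mem_image.1 ha
    exact hcon m
  have := card_le_card hsub
  rw [card_mains, card_image_of_injective _ Sum.inl_injective, card_univ, Fintype.card_fin] at this
  omega

end Crest.Agent.R290.Spo
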