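/-
R290/LiftSpoAux2: the parity of the number of common neighbours on a clique of the lift.
Author: helper93.
-/
import Crest.Agent.R290.LiftSpoAux

set_option autoImplicit false

namespace Crest.Agent.R290.Spo

open Crest.WLRefine Crest.WLRefine.ParityLift Finset
open scoped Classical

variable {t : ℕ} {C : ChoiceSystem t} {b : TV t → Bool}

theorem base_inl {u : BV C} {i : Fin t} (h : typeOf C u = Sum.inl i) :
    ∃ d, u = Sum.inl ⟨i, d⟩ := by
  rcases u with ⟨j, d⟩ | q
  · obtain rfl : j = i := Sum.inl_injective h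
    exact ⟨d, rfl⟩
  · cases h

theorem base_inr {u : BV C} {h : Helper t} (hu : typeOf C u = Sum.inr h) :
    ∃ q, u = Sum.inr ⟨h, q⟩ := by
  rcases u with p | ⟨h', q⟩
  · cases hu
  · obtain rfl : h' = h := Sum.inr_injective hu
    exact ⟨q, rfl⟩

theorem bAdj_fst (h : Helper t) (d : Fin (C.dom h.1.1)) (q : Fin (C.lab h.1.1 h.1.2.1)) :
    bAdj C (Sum.inl ⟨h.1.1, d⟩) (Sum.inr ⟨h, q⟩) = true ↔ q = C.lamL _ _ d := by
  simp [bAdj, helperAgree, h.2.1.ne, h.2.2.1.symm]

theorem bAdj_snd (h : Helper t) (e : Fin (C.dom h.1.2.1)) (q : Fin (C.lab h.1.1 h.1.2.1)) :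
    bAdj C (Sum.inl ⟨h.1.2.1, e⟩) (Sum.inr ⟨h, q⟩) = true ↔ q = C.lamR _ _ e := by
  simp [bAdj, helperAgree, h.2.1.ne', h.2.2.2.symm]

theorem bAdj_thd (h : Helper t) (f : Fin (C.dom h.1.2.2)) (q : Fin (C.lab h.1.1 h.1.2.1)) :
    bAdj C (Sum.inl ⟨h.1.2.2, f⟩) (Sum.inr ⟨h, q⟩) = true := by
  simp [bAdj, helperAgree]

theorem bAdj_main {i j : Fin t} (hij : i < j) (d : Fin (C.dom i)) (e : Fin (C.dom j)) :
    bAdj C (Sum.inl ⟨i, d⟩) (Sum.inl ⟨j, e⟩) = true ↔ C.lamL i j d = C.lamR i j e := by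
  simp [bAdj, mainAgree, hij, hij.not_gt]

/-- `x` is a clique. -/
def Clq (x : Fin t → LiftV C b) : Prop := ∀ i j, i ≠ j → liftAdj C b (x i) (x j) = true

theorem Clq.inj {x : Fin t → LiftV C b} (hx : Clq x) : Function.Injective fun p => ty (x p) := by
  intro p p' h
  by_contra hne
  have := tAdj_of_adj (hx p p' hne)
  simp only at h
  rw [h] at this
  exact tAdj_irrefl _ this

theorem Clq.one_helper {x : Fin t → LiftV C b} (hx : Clq x) (i : Fin t) :
    ∃ a₀ : TV t, ∀ p h, ty (x p) = Sum.inr h → a₀ = Sum.inr h := by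
  by_cases hh : ∃ p h, ty (x p) = Sum.inr h
  · obtain ⟨p₀, h₀, e₀⟩ := hh
    refine ⟨Sum.inr h₀, fun p h e => ?_⟩
    by_cases hp : p = p₀
    · rw [← e₀, ← e, hp]
    · have := tAdj_of_adj (hx p p₀ hp)
      rw [e, e₀] at this
      simp [tAdj] at this
  · exact ⟨Sum.inl i, fun p h e => absurd ⟨p, h, e⟩ hh⟩

/-- Common neighbours over a main type come in pairs. -/
theorem main_zero (ht : 4 ≤ t) {x : Fin t → LiftV C b} (hx : Clq x) (P : Finset (Fin t)) (i : Fin t) :
    ∑ z : LiftV C b, (if (∀ p ∈ P, liftAdj C b (x p) z = true) ∧ ty z = Sum.inl i then (1 : ZMod 2)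
      else 0) = 0 := by
  obtain ⟨a₀, ha₀⟩ := hx.one_helper i
  obtain ⟨h₁, h₂, n12, a1, a2, c1, c2⟩ := two_helpers ht i a₀
  have hδ : ∀ p, two (Sum.inr h₁ : TV t) (Sum.inr h₂) (ty (x p)) = 0 := fun p =>
    two_of_ne (fun e => c1 (ha₀ p _ e)) (fun e => c2 (ha₀ p _ e))
  refine Finset.sum_involution (fun z _ => shift (two (Sum.inr h₁) (Sum.inr h₂)) z)
    (fun z _ => ?_) (fun z _ hz hs => ?_) (fun _ _ => mem_univ _) (fun z _ => shift_shift _ z)
  · have key : ((∀ p ∈ P, liftAdj C b (x p) (shift (two (Sum.inr h₁) (Sum.inr h₂)) z) = true) ∧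
        ty (shift (two (Sum.inr h₁) (Sum.inr h₂)) z) = Sum.inl i) ↔
        ((∀ p ∈ P, liftAdj C b (x p) z = true) ∧ ty z = Sum.inl i) := by
      rw [shift_ty]
      refine and_congr_left fun hz => forall₂_congr fun p _ => ?_
      rw [adj_iff, adj_iff, shift_base, shift_ty, shift_tg (hz ▸ ok_two a1 a2), hδ, add_zero]
    rw [if_congr key rfl rfl, z2_add_self]
  · have hz' : ty z = Sum.inl i := by
      by_contra hne
      exact hz (if_neg fun h => hne h.2)
    have := shift_tg (x := z) (hz' ▸ ok_two a1 a2) (Sum.inr h₁)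
    rw [hs, two_left (by simpa using n12)] at this
    simp at this

/-- Common neighbours over the helper type `h`. -/
theorem helper_full {x : Fin t → LiftV C b} (hx : Clq x) {h : Helper t} (hb : b (Sum.inr h) = false)
    (hf : Full (fun p => ty (x p)) h) :
    ∑ z : LiftV C b, (if (∀ p ∈ univ.filter fun p => tAdj (ty (x p)) (Sum.inr h) = true,
      liftAdj C b (x p) z = true) ∧ ty z = Sum.inr h then (1 : ZMod 2) else 0) =
      1 + ∑ p, tg (x p) (Sum.inr h) := by
  set τ : TV t → ZMod 2 := fun a => ∑ p, if ty (x p) = a then tg (x p) (Sum.inr h) else 0 with hτ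
  have hτ1 : ∀ p, τ (ty (x p)) = tg (x p) (Sum.inr h) := fun p => by
    simp only [hτ]
    rw [sum_eq_single p (fun p' _ hp' => if_neg fun e => hp' (hx.inj e)) (by simp), if_pos rfl]
  have hτ0 : ∀ a, ¬ tAdj (Sum.inr h) a = true → τ a = 0 := fun a ha => by
    refine sum_eq_zero fun p _ => ?_
    split_ifs with e
    · exact tg_of_not (by rw [e, tAdj_symm]; exact ha)
    · rfl
  have hτs : ∑ a, τ a = ∑ p, tg (x p) (Sum.inr h) := by
    simp only [hτ]
    rw [sum_comm]
    simp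
  obtain ⟨p₁, e₁⟩ := hf (Sum.inl h.1.1) (by simp [mains])
  obtain ⟨p₂, e₂⟩ := hf (Sum.inl h.1.2.1) (by simp [mains])
  obtain ⟨d₁, hd₁⟩ := base_inl (C := C) e₁
  obtain ⟨d₂, hd₂⟩ := base_inl (C := C) e₂
  have h12 : C.lamL _ _ d₁ = C.lamR _ _ d₂ := by
    have hne : p₁ ≠ p₂ := fun e => h.2.1.ne (Sum.inl_injective (e₁.symm.trans (e ▸ e₂)))
    have := ((adj_iff _ _).1 (hx p₁ p₂ hne)).1
    rwa [hd₁, hd₂, bAdj_main h.2.1] at this
  have huniq : ∀ z : LiftV C b, ((∀ p ∈ univ.filter fun p => tAdj (ty (x p)) (Sum.inr h) = true,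
      liftAdj C b (x p) z = true) ∧ ty z = Sum.inr h) →
      z.1.1 = Sum.inr ⟨h, C.lamL _ _ d₁⟩ ∧ tg z = τ := by
    rintro z ⟨hz, hz'⟩
    constructor
    · obtain ⟨q, hq⟩ := base_inr (C := C) hz'
      have := ((adj_iff _ _).1 (hz p₁ (by simp only [mem_filter, mem_univ, true_and, e₁]; simp [tAdj]))).1
      rw [hd₁, hq, bAdj_fst] at this
      rw [hq, this]
    · funext a
      by_cases ha : tAdj (Sum.inr h) a = true
      · obtain ⟨p, rfl⟩ := hf a (mem_mains.2 (by rw [tAdj_symm]; exact ha))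
        have := ((adj_iff _ _).1 (hz p (mem_filter.2 ⟨mem_univ _, by rw [tAdj_symm]; exact ha⟩))).2
        rw [hτ1, ← this, hz']
      · rw [hτ0 a ha, tg_of_not (by rw [hz']; exact ha)]
  by_cases hS : ∑ p, tg (x p) (Sum.inr h) = 0
  · set z₀ : LiftV C b := mk (Sum.inr ⟨h, C.lamL _ _ d₁⟩) τ hτ0
      (by rw [hτs, hS]; simp [typeOf, hb, bz]) with hz₀
    rw [hS, add_zero, sum_eq_single z₀ (fun z _ hz => if_neg fun hQ => hz ?_) (by simp), if_pos]
    · refine ⟨fun p hp => (adj_iff _ _).2 ⟨?_, ?_⟩, rfl⟩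
      · have hp' := (mem_filter.1 hp).2
        obtain ⟨i, hi⟩ := main_of_adj_helper hp'
        rw [hi, tAdj_main_helper] at hp'
        rw [hz₀, mk_base]
        rcases hp' with rfl | rfl | rfl
        · obtain rfl : p = p₁ := hx.inj (hi.trans e₁.symm)
          rw [hd₁, bAdj_fst]
        · obtain rfl : p = p₂ := hx.inj (hi.trans e₂.symm)
          rw [hd₂, bAdj_snd, h12]
        · obtain ⟨f, hf'⟩ := base_inl (C := C) hi
          rw [hf']; exact bAdj_thd _ _ _
      · rw [hz₀, mk_tg, hτ1]; rfl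
    · obtain ⟨h1, h2⟩ := huniq z hQ
      exact lift_ext h1 (by rw [h2, hz₀, mk_tg])
  · rw [sum_eq_zero fun z _ => if_neg fun hQ => hS ?_]
    · revert hS
      generalize (∑ p, tg (x p) (Sum.inr h)) = e
      revert e; decide
    · rw [← hτs, ← (huniq z hQ).2, sum_tg, hQ.2, hb]; rfl

theorem helper_count {x : Fin t → LiftV C b} (hx : Clq x) {h : Helper t}
    (hb : b (Sum.inr h) = false) :
    ∑ P ∈ powersetCard 3 (univ : Finset (Fin t)), ∑ z : LiftV C b,
      (if (∀ p ∈ P, liftAdj C b (x p) z = true) ∧ ty z = Sum.inr h then (1 : ZMod 2) else 0) =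
      if Full (fun p => ty (x p)) h then 1 + ∑ p, tg (x p) (Sum.inr h) else 0 := by
  split_ifs with hf
  · have hc := card_adj_of_full hx.inj hf
    rw [sum_eq_single_of_mem _ (mem_powersetCard_univ.2 hc), helper_full hx hb hf]
    intro P hP hne
    refine sum_eq_zero fun z _ => if_neg fun hQ => hne ?_
    refine eq_of_subset_of_card_le (fun p hp => mem_filter.2 ⟨mem_univ _, ?_⟩) ?_
    · rw [← hQ.2]; exact tAdj_of_adj (hQ.1 p hp)
    · rw [hc, mem_powersetCard_univ.1 hP]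
  · refine sum_eq_zero fun P hP => sum_eq_zero fun z _ => if_neg fun hQ => hf ?_
    refine full_of_card hx.inj (mem_powersetCard_univ.1 hP).ge fun p hp => ?_
    rw [← hQ.2]; exact tAdj_of_adj (hQ.1 p hp)

/-- The parity of the exponent on a clique. -/
noncomputable def ex (x : Fin t → LiftV C b) : ZMod 2 :=
  ∑ h : Helper t, if Full (fun p => ty (x p)) h then 1 + ∑ p, tg (x p) (Sum.inr h) else 0

theorem exp_eq (ht : 4 ≤ t) (hb : ∀ h, b (Sum.inr h) = false) {x : Fin t → LiftV C b} (hx : Clq x) :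
    ((∑ P ∈ powersetCard 3 (univ : Finset (Fin t)),
      (univ.filter fun z => ∀ p ∈ P, liftAdj C b (x p) z = true).card : ℕ) : ZMod 2) = ex x := by
  have h1 : ∀ P : Finset (Fin t),
      (((univ.filter fun z => ∀ p ∈ P, liftAdj C b (x p) z = true).card : ℕ) : ZMod 2) =
        ∑ h : Helper t, ∑ z : LiftV C b, (if (∀ p ∈ P, liftAdj C b (x p) z = true) ∧
          ty z = Sum.inr h then (1 : ZMod 2) else 0) := by
    intro P
    have h2 : (((univ.filter fun z => ∀ p ∈ P, liftAdj C b (x p) z = true).card : ℕ) : ZMod 2) =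
        ∑ a : TV t, ∑ z : LiftV C b, (if (∀ p ∈ P, liftAdj C b (x p) z = true) ∧
          ty z = a then (1 : ZMod 2) else 0) := by
      rw [card_filter, sum_comm]
      push_cast
      refine sum_congr rfl fun z _ => ?_
      by_cases hz : ∀ p ∈ P, liftAdj C b (x p) z = true
      · rw [if_pos hz, sum_eq_single (ty z) (fun a _ ha => if_neg fun h => ha h.2.symm) (by simp),
          if_pos ⟨hz, rfl⟩]
      · rw [if_neg hz, sum_eq_zero fun a _ => if_neg fun h => hz h.1]
    rw [h2, Fintype.sum_sum_type, sum_eq_zero fun i _ => main_zero ht hx P i, zero_add]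
  push_cast
  rw [sum_congr rfl fun P _ => h1 P, sum_comm]
  exact sum_congr rfl fun h _ => helper_count hx (hb h)

/-- The sign of a parity. -/
def sgn (e : ZMod 2) : ℤ := if e = 0 then 1 else -1

theorem neg_one_pow_eq_sgn (n : ℕ) : (-1 : ℤ) ^ n = sgn (n : ZMod 2) := by
  unfold sgn
  rcases Nat.even_or_odd n with h | h
  · rw [h.neg_one_pow, if_pos (ZMod.natCast_eq_zero_iff_even.2 h)]
  · rw [h.neg_one_pow, if_neg fun h' =>
      Nat.not_even_iff_odd.2 h (ZMod.natCast_eq_zero_iff_even.1 h')]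

theorem stat_eq (ht : 4 ≤ t) (hb : ∀ h, b (Sum.inr h) = false) (x : Fin t → LiftV C b) :
    stat (liftAdj C b) x = if Clq x then sgn (ex x) else 0 := by
  unfold stat
  by_cases hx : Clq x
  · rw [if_pos hx, if_pos (show ∀ i j, i ≠ j → liftAdj C b (x i) (x j) = true from hx),
      neg_one_pow_eq_sgn, ← exp_eq ht hb hx]
  · rw [if_neg hx, if_neg (show ¬ ∀ i j, i ≠ j → liftAdj C b (x i) (x j) = true from hx)]

end Crest.Agent.R290.Spo
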