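/-
R290/LiftSpo: a successful choice changes the statistic `stat`.
Skeleton by helper86; keep the statements of the theorems unchanged (add any helper lemmas you like).
-/
import Crest.Agent.R290.LiftBasic
import Crest.Agent.R290.LiftSpoAux2

set_option autoImplicit false

namespace Crest.Agent.R290

open Crest.WLRefine Crest.WLRefine.ParityLift

namespace Spo

open Finset
open scoped Classical

variable {t : ℕ} {C : ChoiceSystem t} {b : TV t → Bool}

/-- All entries are over main types. -/
def AllMain (T : Fin t → TV t) : Prop := ∀ p, ∃ i, T p = Sum.inl i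

theorem ex_allMain {x : Fin t → LiftV C b} (hx : Clq x) (hm : AllMain fun p => ty (x p)) :
    ex x = (Fintype.card (Helper t) : ZMod 2) + ∑ i, bz (b (Sum.inl i)) := by
  choose σ hσ using hm
  have hσi : Function.Injective σ := fun p p' h => hx.inj (by simp only [hσ, h])
  have hσb : Function.Bijective σ := Finite.injective_iff_bijective.1 hσi
  have hfull : ∀ h, Full (fun p => ty (x p)) h := fun h a ha => by
    obtain ⟨i, rfl⟩ := main_of_adj_helper (mem_mains.1 ha)
    obtain ⟨p, rfl⟩ := hσb.2 i
    exact ⟨p, hσ p⟩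
  have h1 : ∑ p, ∑ i, tg (x p) (Sum.inl i) = 0 := by
    have h2 : ∀ p, ∑ i, tg (x p) (Sum.inl i) = ∑ p', tg (x p) (ty (x p')) := fun p => by
      rw [← hσb.sum_comp fun i => tg (x p) (Sum.inl i)]
      exact sum_congr rfl fun p' _ => by rw [← hσ p']
    rw [sum_congr rfl fun p _ => h2 p, ← sum_product']
    refine Finset.sum_involution (fun q _ => q.swap) (fun q _ => ?_) (fun q _ hq hs => hq ?_)
      (fun _ _ => by simp) (fun _ _ => rfl)
    · by_cases h : q.1 = q.2
      · simp only [Prod.fst_swap, Prod.snd_swap, h, z2_add_self]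
      · simp only [Prod.fst_swap, Prod.snd_swap]
        rw [((adj_iff _ _).1 (hx _ _ h)).2, z2_add_self]
    · have : q.2 = q.1 := congrArg Prod.fst hs
      rw [this]
      exact tg_of_not (tAdj_irrefl _)
  have h3 : ∑ p, ∑ a, tg (x p) a = ∑ i, bz (b (Sum.inl i)) := by
    rw [← hσb.sum_comp fun i => bz (b (Sum.inl i))]
    exact sum_congr rfl fun p _ => by rw [sum_tg, ← hσ p]
  simp only [Fintype.sum_sum_type, sum_add_distrib, h1, zero_add] at h3
  unfold ex
  rw [sum_congr rfl fun h _ => if_pos (hfull h), sum_add_distrib, sum_comm, h3]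
  simp

/-- The flip data for a clique of types containing a helper. -/
theorem exists_flip (ht : 4 ≤ t) (T : Fin t → TV t) :
    ∃ δ : Fin t → TV t → ZMod 2, (∀ p p', p ≠ p' → tAdj (T p) (T p') = true) → ¬ AllMain T →
      (∀ p, Ok (T p) (δ p)) ∧ (∀ p p', δ p (T p') = 0) ∧
        ∑ h : Helper t, (if Full T h then ∑ p, δ p (Sum.inr h) else 0) = 1 := by
  by_cases H : (∀ p p', p ≠ p' → tAdj (T p) (T p') = true) ∧ ¬ AllMain T
  swap
  · exact ⟨fun _ _ => 0, fun h1 h2 => absurd ⟨h1, h2⟩ H⟩
  obtain ⟨hadj, hm⟩ := H
  have hinj : Function.Injective T := fun p p' h => by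
    by_contra hne
    exact tAdj_irrefl _ (h ▸ hadj p p' hne)
  obtain ⟨p₀, h₀, e₀⟩ : ∃ p₀ h₀, T p₀ = Sum.inr h₀ := by
    unfold AllMain at hm
    push Not at hm
    obtain ⟨p₀, hp₀⟩ := hm
    rcases e : T p₀ with i | h
    · exact absurd e (hp₀ i)
    · exact ⟨p₀, h, e⟩
  have hin : ∀ p, p ≠ p₀ → T p ∈ mains h₀ := fun p hp => mem_mains.2 (e₀ ▸ hadj p p₀ hp)
  have hf : Full T h₀ := full_of_card hinj (P := univ.erase p₀)
    (by rw [card_erase_of_mem (mem_univ _), card_univ, Fintype.card_fin]; omega)
    fun p hp => mem_mains.1 (hin p (ne_of_mem_erase hp))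
  obtain ⟨h', hne, hmains⟩ := other_helper h₀
  obtain ⟨m, hmm⟩ := missing_main ht h₀
  have hi₁ : (Sum.inl h₀.1.1 : TV t) ∈ mains h₀ := by simp [mains]
  obtain ⟨p₁, e₁⟩ := hf _ hi₁
  refine ⟨fun p => if p = p₁ then two (Sum.inr h') (Sum.inl m) else fun _ => 0,
    fun _ _ => ⟨fun p => ?_, fun p p' => ?_, ?_⟩⟩
  · dsimp only
    split_ifs with hp
    · rw [hp, e₁]
      refine ok_two (mem_mains.1 (hmains ▸ hi₁)) ?_
      simp only [tAdj, decide_eq_true_eq]
      rintro rfl
      exact hmm hi₁
    · exact ok_zero _
  · dsimp only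
    split_ifs with hp
    · by_cases hp' : p' = p₀
      · rw [hp', e₀]
        exact two_of_ne (by simpa using hne.symm) (by simp)
      · refine two_of_ne (fun e => ?_) (fun e => hmm (e ▸ hin p' hp'))
        have := hin p' hp'
        rw [e] at this
        simp [mains] at this
    · rfl
  · have h1 : ∀ h : Helper t, ∑ p, (if p = p₁ then two (Sum.inr h' : TV t) (Sum.inl m)
        else fun _ => 0) (Sum.inr h) = if h = h' then 1 else 0 := fun h => by
      rw [sum_eq_single p₁ (fun p _ hp => by rw [if_neg hp]) (by simp), if_pos rfl]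
      simp [two]
    simp only [h1]
    rw [sum_eq_single h' (fun h _ hh => by simp [hh]) (by simp), if_pos, if_pos rfl]
    intro a ha
    exact hf a (hmains ▸ ha)

theorem sgn_add_one (e : ZMod 2) : sgn (e + 1) = -sgn e := by
  revert e; decide

/-- Cliques with a helper type cancel. -/
theorem sum_helper_zero (ht : 4 ≤ t) :
    ∑ x : Fin t → LiftV C b,
      (if Clq x ∧ ¬ AllMain (fun p => ty (x p)) then sgn (ex x) else 0) = 0 := by
  choose δ hδ using exists_flip ht
  set g : (Fin t → LiftV C b) → Fin t → LiftV C b :=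
    fun x p => shift (δ (fun p => ty (x p)) p) (x p) with hg
  have hty : ∀ x, (fun p => ty (g x p)) = fun p => ty (x p) := fun x => funext fun p => shift_ty _ _
  have hgg : ∀ x, g (g x) = x := fun x => funext fun p => by
    simp only [hg, shift_ty, shift_shift]
  have key : ∀ x, Clq x ∧ ¬ AllMain (fun p => ty (x p)) →
      (Clq (g x) ∧ ¬ AllMain (fun p => ty (g x p))) ∧ ex (g x) = ex x + 1 := by
    rintro x ⟨hx, hm⟩
    obtain ⟨h1, h2, h3⟩ := hδ (fun p => ty (x p)) (fun p p' h => tAdj_of_adj (hx p p' h)) hm
    refine ⟨⟨fun p p' hp => ?_, by rw [hty]; exact hm⟩, ?_⟩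
    · have := (adj_iff _ _).1 (hx p p' hp)
      refine (adj_iff _ _).2 ⟨by simp only [hg, shift_base]; exact this.1, ?_⟩
      simp only [hg, shift_ty]
      rw [shift_tg (h1 p), shift_tg (h1 p'), h2, h2, this.2]
    · unfold ex
      rw [hty, ← h3, ← sum_add_distrib]
      refine sum_congr rfl fun h _ => ?_
      split_ifs
      · simp only [hg, shift_tg (h1 _), sum_add_distrib, add_assoc]
      · simp
  refine Finset.sum_involution (fun x _ => g x) (fun x _ => ?_) (fun x _ hx hs => ?_)
    (fun _ _ => mem_univ _) (fun x _ => hgg x)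
  · by_cases hx : Clq x ∧ ¬ AllMain (fun p => ty (x p))
    · rw [if_pos hx, if_pos (key x hx).1, (key x hx).2, sgn_add_one, add_neg_cancel]
    · rw [if_neg hx, if_neg fun h => hx (by simpa only [hgg] using (key _ h).1), add_zero]
  · have hx' : Clq x ∧ ¬ AllMain (fun p => ty (x p)) := by
      by_contra h
      exact hx (if_neg h)
    have := (key x hx').2
    rw [hs] at this
    simp at this

theorem sum_stat (ht : 4 ≤ t) (hb : ∀ h, b (Sum.inr h) = false) :
    ∑ x : Fin t → LiftV C b, stat (liftAdj C b) x =
      (univ.filter fun x : Fin t → LiftV C b => Clq x ∧ AllMain (fun p => ty (x p))).card *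
        sgn ((Fintype.card (Helper t) : ZMod 2) + ∑ i, bz (b (Sum.inl i))) := by
  rw [← add_zero (_ * _ : ℤ), ← sum_helper_zero (C := C) (b := b) ht, card_filter]
  push_cast
  rw [sum_mul, ← sum_add_distrib]
  refine sum_congr rfl fun x _ => ?_
  rw [stat_eq ht hb]
  by_cases hx : Clq x
  · by_cases hm : AllMain (fun p => ty (x p))
    · rw [if_pos hx, if_pos ⟨hx, hm⟩, if_neg fun h => h.2 hm, ex_allMain hx hm]; ring
    · rw [if_pos hx, if_neg fun h => hm h.2, if_pos ⟨hx, hm⟩]; ring
  · rw [if_neg hx, if_neg fun h => hx h.1, if_neg fun h => hx h.1]; ring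

end Spo

/-- Recipe.  Let `x` be a `t`-clique of the lift (any parity `b` with `b = false` on helpers).  Its types
are pairwise template-adjacent, hence distinct, with at most one helper type.  The exponent in `stat`
counts pairs `(P, z)`, `P` a 3-set of positions, `z` adjacent to all `x p`, `p ∈ P`.
(1) Pairs with `z` over a main base vertex come in even number: flip the tag of `z` at two fixed helper
neighbours of its type, both different from the helper type occurring in `x` (each main has `≥ 3`
helper neighbours as `4 ≤ t`); this fixed-point-free involution preserves adjacency to all `x p`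
(`Finset.sum_involution` / `Function.Involutive.card_fixedPoints`, or `Finset.even_card_of_involution`-style).
(2) A helper vertex `z = (h, q, tag)` is adjacent to three entries of `x` only if these are the mains of
the three types of `h`; then `q` and the tag are forced and such `z` exists (exactly one) iff the three
tags of these entries at `h` have even sum (`sat h`).
(3) All types main (types are a bijection `Fin t → Fin t`): the exponent is `≡ #{h | sat h}`, and summing
the parity conditions of the `t` entries (main-main tags cancel in pairs) gives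
`#{h | sat h} ≡ card (Helper t) + ∑ i, b i`.  So `stat x = (-1)^(card Helper)` in `lift0` and
`-(-1)^(card Helper)` in `liftStar`; a successful choice with zero tags gives such a clique in `lift0`.
(4) One helper type `h` (only for `t = 4`): these cliques cancel: at the entry of type `h.1.1` flip the tags
at another helper `h'` with the same three mains and at the missing main type; `stat` changes sign.
Hence `(-1)^(card Helper) * (LHS) > 0 ≥ (-1)^(card Helper) * (RHS)`. -/
theorem lift_stat {t : ℕ} (ht : 4 ≤ t) (C : ChoiceSystem t) (hC : C.Successful) :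
    ∑ x : Fin t → LiftV C (lift0Parity t), stat (liftAdj C (lift0Parity t)) x ≠
      ∑ x : Fin t → LiftV C (liftStarParity t), stat (liftAdj C (liftStarParity t)) x := by
  classical
  rw [Spo.sum_stat ht fun _ => rfl, Spo.sum_stat ht fun h => by simp [liftStarParity]]
  have e0 : ∑ i : Fin t, Spo.bz (lift0Parity t (Sum.inl i)) = 0 := by
    simp [lift0Parity, Spo.bz]
  have e1 : ∑ i : Fin t, Spo.bz (liftStarParity t (Sum.inl i)) = 1 := by
    rw [Finset.sum_eq_single (⟨0, by omega⟩ : Fin t)]
    · simp [liftStarParity, Spo.bz, show 0 < t by omega]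
    · intro i _ hi
      simp only [liftStarParity, Spo.bz, decide_eq_true_eq]
      rw [if_neg]
      rintro ⟨h, e⟩
      exact hi (Sum.inl_injective e)
    · simp
  rw [e0, e1, add_zero, Spo.sgn_add_one]
  obtain ⟨d, hd⟩ := hC
  set x₀ : Fin t → LiftV C (lift0Parity t) := fun i =>
    Spo.mk (Sum.inl ⟨i, d i⟩) (fun _ => 0) (fun _ _ => rfl) (by simp [lift0Parity, Spo.bz]) with hx₀
  have hpos : 0 < (Finset.univ.filter fun x : Fin t → LiftV C (lift0Parity t) =>
      Spo.Clq x ∧ Spo.AllMain (fun p => Spo.ty (x p))).card := by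
    refine Finset.card_pos.2 ⟨x₀, Finset.mem_filter.2 ⟨Finset.mem_univ _, fun i j hij => ?_,
      fun p => ⟨p, rfl⟩⟩⟩
    refine (Spo.adj_iff _ _).2 ⟨?_, by simp only [hx₀, Spo.mk_tg]⟩
    simp only [hx₀, Spo.mk_base]
    rcases lt_or_gt_of_ne hij with h | h
    · exact (Spo.bAdj_main h _ _).2 (hd i j h)
    · rw [bAdj_symm]; exact (Spo.bAdj_main h _ _).2 (hd j i h)
  intro h
  unfold Spo.sgn at h
  split_ifs at h <;> omega

end Crest.Agent.R290
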