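/-
R290/StatWL: the statistic `stat` is determined by round-1 (separate) / round-2 (joint) colours.
Skeleton by helper86; keep the statements of the theorems unchanged (add any helper lemmas you like).
-/
import Crest.Agent.R290.Defs

set_option autoImplicit false

namespace Crest.Agent.R290

open Crest.WLRefine Crest.WLRefine.ParityLift

variable {n m k : ℕ}

/-- Equal multisets of values give a value-preserving bijection. -/
theorem statWL_exists_equiv {α β γ : Type} [Fintype α] [Fintype β] {f : α → γ} {g : β → γ}
    (h : (Finset.univ : Finset α).val.map f = (Finset.univ : Finset β).val.map g) :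
    ∃ π : α ≃ β, ∀ z, f z = g (π z) := by
  classical
  have hc : ∀ c, Fintype.card {x // f x = c} = Fintype.card {y // g y = c} := by
    intro c
    have h1 := congrArg (Multiset.count c) h
    rw [Multiset.count_map, Multiset.count_map] at h1
    rw [Fintype.card_subtype, Fintype.card_subtype]
    have e1 : (Finset.univ.filter fun x => f x = c).card =
        Multiset.card (Multiset.filter (fun a => c = f a) (Finset.univ : Finset α).val) := by
      rw [Finset.card_def, Finset.filter_val]
      congr 1
      exact Multiset.filter_congr fun x _ => eq_comm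
    have e2 : (Finset.univ.filter fun x => g x = c).card =
        Multiset.card (Multiset.filter (fun a => c = g a) (Finset.univ : Finset β).val) := by
      rw [Finset.card_def, Finset.filter_val]
      congr 1
      exact Multiset.filter_congr fun x _ => eq_comm
    rw [e1, e2, h1]
  refine ⟨Equiv.ofFiberEquiv (f := f) (g := g) fun c => Fintype.equivOfCardEq (hc c), fun z => ?_⟩
  exact (Equiv.ofFiberEquiv_map _ z).symm

/-- The number of common neighbours of the positions in `P`. -/
def nbCount {V : Type} [Fintype V] (X : V → V → Bool) {t : ℕ} (x : Fin t → V) (P : Finset (Fin t)) : ℕ :=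
  (Finset.univ.filter fun z => ∀ p ∈ P, X (x p) z = true).card

theorem stat_congr {V W : Type} [Fintype V] [Fintype W] {X : V → V → Bool} {Y : W → W → Bool} {t : ℕ}
    {x : Fin t → V} {y : Fin t → W} (h1 : ∀ i j, X (x i) (x j) = Y (y i) (y j))
    (h2 : ∀ P : Finset (Fin t), P.card = 3 → nbCount X x P = nbCount Y y P) :
    stat X x = stat Y y := by
  unfold stat
  have hs : (∑ P ∈ Finset.powersetCard 3 (Finset.univ : Finset (Fin t)),
      (Finset.univ.filter fun z => ∀ p ∈ P, X (x p) z = true).card) =
      ∑ P ∈ Finset.powersetCard 3 (Finset.univ : Finset (Fin t)),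
      (Finset.univ.filter fun z => ∀ p ∈ P, Y (y p) z = true).card :=
    Finset.sum_congr rfl fun P hP => h2 P (Finset.mem_powersetCard.1 hP).2
  simp only [h1, hs]

theorem nbCount_equiv {V W : Type} [Fintype V] [Fintype W] {X : V → V → Bool} {Y : W → W → Bool}
    {t t' : ℕ} {x : Fin t → V} {y : Fin t' → W} {P : Finset (Fin t)} {Q : Finset (Fin t')} (π : V ≃ W)
    (h : ∀ z, (∀ p ∈ P, X (x p) z = true) ↔ ∀ p ∈ Q, Y (y p) (π z) = true) :
    nbCount X x P = nbCount Y y Q := by
  unfold nbCount
  refine Finset.card_equiv π fun z => ?_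
  simp only [Finset.mem_filter, Finset.mem_univ, true_and]
  exact h z

theorem stat_equiv {V W : Type} [Fintype V] [Fintype W] {X : V → V → Bool} {Y : W → W → Bool} {t : ℕ}
    (e : V ≃ W) (he : ∀ a b, Y (e a) (e b) = X a b) (x : Fin t → V) :
    stat Y (e ∘ x) = stat X x := by
  symm
  refine stat_congr (fun i j => (he _ _).symm) fun P _ => nbCount_equiv e fun z => ?_
  simp only [Function.comp, he]

theorem stat_asMatrix {V : Type} [Fintype V] (X : V → V → Bool) {t : ℕ} (x : Fin t → V) :
    stat (asMatrix X) (Fintype.equivFin V ∘ x) = stat X x :=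
  stat_equiv (Fintype.equivFin V) (fun a b => by simp [asMatrix]) x

/-- The local data that determine `stat`. -/
structure StatLoc (G : Fin n → Fin n → Bool) (H : Fin m → Fin m → Bool) (u : Fin k → Fin n)
    (v : Fin k → Fin m) : Prop where
  adj : ∀ i j, G (u i) (u j) = H (v i) (v j)
  nb : ∀ P : Finset (Fin k), P.card < k → nbCount G u P = nbCount H v P

theorem statLoc_of {G : Fin n → Fin n → Bool} {H : Fin m → Fin m → Bool}
    {u : Fin k → Fin n} {v : Fin k → Fin m} (h0 : atomicType G u = atomicType H v)
    (h1 : ∀ i, ∃ π : Fin n ≃ Fin m, ∀ z,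
      atomicType G (Function.update u i z) = atomicType H (Function.update v i (π z))) :
    StatLoc G H u v := by
  refine ⟨fun i j => congrFun (congrFun (congrArg Prod.snd h0) i) j, fun P hP => ?_⟩
  obtain ⟨a, -, ha⟩ : ∃ a, a ∈ (Finset.univ : Finset (Fin k)) ∧ a ∉ P :=
    Finset.exists_mem_notMem_of_card_lt_card (by simpa using hP)
  obtain ⟨π, hπ⟩ := h1 a
  refine nbCount_equiv π fun z => forall₂_congr fun p hp => ?_
  have hpa : p ≠ a := fun h => ha (h ▸ hp)
  have := congrFun (congrFun (congrArg Prod.snd (hπ z)) p) a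
  simp only [atomicType, Function.update_self, Function.update_of_ne hpa] at this
  rw [this]

theorem statLoc_of_scolor {G : Fin n → Fin n → Bool} {H : Fin m → Fin m → Bool}
    {u : Fin k → Fin n} {v : Fin k → Fin m} (h : scolor G k 1 u = scolor H k 1 v) :
    StatLoc G H u v := by
  have h0 := congrArg Prod.fst h
  have h1 := congrArg Prod.snd h
  refine statLoc_of h0 fun i => ?_
  have h2 : ((Finset.univ : Finset (Fin n)).val.map fun z => atomicType G (Function.update u i z)) =
      (Finset.univ : Finset (Fin m)).val.map fun z => atomicType H (Function.update v i z) :=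
    congrFun h1 i
  exact statWL_exists_equiv h2

theorem statLoc_of_jcolor {G : Fin n → Fin n → Bool} {H : Fin m → Fin m → Bool}
    {u : Fin k → Fin n} {v : Fin k → Fin m} (h : jcolor G k 1 u = jcolor H k 1 v) :
    StatLoc G H u v := by
  have h0 := congrArg Prod.fst h
  have h1 : ((Finset.univ : Finset (Fin n)).val.map
        fun z i => atomicType G (Function.update u i z)) =
      (Finset.univ : Finset (Fin m)).val.map fun z i => atomicType H (Function.update v i z) :=
    congrArg Prod.snd h
  obtain ⟨π, hπ⟩ := statWL_exists_equiv h1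
  exact statLoc_of h0 fun i => ⟨π, fun z => congrFun (hπ z) i⟩

theorem cons_eq_update {V : Type} (u : Fin k → V) (z : V) (i : Fin k) (p : Fin (k + 1))
    (hp : p ≠ i.succ) :
    (Fin.cons z u : Fin (k + 1) → V) p =
      Function.update u i z ((Fin.cons i id : Fin (k + 1) → Fin k) p) := by
  induction p using Fin.cases with
  | zero => simp
  | succ j =>
    have : j ≠ i := fun h => hp (by rw [h])
    simp [Function.update_of_ne this]

theorem exists_succ_notMem (P : Finset (Fin (k + 1))) (hP : P.card < k) :
    ∃ i : Fin k, i.succ ∉ P := by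
  by_contra hcon
  push Not at hcon
  have : (Finset.univ.map ⟨Fin.succ, Fin.succ_injective k⟩ : Finset (Fin (k + 1))) ⊆ P := by
    intro x hx
    obtain ⟨i, -, rfl⟩ := Finset.mem_map.1 hx
    exact hcon i
  have := Finset.card_le_card this
  simp at this
  omega

theorem stat_cons_eq (hk : 4 ≤ k) {G : Fin n → Fin n → Bool} {H : Fin m → Fin m → Bool}
    {u : Fin k → Fin n} {v : Fin k → Fin m} {z : Fin n} {w : Fin m}
    (h : ∀ i, StatLoc G H (Function.update u i z) (Function.update v i w)) :
    stat G (Fin.cons z u : Fin (k + 1) → Fin n) = stat H (Fin.cons w v : Fin (k + 1) → Fin m) := by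
  refine stat_congr (fun p q => ?_) fun P hP => ?_
  · obtain ⟨i, hi⟩ := exists_succ_notMem ({p, q} : Finset (Fin (k + 1)))
      (lt_of_le_of_lt Finset.card_le_two (by omega))
    have hp : p ≠ i.succ := fun h => hi (by simp [h])
    have hq : q ≠ i.succ := fun h => hi (by simp [h])
    rw [cons_eq_update u z i p hp, cons_eq_update u z i q hq, cons_eq_update v w i p hp,
      cons_eq_update v w i q hq]
    exact (h i).adj _ _
  · obtain ⟨i, hi⟩ := exists_succ_notMem P (by omega)
    have key : ∀ {N : ℕ} (X : Fin N → Fin N → Bool) (x : Fin k → Fin N) (y : Fin N),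
        nbCount X (Fin.cons y x : Fin (k + 1) → Fin N) P =
          nbCount X (Function.update x i y) (P.image (Fin.cons i id : Fin (k + 1) → Fin k)) := by
      intro N X x y
      refine nbCount_equiv (Equiv.refl _) fun a => ?_
      simp only [Finset.forall_mem_image, Equiv.refl_apply]
      refine forall₂_congr fun p hp => ?_
      rw [cons_eq_update x y i p (fun h => hi (h ▸ hp))]
    rw [key, key]
    exact (h i).nb _ (lt_of_le_of_lt Finset.card_image_le (by omega))

theorem sum_cons_split {V : Type} [Fintype V] (f : (Fin (k + 1) → V) → ℤ) :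
    ∑ x : Fin (k + 1) → V, f x = ∑ u : Fin k → V, ∑ z : V, f (Fin.cons z u : Fin (k + 1) → V) := by
  rw [← (Fin.consEquiv fun _ : Fin (k + 1) => V).sum_comp, Fintype.sum_prod_type, Finset.sum_comm]
  rfl

theorem stat_union_inl {t : ℕ} (G : Fin n → Fin n → Bool) (H : Fin m → Fin m → Bool)
    (u : Fin t → Fin n) : stat (unionAdj G H) (Sum.inl ∘ u) = stat G u := by
  refine stat_congr (fun i j => rfl) fun P hP => ?_
  obtain ⟨p, hp⟩ : P.Nonempty := Finset.card_pos.1 (by omega)
  unfold nbCount
  symm
  refine Finset.card_bij (fun z _ => Sum.inl z) (fun z hz => ?_) (fun a _ b _ h => Sum.inl_injective h)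
    fun z hz => ?_
  · simpa [unionAdj] using hz
  · cases z with
    | inl a => exact ⟨a, by simpa [unionAdj] using hz, rfl⟩
    | inr a =>
      have := (Finset.mem_filter.1 hz).2 p hp
      simp [unionAdj] at this

theorem stat_union_inr {t : ℕ} (G : Fin n → Fin n → Bool) (H : Fin m → Fin m → Bool)
    (u : Fin t → Fin m) : stat (unionAdj G H) (Sum.inr ∘ u) = stat H u := by
  refine stat_congr (fun i j => rfl) fun P hP => ?_
  obtain ⟨p, hp⟩ : P.Nonempty := Finset.card_pos.1 (by omega)
  unfold nbCount
  symm
  refine Finset.card_bij (fun z _ => Sum.inr z) (fun z hz => ?_) (fun a _ b _ h => Sum.inr_injective h)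
    fun z hz => ?_
  · simpa [unionAdj] using hz
  · cases z with
    | inr a => exact ⟨a, by simpa [unionAdj] using hz, rfl⟩
    | inl a =>
      have := (Finset.mem_filter.1 hz).2 p hp
      simp [unionAdj] at this

theorem stat_eq_zero {V : Type} [Fintype V] {X : V → V → Bool} {t : ℕ} {x : Fin t → V} {i j : Fin t}
    (hij : i ≠ j) (h : X (x i) (x j) = false) : stat X x = 0 := by
  unfold stat
  rw [if_neg]
  intro hc
  rw [hc i j hij] at h
  exact Bool.noConfusion h

theorem comp_cons' {V W : Type} (f : V → W) (z : V) (u : Fin k → V) :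
    (Fin.cons (f z) (f ∘ u) : Fin (k + 1) → W) = f ∘ (Fin.cons z u : Fin (k + 1) → V) := by
  funext p
  induction p using Fin.cases with
  | zero => simp
  | succ j => simp

theorem sum_cons_asMatrix {V : Type} [Fintype V] (X : V → V → Bool) (u : Fin k → V) :
    ∑ z, stat (asMatrix X) (Fin.cons z (Fintype.equivFin V ∘ u) : Fin (k + 1) → _) =
      ∑ z, stat X (Fin.cons z u : Fin (k + 1) → V) := by
  rw [← (Fintype.equivFin V).sum_comp]
  refine Finset.sum_congr rfl fun z _ => ?_
  rw [comp_cons', stat_asMatrix]

theorem sum_cons_union_inl (hk : 1 ≤ k) (G : Fin n → Fin n → Bool) (H : Fin m → Fin m → Bool)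
    (u : Fin k → Fin n) :
    ∑ z, stat (unionAdj G H) (Fin.cons z (Sum.inl ∘ u) : Fin (k + 1) → _) =
      ∑ z, stat G (Fin.cons z u : Fin (k + 1) → Fin n) := by
  rw [Fintype.sum_sum_type]
  have h0 : ∑ z : Fin m, stat (unionAdj G H) (Fin.cons (Sum.inr z) (Sum.inl ∘ u) : Fin (k + 1) → _) = 0 := by
    refine Finset.sum_eq_zero fun z _ => ?_
    refine stat_eq_zero (i := 0) (j := Fin.succ ⟨0, hk⟩) (Fin.succ_ne_zero _).symm ?_
    rw [Fin.cons_zero, Fin.cons_succ]
    rfl
  rw [h0, add_zero]
  refine Finset.sum_congr rfl fun z _ => ?_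
  rw [comp_cons', stat_union_inl]

theorem sum_cons_union_inr (hk : 1 ≤ k) (G : Fin n → Fin n → Bool) (H : Fin m → Fin m → Bool)
    (u : Fin k → Fin m) :
    ∑ z, stat (unionAdj G H) (Fin.cons z (Sum.inr ∘ u) : Fin (k + 1) → _) =
      ∑ z, stat H (Fin.cons z u : Fin (k + 1) → Fin m) := by
  rw [Fintype.sum_sum_type]
  have h0 : ∑ z : Fin n, stat (unionAdj G H) (Fin.cons (Sum.inl z) (Sum.inr ∘ u) : Fin (k + 1) → _) = 0 := by
    refine Finset.sum_eq_zero fun z _ => ?_
    refine stat_eq_zero (i := 0) (j := Fin.succ ⟨0, hk⟩) (Fin.succ_ne_zero _).symm ?_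
    rw [Fin.cons_zero, Fin.cons_succ]
    rfl
  rw [h0, zero_add]
  refine Finset.sum_congr rfl fun z _ => ?_
  rw [comp_cons', stat_union_inr]


/-- `stat` summed over all tuples does not depend on the enumeration. -/
theorem sum_stat_asMatrix {V : Type} [Fintype V] [DecidableEq V] (X : V → V → Bool) (t : ℕ) :
    ∑ x : Fin t → Fin (Fintype.card V), stat (asMatrix X) x = ∑ x : Fin t → V, stat X x := by
  rw [← (Equiv.arrowCongr (Equiv.refl (Fin t)) (Fintype.equivFin V)).sum_comp]
  refine Finset.sum_congr rfl fun x _ => ?_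
  exact stat_asMatrix X x

/-- The round-0 component gives the clique condition; for a 3-set `P` pick `a ∉ P` (`4 ≤ k`): the
number of common neighbours of `P` is the number of `z` whose atomic type of `update u a z` has
`adj p a = true` for all `p ∈ P`, i.e. a `Multiset.countP` on the `a`-th multiset of the colour. -/
theorem stat_eq_of_scolor (hk : 4 ≤ k) {G : Fin n → Fin n → Bool} {H : Fin m → Fin m → Bool}
    {u : Fin k → Fin n} {v : Fin k → Fin m} (h : scolor G k 1 u = scolor H k 1 v) :
    stat G u = stat H v := by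
  have hl := statLoc_of_scolor h
  exact stat_congr hl.adj fun P hP => hl.nb P (by omega)

/-- Equal round-2 joint colours give `jcolor 1 u = jcolor 1 v` and a bijection `π` with
`jcolor 1 (update u i z) = jcolor 1 (update v i (π z))` for all `i`.  Every pair and every 3-set of
positions of `Fin.cons z u` lies inside `u` or inside some `update u i z` (`4 ≤ k`), and a round-1
joint colour of a `k`-tuple determines adjacency of its entries and the number of common neighbours of
any three positions.  Hence `stat G (cons z u) = stat H (cons (π z) v)`. -/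
theorem stat_sum_eq_of_jcolor (hk : 4 ≤ k) {G : Fin n → Fin n → Bool} {H : Fin m → Fin m → Bool}
    {u : Fin k → Fin n} {v : Fin k → Fin m} (h : jcolor G k 2 u = jcolor H k 2 v) :
    ∑ z, stat G (Fin.cons z u : Fin (k + 1) → Fin n) = ∑ z, stat H (Fin.cons z v : Fin (k + 1) → Fin m) := by
  have h1 : ((Finset.univ : Finset (Fin n)).val.map
        fun z i => jcolor G k 1 (Function.update u i z)) =
      (Finset.univ : Finset (Fin m)).val.map fun z i => jcolor H k 1 (Function.update v i z) :=
    congrArg Prod.snd h
  obtain ⟨π, hπ⟩ := statWL_exists_equiv h1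
  rw [← π.sum_comp (fun z => stat H (Fin.cons z v : Fin (k + 1) → Fin m))]
  refine Finset.sum_congr rfl fun z _ => ?_
  exact stat_cons_eq hk fun i => statLoc_of_jcolor (congrFun (hπ z) i)

/-- Histogram versions (a bijection of tuples matching colours, or: the sum is a sum over the multiset
of colours of a function of the colour). -/
theorem sum_stat_of_shist (hk : 4 ≤ k) {G : Fin n → Fin n → Bool} {H : Fin m → Fin m → Bool}
    (h : (Finset.univ : Finset (Fin k → Fin n)).val.map (scolor G k 1) =
      (Finset.univ : Finset (Fin k → Fin m)).val.map (scolor H k 1)) :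
    ∑ x : Fin k → Fin n, stat G x = ∑ x : Fin k → Fin m, stat H x := by
  obtain ⟨Φ, hΦ⟩ := statWL_exists_equiv h
  rw [← Φ.sum_comp]
  exact Finset.sum_congr rfl fun u _ => stat_eq_of_scolor hk (hΦ u)

theorem sum_stat_of_jhist (hk : 4 ≤ k) {G : Fin n → Fin n → Bool} {H : Fin m → Fin m → Bool}
    (h : (Finset.univ : Finset (Fin k → Fin n)).val.map (jcolor G k 2) =
      (Finset.univ : Finset (Fin k → Fin m)).val.map (jcolor H k 2)) :
    ∑ x : Fin (k + 1) → Fin n, stat G x = ∑ x : Fin (k + 1) → Fin m, stat H x := by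
  obtain ⟨Φ, hΦ⟩ := statWL_exists_equiv h
  rw [sum_cons_split, sum_cons_split, ← Φ.sum_comp]
  exact Finset.sum_congr rfl fun u _ => stat_sum_eq_of_jcolor hk (hΦ u)

/-- In the disjoint union common neighbours of a nonempty set of `inl` vertices are `inl` vertices, and
`cons z (inl ∘ u)` is a clique only for `z = inl _`. -/
theorem sum_stat_of_pureS (hk : 4 ≤ k) {G : Fin n → Fin n → Bool} {H : Fin m → Fin m → Bool}
    (h : PureSHistEq k 1 G H) : ∑ x : Fin k → Fin n, stat G x = ∑ x : Fin k → Fin m, stat H x := by
  obtain ⟨Φ, hΦ⟩ := statWL_exists_equiv h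
  rw [← Φ.sum_comp]
  refine Finset.sum_congr rfl fun u _ => ?_
  have := stat_eq_of_scolor hk (hΦ u)
  rwa [stat_asMatrix, stat_asMatrix, stat_union_inl, stat_union_inr] at this

theorem sum_stat_of_pureJ (hk : 4 ≤ k) {G : Fin n → Fin n → Bool} {H : Fin m → Fin m → Bool}
    (h : PureJHistEq k 2 G H) :
    ∑ x : Fin (k + 1) → Fin n, stat G x = ∑ x : Fin (k + 1) → Fin m, stat H x := by
  obtain ⟨Φ, hΦ⟩ := statWL_exists_equiv h
  rw [sum_cons_split, sum_cons_split, ← Φ.sum_comp]
  refine Finset.sum_congr rfl fun u _ => ?_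
  have := stat_sum_eq_of_jcolor hk (hΦ u)
  rwa [sum_cons_asMatrix, sum_cons_asMatrix, sum_cons_union_inl (by omega),
    sum_cons_union_inr (by omega)] at this

end Crest.Agent.R290
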