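/-
R290/LiftMain: assembly of S0438.  Author: helper86.
-/
import Crest.Agent.R290.GameApex
import Crest.Agent.R290.StatWL
import Crest.Agent.R290.LiftDup
import Crest.Agent.R290.LiftSpo

set_option autoImplicit false

namespace Crest.Agent.R290

open Crest.WLRefine Crest.WLRefine.ParityLift

theorem lift_game_mat {t : ℕ} (ht : 3 ≤ t) (C : ChoiceSystem t) (hC : ¬ C.Successful) :
    Game t (mat (asMatrix (liftAdj C (lift0Parity t)))) (mat (asMatrix (liftAdj C (liftStarParity t)))) :=
  (game_congr (Fintype.equivFin _).symm (Fintype.equivFin _).symm (fun _ _ => Iff.rfl)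
    (fun _ _ => Iff.rfl)).2 (lift_game ht C hC)

theorem lift_stat_mat {t : ℕ} (ht : 4 ≤ t) (C : ChoiceSystem t) (hC : C.Successful) :
    ∑ x : Fin t → Fin _, stat (asMatrix (liftAdj C (lift0Parity t))) x ≠
      ∑ x : Fin t → Fin _, stat (asMatrix (liftAdj C (liftStarParity t))) x := by
  rw [sum_stat_asMatrix, sum_stat_asMatrix]
  exact lift_stat ht C hC

theorem lift_joint {k : ℕ} (hk : 4 ≤ k) (C : ChoiceSystem (k + 1)) :
      IsSimple (asMatrix (liftAdj C (lift0Parity (k + 1)))) ∧ IsSimple (asMatrix (liftAdj C (liftStarParity (k + 1)))) ∧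
      Fintype.card (LiftV C (lift0Parity (k + 1))) = Fintype.card (LiftV C (liftStarParity (k + 1))) ∧
      (∀ A : ℕ, 1 ≤ A → C.SizeAtMost A →
        Fintype.card (LiftV C (lift0Parity (k + 1))) ≤ A * orderFactor (k + 1)) ∧
      (JEquiv k (asMatrix (liftAdj C (lift0Parity (k + 1)))) (asMatrix (liftAdj C (liftStarParity (k + 1)))) ↔ ¬ C.Successful) ∧
      (PureJEquiv k (asMatrix (liftAdj C (lift0Parity (k + 1)))) (asMatrix (liftAdj C (liftStarParity (k + 1)))) ↔ ¬ C.Successful) ∧
      (C.Successful → (Finset.univ.val.map (jcolor (asMatrix (liftAdj C (lift0Parity (k + 1)))) k 2)) ≠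
          Finset.univ.val.map (jcolor (asMatrix (liftAdj C (liftStarParity (k + 1)))) k 2) ∧
        ¬ PureJHistEq k 2 (asMatrix (liftAdj C (lift0Parity (k + 1)))) (asMatrix (liftAdj C (liftStarParity (k + 1))))) := by
  refine ⟨lift_isSimple _ _, lift_isSimple _ _, card_lift_eq (by omega) _ _ _,
    fun A _ hA => card_lift_le (by omega) _ _ A hA, ⟨fun h hC => ?_, fun hC => ?_⟩,
    ⟨fun h hC => ?_, fun hC => ?_⟩, fun hC => ⟨fun h => ?_, fun h => ?_⟩⟩
  · exact lift_stat_mat (by omega) C hC (sum_stat_of_jhist hk (h 2))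
  · exact (jequiv_iff_game (by omega)).2 (lift_game_mat (by omega) C hC)
  · exact lift_stat_mat (by omega) C hC (sum_stat_of_pureJ hk (h 2))
  · exact pureJEquiv_of_game (lift_game_mat (by omega) C hC)
  · exact lift_stat_mat (by omega) C hC (sum_stat_of_jhist hk h)
  · exact lift_stat_mat (by omega) C hC (sum_stat_of_pureJ hk h)

theorem lift_sep {k : ℕ} (hk : 4 ≤ k) (C : ChoiceSystem k) :
      IsSimple (asMatrix (liftAdj C (lift0Parity k))) ∧ IsSimple (asMatrix (liftAdj C (liftStarParity k))) ∧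
      Fintype.card (LiftV C (lift0Parity k)) = Fintype.card (LiftV C (liftStarParity k)) ∧
      (∀ A : ℕ, 1 ≤ A → C.SizeAtMost A →
        Fintype.card (LiftV C (lift0Parity k)) ≤ A * orderFactor k) ∧
      (SEquiv k (asMatrix (liftAdj C (lift0Parity k))) (asMatrix (liftAdj C (liftStarParity k))) ↔ ¬ C.Successful) ∧
      (PureSEquiv k (asMatrix (liftAdj C (lift0Parity k))) (asMatrix (liftAdj C (liftStarParity k))) ↔ ¬ C.Successful) ∧
      (C.Successful → (Finset.univ.val.map (scolor (asMatrix (liftAdj C (lift0Parity k))) k 1)) ≠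
          Finset.univ.val.map (scolor (asMatrix (liftAdj C (liftStarParity k))) k 1) ∧
        ¬ PureSHistEq k 1 (asMatrix (liftAdj C (lift0Parity k))) (asMatrix (liftAdj C (liftStarParity k)))) := by
  refine ⟨lift_isSimple _ _, lift_isSimple _ _, card_lift_eq (by omega) _ _ _,
    fun A _ hA => card_lift_le hk _ _ A hA, ⟨fun h hC => ?_, fun hC => ?_⟩,
    ⟨fun h hC => ?_, fun hC => ?_⟩, fun hC => ⟨fun h => ?_, fun h => ?_⟩⟩
  · exact lift_stat_mat hk C hC (sum_stat_of_shist hk (h 1))
  · exact (sequiv_iff_game (by omega)).2 (lift_game_mat (by omega) C hC)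
  · exact lift_stat_mat hk C hC (sum_stat_of_pureS hk (h 1))
  · exact pureSEquiv_of_game (lift_game_mat (by omega) C hC)
  · exact lift_stat_mat hk C hC (sum_stat_of_shist hk h)
  · exact lift_stat_mat hk C hC (sum_stat_of_pureS hk h)

end Crest.Agent.R290
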