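/-
R290/RamSim: a polynomial-time interpreter for word-RAM programs, uniform in the program.
Skeleton by helper86; keep the statements of the theorems unchanged (add any helper lemmas you like).
Proof by helper18.
-/
import Crest.Agent.R290.Defs

set_option autoImplicit false

namespace Crest.Agent.R290

open Crest.Agent.Lib.PolyTime Crest.WordRAM

namespace RamSim

section bitwise
variable {α : Type} [Enc α]

@[fun_prop] theorem pt_land {f g : α → ℕ} (hf : PT f) (hg : PT g) : PT fun a => f a &&& g a :=
  PT.binRec₂ (fun m n => m &&& n) (fun x y s => Nat.bit (x && y) s) 6 hf hg (by fun_prop)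
    (fun x y m n => Nat.land_bit x m y n)
    (fun k m n _ hn => by
      have := esize_nat_le_of_lt_two_pow (Nat.and_lt_two_pow m hn)
      omega)

@[fun_prop] theorem pt_lor {f g : α → ℕ} (hf : PT f) (hg : PT g) : PT fun a => f a ||| g a :=
  PT.binRec₂ (fun m n => m ||| n) (fun x y s => Nat.bit (x || y) s) 6 hf hg (by fun_prop)
    (fun x y m n => Nat.lor_bit x m y n)
    (fun k m n hm hn => by
      have := esize_nat_le_of_lt_two_pow (Nat.or_lt_two_pow hm hn)
      omega)

@[fun_prop] theorem pt_xor {f g : α → ℕ} (hf : PT f) (hg : PT g) : PT fun a => f a ^^^ g a :=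
  PT.binRec₂ (fun m n => m ^^^ n) (fun x y s => Nat.bit (xor x y) s) 6 hf hg (by fun_prop)
    (fun x y m n => by rw [Nat.xor_bit])
    (fun k m n hm hn => by
      have := esize_nat_le_of_lt_two_pow (Nat.xor_lt_two_pow hm hn)
      omega)

end bitwise

/-- Interpreter state: program counter, halting flag, register writes, memory writes. -/
abbrev St : Type := ℕ × Bool × List (ℕ × ℕ) × List (ℕ × ℕ)

/-- Interpreter parameters: the coded program, the word length in unary, the input. -/
abbrev Par : Type := List (List ℕ) × List Unit × List Bool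

/-- Read an association list with a default. -/
def rd (L : List (ℕ × ℕ)) (k d : ℕ) : ℕ := (L.lookup k).getD d

/-- The initial content of a memory cell. -/
def inp (u : List Unit) (w : List Bool) (a : ℕ) : ℕ := (w.getD a false).toNat % 2 ^ u.length

/-- The value written to a register (before reduction). -/
def alu (u : List Unit) (op v x y m : ℕ) : ℕ :=
  if op = 0 then v else if op = 1 then x else if op = 2 then x + y else if op = 3 then x - y
  else if op = 4 then x * y else if op = 5 then x / y else if op = 6 then x % y
  else if op = 7 then x &&& y else if op = 8 then x ||| y else if op = 9 then x ^^^ y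
  else if op = 10 then (if y < u.length then x <<< min y u.length else 0)
  else if op = 11 then (if y < u.length then x >>> y else 0)
  else if op = 12 then m else 0

/-- Execute the coded instruction `[op, d, a, b]`, where `x`, `y` are the contents of the registers
`a`, `b` and `m` is the memory cell at `x`. -/
def exec (u : List Unit) (s : St) (op d a x y m : ℕ) : St :=
  if op ≤ 13 then (s.1 + 1, false, (d, alu u op a x y m % 2 ^ u.length) :: s.2.2.1, s.2.2.2)
  else if op = 14 then
    (s.1 + 1, false, s.2.2.1, (x % 2 ^ u.length, y % 2 ^ u.length) :: s.2.2.2)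
  else if op = 15 then (d, false, s.2.2.1, s.2.2.2)
  else if op = 16 then (if x = 0 then d else s.1 + 1, false, s.2.2.1, s.2.2.2)
  else if op = 17 then (if x = y then d else s.1 + 1, false, s.2.2.1, s.2.2.2)
  else if op = 18 then (if x < y then d else s.1 + 1, false, s.2.2.1, s.2.2.2)
  else (s.1, true, s.2.2.1, s.2.2.2)

/-- Fetch the operands and execute. -/
def fetch (q : Par) (s : St) (i : List ℕ) : St :=
  exec q.2.1 s (i.getD 0 0) (i.getD 1 0) (i.getD 2 0) (rd s.2.2.1 (i.getD 2 0) 0)
    (rd s.2.2.1 (i.getD 3 0) 0)
    (rd s.2.2.2 (rd s.2.2.1 (i.getD 2 0) 0) (inp q.2.1 q.2.2 (rd s.2.2.1 (i.getD 2 0) 0)))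

/-- One step of the interpreter. -/
def istep (q : Par) (s : St) : St :=
  bif s.2.1 then s else fetch q s (q.1.getD s.1 [19])

/-- The initial state; `r` is the number of registers in unary. -/
def istart (q : Par) (r : List Unit) : St :=
  (0, false, bif r.isEmpty then [] else [(0, q.2.2.length % 2 ^ q.2.1.length)], [])

/-- The acceptance test. -/
def iacc (q : Par) (s : St) : Bool :=
  decide (rd s.2.2.1 0 0 = 1 ∧ rd s.2.2.2 (rd s.2.2.1 1 0) (inp q.2.1 q.2.2 (rd s.2.2.1 1 0)) = 1)

/-- The code of an instruction. -/
def code {r : ℕ} : Instr r → List ℕ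
  | .const d v => [0, d, v, 0]
  | .copy d s => [1, d, s, 0]
  | .add d a b => [2, d, a, b]
  | .sub d a b => [3, d, a, b]
  | .mul d a b => [4, d, a, b]
  | .quot d a b => [5, d, a, b]
  | .rem d a b => [6, d, a, b]
  | .and d a b => [7, d, a, b]
  | .or d a b => [8, d, a, b]
  | .xor d a b => [9, d, a, b]
  | .shl d a b => [10, d, a, b]
  | .shr d a b => [11, d, a, b]
  | .load d a => [12, d, a, 0]
  | .rand d => [13, d, 0, 0]
  | .store s a => [14, 0, a, s]
  | .jump l => [15, l, 0, 0]
  | .jumpIfZero a l => [16, l, a, 0]
  | .jumpIfEq a b l => [17, l, a, b]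
  | .jumpIfLt a b l => [18, l, a, b]
  | .halt => [19]

section pt
variable {α : Type} [Enc α]

@[fun_prop] theorem pt_rd {L : α → List (ℕ × ℕ)} {k d : α → ℕ} (hL : PT L) (hk : PT k)
    (hd : PT d) : PT fun a => rd (L a) (k a) (d a) := by
  unfold rd; fun_prop

@[fun_prop] theorem pt_inp {u : α → List Unit} {w : α → List Bool} {k : α → ℕ} (hu : PT u)
    (hw : PT w) (hk : PT k) : PT fun a => inp (u a) (w a) (k a) := by
  unfold inp; fun_prop

@[fun_prop] theorem pt_alu {u : α → List Unit} {op v x y m : α → ℕ} (hu : PT u) (hop : PT op)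
    (hv : PT v) (hx : PT x) (hy : PT y) (hm : PT m) :
    PT fun a => alu (u a) (op a) (v a) (x a) (y a) (m a) := by
  unfold alu; fun_prop

@[fun_prop] theorem pt_exec {u : α → List Unit} {s : α → St} {op d v x y m : α → ℕ} (hu : PT u)
    (hs : PT s) (hop : PT op) (hd : PT d) (hv : PT v) (hx : PT x) (hy : PT y) (hm : PT m) :
    PT fun a => exec (u a) (s a) (op a) (d a) (v a) (x a) (y a) (m a) := by
  unfold exec; fun_prop

@[fun_prop] theorem pt_fetch {q : α → Par} {s : α → St} {i : α → List ℕ} (hq : PT q) (hs : PT s)
    (hi : PT i) : PT fun a => fetch (q a) (s a) (i a) := by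
  unfold fetch; fun_prop

@[fun_prop] theorem pt_istep {q : α → Par} {s : α → St} (hq : PT q) (hs : PT s) :
    PT fun a => istep (q a) (s a) := by
  unfold istep; fun_prop

@[fun_prop] theorem pt_istart {q : α → Par} {r : α → List Unit} (hq : PT q) (hr : PT r) :
    PT fun a => istart (q a) (r a) := by
  unfold istart; fun_prop

@[fun_prop] theorem pt_iacc {q : α → Par} {s : α → St} (hq : PT q) (hs : PT s) :
    PT fun a => iacc (q a) (s a) := by
  unfold iacc; fun_prop

theorem esize_getD_le {β : Type} [Enc β] (l : List β) (i : ℕ) (d : β) :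
    esize (l.getD i d) ≤ esize l + esize d := by
  rcases lt_or_ge i l.length with h | h
  · rw [List.getD_eq_getElem _ _ h]
    have := esize_lt_of_mem (List.getElem_mem h)
    omega
  · rw [List.getD_eq_default _ _ h]; omega

theorem esize_exec_le (u : List Unit) (s : St) (op d v x y m : ℕ) :
    esize (exec u s op d v x y m) ≤ esize s + (esize d + 12 * u.length + 20) := by
  obtain ⟨pc, h, R, M⟩ := s
  have hp : 0 < 2 ^ u.length := Nat.two_pow_pos _
  have h1 := esize_nat_le_of_lt_two_pow (Nat.mod_lt (alu u op v x y m) hp)
  have h2 := esize_nat_le_of_lt_two_pow (Nat.mod_lt x hp)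
  have h3 := esize_nat_le_of_lt_two_pow (Nat.mod_lt y hp)
  have h4 := esize_nat_succ_le pc
  have h5 := esize_bool_le false
  have h6 := esize_bool_le true
  have h7 := esize_pos h
  unfold exec
  split_ifs <;> simp only [esize_pair, esize_cons] <;> omega

theorem esize_istep_le (q : Par) (s : St) :
    esize (istep q s) ≤ esize s + (esize q.1 + 12 * q.2.1.length + 100) := by
  unfold istep
  cases s.2.1
  · have h1 := esize_getD_le q.1 s.1 [19]
    have h2 := esize_getD_le (q.1.getD s.1 [19]) 1 0
    have h3 : esize ([19] : List ℕ) ≤ 40 := by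
      have := esize_nat_le_of_lt_two_pow (n := 19) (k := 5) (by norm_num)
      simp only [esize_cons, esize_nil]; omega
    have h4 := esize_nat_le_self 0
    refine (esize_exec_le _ _ _ _ _ _ _ _).trans ?_
    omega
  · simp

theorem pt_irun {q : α → Par} {r : α → List Unit} {n : α → List Unit} (hq : PT q) (hr : PT r)
    (hn : PT n) : PT fun a => (istep (q a))^[(n a).length] (istart (q a) (r a)) :=
  PT.iterate_grow (f := fun a => istep (q a))
    (fun a => esize (q a).1 + 12 * (q a).2.1.length + 100) (by fun_prop) (by fun_prop)
    (by fun_prop) (by fun_prop) (by fun_prop) fun a c => esize_istep_le _ _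

end pt

/-- The interpreter state represents the configuration. -/
structure Sim {r : ℕ} (u : List Unit) (w : List Bool) (c : Cfg r) (s : St) : Prop where
  pc : s.1 = c.pc
  halted : s.2.1 = c.halted
  reg : ∀ k, rd s.2.2.1 k 0 = c.reg k
  mem : ∀ a, rd s.2.2.2 a (inp u w a) = c.mem a
  reg_lt : ∀ j, c.regs j < 2 ^ u.length
  mem_lt : ∀ a, c.mem a < 2 ^ u.length

theorem reg_val {r : ℕ} (c : Cfg r) (j : Fin r) : c.reg j.val = c.regs j := by
  simp [Cfg.reg, j.2]

theorem rd_cons (L : List (ℕ × ℕ)) (d v k e : ℕ) :
    rd ((d, v) :: L) k e = if k = d then v else rd L k e := by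
  unfold rd
  by_cases h : k = d
  · simp [h]
  · have : (k == d) = false := by simpa using h
    simp [List.lookup_cons, this, h]

theorem Sim.write {r : ℕ} {u : List Unit} {w : List Bool} {c : Cfg r} {s : St} (h : Sim u w c s)
    {b : Bool} {d : Fin r} {v v' dr : ℕ} (hv : v % 2 ^ u.length = v') :
    Sim u w ⟨c.pc + 1, b, writeReg c.regs d v', c.mem, dr⟩
      (s.1 + 1, b, (d.val, v % 2 ^ u.length) :: s.2.2.1, s.2.2.2) where
  pc := by simp [h.pc]
  halted := rfl
  reg k := by
    simp only [rd_cons, h.reg, Cfg.reg, writeReg, hv, Fin.ext_iff]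
    have := d.2
    split_ifs <;> first | rfl | omega
  mem := h.mem
  reg_lt j := by
    simp only [writeReg]
    split_ifs
    · rw [← hv]; exact Nat.mod_lt _ (Nat.two_pow_pos _)
    · exact h.reg_lt j
  mem_lt := h.mem_lt

theorem Sim.jump {r : ℕ} {u : List Unit} {w : List Bool} {c : Cfg r} {s : St} (h : Sim u w c s)
    {l l' : ℕ} {b : Bool} (hl : l = l') :
    Sim u w ⟨l', b, c.regs, c.mem, c.drawn⟩ (l, b, s.2.2.1, s.2.2.2) :=
  ⟨hl, rfl, h.reg, h.mem, h.reg_lt, h.mem_lt⟩

theorem Sim.store {r : ℕ} {u : List Unit} {w : List Bool} {c : Cfg r} {s : St} (h : Sim u w c s)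
    {e : Bool} (a b : Fin r) :
    Sim u w ⟨c.pc + 1, e, c.regs, writeMem c.mem (c.regs a) (c.regs b), c.drawn⟩
      (s.1 + 1, e, s.2.2.1,
        (c.regs a % 2 ^ u.length, c.regs b % 2 ^ u.length) :: s.2.2.2) where
  pc := by simp [h.pc]
  halted := rfl
  reg := h.reg
  mem k := by
    simp only [rd_cons, h.mem, writeMem, Nat.mod_eq_of_lt (h.reg_lt _)]
  reg_lt := h.reg_lt
  mem_lt k := by
    simp only [writeMem]
    split_ifs
    · exact h.reg_lt b
    · exact h.mem_lt k

theorem Sim.step {P : Program} {u : List Unit} {w : List Bool} {c : Cfg P.numRegs} {s : St}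
    (h : Sim u w c s) :
    Sim u w (step P u.length (fun _ => 0) c) (istep (P.code.map code, u, w) s) := by
  unfold istep WordRAM.step
  rw [h.halted]
  cases hh : c.halted
  swap
  · simpa using h
  simp only [cond_false, Bool.false_eq_true, if_false, h.pc, List.getD_eq_getElem?_getD,
    List.getElem?_map]
  have hlt := h.reg_lt
  have hle : ∀ (j : Fin P.numRegs) (v : ℕ), v ≤ c.regs j → v % 2 ^ u.length = v :=
    fun j v hv => Nat.mod_eq_of_lt (hv.trans_lt (hlt j))
  cases P.code[c.pc]? with
  | none => exact h.jump h.pc
  | some ins =>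
    cases ins <;>
      simp only [Option.map_some, Option.getD_some, fetch, code, exec, alu, List.getD_cons_zero,
        List.getD_cons_succ, h.reg, reg_val, h.mem, Nat.reduceLeDiff, Nat.reduceEqDiff, if_true,
        if_false]
    case const => exact h.write rfl
    case copy => exact h.write (hle _ _ le_rfl)
    case add => exact h.write rfl
    case sub => exact h.write (hle _ _ (Nat.sub_le _ _))
    case mul => exact h.write rfl
    case quot => exact h.write (hle _ _ (Nat.div_le_self _ _))
    case rem => exact h.write (hle _ _ (Nat.mod_le _ _))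
    case and => exact h.write (hle _ _ Nat.and_le_left)
    case or => exact h.write (Nat.mod_eq_of_lt (Nat.or_lt_two_pow (hlt _) (hlt _)))
    case xor => exact h.write (Nat.mod_eq_of_lt (Nat.xor_lt_two_pow (hlt _) (hlt _)))
    case shl =>
      refine h.write ?_
      split_ifs with hb
      · rw [min_eq_left hb.le]
      · simp
    case shr d a b =>
      refine h.write (hle a _ ?_)
      split_ifs
      · exact Nat.shiftRight_le _ _
      · exact Nat.zero_le _
    case load => exact h.write (Nat.mod_eq_of_lt (h.mem_lt _))
    case store => exact h.store _ _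
    case jump => exact h.jump rfl
    case jumpIfZero => exact h.jump (by rw [h.pc])
    case jumpIfEq => exact h.jump (by rw [h.pc])
    case jumpIfLt => exact h.jump (by rw [h.pc])
    case rand => exact h.write rfl
    case halt => exact h.jump h.pc

theorem sim_init (P : Program) (u : List Unit) (w : List Bool) :
    Sim u w (init P u.length (w.map fun b => if b then 1 else 0))
      (istart (P.code.map code, u, w) (List.replicate P.numRegs ())) where
  pc := rfl
  halted := rfl
  reg k := by
    simp only [istart, init, Cfg.reg, List.length_map]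
    rcases Nat.eq_zero_or_pos P.numRegs with h | h
    · simp [h, rd]
    · have : (List.replicate P.numRegs ()).isEmpty = false := by simp; omega
      simp only [this, cond_false, rd_cons]
      split_ifs <;> first | rfl | omega
  mem a := by
    simp only [istart, init, rd, inp, List.lookup_nil, Option.getD_none, List.getD_eq_getElem?_getD,
      List.getElem?_map]
    rcases w[a]? with _ | _ | _ <;> rfl
  reg_lt j := by
    simp only [init]
    split_ifs
    · exact Nat.mod_lt _ (Nat.two_pow_pos _)
    · exact Nat.two_pow_pos _
  mem_lt a := Nat.mod_lt _ (Nat.two_pow_pos _)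

theorem sim_run (P : Program) (u : List Unit) (w : List Bool) (T : ℕ) :
    Sim u w (run P u.length (fun _ => 0) (w.map fun b => if b then 1 else 0) T)
      ((istep (P.code.map code, u, w))^[T]
        (istart (P.code.map code, u, w) (List.replicate P.numRegs ()))) := by
  unfold run
  induction T with
  | zero => exact sim_init P u w
  | succ T ih => rw [Function.iterate_succ_apply', Function.iterate_succ_apply']; exact ih.step

theorem run_of_halted (P : Program) (W : ℕ) (ρ : ℕ → ℕ) (x : List ℕ) {T T' : ℕ} (hT : T ≤ T')
    (h : (run P W ρ x T).halted = true) : run P W ρ x T' = run P W ρ x T := by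
  obtain ⟨k, rfl⟩ := Nat.exists_eq_add_of_le' hT
  unfold run at *
  rw [Function.iterate_add_apply]
  exact Function.iterate_fixed (by rw [WordRAM.step, if_pos h]) k

theorem output_eq_one {r : ℕ} (c : Cfg r) :
    c.output = [1] ↔ c.reg 0 = 1 ∧ c.mem (c.reg 1) = 1 := by
  unfold Cfg.output
  constructor
  · intro h
    have h1 : c.reg 0 = 1 := by simpa using congrArg List.length h
    rw [h1] at h
    exact ⟨h1, by simpa using h⟩
  · rintro ⟨h1, h2⟩
    rw [h1]; simpa using h2

theorem Sim.acc {r : ℕ} {u : List Unit} {w : List Bool} {c : Cfg r} {s : St} (h : Sim u w c s)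
    (C : List (List ℕ)) : iacc (C, u, w) s = true ↔ c.output = [1] := by
  simp only [iacc, decide_eq_true_eq, h.reg, h.mem, output_eq_one]

/-- The interpreter parameters read off the input. -/
def par (x : (List (List ℕ) × List Unit × List Unit) × ℕ × List Bool × List Unit) : Par :=
  (x.1.1, List.replicate (x.1.2.2.length * Nat.clog 2 (x.2.1 + 2)) (), x.2.2.1)

theorem pt_par : PT par := by unfold par; fun_prop

end RamSim

open RamSim in
/-- Recipe.  Encode an instruction as a list of numbers (opcode, operands), the number of registers and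
`c₀` in unary.  Interpreter state: (pc, halted, registers as a list of length `numRegs`, memory as an
association list of writes consulted before the input); word length `w = c₀ * clog 2 (n + 2)` is `PB`;
all register values stay `< 2 ^ w` up to reduction (or clip every written value with `% 2 ^ w`, which is
the identity on runs: prove the invariant "all registers and cells are `< 2 ^ w`"); with the stream
`fun _ => 0` the instruction `rand` writes `0`.  Bitwise operations: add `PT` lemmas via `Nat.bitwise` /
`binRec₂` or `testBit`.  Shifts: the amount is `< w` in the branch used (clip with `min`).  Run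
`pad.length` steps; a halted configuration is fixed; `output = [1] ↔ reg 0 = 1 ∧ mem (reg 1) = 1`. -/
theorem exists_ram_interp :
    ∃ I : (List (List ℕ) × List Unit × List Unit) × ℕ × List Bool × List Unit → Bool, PT I ∧
      ∀ (P : Program) (c₀ : ℕ), ∃ p, ∀ (n : ℕ) (w : List Bool) (pad : List Unit) (T : ℕ),
        T ≤ pad.length →
        (run P (c₀ * Nat.clog 2 (n + 2)) (fun _ => 0) (w.map fun b => if b then 1 else 0) T).halted = true →
        (I (p, n, w, pad) = true ↔
          (run P (c₀ * Nat.clog 2 (n + 2)) (fun _ => 0) (w.map fun b => if b then 1 else 0) T).output = [1]) := by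
  refine ⟨fun x => iacc (par x) ((istep (par x))^[x.2.2.2.length] (istart (par x) x.1.2.1)),
    pt_iacc pt_par (pt_irun pt_par (by fun_prop) (by fun_prop)), fun P c₀ =>
    ⟨(P.code.map code, List.replicate P.numRegs (), List.replicate c₀ ()),
      fun n w pad T hT hh => ?_⟩⟩
  have h := (sim_run P (List.replicate (c₀ * Nat.clog 2 (n + 2)) ()) w pad.length).acc
    (P.code.map code)
  rw [List.length_replicate, run_of_halted _ _ _ _ hT hh] at h
  simpa only [par, List.length_replicate] using h

end Crest.Agent.R290
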