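/-
R290/Lower: the unconditional lower bounds.  Author: helper86.
-/
import Crest.Agent.R290.Diag
import Crest.Agent.R290.RamSim

set_option autoImplicit false

namespace Crest.Agent.R290

open Crest.WLRefine Crest.Agent.Lib.PolyTime

theorem lower_ram :
    ∃ c : ℝ, 0 < c ∧ ∃ k₀ : ℕ, ∀ k ≥ k₀, ∀ c₀ : ℕ,
      (∀ (P : Crest.WordRAM.Program) (T : ℕ → ℕ),
        (∀ (n : ℕ) (G H : Fin n → Fin n → Bool), Crest.WLRefine.SimpleConnDiamTwo G →
          Crest.WLRefine.SimpleConnDiamTwo H → ∀ ρ : ℕ → ℕ,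
            (Crest.WordRAM.run P (c₀ * Nat.clog 2 (n + 2)) ρ (((Crest.WLRefine.adjMatrixCode G ++ Crest.WLRefine.adjMatrixCode H).map fun b => if b then 1 else 0)) (T n)).halted = true ∧
            ((Crest.WordRAM.run P (c₀ * Nat.clog 2 (n + 2)) ρ (((Crest.WLRefine.adjMatrixCode G ++ Crest.WLRefine.adjMatrixCode H).map fun b => if b then 1 else 0)) (T n)).output = [1] ↔ Crest.WLRefine.JEquiv k G H)) →
        ∃ n₀ : ℕ, ∀ n ≥ n₀, (n : ℝ) ^ (c * k) ≤ T n) ∧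
      (∀ (P : Crest.WordRAM.Program) (T : ℕ → ℕ),
        (∀ (n : ℕ) (G H : Fin n → Fin n → Bool), Crest.WLRefine.SimpleConnDiamTwo G →
          Crest.WLRefine.SimpleConnDiamTwo H → ∀ ρ : ℕ → ℕ,
            (Crest.WordRAM.run P (c₀ * Nat.clog 2 (n + 2)) ρ (((Crest.WLRefine.adjMatrixCode G ++ Crest.WLRefine.adjMatrixCode H).map fun b => if b then 1 else 0)) (T n)).halted = true ∧
            ((Crest.WordRAM.run P (c₀ * Nat.clog 2 (n + 2)) ρ (((Crest.WLRefine.adjMatrixCode G ++ Crest.WLRefine.adjMatrixCode H).map fun b => if b then 1 else 0)) (T n)).output = [1] ↔ Crest.WLRefine.SEquiv k G H)) →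
        ∃ n₀ : ℕ, ∀ n ≥ n₀, (n : ℝ) ^ (c * k) ≤ T n) := by
  obtain ⟨I, hI, hP⟩ := exists_ram_interp
  obtain ⟨c, hc, r₀, h⟩ := diag I hI
  refine ⟨c, hc, r₀ + 2, fun k hk c₀ => ⟨fun P T hT => ?_, fun P T hT => ?_⟩⟩
  · obtain ⟨p, hp⟩ := hP P c₀
    obtain ⟨n₀, hn⟩ := h k (by omega) p T fun n G H pad hG hH hpad => by
      rw [hp n _ pad (T n) hpad (hT n G H hG hH _).1, (hT n G H hG hH _).2, jequiv_iff_game (by omega)]
    refine ⟨n₀ + 1, fun n hn' => le_trans ?_ (hn n (by omega))⟩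
    exact Real.rpow_le_rpow_of_exponent_le (by exact_mod_cast (by omega : 1 ≤ n)) (by nlinarith)
  · obtain ⟨p, hp⟩ := hP P c₀
    obtain ⟨r, rfl⟩ : ∃ r, k = r + 1 := ⟨k - 1, by omega⟩
    obtain ⟨n₀, hn⟩ := h r (by omega) p T fun n G H pad hG hH hpad => by
      rw [hp n _ pad (T n) hpad (hT n G H hG hH _).1, (hT n G H hG hH _).2, sequiv_iff_game (by omega)]
    exact ⟨n₀, fun n hn' => by simpa using hn n hn'⟩

theorem absorb {c : ℝ} (hc : 0 < c) (c' : ℕ) : ∃ n₁ : ℕ, ∀ n ≥ n₁, ∀ (k r : ℕ) (t : ℕ), 1 ≤ k → k ≤ r + 1 →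
    (n : ℝ) ^ (c * (r + 1)) ≤ (c' * (t + 1) : ℕ) → (n : ℝ) ^ (c / 2 * k) ≤ t := by
  have h1 : Filter.Tendsto (fun n : ℕ => (n : ℝ) ^ (c / 2)) Filter.atTop Filter.atTop :=
    (tendsto_rpow_atTop (by positivity)).comp tendsto_natCast_atTop_atTop
  obtain ⟨n₁, hn₁⟩ := Filter.eventually_atTop.1 (h1.eventually_ge_atTop (2 * c' + 1))
  refine ⟨n₁ + 1, fun n hn k r t hk hkr h => ?_⟩
  have hn1 : (1 : ℝ) ≤ n := by exact_mod_cast (by omega : 1 ≤ n)
  have hk' : (1 : ℝ) ≤ k := by exact_mod_cast hk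
  have hkr' : (k : ℝ) ≤ r + 1 := by exact_mod_cast hkr
  have h2 : (2 * c' + 1 : ℝ) ≤ (n : ℝ) ^ (c / 2 * k) :=
    (hn₁ n (by omega)).trans (Real.rpow_le_rpow_of_exponent_le hn1 (by nlinarith))
  have h3 : (n : ℝ) ^ (c / 2 * k) * (n : ℝ) ^ (c / 2 * k) ≤ (n : ℝ) ^ (c * (r + 1)) := by
    rw [← Real.rpow_add (by positivity)]
    exact Real.rpow_le_rpow_of_exponent_le hn1 (by nlinarith)
  push_cast at h
  have h4 : (0 : ℝ) ≤ c' := by positivity
  have h5 : (0 : ℝ) ≤ t := by positivity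
  by_contra h6
  rw [not_le] at h6
  nlinarith

theorem lower_tm_aux : ∃ c : ℝ, 0 < c ∧ ∃ r₀ : ℕ, ∀ r ≥ r₀, ∀ k, 1 ≤ k → k ≤ r + 1 →
    ∀ (g : diamTwoPairCodes → Bool),
      (∀ (n : ℕ) (G H : Fin n → Fin n → Bool) (h : adjMatrixCode G ++ adjMatrixCode H ∈ diamTwoPairCodes),
        SimpleConnDiamTwo G → SimpleConnDiamTwo H → (Game (r + 1) (mat G) (mat H) ↔ g ⟨_, h⟩ = true)) →
      ∀ M : Turing.TM2ComputableInTime (fun x : diamTwoPairCodes => x.1) Computability.encodeBool g,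
        ∃ n₀ : ℕ, ∀ n ≥ n₀, (n : ℝ) ^ (c * k) ≤ M.time (2 * ((Crest.Enc.natCode n).length + n * n)) := by
  have hI : PT fun x : GM × ℕ × List Bool × List Unit =>
      decide (GM.lab x.1 x.2.2.1 x.2.2.2.length = 1) := by
    have h1 : PT fun x : GM × ℕ × List Bool × List Unit => GM.lab x.1 x.2.2.1 x.2.2.2.length :=
      pt_gm_lab.comp (g := fun x : GM × ℕ × List Bool × List Unit => (x.1, x.2.2.1, x.2.2.2))
        (by fun_prop)
    exact (h1.eq (by fun_prop)).decide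
  obtain ⟨c, hc, r₀, h⟩ := diag _ hI
  refine ⟨c / 2, by positivity, r₀, fun r hr k hk hkr g hg M => ?_⟩
  obtain ⟨τ, c', -, hτ⟩ := exists_gm_of_tm M true
  obtain ⟨n₀, hn⟩ := h r hr τ (fun n => c' * (M.time (2 * ((Crest.Enc.natCode n).length + n * n)) + 1))
    fun n G H pad hG hH hpad => by
      have hm : adjMatrixCode G ++ adjMatrixCode H ∈ diamTwoPairCodes := ⟨n, G, H, hG, hH, rfl⟩
      obtain ⟨h1, h2⟩ := hτ ⟨_, hm⟩
      have hl : (adjMatrixCode G ++ adjMatrixCode H).length =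
          2 * ((Crest.Enc.natCode n).length + n * n) := by
        rw [List.length_append, length_adjMatrixCode, length_adjMatrixCode]; ring
      simp only [hl] at h1
      rw [hg n G H hm hG hH, decide_eq_true_eq]
      exact ⟨fun h3 => by_contra fun h4 => h2 h4 _ h3, fun h3 => h1 h3 _ hpad⟩
  obtain ⟨n₁, hn₁⟩ := absorb hc c'
  exact ⟨n₀ + n₁, fun n hn' => hn₁ n (by omega) k r _ hk hkr (hn n (by omega))⟩

theorem lower_tm :
    ∃ c : ℝ, 0 < c ∧ ∃ k₀ : ℕ, ∀ k ≥ k₀,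
      (∀ (g : Crest.WLRefine.diamTwoPairCodes → Bool),
        (∀ x, x.1 ∈ Crest.WLRefine.jointEquivLang k ↔ g x = true) →
        ∀ M : Turing.TM2ComputableInTime (fun x : Crest.WLRefine.diamTwoPairCodes => x.1)
            Computability.encodeBool g,
          ∃ n₀ : ℕ, ∀ n ≥ n₀,
            (n : ℝ) ^ (c * k) ≤ M.time (2 * ((Crest.Enc.natCode n).length + n * n))) ∧
      (∀ (g : Crest.WLRefine.diamTwoPairCodes → Bool),
        (∀ x, x.1 ∈ Crest.WLRefine.sepEquivLang k ↔ g x = true) →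
        ∀ M : Turing.TM2ComputableInTime (fun x : Crest.WLRefine.diamTwoPairCodes => x.1)
            Computability.encodeBool g,
          ∃ n₀ : ℕ, ∀ n ≥ n₀,
            (n : ℝ) ^ (c * k) ≤ M.time (2 * ((Crest.Enc.natCode n).length + n * n))) := by
  obtain ⟨c, hc, r₀, h⟩ := lower_tm_aux
  refine ⟨c, hc, r₀ + 2, fun k hk => ⟨fun g hg M => ?_, fun g hg M => ?_⟩⟩
  · refine h k (by omega) k (by omega) (by omega) g (fun n G H hm hG hH => ?_) M
    rw [← hg ⟨_, hm⟩, mem_jointEquivLang, jequiv_iff_game (by omega)]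
    simp [hG.1, hH.1]
  · obtain ⟨r, rfl⟩ : ∃ r, k = r + 1 := ⟨k - 1, by omega⟩
    refine h r (by omega) (r + 1) (by omega) le_rfl g (fun n G H hm hG hH => ?_) M
    rw [← hg ⟨_, hm⟩, mem_sepEquivLang, sequiv_iff_game (by omega)]
    simp [hG.1, hH.1]

end Crest.Agent.R290
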